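import Mathlib
import Vale.Agent.Lib.PL.Basic

/-! The Prékopa–Leindler inequality with general weights. -/

open MeasureTheory Set Filter
open scoped ENNReal NNReal

namespace Vale.Agent.P230

open Vale.Agent.PL

lemma vol_le_mul {a : ℝ} (ha : 0 < a) (c : ℝ) (K S : Set ℝ) (h : ∀ x ∈ K, a * x + c ∈ S) :
    ENNReal.ofReal a * volume K ≤ volume S := by
  have h1 : K ⊆ (a * ·) ⁻¹' ((· + c) ⁻¹' S) := h
  refine (mul_le_mul_right (measure_mono h1) _).trans (le_of_eq ?_)
  rw [Real.volume_preimage_mul_left ha.ne', measure_preimage_add_right, ← mul_assoc,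
    ← ENNReal.ofReal_mul ha.le, abs_of_pos (inv_pos.2 ha), mul_inv_cancel₀ ha.ne']
  simp

lemma bmw_compact {a b : ℝ} (ha : 0 < a) (hb : 0 < b) {K L C : Set ℝ} (hK : IsCompact K)
    (hL : IsCompact L) (nK : K.Nonempty)
    (nL : L.Nonempty) (h : ∀ x ∈ K, ∀ y ∈ L, a * x + b * y ∈ C) :
    ENNReal.ofReal a * volume K + ENNReal.ofReal b * volume L ≤ volume C := by
  obtain ⟨x, hxK, hx⟩ := hK.exists_isGreatest nK
  obtain ⟨y, hyL, hy⟩ := hL.exists_isLeast nL
  set m := a * x + b * y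
  have h1 : ENNReal.ofReal a * volume K ≤ volume (C ∩ Iic m) :=
    vol_le_mul ha (b * y) K _ fun z hz => ⟨h z hz y hyL, by
      have := mul_le_mul_of_nonneg_left (hx hz) ha.le
      simp only [mem_Iic, m]; linarith⟩
  have h2 : ENNReal.ofReal b * volume L ≤ volume (C ∩ Ici m) :=
    vol_le_mul hb (a * x) L _ fun z hz => ⟨by rw [add_comm]; exact h x hxK z hz, by
      have := mul_le_mul_of_nonneg_left (hy hz) hb.le
      simp only [mem_Ici, m]; linarith⟩
  have h3 : volume (C ∩ Ici m) = volume (C \ Iic m) := by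
    rw [sdiff_eq, compl_Iic]
    exact measure_congr (ae_eq_set_inter (ae_eq_refl _) Ioi_ae_eq_Ici.symm)
  calc _ ≤ volume (C ∩ Iic m) + volume (C \ Iic m) := by rw [← h3]; exact add_le_add h1 h2
    _ = volume C := measure_inter_add_sdiff _ measurableSet_Iic

lemma bmw_one {a b : ℝ} (ha : 0 < a) (hb : 0 < b) {A B C : Set ℝ} (hA : MeasurableSet A)
    (hB : MeasurableSet B) (nA : A.Nonempty)
    (nB : B.Nonempty) (h : ∀ x ∈ A, ∀ y ∈ B, a * x + b * y ∈ C) :
    ENNReal.ofReal a * volume A + ENNReal.ofReal b * volume B ≤ volume C := by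
  obtain ⟨x, hx⟩ := nA
  obtain ⟨y, hy⟩ := nB
  rw [hA.measure_eq_iSup_isCompact, hB.measure_eq_iSup_isCompact]
  simp only [iSup_and', ENNReal.mul_iSup]
  refine ENNReal.biSup_add_biSup_le' ⟨∅, empty_subset _, isCompact_empty⟩
    ⟨∅, empty_subset _, isCompact_empty⟩ fun K hK L hL => ?_
  calc _ ≤ ENNReal.ofReal a * volume (insert x K) + ENNReal.ofReal b * volume (insert y L) := by
        gcongr <;> exact subset_insert _ _
    _ ≤ _ := bmw_compact ha hb (hK.2.insert x) (hL.2.insert y) (insert_nonempty _ _)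
        (insert_nonempty _ _) fun u hu v hv =>
          h u (insert_subset hx hK.1 hu) v (insert_subset hy hL.1 hv)

lemma plw_normalized {a b : ℝ} (ha : 0 < a) (hb : 0 < b) (hab : a + b = 1)
    {f g h : ℝ → ℝ≥0∞} (hf : Measurable f) (hg : Measurable g)
    (hh : Measurable h) (sf : ⨆ x, f x = 1) (sg : ⨆ x, g x = 1)
    (H : ∀ x y, f x ^ a * g y ^ b ≤ h (a * x + b * y)) :
    ENNReal.ofReal a * (∫⁻ x, f x) + ENNReal.ofReal b * (∫⁻ x, g x) ≤ ∫⁻ x, h x := by
  have f1 : ∀ x, f x ≤ 1 := fun x => sf ▸ le_iSup f x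
  have g1 : ∀ x, g x ≤ 1 := fun x => sg ▸ le_iSup g x
  have hm : Measurable fun x => min (h x) 1 := hh.min measurable_const
  refine le_trans ?_ (lintegral_mono fun x => min_le_left (h x) 1)
  rw [layer _ hf fun x => ne_top_of_le_ne_top ENNReal.one_ne_top (f1 x),
    layer _ hg fun x => ne_top_of_le_ne_top ENNReal.one_ne_top (g1 x),
    layer _ hm fun x => ne_top_of_le_ne_top ENNReal.one_ne_top (min_le_right _ _),
    ← lintegral_const_mul' _ _ ENNReal.ofReal_ne_top,
    ← lintegral_const_mul' _ _ ENNReal.ofReal_ne_top, ← lintegral_add_left]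
  · refine setLIntegral_mono' measurableSet_Ioi fun t ht => ?_
    by_cases ht1 : ENNReal.ofReal t < 1
    · have n1 : ∃ x, ENNReal.ofReal t < f x := lt_iSup_iff.1 (sf ▸ ht1)
      have n2 : ∃ x, ENNReal.ofReal t < g x := lt_iSup_iff.1 (sg ▸ ht1)
      refine bmw_one ha hb (measurableSet_lt measurable_const hf)
        (measurableSet_lt measurable_const hg) n1 n2 fun x hx y hy => ?_
      refine lt_min ?_ ht1
      have h0 : ENNReal.ofReal t = ENNReal.ofReal t ^ a * ENNReal.ofReal t ^ b := by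
        rw [← ENNReal.rpow_add_of_nonneg _ _ ha.le hb.le, hab, ENNReal.rpow_one]
      rw [h0]
      exact (ENNReal.mul_lt_mul (ENNReal.rpow_lt_rpow hx ha) (ENNReal.rpow_lt_rpow hy hb)).trans_le
        (H x y)
    · have e1 : {x | ENNReal.ofReal t < f x} = ∅ :=
        eq_empty_of_forall_notMem fun x hx => ht1 (lt_of_lt_of_le hx (f1 x))
      have e2 : {x | ENNReal.ofReal t < g x} = ∅ :=
        eq_empty_of_forall_notMem fun x hx => ht1 (lt_of_lt_of_le hx (g1 x))
      simp [e1, e2]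
  · refine Measurable.const_mul (Antitone.measurable fun s t hst => measure_mono fun x hx => ?_) _
    exact lt_of_le_of_lt (ENNReal.ofReal_le_ofReal hst) hx

lemma amgm_enn {a b : ℝ} (ha : 0 < a) (hb : 0 < b) (hab : a + b = 1) (x y : ℝ≥0∞) :
    x ^ a * y ^ b ≤ ENNReal.ofReal a * x + ENNReal.ofReal b * y := by
  by_cases hx : x = ∞
  · rw [hx, ENNReal.mul_top (by simpa using ha)]; simp
  by_cases hy : y = ∞
  · rw [hy, ENNReal.mul_top (a := ENNReal.ofReal b) (by simpa using hb)]; simp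
  lift x to ℝ≥0 using hx
  lift y to ℝ≥0 using hy
  lift a to ℝ≥0 using ha.le
  lift b to ℝ≥0 using hb.le
  have := NNReal.geom_mean_le_arith_mean2_weighted a b x y (by exact_mod_cast hab)
  rw [← ENNReal.coe_rpow_of_nonneg _ ha.le, ← ENNReal.coe_rpow_of_nonneg _ hb.le,
    ENNReal.ofReal_coe_nnreal, ENNReal.ofReal_coe_nnreal]
  exact_mod_cast this

lemma plw_bounded {a b : ℝ} (ha : 0 < a) (hb : 0 < b) (hab : a + b = 1)
    {f g h : ℝ → ℝ≥0∞} (hf : Measurable f) (hg : Measurable g)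
    (hh : Measurable h) (sf : ⨆ x, f x ≠ ∞) (sg : ⨆ x, g x ≠ ∞)
    (H : ∀ x y, f x ^ a * g y ^ b ≤ h (a * x + b * y)) :
    (∫⁻ x, f x) ^ a * (∫⁻ x, g x) ^ b ≤ ∫⁻ x, h x := by
  set A := ⨆ x, f x with hA
  set B := ⨆ x, g x with hB
  by_cases a0 : A = 0
  · have : ∀ x, f x = 0 := fun x => nonpos_iff_eq_zero.1 (a0 ▸ le_iSup f x)
    simp [this, ha]
  by_cases b0 : B = 0
  · have : ∀ x, g x = 0 := fun x => nonpos_iff_eq_zero.1 (b0 ▸ le_iSup g x)
    simp [this, hb]
  set c := A⁻¹ ^ a * B⁻¹ ^ b with hc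
  have c0 : c ≠ 0 := mul_ne_zero
    (ENNReal.rpow_pos (ENNReal.inv_pos.2 sf) (ENNReal.inv_ne_top.2 a0)).ne'
    (ENNReal.rpow_pos (ENNReal.inv_pos.2 sg) (ENNReal.inv_ne_top.2 b0)).ne'
  have ct : c ≠ ∞ := ENNReal.mul_ne_top
    (ENNReal.rpow_ne_top_of_nonneg ha.le (ENNReal.inv_ne_top.2 a0))
    (ENNReal.rpow_ne_top_of_nonneg hb.le (ENNReal.inv_ne_top.2 b0))
  have key := plw_normalized ha hb hab (f := fun x => A⁻¹ * f x) (g := fun x => B⁻¹ * g x)
    (h := fun x => c * h x) (hf.const_mul _) (hg.const_mul _) (hh.const_mul _)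
    (by rw [← ENNReal.mul_iSup, ← hA, ENNReal.inv_mul_cancel a0 sf])
    (by rw [← ENNReal.mul_iSup, ← hB, ENNReal.inv_mul_cancel b0 sg])
    (fun x y => by
      rw [ENNReal.mul_rpow_of_nonneg _ _ ha.le, ENNReal.mul_rpow_of_nonneg _ _ hb.le,
        mul_mul_mul_comm]
      exact mul_le_mul_right (H x y) _)
  have key2 := (amgm_enn ha hb hab _ _).trans key
  rw [lintegral_const_mul _ hf, lintegral_const_mul _ hg, lintegral_const_mul _ hh,
    ENNReal.mul_rpow_of_nonneg _ _ ha.le, ENNReal.mul_rpow_of_nonneg _ _ hb.le,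
    mul_mul_mul_comm] at key2
  exact (ENNReal.mul_le_mul_iff_right c0 ct).1 key2

/-- The weighted Prékopa–Leindler property. -/
def PLW {α : Type*} [AddCommGroup α] [Module ℝ α] [MeasurableSpace α] (μ : Measure α) : Prop :=
  ∀ a b : ℝ, 0 < a → 0 < b → a + b = 1 →
    ∀ f g h : α → ℝ≥0∞, Measurable f → Measurable g → Measurable h →
    (∀ x y, f x ^ a * g y ^ b ≤ h (a • x + b • y)) →
    (∫⁻ x, f x ∂μ) ^ a * (∫⁻ x, g x ∂μ) ^ b ≤ ∫⁻ x, h x ∂μ

lemma iSup_rpow' {a : ℝ} (ha : 0 < a) (u : ℕ → ℝ≥0∞) : (⨆ k, u k) ^ a = ⨆ k, u k ^ a :=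
  (ENNReal.orderIsoRpow a ha).map_iSup u

theorem plw_real : PLW (volume : Measure ℝ) := by
  intro a b ha hb hab f g h hf hg hh H
  rw [lintegral_eq_iSup_min _ hf, lintegral_eq_iSup_min _ hg, iSup_rpow' ha, iSup_rpow' hb,
    ENNReal.iSup_mul]
  refine iSup_le fun k => ?_
  rw [ENNReal.mul_iSup]
  refine iSup_le fun l => ?_
  refine plw_bounded ha hb hab (hf.min measurable_const) (hg.min measurable_const) hh
    (ne_top_of_le_ne_top (ENNReal.natCast_ne_top k) (iSup_le fun x => min_le_right _ _))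
    (ne_top_of_le_ne_top (ENNReal.natCast_ne_top l) (iSup_le fun x => min_le_right _ _))
    fun x y => le_trans ?_ (H x y)
  gcongr <;> exact min_le_left _ _

theorem PLW.prod {α β : Type*} [AddCommGroup α] [Module ℝ α] [MeasurableSpace α]
    [AddCommGroup β] [Module ℝ β] [MeasurableSpace β] {μ : Measure α} {ν : Measure β}
    [SFinite ν] (hμ : PLW μ) (hν : PLW ν) : PLW (μ.prod ν) := by
  intro a b ha hb hab f g h hf hg hh H
  rw [lintegral_prod _ hf.aemeasurable, lintegral_prod _ hg.aemeasurable,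
    lintegral_prod _ hh.aemeasurable]
  refine hμ a b ha hb hab _ _ _ hf.lintegral_prod_right' hg.lintegral_prod_right'
    hh.lintegral_prod_right' fun x y => ?_
  exact hν a b ha hb hab _ _ _ (hf.comp measurable_prodMk_left) (hg.comp measurable_prodMk_left)
    (hh.comp measurable_prodMk_left) fun u v => H (x, u) (y, v)

theorem PLW.map {α β : Type*} [AddCommGroup α] [Module ℝ α] [MeasurableSpace α]
    [AddCommGroup β] [Module ℝ β] [MeasurableSpace β] {μ : Measure α} {ν : Measure β}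
    (hμ : PLW μ) {e : α → β} (he : MeasurePreserving e μ ν)
    (hmid : ∀ (a b : ℝ) x y, e (a • x + b • y) = a • e x + b • e y) : PLW ν := by
  intro a b ha hb hab f g h hf hg hh H
  rw [← he.lintegral_comp hf, ← he.lintegral_comp hg, ← he.lintegral_comp hh]
  refine hμ a b ha hb hab _ _ _ (hf.comp he.measurable) (hg.comp he.measurable)
    (hh.comp he.measurable) fun x y => ?_
  rw [hmid]; exact H _ _

theorem plw_pi (n : ℕ) : PLW (volume : Measure (Fin n → ℝ)) := by
  induction n with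
  | zero =>
    intro a b ha hb hab f g h hf hg hh H
    rw [Measure.volume_pi_eq_dirac 0, lintegral_dirac' _ hf, lintegral_dirac' _ hg,
      lintegral_dirac' _ hh]
    simpa using H 0 0
  | succ n ih =>
    refine (plw_real.prod ih).map
      (volume_preserving_piFinSuccAbove (fun _ : Fin (n + 1) => ℝ) 0).symm fun a b x y => ?_
    ext i
    refine Fin.cases ?_ (fun j => ?_) i <;> simp [MeasurableEquiv.piFinSuccAbove]

theorem plw_euclidean (n : ℕ) : PLW (volume : Measure (EuclideanSpace ℝ (Fin n))) :=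
  (plw_pi n).map (PiLp.volume_preserving_toLp (Fin n)) fun _ _ _ _ => rfl

/-- set version -/
theorem PLW.set {α : Type*} [AddCommGroup α] [Module ℝ α] [MeasurableSpace α] {μ : Measure α}
    (hμ : PLW μ) {a b : ℝ} (ha : 0 < a) (hb : 0 < b) (hab : a + b = 1) {A B C : Set α}
    (hA : MeasurableSet A) (hB : MeasurableSet B) (hC : MeasurableSet C)
    (h : ∀ x ∈ A, ∀ y ∈ B, a • x + b • y ∈ C) : μ A ^ a * μ B ^ b ≤ μ C := by
  have := hμ a b ha hb hab (A.indicator 1) (B.indicator 1) (C.indicator 1)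
    (measurable_one.indicator hA) (measurable_one.indicator hB) (measurable_one.indicator hC)
    fun x y => by
      by_cases hx : x ∈ A
      · by_cases hy : y ∈ B
        · simp [hx, hy, h x hx y hy]
        · simp [hy, hb]
      · simp [hx, ha]
  simpa [lintegral_indicator_one, hA, hB, hC] using this

end Vale.Agent.P230
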