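import Vale.Agent.P230.Defs

/-! Upper bounds: a Rogers-type bound for `Θ_T` and `θ_T ≤ θ_L`. -/

open MeasureTheory Filter Module Submodule Topology
open scoped ENNReal Pointwise

namespace Vale.Agent.P230

variable {n : ℕ}

lemma volume_cube (R : ℝ) (hR : 0 ≤ R) : volume (cube n R) = ENNReal.ofReal ((2 * R) ^ n) := by
  have h : cube n R = (WithLp.ofLp : E n → (Fin n → ℝ)) ⁻¹'
      Set.Icc (fun _ => -R) (fun _ => R) := by
    ext x
    simp only [cube, Set.mem_ofPred_eq, Set.mem_preimage, Set.mem_Icc, Pi.le_def, abs_le,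
      forall_and]
  rw [h, (PiLp.volume_preserving_ofLp (Fin n)).measure_preimage
    measurableSet_Icc.nullMeasurableSet, Real.volume_Icc_pi]
  simp only [Finset.prod_const, Finset.card_univ, Fintype.card_fin]
  rw [← ENNReal.ofReal_pow (by linarith)]
  congr 2; ring

lemma exists_cube {S : Set (E n)} (hS : Bornology.IsBounded S) : ∃ c, 0 ≤ c ∧ S ⊆ cube n c := by
  obtain ⟨c, hc0, hc⟩ := hS.exists_pos_norm_le
  exact ⟨c, hc0.le, fun x hx i => (PiLp.norm_apply_le x i).trans (hc x hx)⟩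

section Density

variable {ι : Type*} [Fintype ι] (b : Basis ι ℝ (E n))

/-- the periodic set `F + Λ` -/
def per (F : Finset (E n)) : Set (E n) := {x | ∃ f ∈ F, x - f ∈ span ℤ (Set.range b)}

lemma fd_pos : 0 < volume.real (ZSpan.fundamentalDomain b) :=
  ENNReal.toReal_pos (ZSpan.measure_fundamentalDomain_ne_zero b)
    (ZSpan.fundamentalDomain_isBounded b).measure_lt_top.ne

lemma count_coset {c R : ℝ} (hc0 : 0 ≤ c) (hc : ZSpan.fundamentalDomain b ⊆ cube n c) (hR : 0 ≤ R)
    (t : Finset (E n)) (ht : ∀ x ∈ t, x ∈ cube n R)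
    (hl : ∀ x ∈ t, ∀ y ∈ t, x - y ∈ span ℤ (Set.range b)) :
    (t.card : ℝ) * volume.real (ZSpan.fundamentalDomain b) ≤ (2 * (R + c)) ^ n := by
  set P := ZSpan.fundamentalDomain b with hP
  have hm : MeasurableSet P := ZSpan.fundamentalDomain_measurableSet b
  have hdisj : Set.PairwiseDisjoint (t : Set (E n)) (fun x => (fun y => y + -x) ⁻¹' P) := by
    intro x hx y hy hxy
    rw [Function.onFun, Set.disjoint_left]
    intro z h1 h2
    obtain ⟨v, -, hv⟩ := ZSpan.exist_unique_vadd_mem_fundamentalDomain b (z + -x)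
    have e1 := hv 0 (by beta_reduce; rw [zero_vadd]; exact h1)
    have e2 := hv ⟨x - y, hl x hx y hy⟩ (by
      have : (x - y) + (z + -x) = z + -y := by abel
      show (x - y) + (z + -x) ∈ P
      rw [this]; exact h2)
    have := congrArg Subtype.val (e2.trans e1.symm)
    exact hxy (sub_eq_zero.1 this)
  have h1 := measure_biUnion_finset (μ := volume) hdisj
    (fun x _ => hm.preimage (measurable_add_const (-x)))
  simp only [measure_preimage_add_right, Finset.sum_const, nsmul_eq_mul] at h1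
  have h2 : (⋃ x ∈ t, (fun y => y + -x) ⁻¹' P) ⊆ cube n (R + c) := by
    intro z hz
    simp only [Set.mem_iUnion] at hz
    obtain ⟨x, hx, hz⟩ := hz
    intro i
    have a := ht x hx i
    have b' := hc hz i
    have : z i = x i + (z + -x) i := by simp
    rw [this]
    exact (abs_add_le _ _).trans (add_le_add a b')
  have h3 := measure_mono (μ := volume) h2
  rw [h1, volume_cube _ (by linarith)] at h3
  have h4 := ENNReal.toReal_mono ENNReal.ofReal_ne_top h3
  rwa [ENNReal.toReal_mul, ENNReal.toReal_natCast, ENNReal.toReal_ofReal (by positivity)] at h4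

lemma count_per {c R : ℝ} (hc0 : 0 ≤ c) (hc : ZSpan.fundamentalDomain b ⊆ cube n c) (hR : 0 ≤ R)
    (F t : Finset (E n)) (ht : (t : Set (E n)) ⊆ per b F ∩ cube n R) :
    (t.card : ℝ) ≤ F.card * (2 * (R + c)) ^ n / volume.real (ZSpan.fundamentalDomain b) := by
  classical
  rw [le_div_iff₀ (fd_pos b)]
  have h1 : t ⊆ F.biUnion fun f => t.filter fun x => x - f ∈ span ℤ (Set.range b) := by
    intro x hx
    obtain ⟨f, hf, hx'⟩ := (ht hx).1
    exact Finset.mem_biUnion.2 ⟨f, hf, Finset.mem_filter.2 ⟨hx, hx'⟩⟩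
  have h2 : (t.card : ℝ) ≤ ∑ f ∈ F, ((t.filter fun x => x - f ∈ span ℤ (Set.range b)).card : ℝ) := by
    exact_mod_cast (Finset.card_le_card h1).trans Finset.card_biUnion_le
  refine (mul_le_mul_of_nonneg_right h2 (fd_pos b).le).trans ?_
  rw [Finset.sum_mul, ← nsmul_eq_mul, ← Finset.sum_const]
  refine Finset.sum_le_sum fun f _ => count_coset b hc0 hc hR _
    (fun x hx => (ht (Finset.mem_filter.1 hx).1).2) fun x hx y hy => ?_
  have := sub_mem (Finset.mem_filter.1 hx).2 (Finset.mem_filter.1 hy).2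
  simpa using this

lemma finite_per (F : Finset (E n)) {R : ℝ} (hR : 0 ≤ R) : (per b F ∩ cube n R).Finite := by
  obtain ⟨c, hc0, hc⟩ := exists_cube (ZSpan.fundamentalDomain_isBounded b)
  by_contra hinf
  obtain ⟨m, hm⟩ := exists_nat_gt
    (F.card * (2 * (R + c)) ^ n / volume.real (ZSpan.fundamentalDomain b))
  obtain ⟨t, ht, hcard⟩ := Set.Infinite.exists_subset_card_eq hinf m
  have := count_per b hc0 hc hR F t ht
  rw [hcard] at this
  linarith

lemma locFinite_per (F : Finset (E n)) : LocFinite (per b F) := by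
  intro S hS
  obtain ⟨c, hc0, hc⟩ := exists_cube hS
  exact (finite_per b F hc0).subset (Set.inter_subset_inter_right _ hc)

lemma upperDensity_per (F : Finset (E n)) :
    upperDensity (per b F) ≤
      ENNReal.ofReal (F.card / volume.real (ZSpan.fundamentalDomain b)) := by
  obtain ⟨c, hc0, hc⟩ := exists_cube (ZSpan.fundamentalDomain_isBounded b)
  set V := volume.real (ZSpan.fundamentalDomain b) with hV
  have hVp : 0 < V := fd_pos b
  have hlim : Tendsto (fun R : ℝ => ENNReal.ofReal (F.card * (1 + c / R) ^ n / V)) atTop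
      (𝓝 (ENNReal.ofReal (F.card / V))) := by
    refine ENNReal.tendsto_ofReal ?_
    have h1 : Tendsto (fun R : ℝ => c / R) atTop (𝓝 0) := tendsto_const_nhds.div_atTop tendsto_id
    have h2 := (((h1.const_add 1).pow n).const_mul (F.card : ℝ)).div_const V
    simpa using h2
  rw [← hlim.limsup_eq]
  refine limsup_le_limsup ?_
  filter_upwards [eventually_gt_atTop 0] with R hR
  obtain ⟨t, ht⟩ := (finite_per b F hR.le).exists_finset_coe
  have h1 := count_per b hc0 hc hR.le F t ht.le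
  rw [← ht, Set.encard_coe_eq_coe_finsetCard, ENat.toENNReal_coe, ← ENNReal.ofReal_natCast,
    ← ENNReal.ofReal_div_of_pos (by positivity)]
  refine ENNReal.ofReal_le_ofReal ?_
  rw [div_le_iff₀ (by positivity)]
  refine h1.trans (le_of_eq ?_)
  have : 2 * (R + c) = (1 + c / R) * (2 * R) := by field_simp
  rw [this, mul_pow]; ring

lemma thetaT_le_per (K : Set (E n)) (F : Finset (E n)) (h : Covers K (per b F)) :
    thetaT K ≤ volume K * ENNReal.ofReal (F.card / volume.real (ZSpan.fundamentalDomain b)) := by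
  unfold thetaT
  refine iInf_le_of_le (per b F) (iInf_le_of_le (locFinite_per b F) (iInf_le_of_le h ?_))
  gcongr
  exact upperDensity_per b F

end Density

theorem thetaT_le_thetaL' (K : Set (E n)) : thetaT K ≤ thetaL K := by
  refine le_iInf fun Λ => le_iInf fun _ => le_iInf fun _ => le_iInf fun hc => ?_
  set b := (Free.chooseBasis ℤ Λ).ofZLatticeBasis ℝ with hb
  have hsp : span ℤ (Set.range b) = Λ := (Free.chooseBasis ℤ Λ).ofZLatticeBasis_span ℝ
  have h1 := thetaT_le_per b K {0} (by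
    intro p
    obtain ⟨k, hk, x, hx, rfl⟩ := hc p
    exact ⟨k, hk, x, ⟨0, by simp, by rw [hsp]; simpa using hx⟩, rfl⟩)
  rw [ZLattice.covolume_eq_measure_fundamentalDomain Λ volume
    (ZLattice.isAddFundamentalDomain (Free.chooseBasis ℤ Λ) volume)]
  refine h1.trans (le_of_eq ?_)
  rw [Finset.card_singleton, Nat.cast_one, one_div, ENNReal.ofReal_inv_of_pos (fd_pos b),
    div_eq_mul_inv]

theorem thetaT_le_thetaL (K : Set (E n)) (_hK : IsConvexBody K) : thetaT K ≤ thetaL K :=
  thetaT_le_thetaL' K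

section Greedy

variable {α ι : Type*} [MeasurableSpace α] (μ : Measure α)

lemma greedy_step {D : Set α} (h0 : μ D ≠ 0) (hfin : μ D ≠ ∞) (S : ι → Set α)
    (hS : ∀ g, MeasurableSet (S g)) (ρ : ℝ) (G : Finset ι) (hsub : ∀ g ∈ G, S g ⊆ D)
    (hρ : ∀ g, ρ * μ.real D ≤ μ.real (S g)) :
    ∃ x, ρ * G.card ≤ ∑ g ∈ G, (S g).indicator (fun _ => (1 : ℝ)) x := by
  have hD : 0 < μ.real D := ENNReal.toReal_pos h0 hfin
  have : IsFiniteMeasure (μ.restrict D) := ⟨by simpa using hfin.lt_top⟩
  have hint : ∀ g ∈ G, Integrable ((S g).indicator (fun _ => (1 : ℝ))) (μ.restrict D) :=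
    fun g _ => (integrable_const _).indicator (hS g)
  obtain ⟨x, -, hx⟩ := exists_setAverage_le (μ := μ) (s := D)
    (f := fun x => ∑ g ∈ G, (S g).indicator (fun _ => (1 : ℝ)) x) h0 hfin
    (integrable_finsetSum _ hint)
  refine ⟨x, le_trans ?_ hx⟩
  rw [setAverage_eq, integral_finsetSum _ hint, smul_eq_mul, le_inv_mul_iff₀ hD]
  calc μ.real D * (ρ * G.card) = ∑ g ∈ G, ρ * μ.real D := by simp; ring
    _ ≤ _ := by
      refine Finset.sum_le_sum fun g hg => (hρ g).trans (le_of_eq ?_)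
      rw [integral_indicator (hS g), setIntegral_const, smul_eq_mul, mul_one,
        measureReal_restrict_apply (hS g), Set.inter_eq_left.2 (hsub g hg)]

open Classical in
lemma greedy {D : Set α} (h0 : μ D ≠ 0) (hfin : μ D ≠ ∞) (S : ι → Set α)
    (hS : ∀ g, MeasurableSet (S g)) (ρ : ℝ) (hρ1 : ρ ≤ 1) (G : Finset ι) (hsub : ∀ g ∈ G, S g ⊆ D)
    (hρ : ∀ g, ρ * μ.real D ≤ μ.real (S g)) (N : ℕ) :
    ∃ F : Finset α, F.card ≤ N ∧
      ((G.filter fun g => ∀ x ∈ F, x ∉ S g).card : ℝ) ≤ G.card * (1 - ρ) ^ N := by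
  induction N with
  | zero => exact ⟨∅, le_rfl, by simp⟩
  | succ N ih =>
    obtain ⟨F, hF, hc⟩ := ih
    set G' := G.filter fun g => ∀ x ∈ F, x ∉ S g with hG'
    obtain ⟨x, hx⟩ := greedy_step μ h0 hfin S hS ρ G'
      (fun g hg => hsub g (Finset.mem_filter.1 hg).1) hρ
    refine ⟨insert x F, (Finset.card_insert_le _ _).trans (by omega), ?_⟩
    have e1 : (G.filter fun g => ∀ y ∈ insert x F, y ∉ S g) = G'.filter fun g => ¬ x ∈ S g := by
      ext g; simp only [hG', Finset.mem_filter, Finset.forall_mem_insert]; tauto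
    have e2 : ∑ g ∈ G', (S g).indicator (fun _ => (1 : ℝ)) x = (G'.filter fun g => x ∈ S g).card := by
      simp [Set.indicator_apply]
    have e3 : ((G'.filter fun g => x ∈ S g).card : ℝ) + (G'.filter fun g => ¬ x ∈ S g).card
        = G'.card := by exact_mod_cast Finset.card_filter_add_card_filter_not _
    rw [e1, pow_succ, ← mul_assoc]
    have := mul_le_mul_of_nonneg_right hc (sub_nonneg.2 hρ1)
    nlinarith

end Greedy

/-- A basis adapted to a compact convex neighbourhood of the origin. -/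
lemma exists_adapted_basis {K : Set (E n)} (hK : IsCompact K) (h0 : K ∈ 𝓝 (0 : E n)) :
    ∃ b : Basis (Fin n) ℝ (E n), (∀ i, b i ∈ K) ∧ ∀ x ∈ K, ∀ i, |b.repr x i| ≤ 1 := by
  classical
  let e := (EuclideanSpace.basisFun (Fin n) ℝ).toBasis
  have hcont : Continuous fun v : Fin n → E n => |e.det v| := by
    refine Continuous.abs (f := fun v : Fin n → E n => (e.toMatrix v).det) ?_
    refine Continuous.matrix_det (continuous_matrix fun i j => ?_)
    simp only [Basis.toMatrix_apply, e, OrthonormalBasis.coe_toBasis_repr_apply,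
      EuclideanSpace.basisFun_repr]
    fun_prop
  obtain ⟨r, hr, hball⟩ := Metric.nhds_basis_closedBall.mem_iff.1 h0
  have hmem : (fun i => r • e i) ∈ Set.pi Set.univ fun _ : Fin n => K := by
    intro i _
    apply hball
    simp [e, norm_smul, abs_of_pos hr]
  obtain ⟨v, hv, hmax⟩ := (isCompact_univ_pi fun _ : Fin n => hK).exists_isMaxOn ⟨_, hmem⟩
    hcont.continuousOn
  have hpos : 0 < |e.det v| := by
    refine lt_of_lt_of_le ?_ (hmax hmem)
    have := e.det.map_smul_univ (fun _ => r) e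
    simp only [Basis.det_self, smul_eq_mul, mul_one] at this
    show 0 < |e.det fun i => r • e i|
    rw [this]
    exact abs_pos.2 (Finset.prod_pos fun _ _ => hr).ne'
  obtain ⟨hli, hsp⟩ := e.is_basis_iff_det.2 (isUnit_iff_ne_zero.2 (abs_pos.1 hpos))
  refine ⟨Basis.mk hli hsp.ge, fun i => by simpa using hv i trivial, fun x hx i => ?_⟩
  have h1 := LinearMap.congr_fun (e.det_smul_mk_coord_eq_det_update hli hsp.ge i) x
  have h2 : |e.det (Function.update v i x)| ≤ |e.det v| := by
    refine hmax ?_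
    intro j _
    by_cases hj : j = i
    · subst hj; simpa using hx
    · simpa [hj] using hv j trivial
  simp only [LinearMap.smul_apply, Basis.coord_apply, smul_eq_mul,
    MultilinearMap.toLinearMap_apply, AlternatingMap.coe_multilinearMap] at h1
  rw [← h1, abs_mul] at h2
  exact le_of_mul_le_mul_left (by simpa using h2) hpos

lemma exists_adapted_basis' (hn : 1 ≤ n) {K : Set (E n)} (hK : IsCompact K) (hc : Convex ℝ K)
    (h0 : K ∈ 𝓝 (0 : E n)) :
    ∃ b : Basis (Fin n) ℝ (E n), (∀ x ∈ K, ∀ i, |b.repr x i| ≤ 1 / n) ∧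
      ∀ x, (∀ i, 0 ≤ b.repr x i ∧ b.repr x i ≤ 1 / n ^ 2) → x ∈ K := by
  obtain ⟨b, hb, hb'⟩ := exists_adapted_basis hK h0
  have hn0 : (0 : ℝ) < n := by exact_mod_cast hn
  have key : ∀ x i, (b.unitsSMul fun _ => Units.mk0 (n : ℝ) hn0.ne').repr x i
      = b.repr x i / n := by
    intro x i
    rw [Basis.repr_unitsSMul]
    simp [Units.smul_def, div_eq_inv_mul]
  refine ⟨b.unitsSMul fun _ => Units.mk0 (n : ℝ) hn0.ne', fun x hx i => ?_, fun x hx => ?_⟩
  · rw [key, abs_div, abs_of_pos hn0]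
    gcongr
    exact hb' x hx i
  · simp only [key] at hx
    have h1 : ∀ i, 0 ≤ b.repr x i ∧ b.repr x i ≤ 1 / n := by
      intro i
      obtain ⟨a1, a2⟩ := hx i
      rw [div_le_div_iff₀ hn0 (by positivity)] at a2
      refine ⟨(div_nonneg_iff.1 a1).elim (·.1) fun h => absurd h.2 (not_le.2 hn0), ?_⟩
      rw [le_div_iff₀ hn0]
      nlinarith
    have h2 : x = ∑ i : Fin n, (1 / n : ℝ) • ((n * b.repr x i) • b i) := by
      conv_lhs => rw [← b.sum_repr x]
      refine Finset.sum_congr rfl fun i _ => ?_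
      rw [smul_smul]; congr 1; field_simp
    rw [h2]
    refine hc.sum_mem (fun _ _ => by positivity) (by simp; field_simp) fun i _ => ?_
    refine hc.smul_mem_of_zero_mem (mem_of_mem_nhds h0) (hb i) ⟨mul_nonneg hn0.le (h1 i).1, ?_⟩
    have := (h1 i).2
    rw [le_div_iff₀ hn0] at this
    linarith

lemma cover_fd (hn : 2 ≤ n) {K : Set (E n)} (hK : IsCompact K) (hc : Convex ℝ K)
    (h0 : K ∈ 𝓝 (0 : E n)) :
    ∃ (b : Basis (Fin n) ℝ (E n)) (F : Finset (E n)),
      (∀ p ∈ ZSpan.fundamentalDomain b, ∃ k ∈ K, ∃ x ∈ F, p = k + x) ∧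
      volume.real K * (F.card / volume.real (ZSpan.fundamentalDomain b)) ≤
        12 * Real.exp 4 * n * Real.log n := by
  classical
  obtain ⟨b, hb1, hb2⟩ := exists_adapted_basis' (by omega) hK hc h0
  have hn2 : (2 : ℝ) ≤ n := by exact_mod_cast hn
  have hn0 : (0 : ℝ) < n := by linarith
  set P := ZSpan.fundamentalDomain b with hP
  have hPp : 0 < volume.real P := fd_pos b
  have hPfin : volume P ≠ ∞ := (ZSpan.fundamentalDomain_isBounded b).measure_lt_top.ne
  have hKfin : volume K ≠ ∞ := hK.measure_lt_top.ne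
  have hKp : 0 < volume.real K :=
    ENNReal.toReal_pos (Measure.measure_pos_of_mem_nhds volume h0).ne' hKfin
  set δ : ℝ := 1 / (2 * n) with hδ
  have hδ0 : 0 < δ := by positivity
  have hδ1 : δ ≤ 1 / 4 := by rw [hδ]; gcongr; linarith
  set r : ℝ := 1 + 4 / n with hr
  have hr0 : 0 < r := by positivity
  set D : Set (E n) := (fun x => x + ∑ i, (2 / n : ℝ) • b i) ⁻¹' (r • P) with hD
  have hDvol : volume D = ENNReal.ofReal (r ^ n) * volume P := by
    rw [hD, measure_preimage_add_right, Measure.addHaar_smul_of_nonneg _ hr0.le]; simp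
  have hDreal : volume.real D = r ^ n * volume.real P := by
    rw [Measure.real, hDvol, ENNReal.toReal_mul, ENNReal.toReal_ofReal (by positivity)]; rfl
  have hDfin : volume D ≠ ∞ := by
    rw [hDvol]; exact ENNReal.mul_ne_top ENNReal.ofReal_ne_top hPfin
  have hD0 : volume D ≠ 0 := by
    intro h
    have : volume.real D = 0 := by simp [Measure.real, h]
    rw [hDreal] at this
    exact absurd this (by positivity)
  set M : ℕ := 2 * n ^ 3 with hM
  have hMr : (M : ℝ) = 2 * n ^ 3 := by rw [hM]; push_cast; rfl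
  have hM0 : (0 : ℝ) < M := by rw [hMr]; positivity
  let g : (Fin n → Fin M) → E n := fun j => ∑ i, ((j i : ℕ) / M : ℝ) • b i
  have hg : ∀ j i, b.repr (g j) i = (j i : ℕ) / M := by
    intro j i; simp only [g]; rw [b.repr_sum_self]
  let S : (Fin n → Fin M) → Set (E n) := fun j => (fun x => g j - x) ⁻¹' ((1 - δ) • K)
  have hK' : MeasurableSet ((1 - δ) • K) := (hK.smul _).measurableSet
  have hSm : ∀ j, MeasurableSet (S j) := fun j => hK'.preimage (measurable_const_sub _)
  have hSvol : ∀ j, volume.real (S j) = (1 - δ) ^ n * volume.real K := by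
    intro j
    rw [Measure.real, (Measure.measurePreserving_sub_left volume (g j)).measure_preimage
      hK'.nullMeasurableSet, Measure.addHaar_smul_of_nonneg _ (by linarith), ENNReal.toReal_mul,
      ENNReal.toReal_ofReal (pow_nonneg (by linarith) _)]
    simp [Measure.real]
  have hSD : ∀ j, S j ⊆ D := by
    intro j x hx
    obtain ⟨k, hk, hkx⟩ := hx
    have hx' : x = g j - (1 - δ) • k := by
      have : (1 - δ) • k = g j - x := hkx
      rw [this]; abel
    show x + _ ∈ r • P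
    rw [Set.mem_smul_set_iff_inv_smul_mem₀ hr0.ne']
    intro i
    have h1 := abs_le.1 (hb1 k hk i)
    have h2 : (0 : ℝ) ≤ (j i : ℕ) / M := by positivity
    have h3 : ((j i : ℕ) / M : ℝ) < 1 := by
      rw [div_lt_one hM0]; exact_mod_cast (j i).2
    have h4 : (0 : ℝ) < 1 / n := by positivity
    have h5 : b.repr (x + ∑ i, (2 / n : ℝ) • b i) i
        = (j i : ℕ) / M - (1 - δ) * b.repr k i + 2 * (1 / n) := by
      rw [map_add, Finsupp.add_apply, b.repr_sum_self, hx', map_sub, Finsupp.sub_apply, hg,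
        map_smul, Finsupp.smul_apply, smul_eq_mul]
      ring
    rw [map_smul, Finsupp.smul_apply, smul_eq_mul, h5]
    have h6 : r = 1 + 4 * (1 / n) := by rw [hr]; ring
    constructor
    · refine mul_nonneg (inv_nonneg.2 hr0.le) ?_
      nlinarith [h1.1, h1.2]
    · rw [inv_mul_lt_iff₀ hr0, h6]
      nlinarith [h1.1, h1.2]
  have hpow1 : 1 / 2 ≤ (1 - δ) ^ n := by
    have := one_add_mul_le_pow (a := -δ) (by linarith) n
    have h2 : (n : ℝ) * -δ = -(1 / 2) := by rw [hδ]; field_simp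
    rw [h2] at this
    simpa [sub_eq_add_neg] using (show (1 / 2 : ℝ) ≤ (1 + -δ) ^ n by linarith)
  have hpow2 : r ^ n ≤ Real.exp 4 := by
    have h1 : r ≤ Real.exp (4 / n) := by rw [hr, add_comm]; exact Real.add_one_le_exp _
    refine (pow_le_pow_left₀ hr0.le h1 n).trans (le_of_eq ?_)
    rw [← Real.exp_nat_mul]; congr 1; field_simp
  set ρ : ℝ := volume.real K / (2 * Real.exp 4 * volume.real P) with hρ
  have hρ0 : 0 < ρ := by positivity
  have hρS : ∀ j, ρ * volume.real D ≤ volume.real (S j) := by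
    intro j
    rw [hSvol, hDreal]
    calc ρ * (r ^ n * volume.real P) ≤ ρ * (Real.exp 4 * volume.real P) := by gcongr
      _ = 1 / 2 * volume.real K := by rw [hρ]; field_simp
      _ ≤ _ := by gcongr
  have hMn : 0 < M := by exact_mod_cast hM0
  have hρ1 : ρ ≤ 1 := by
    have h1 := hρS fun _ => ⟨0, hMn⟩
    have h2 := measureReal_mono (μ := volume) (hSD fun _ => ⟨0, hMn⟩) hDfin
    have h3 : 0 < volume.real D := by rw [hDreal]; positivity
    exact le_of_mul_le_mul_right (by linarith) h3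
  set L : ℝ := n * Real.log M with hL
  have hlogn : 1 / 2 ≤ Real.log n := by
    have := Real.log_le_log (by norm_num) hn2
    linarith [Real.log_two_gt_d9]
  have hL1 : L ≤ 4 * n * Real.log n := by
    have h1 : (M : ℝ) ≤ n ^ 4 := by
      rw [hMr, pow_succ (n : ℝ) 3, mul_comm]; gcongr
    have h2 := Real.log_le_log hM0 h1
    rw [Real.log_pow] at h2
    push_cast at h2
    rw [hL]; nlinarith
  have hL0 : 0 ≤ L := mul_nonneg hn0.le (Real.log_nonneg (by exact_mod_cast hMn))
  obtain ⟨F, hF, hcard⟩ := greedy volume hD0 hDfin S hSm ρ hρ1 Finset.univ (fun j _ => hSD j) hρS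
    (⌊L / ρ⌋₊ + 1)
  have hlt : ((Finset.univ : Finset (Fin n → Fin M)).card : ℝ) * (1 - ρ) ^ (⌊L / ρ⌋₊ + 1) < 1 := by
    have h1 : ((Finset.univ : Finset (Fin n → Fin M)).card : ℝ) = Real.exp L := by
      rw [hL, Real.exp_nat_mul, Real.exp_log hM0]; simp
    have h2 : (1 - ρ) ^ (⌊L / ρ⌋₊ + 1) ≤ Real.exp (((⌊L / ρ⌋₊ + 1 : ℕ) : ℝ) * (-ρ)) := by
      rw [Real.exp_nat_mul]
      exact pow_le_pow_left₀ (by linarith) (by linarith [Real.add_one_le_exp (-ρ)]) _
    have h3 : L / ρ < ((⌊L / ρ⌋₊ + 1 : ℕ) : ℝ) := by push_cast; exact Nat.lt_floor_add_one _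
    rw [div_lt_iff₀ hρ0] at h3
    rw [h1]
    calc _ ≤ Real.exp L * Real.exp (((⌊L / ρ⌋₊ + 1 : ℕ) : ℝ) * (-ρ)) := by gcongr
      _ < 1 := by rw [← Real.exp_add, Real.exp_lt_one_iff]; linarith
  have hall : ∀ j, ∃ x ∈ F, x ∈ S j := by
    intro j
    by_contra hj
    push Not at hj
    have h1 := hcard.trans_lt hlt
    have h2 : (Finset.univ.filter fun g => ∀ x ∈ F, x ∉ S g).card = 0 := by
      have : (Finset.univ.filter fun g => ∀ x ∈ F, x ∉ S g).card < 1 := by exact_mod_cast h1
      omega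
    rw [Finset.card_eq_zero, Finset.filter_eq_empty_iff] at h2
    exact h2 (Finset.mem_univ j) hj
  refine ⟨b, F, fun p hp => ?_, ?_⟩
  · have hp' : ∀ i, 0 ≤ b.repr p i ∧ b.repr p i < 1 := hp
    have hj : ∀ i, ⌊b.repr p i * M⌋₊ < M := by
      intro i
      rw [Nat.floor_lt (mul_nonneg (hp' i).1 hM0.le)]
      nlinarith [(hp' i).2]
    obtain ⟨x, hxF, k, hk, hkx⟩ := hall fun i => ⟨_, hj i⟩
    set q := g fun i => ⟨_, hj i⟩ with hq
    have hkx' : (1 - δ) • k = q - x := hkx
    have hk2 : δ⁻¹ • (p - q) ∈ K := by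
      refine hb2 _ fun i => ?_
      rw [map_smul, Finsupp.smul_apply, map_sub, Finsupp.sub_apply, hq, hg, smul_eq_mul]
      have a1 := Nat.floor_le (mul_nonneg (hp' i).1 hM0.le)
      have a2 := Nat.lt_floor_add_one (b.repr p i * M)
      have a3 : b.repr p i - (⌊b.repr p i * M⌋₊ : ℝ) / M
          = (b.repr p i * M - ⌊b.repr p i * M⌋₊) / M := by field_simp
      simp only [a3]
      refine ⟨mul_nonneg (inv_nonneg.2 hδ0.le) (div_nonneg (by linarith) hM0.le), ?_⟩
      calc _ ≤ δ⁻¹ * (1 / M) := by gcongr; linarith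
        _ = _ := by rw [hδ, hMr]; field_simp
    refine ⟨(1 - δ) • k + δ • (δ⁻¹ • (p - q)), hc hk hk2 (by linarith) hδ0.le (by ring), x, hxF, ?_⟩
    rw [smul_inv_smul₀ hδ0.ne', hkx']; abel
  · have h1 : (F.card : ℝ) ≤ (L + 1) / ρ := by
      have a1 : (F.card : ℝ) ≤ ⌊L / ρ⌋₊ + 1 := by exact_mod_cast hF
      have a2 := Nat.floor_le (div_nonneg hL0 hρ0.le)
      have a3 : 1 ≤ 1 / ρ := by rw [le_div_iff₀ hρ0]; linarith
      rw [add_div]; linarith
    calc _ ≤ volume.real K * (((L + 1) / ρ) / volume.real P) := by gcongr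
      _ = 2 * Real.exp 4 * (L + 1) := by rw [hρ]; field_simp
      _ ≤ 2 * Real.exp 4 * (6 * n * Real.log n) := by gcongr; nlinarith
      _ = _ := by ring

theorem thetaT_le : ∃ C : ℝ, 0 < C ∧ ∀ n ≥ 2, ThetaT n ≤ ENNReal.ofReal (C * n * Real.log n) := by
  classical
  refine ⟨12 * Real.exp 4, by positivity, fun n hn => ?_⟩
  refine iSup_le fun K => iSup_le fun hK => ?_
  obtain ⟨hK1, hK2, v, hv⟩ := hK
  set K0 : Set (E n) := (fun x => x + v) ⁻¹' K with hK0
  have h1 : IsCompact K0 := (Homeomorph.addRight v).isCompact_preimage.2 hK1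
  have h2 : Convex ℝ K0 := hK2.translate_preimage_left v
  have h3 : K0 ∈ 𝓝 (0 : E n) :=
    (continuous_add_const v).continuousAt.preimage_mem_nhds
      (by simpa using mem_interior_iff_mem_nhds.1 hv)
  obtain ⟨b, F, hcov, hbound⟩ := cover_fd hn h1 h2 h3
  have h4 := thetaT_le_per b K (F.image fun x => x - v) (by
    intro p
    obtain ⟨k, hk, x, hx, hp⟩ := hcov _ (ZSpan.fract_mem_fundamentalDomain b p)
    rw [ZSpan.fract_apply] at hp
    refine ⟨k + v, hk, x - v + ZSpan.floor b p, ⟨x - v, Finset.mem_image_of_mem _ hx, ?_⟩, ?_⟩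
    · simp
    · rw [sub_eq_iff_eq_add] at hp
      conv_lhs => rw [hp]
      abel)
  refine h4.trans ?_
  have h5 : volume K = ENNReal.ofReal (volume.real K0) := by
    rw [ofReal_measureReal h1.measure_lt_top.ne, hK0, measure_preimage_add_right]
  rw [h5, ← ENNReal.ofReal_mul measureReal_nonneg]
  refine ENNReal.ofReal_le_ofReal (le_trans ?_ hbound)
  have h6 : ((F.image fun x => x - v).card : ℝ) ≤ F.card := by exact_mod_cast Finset.card_image_le
  have h7 := fd_pos b
  gcongr

end Vale.Agent.P230
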