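import Vale.Agent.P230.Body
import Vale.Agent.P230.Upper

/-! Averaging: a covering of small density has a lightly covered local configuration. -/

namespace Vale.Agent.P230

open Finset MeasureTheory Metric Filter Topology
open scoped ENNReal

noncomputable section

/-- the local cost of a translate -/
def WW (n : ℕ) (ρ : ℝ) (y : E n) : ℝ :=
  if ‖y‖ ≤ ρ then Real.exp (n * (ρ ^ 2 - ‖y‖ ^ 2) / 4) else 0

lemma WW_nonneg (n : ℕ) (ρ : ℝ) (y : E n) : 0 ≤ WW n ρ y := by
  unfold WW; split_ifs <;> positivity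

lemma WW_meas (n : ℕ) (ρ : ℝ) : Measurable (WW n ρ) :=
  Measurable.ite (isClosed_le (by fun_prop) (by fun_prop) :
    IsClosed {y : E n | ‖y‖ ≤ ρ}).measurableSet (by fun_prop) measurable_const

lemma geo13 (m : ℕ) : ∑ s ∈ range m, (12 / 13 : ℝ) ^ s ≤ 13 := by
  have : ∑ s ∈ range m, (12 / 13 : ℝ) ^ s = 13 - 13 * (12 / 13) ^ m := by
    induction m with
    | zero => simp
    | succ m ih => rw [sum_range_succ, ih, pow_succ]; ring
  have h : (0 : ℝ) ≤ (12 / 13) ^ m := by positivity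
  linarith

lemma WW_le {n : ℕ} (hn : 1 ≤ n) {ρ : ℝ} (hρ : 0 < ρ) (hρ2 : ρ ^ 2 ≤ 3 / 2) (y : E n) :
    ENNReal.ofReal (WW n ρ y) ≤ ∑ s ∈ range (2 * n + 1),
      (closedBall (0 : E n) (ρ * Real.exp (-(s / (3 * n))))).indicator
        (fun _ => ENNReal.ofReal (Real.exp ((s + 1) / 4))) y := by
  unfold WW
  split_ifs with h
  · have hn' : (1 : ℝ) ≤ n := by exact_mod_cast hn
    have hy := norm_nonneg y
    have h2 : ‖y‖ ^ 2 ≤ ρ ^ 2 := pow_le_pow_left₀ hy h 2
    set t : ℝ := n * (ρ ^ 2 - ‖y‖ ^ 2) with ht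
    have ht0 : 0 ≤ t := mul_nonneg (by linarith) (by linarith)
    have hs1 := Nat.floor_le ht0
    have hs2 := Nat.lt_floor_add_one t
    have hs3 : ⌊t⌋₊ ∈ range (2 * n + 1) := by
      rw [mem_range, Nat.lt_succ_iff]
      have : (⌊t⌋₊ : ℝ) ≤ (2 * n : ℕ) := by
        push_cast
        nlinarith [sq_nonneg ‖y‖]
      exact_mod_cast this
    refine le_trans ?_ (single_le_sum (f := fun s : ℕ =>
      (closedBall (0 : E n) (ρ * Real.exp (-(s / (3 * n))))).indicator
        (fun _ => ENNReal.ofReal (Real.exp ((s + 1) / 4))) y) (fun _ _ => zero_le) hs3)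
    beta_reduce
    rw [Set.indicator_of_mem]
    · exact ENNReal.ofReal_le_ofReal (Real.exp_le_exp.2 (by linarith))
    · rw [mem_closedBall_zero_iff]
      refine le_of_pow_le_pow_left₀ two_ne_zero (by positivity) ?_
      rw [mul_pow, ← Real.exp_nat_mul]
      set s : ℝ := (⌊t⌋₊ : ℝ)
      have hs0 : 0 ≤ s := Nat.cast_nonneg _
      have e1 := Real.add_one_le_exp (((2 : ℕ) : ℝ) * -(s / (3 * n)))
      have e2 : s / n ≤ ρ ^ 2 - ‖y‖ ^ 2 := by rw [div_le_iff₀ (by linarith)]; linarith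
      have e3 : ((2 : ℕ) : ℝ) * -(s / (3 * n)) = -(2 / 3 * (s / n)) := by
        push_cast; field_simp
      have e4 : 0 ≤ s / n := by positivity
      have e5 := mul_le_mul_of_nonneg_left e1 (sq_nonneg ρ)
      rw [e3] at e5 ⊢
      nlinarith
  · simp

lemma WW_int {n : ℕ} (hn : 1 ≤ n) {ρ : ℝ} (hρ : 0 < ρ) (hρ2 : ρ ^ 2 ≤ 3 / 2) (hρn : ρ ^ n ≤ 2) :
    ∫⁻ y, ENNReal.ofReal (WW n ρ y) ≤ ENNReal.ofReal (52 * VV n) := by
  have hn' : (1 : ℝ) ≤ n := by exact_mod_cast hn
  have hV := VV_pos n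
  refine (lintegral_mono (WW_le hn hρ hρ2)).trans ?_
  rw [lintegral_finsetSum _ fun s _ => measurable_const.indicator measurableSet_closedBall]
  simp_rw [lintegral_indicator_const measurableSet_closedBall]
  have h : ∀ s ∈ range (2 * n + 1), ENNReal.ofReal (Real.exp (((s : ℝ) + 1) / 4)) *
      volume (closedBall (0 : E n) (ρ * Real.exp (-(s / (3 * n)))))
      ≤ ENNReal.ofReal (4 * VV n * (12 / 13) ^ s) := by
    intro s _
    rw [vol_ball n _ (by positivity), ← ENNReal.ofReal_mul (by positivity)]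
    refine ENNReal.ofReal_le_ofReal ?_
    rw [mul_pow, ← Real.exp_nat_mul]
    have e1 : Real.exp (((s : ℝ) + 1) / 4) * Real.exp (n * -(s / (3 * n)))
        = Real.exp (1 / 4) * Real.exp (-(1 / 12)) ^ s := by
      rw [← Real.exp_nat_mul, ← Real.exp_add, ← Real.exp_add]
      congr 1; field_simp; ring
    have e2 : Real.exp (1 / 4) ≤ 2 := by
      have := Real.add_one_le_exp (-(1 / 4))
      rw [Real.exp_neg] at this
      have h0 := Real.exp_pos (1 / 4)
      have := mul_le_mul_of_nonneg_left this h0.le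
      rw [mul_inv_cancel₀ h0.ne'] at this
      linarith
    have e3 : Real.exp (-(1 / 12)) ≤ 12 / 13 := by
      rw [Real.exp_neg, inv_le_comm₀ (Real.exp_pos _) (by norm_num)]
      linarith [Real.add_one_le_exp (1 / 12)]
    have e4 := pow_le_pow_left₀ (Real.exp_pos _).le e3 s
    calc _ = ρ ^ n * VV n * (Real.exp (((s : ℝ) + 1) / 4) * Real.exp (n * -(s / (3 * n)))) := by
          ring
      _ ≤ 2 * VV n * (2 * (12 / 13) ^ s) := by
          rw [e1]; gcongr
      _ = _ := by ring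
  refine (sum_le_sum h).trans ?_
  rw [← ENNReal.ofReal_sum_of_nonneg fun s _ => by positivity, ← mul_sum]
  refine ENNReal.ofReal_le_ofReal ?_
  nlinarith [geo13 (2 * n + 1)]

lemma cube_meas (n : ℕ) (R : ℝ) : MeasurableSet (cube n R) := by
  have : cube n R = ⋂ i, {x : E n | |x i| ≤ R} := by ext x; simp [cube]
  rw [this]
  exact (isClosed_iInter fun i => isClosed_le (by fun_prop) (by fun_prop)).measurableSet

open Classical in
lemma exists_good {n : ℕ} (hn : 1 ≤ n) {ρ : ℝ} (hρ : 0 < ρ) (hρ2 : ρ ^ 2 ≤ 3 / 2)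
    (hρn : ρ ^ n ≤ 2) (X0 Γ : Finset (E n)) (hΓ : 0 < Γ.card) {A M R : ℝ} (hA : 0 < A)
    (hM : 0 < M) (hR : 0 ≤ R) (h : X0.card * VV n * (104 / A + 2 ^ n / M) < (2 * R) ^ n) :
    ∃ p ∈ cube n R, ∑ g ∈ Γ, ∑ x ∈ X0, WW n ρ (p + (g - x)) ≤ Γ.card * A / 2 ∧
      ((X0.filter fun x => ‖x - p‖ ≤ 2).card : ℝ) ≤ M := by
  have hV := VV_pos n
  have hN : (0 : ℝ) < Γ.card := by exact_mod_cast hΓ
  by_contra hc
  push Not at hc
  let F : E n → ℝ≥0∞ := fun p =>
    ENNReal.ofReal (2 / (Γ.card * A)) * ∑ g ∈ Γ, ∑ x ∈ X0, ENNReal.ofReal (WW n ρ (p + (g - x)))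
      + ∑ x ∈ X0, (closedBall x 2).indicator (fun _ => ENNReal.ofReal (1 / M)) p
  have hm : ∀ v : E n, Measurable fun p : E n => ENNReal.ofReal (WW n ρ (p + v)) := fun v =>
    ((WW_meas n ρ).comp (measurable_add_const v)).ennreal_ofReal
  have h1 : volume (cube n R) ≤ ∫⁻ p, F p := by
    rw [← one_mul (volume (cube n R)), ← lintegral_indicator_const (cube_meas n R)]
    refine lintegral_mono fun p => ?_
    by_cases hp : p ∈ cube n R
    · rw [Set.indicator_of_mem hp]
      by_cases h2 : ∑ g ∈ Γ, ∑ x ∈ X0, WW n ρ (p + (g - x)) ≤ Γ.card * A / 2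
      · refine le_add_left ?_
        have h3 := hc p hp h2
        have e : ∑ x ∈ X0, (closedBall x 2).indicator (fun _ => ENNReal.ofReal (1 / M)) p
            = ∑ x ∈ X0 with ‖x - p‖ ≤ 2, ENNReal.ofReal (1 / M) := by
          rw [sum_filter]
          refine sum_congr rfl fun x _ => ?_
          simp only [Set.indicator_apply, mem_closedBall, dist_eq_norm, norm_sub_rev p x]
        rw [e, sum_const, nsmul_eq_mul, ← ENNReal.ofReal_natCast,
          ← ENNReal.ofReal_mul (by positivity), ENNReal.one_le_ofReal, mul_one_div, le_div_iff₀ hM]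
        linarith
      · refine le_add_right ?_
        simp_rw [← ENNReal.ofReal_sum_of_nonneg fun x _ => WW_nonneg n ρ _]
        rw [← ENNReal.ofReal_sum_of_nonneg fun g _ => sum_nonneg fun x _ => WW_nonneg n ρ _,
          ← ENNReal.ofReal_mul (by positivity), ENNReal.one_le_ofReal, div_mul_eq_mul_div,
          le_div_iff₀ (by positivity)]
        linarith [not_le.1 h2]
    · rw [Set.indicator_of_notMem hp]; exact zero_le
  have h2 : ∫⁻ p, F p ≤ ENNReal.ofReal (X0.card * VV n * (104 / A + 2 ^ n / M)) := by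
    have hm2 : Measurable fun p : E n =>
        ∑ g ∈ Γ, ∑ x ∈ X0, ENNReal.ofReal (WW n ρ (p + (g - x))) :=
      Finset.measurable_sum _ fun g _ => Finset.measurable_sum _ fun x _ => hm _
    simp only [F]
    rw [lintegral_add_left (hm2.const_mul _), lintegral_const_mul _ hm2,
      lintegral_finsetSum _ fun g _ => Finset.measurable_sum _ fun x _ => hm _,
      lintegral_finsetSum _ fun x _ => measurable_const.indicator measurableSet_closedBall]
    simp_rw [lintegral_finsetSum _ fun x _ => hm _,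
      lintegral_add_right_eq_self (fun p => ENNReal.ofReal (WW n ρ p)),
      lintegral_indicator_const measurableSet_closedBall, vol_ball n _ zero_le_two, sum_const,
      nsmul_eq_mul]
    have e := WW_int hn hρ hρ2 hρn
    calc _ ≤ ENNReal.ofReal (2 / (Γ.card * A)) * (Γ.card * (X0.card * ENNReal.ofReal (52 * VV n)))
          + X0.card * (ENNReal.ofReal (1 / M) * ENNReal.ofReal (2 ^ n * VV n)) := by gcongr
      _ = _ := by
          rw [← ENNReal.ofReal_natCast, ← ENNReal.ofReal_natCast X0.card,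
            ← ENNReal.ofReal_mul (by positivity), ← ENNReal.ofReal_mul (by positivity),
            ← ENNReal.ofReal_mul (by positivity), ← ENNReal.ofReal_mul (by positivity),
            ← ENNReal.ofReal_mul (by positivity),
            ← ENNReal.ofReal_add (by positivity) (by positivity)]
          congr 1; field_simp; ring
  have h3 := h1.trans h2
  rw [volume_cube R hR, ENNReal.ofReal_le_ofReal_iff (by positivity)] at h3
  linarith

lemma ev_cube (n : ℕ) : ∀ᶠ R : ℝ in atTop, 2 ≤ R ∧ (2 * R) ^ n ≤ 2 * (2 * (R - 2)) ^ n := by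
  have h1 : Tendsto (fun R : ℝ => (1 - 2 / R) ^ n) atTop (𝓝 ((1 - 0) ^ n)) :=
    (tendsto_const_nhds.sub (tendsto_const_nhds.div_atTop tendsto_id)).pow n
  have h2 := h1.eventually (lt_mem_nhds (show (1 / 2 : ℝ) < (1 - 0) ^ n by norm_num))
  filter_upwards [h2, eventually_ge_atTop 2] with R h hR
  refine ⟨hR, ?_⟩
  have e : (2 * (R - 2)) ^ n = (2 * R) ^ n * (1 - 2 / R) ^ n := by
    rw [← mul_pow]; congr 1; field_simp
  have : 0 ≤ (2 * R) ^ n := by positivity
  rw [e]; nlinarith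

theorem density_lower {n : ℕ} (hn : 1 ≤ n) {η : ℝ} (hη : 0 ≤ η) (hρ2 : (1 + 2 * η) ^ 2 ≤ 3 / 2)
    (hρn : (1 + 2 * η) ^ n ≤ 2) {K : Set (E n)} (hK : K ⊆ closedBall 0 1) {X : Set (E n)}
    (hX : LocFinite X) (hc : Covers K X) (𝒩 : Finset (E n))
    (h𝒩 : ∀ x : E n, ‖x‖ ≤ 2 → ∃ y ∈ 𝒩, ‖x - y‖ ≤ η) (Γ : Finset (E n)) (hΓ : ∀ g ∈ Γ, ‖g‖ ≤ 1)
    (hΓ0 : 0 < Γ.card) {A D : ℝ} {M : ℕ} (hA : 0 < A) (hM : 0 < M) (hD0 : 0 < D)
    (hgood : ∀ Y : Finset 𝒩, Y.card ≤ M →
      (Γ.card : ℝ) ≤ 2 * (light Subtype.val (1 + η) A Γ Y).card →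
        ∃ g ∈ Γ, ∀ x ∈ Y, ∀ z ∈ K, η < ‖z - (g - x.1)‖)
    (hD : 2 * D * VV n * (104 / A + 2 ^ n / M) < 1) : ENNReal.ofReal D ≤ upperDensity X := by
  classical
  by_contra hlt
  push Not at hlt
  have hV := VV_pos n
  have hM' : (0 : ℝ) < M := by exact_mod_cast hM
  obtain ⟨R, hR1, hR, hR2⟩ := ((eventually_lt_of_limsup_lt hlt).and (ev_cube n)).exists
  have hfin : (X ∩ cube n R).Finite := by
    refine hX _ ((isBounded_closedBall (x := (0 : E n)) (r := √(n * R ^ 2))).subset fun x hx => ?_)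
    rw [mem_closedBall_zero_iff, EuclideanSpace.norm_eq]
    refine Real.sqrt_le_sqrt ((sum_le_card_nsmul _ _ (R ^ 2) fun i _ => ?_).trans (by simp))
    exact pow_le_pow_left₀ (norm_nonneg _) (hx i) 2
  let X0 := hfin.toFinset
  have hR0 : 0 < (2 * R) ^ n := by positivity
  have hR0' : 0 < (2 * (R - 2)) ^ n := by linarith
  have hcard : (X0.card : ℝ) ≤ D * (2 * R) ^ n := by
    rw [hfin.encard_eq_coe_toFinset_card, ENat.toENNReal_coe, ← ENNReal.ofReal_natCast,
      ← ENNReal.ofReal_div_of_pos hR0, ENNReal.ofReal_lt_ofReal_iff hD0, div_lt_iff₀ hR0] at hR1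
    exact hR1.le
  obtain ⟨p, hp, h1, h2⟩ := exists_good hn (ρ := 1 + 2 * η) (by linarith) hρ2 hρn X0 Γ hΓ0 hA hM'
    (R := R - 2) (by linarith) (by
      calc (X0.card : ℝ) * VV n * (104 / A + 2 ^ n / M)
          ≤ D * (2 * (2 * (R - 2)) ^ n) * VV n * (104 / A + 2 ^ n / M) := by
            gcongr
            exact hcard.trans (by gcongr)
        _ = 2 * D * VV n * (104 / A + 2 ^ n / M) * (2 * (R - 2)) ^ n := by ring
        _ < _ := by nlinarith)
  let S := X0.filter fun x => ‖x - p‖ ≤ 2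
  choose! rd hrd using fun (x : E n) (hx : ‖x - p‖ ≤ 2) => h𝒩 (x - p) hx
  let rd' : S → 𝒩 := fun x => ⟨rd x.1, (hrd x.1 (mem_filter.1 x.2).2).1⟩
  let Y : Finset 𝒩 := univ.image rd'
  have hY : Y.card ≤ M := by
    have : Y.card ≤ S.card := card_image_le.trans (by simp)
    exact this.trans (by exact_mod_cast h2)
  have hcost : ∀ g : E n, ∑ y ∈ Y with ‖g - y.1‖ ≤ 1 + η,
      Real.exp (n * ((1 + η) ^ 2 - ‖g - y.1‖ ^ 2) / 4)
        ≤ ∑ x ∈ X0, WW n (1 + 2 * η) (p + (g - x)) := by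
    intro g
    rw [sum_filter]
    refine (sum_image_le_of_nonneg fun _ _ => by split_ifs <;> positivity).trans ?_
    refine le_trans ?_ (sum_le_sum_of_subset_of_nonneg (filter_subset (fun x => ‖x - p‖ ≤ 2) X0)
      fun _ _ _ => WW_nonneg _ _ _)
    rw [← sum_coe_sort S]
    refine sum_le_sum fun x _ => ?_
    have e1 := (hrd x.1 (mem_filter.1 x.2).2).2
    have e2 : ‖p + (g - x.1)‖ ≤ ‖g - rd x.1‖ + η := by
      have : p + (g - x.1) = (g - rd x.1) - (x.1 - p - rd x.1) := by abel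
      rw [this]
      exact (norm_sub_le _ _).trans (by linarith)
    simp only [rd']
    split_ifs with h
    · rw [WW, if_pos (by linarith)]
      refine Real.exp_le_exp.2 ?_
      have e3 := pow_le_pow_left₀ (norm_nonneg _) e2 2
      have e4 := mul_le_mul_of_nonneg_left h hη
      gcongr ?_ / 4
      refine mul_le_mul_of_nonneg_left ?_ (Nat.cast_nonneg _)
      nlinarith
    · exact WW_nonneg _ _ _
  have hlight : (Γ.card : ℝ) ≤ 2 * (light Subtype.val (1 + η) A Γ Y).card := by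
    let P : E n → Prop := fun g => ∑ y ∈ Y with ‖g - y.1‖ ≤ 1 + η,
      Real.exp (n * ((1 + η) ^ 2 - ‖g - y.1‖ ^ 2) / 4) ≤ A
    have e0 : light Subtype.val (1 + η) A Γ Y = Γ.filter P := by
      unfold light; congr
    have e1 := card_filter_add_card_filter_not (s := Γ) P
    have e2 : ((Γ.filter fun g => ¬ P g).card : ℝ) * A ≤ Γ.card * A / 2 := by
      refine le_trans ?_ h1
      rw [← nsmul_eq_mul]
      refine (card_nsmul_le_sum _ _ _ fun g hg => ((not_le.1 (mem_filter.1 hg).2).le.trans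
        (hcost g))).trans ?_
      exact sum_le_sum_of_subset_of_nonneg (filter_subset _ _)
        fun _ _ _ => sum_nonneg fun _ _ => WW_nonneg _ _ _
    have e3 : ((Γ.filter fun g => ¬ P g).card : ℝ) ≤ Γ.card / 2 := by
      by_contra h
      nlinarith [not_le.1 h]
    rw [e0]
    have e4 : ((Γ.filter P).card : ℝ) + (Γ.filter fun g => ¬ P g).card = Γ.card := by
      exact_mod_cast e1
    linarith
  obtain ⟨g, hg, hg'⟩ := hgood Y hY hlight
  obtain ⟨z, hz, x, hx, hzx⟩ := hc (p + g)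
  have e1 : x - p = g - z := by rw [sub_eq_sub_iff_add_eq_add, add_comm x, ← hzx, add_comm]
  have e2 : ‖x - p‖ ≤ 2 := by
    rw [e1]
    linarith [norm_sub_le g z, hΓ g hg, mem_closedBall_zero_iff.1 (hK hz)]
  have e3 : x ∈ S := by
    refine mem_filter.2 ⟨hfin.mem_toFinset.2 ⟨hx, fun i => ?_⟩, e2⟩
    have e4 : |(x - p) i| ≤ 2 := (PiLp.norm_apply_le (x - p) i).trans e2
    have e5 : x i = (x - p) i + p i := by simp
    rw [e5]
    linarith [abs_add_le ((x - p) i) (p i), hp i]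
  have e4 := hg' (rd' ⟨x, e3⟩) (mem_image_of_mem _ (mem_univ _)) z hz
  have e5 := (hrd x e2).2
  have e6 : z - (g - rd x) = -(x - p - rd x) := by rw [e1]; abel
  simp only [rd'] at e4
  rw [e6, norm_neg] at e4
  linarith

end

end Vale.Agent.P230
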