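import Vale.Agent.P230.Disc

/-! The trivial block and the hashed discrete Gaussian block. -/

open Finset
open scoped BigOperators

namespace Vale.Agent.P230

noncomputable section

def Block.mono {Q D : ℕ} {Γ : Type} [AddCommGroup Γ] [Fintype Γ] {g N w M ε Cb N' w' M' ε' Cb' : ℝ}
    (K : Block Q D Γ g N w M ε Cb) (hg : 0 ≤ g) (h1 : N ≤ N') (h2 : w ≤ w') (h3 : M ≤ M')
    (h4 : ε ≤ ε') (h5 : Cb ≤ Cb') : Block Q D Γ g N' w' M' ε' Cb' where
  h := K.h
  L := K.L
  θ := K.θ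
  hL := K.hL
  bd := K.bd
  cong := K.cong
  card γ := (K.card γ).trans h1
  θb γ p hp := ⟨(K.θb γ p hp).1, (K.θb γ p hp).2.trans h2⟩
  Fb := K.Fb
  FM γ := (K.FM γ).trans h3
  avg := ⟨by linarith [K.avg.1], K.avg.2⟩
  gau γ p hp o ho := (K.gau γ p hp o ho).trans (mul_le_mul_of_nonneg_right h5
    (mul_nonneg (Nat.cast_nonneg _) (prod_nonneg fun _ _ => mul_nonneg hg (ph_pos _).le)))

lemma ph_ge {x : ℝ} (h : |x| ≤ 1) : 1 / 6 ≤ ph x := by
  have h1 := Real.add_one_le_exp (-(x ^ 2 / 2))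
  have h2 : x ^ 2 ≤ 1 := (sq_le_one_iff_abs_le_one x).2 h
  have := sqrt_two_pi
  rw [ph, le_div_iff₀ (by linarith)]
  linarith

lemma triv_block (D : ℕ) : ∃ K : Block 1 D Unit 1 (2 ^ D) ((1 / 2) ^ D) 1 0 (3 ^ D),
    ∀ γ, ∑ p ∈ K.L γ, K.θ p = 1 := by
  let L : Finset (Fin D → ℤ) := Fintype.piFinset fun _ => {-1, 0}
  have hc : (L.card : ℝ) = 2 ^ D := by simp [L]
  have hs : ∑ _p ∈ L, (1 / 2 : ℝ) ^ D = 1 := by simp [hc]
  have hm : ∀ p ∈ L, ∀ i, p i = -1 ∨ p i = 0 := fun p hp i => by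
    simpa using Fintype.mem_piFinset.1 hp i
  refine ⟨⟨fun _ => 0, fun _ => L, fun _ => (1 / 2) ^ D, fun _ _ _ => rfl, fun _ p hp i => ?_,
    fun _ _ _ _ _ _ => by simp, fun _ => hc.le, fun _ _ _ => ⟨by positivity, le_rfl⟩,
    fun _ => Or.inr hs.ge, fun _ => hs.le, by simp [hc], fun _ p hp o ho => ?_⟩, fun _ => hs⟩
  · rcases hm p hp i with h | h <;> simp [h]
  · have : ∏ _i : Fin D, (1 / 6 : ℝ) ≤ ∏ i, 1 * ph (1 * p i + o i) := by
      refine prod_le_prod (fun _ _ => by norm_num) fun i _ => ?_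
      rw [one_mul, one_mul]
      obtain ⟨a, b⟩ := ho i
      refine ph_ge (abs_le.2 ?_)
      rcases hm p hp i with h | h <;> simp only [h] <;> constructor <;> push_cast <;> linarith
    simp only [prod_const, card_univ, Fintype.card_fin] at this
    calc (1 / 2 : ℝ) ^ D = 3 ^ D * (1 / 6) ^ D := by rw [← mul_pow]; norm_num
      _ ≤ _ := by simpa using this

lemma smul_bij {Q : ℕ} [Fact Q.Prime] {G : Type*} [AddCommGroup G] [Module (ZMod Q) G] {c : ℤ}
    (hc : (c : ZMod Q) ≠ 0) : Function.Bijective fun x : G => c • x := by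
  simp_rw [← Int.cast_smul_eq_zsmul (ZMod Q)]
  exact (MulAction.toPerm (Units.mk0 _ hc)).bijective

lemma coll {ι F G : Type*} [Fintype ι] [DecidableEq ι] [Field F] [AddCommGroup G] [Module F G]
    [Fintype G] {r r' : ι → F} (h : r' ≠ r) :
    𝔼 H : ι → G, ind (∑ k, r' k • H k = ∑ k, r k • H k) = 1 / Fintype.card G := by
  have := prob_indep (G := G) (fun _ : Unit => r' - r) {()} (by simpa [sub_eq_zero] using h)
  simpa [sub_smul, sum_sub_distrib, sub_eq_zero] using this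

variable {Q : ℕ} {g : ℝ}

lemma mu_gau (hg : 0 < g) (hg' : g ≤ 1 / 2) (hσ : 4 ≤ g * Q) {a : ℤ} (ha : a ∈ AA Q) {o : ℝ}
    (ho : 0 ≤ o ∧ o ≤ g) :
    mu Q g a ≤ Real.exp (2 * (g * Q) * g + 2 * Real.exp (-((g * Q) ^ 2 / 2)) + 2 * g)
      * (g * ph (g * a + o)) := by
  have hQ : 0 < Q := Nat.pos_of_ne_zero (by rintro rfl; norm_num at hσ)
  have hZ := ZZ_pos (g := g) hQ
  have h1 := ZZ_ge hg hσ
  obtain ⟨s1, s2⟩ := sqrt_two_pi
  set x := Real.exp (-((g * Q) ^ 2 / 2)) with hx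
  have x0 : 0 < x := Real.exp_pos _
  have x1 : x ≤ 1 := Real.exp_le_one_iff.2 (by have := sq_nonneg (g * Q); linarith)
  have h2 : √(2 * Real.pi) ≤ Real.exp (2 * x + 2 * g) * (g * ZZ Q g) := by
    have := Real.add_one_le_exp (2 * x + 2 * g)
    have h3 := mul_le_mul this h1 (by linarith) (Real.exp_pos _).le
    nlinarith
  have h3 : om g a ≤ Real.exp (2 * (g * Q) * g) * Real.exp (-((g * a + o) ^ 2 / 2)) := by
    rw [← Real.exp_add]
    refine Real.exp_le_exp.2 ?_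
    have a1 : (a : ℝ) ≤ Q := by exact_mod_cast (mem_Ioo.1 ha).2.le
    have a2 : g * a ≤ g * Q := by gcongr
    have a3 : g * a * o ≤ g * Q * g := (mul_le_mul_of_nonneg_right a2 ho.1).trans
      (mul_le_mul_of_nonneg_left ho.2 (by positivity))
    have a4 : o ^ 2 ≤ g ^ 2 := pow_le_pow_left₀ ho.1 ho.2 2
    nlinarith
  rw [mu, div_le_iff₀ hZ, add_assoc, Real.exp_add, ph]
  refine h3.trans ?_
  calc _ = Real.exp (2 * (g * Q) * g) * Real.exp (-((g * a + o) ^ 2 / 2)) * 1 := (mul_one _).symm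
    _ ≤ Real.exp (2 * (g * Q) * g) * Real.exp (-((g * a + o) ^ 2 / 2)) *
        (Real.exp (2 * x + 2 * g) * (g * ZZ Q g) / √(2 * Real.pi)) := by
      gcongr
      rwa [le_div_iff₀ (by positivity), one_mul]
    _ = _ := by ring

open Classical in
theorem reg_block [Fact Q.Prime] (hodd : Odd Q) (hg : 0 < g) (hg' : g ≤ 1 / 2) (hσ : 4 ≤ g * Q)
    {D : ℕ} (hD : 0 < D) {Δ : ℝ} (hΔ : 0 < Δ) :
    ∃ e : ℕ, (Fintype.card (Fin e → ZMod Q) : ℝ)
        ≤ Q * Real.exp (2 * Δ + D * (Real.log Q + (g * Q) ^ 2)) ∧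
      Nonempty (Block Q D (Fin e → ZMod Q) g (Real.exp (2 * qq Q g * D * Real.log (D + 1)))
        (Q * Real.exp (3 * Δ - qq Q g * D / 4)) (Q * Real.exp (3 * Δ))
        (D * (g * Q) ^ 4 / Δ ^ 2 + 4 / (qq Q g * D) + 2 * Real.exp (-Δ))
        (Real.exp (D * (2 * (g * Q) * g + 2 * Real.exp (-((g * Q) ^ 2 / 2)) + 2 * g)))) := by
  have hQ := NeZero.pos Q
  have hQ1 : (1 : ℝ) < Q := by exact_mod_cast (Fact.out : Q.Prime).one_lt
  have hlQ := Real.log_pos hQ1
  have hD' : (0 : ℝ) < D := by exact_mod_cast hD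
  have hq : 0 < qq Q g := lt_of_lt_of_le (by positivity) (qq_ge hg hg' hσ)
  have hμ := mu_sum (g := g) hQ
  have hμ0 := fun a => (mu_pos (g := g) hQ a).le
  have hb := mub_pos hg hσ
  set q := qq Q g with hqd
  set l := ∑ a ∈ AA Q, mu Q g a * Real.log (mub Q g a) with hl
  have lb : ∀ r, -((g * Q) ^ 2 / 2) - Real.log Q ≤ Real.log (mub Q g r) ∧
      Real.log (mub Q g r) ≤ (g * Q) ^ 2 / 2 - Real.log Q := fun r => by
    have a1 := Real.log_le_log (Real.exp_pos _) (mub_ge hg hσ r)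
    have a2 := Real.log_le_log (mul_pos (by linarith) (hb r)) (mub_le hg hg' hσ r)
    rw [Real.log_exp, Real.log_mul (by linarith) (hb r).ne'] at a1 a2
    constructor <;> linarith
  have l1 : -((g * Q) ^ 2 / 2) - Real.log Q ≤ l := by
    rw [← one_mul (_ - _), ← hμ, sum_mul]
    exact sum_le_sum fun a _ => mul_le_mul_of_nonneg_left (lb _).1 (hμ0 a)
  have l2 : l ≤ (g * Q) ^ 2 / 2 - Real.log Q := by
    rw [← one_mul (_ - _), ← hμ, sum_mul]
    exact sum_le_sum fun a _ => mul_le_mul_of_nonneg_left (lb _).2 (hμ0 a)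
  have l3 : l ≤ 0 := sum_nonpos fun a _ => mul_nonpos_of_nonneg_of_nonpos (hμ0 a)
    (Real.log_nonpos (hb _).le (mub_le_one _))
  let e := ⌈(2 * Δ - D * l) / Real.log Q⌉₊
  let Γ := Fin e → ZMod Q
  have hΓ : (Fintype.card Γ : ℝ) = Real.exp (e * Real.log Q) := by
    rw [Real.exp_nat_mul, Real.exp_log (by linarith)]; simp [Γ]
  have g1 : Real.exp (2 * Δ - D * l) ≤ Fintype.card Γ := by
    rw [hΓ]; exact Real.exp_le_exp.2 ((div_le_iff₀ hlQ).1 (Nat.le_ceil _))
  have g2 : (Fintype.card Γ : ℝ) ≤ Q * Real.exp (2 * Δ - D * l) := by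
    rw [hΓ]
    nth_rw 2 [← Real.exp_log (by linarith : (0 : ℝ) < Q)]
    rw [← Real.exp_add]
    refine Real.exp_le_exp.2 ?_
    have := Nat.ceil_lt_add_one (a := (2 * Δ - D * l) / Real.log Q)
      (div_nonneg (by nlinarith) hlQ.le)
    have := mul_lt_mul_of_pos_right this hlQ
    rw [add_mul, div_mul_cancel₀ _ hlQ.ne'] at this
    linarith
  have g0 : (0 : ℝ) < Fintype.card Γ := (Real.exp_pos _).trans_le g1
  refine ⟨e, g2.trans (by gcongr; nlinarith [sq_nonneg (g * Q)]), ?_⟩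
  let typ : (Fin D → ZMod Q) → Prop := fun r => |∑ i, Real.log (mub Q g (r i)) - D * l| ≤ Δ
  have pm : ∀ r : Fin D → ZMod Q, ∏ i, mub Q g (r i) = Real.exp (∑ i, Real.log (mub Q g (r i))) :=
    fun r => by rw [Real.exp_sum]; exact prod_congr rfl fun i _ => (Real.exp_log (hb _)).symm
  have pm2 : ∀ r, typ r → Fintype.card Γ * ∏ i, mub Q g (r i) ≤ Q * Real.exp (3 * Δ) := by
    intro r hr
    have := (abs_le.1 hr).2
    rw [pm]
    refine (mul_le_mul_of_nonneg_right g2 (Real.exp_pos _).le).trans ?_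
    rw [mul_assoc, ← Real.exp_add]
    gcongr; linarith
  have hT : ((univ.filter typ).card : ℝ) / Fintype.card Γ ≤ Real.exp (-Δ) := by
    have a1 : ∑ r : Fin D → ZMod Q, ∏ i, mub Q g (r i) = 1 := by
      rw [← Fintype.piFinset_univ, ← prod_univ_sum (fun _ => univ) fun _ a => mub Q g a]
      simp [mub_sum]
    have a2 := (card_nsmul_le_sum (univ.filter typ) (fun r => ∏ i, mub Q g (r i))
      (Real.exp (D * l - Δ)) fun r hr => by
        have := (abs_le.1 (mem_filter.1 hr).2).1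
        rw [pm]; gcongr; linarith).trans ((sum_le_sum_of_subset_of_nonneg (filter_subset _ _)
          fun r _ _ => prod_nonneg fun i _ => (hb _).le).trans a1.le)
    rw [nsmul_eq_mul] at a2
    rw [div_le_iff₀ g0]
    refine le_trans ?_ (mul_le_mul_of_nonneg_left g1 (Real.exp_pos _).le)
    rw [← Real.exp_add, show -Δ + (2 * Δ - D * l) = -(D * l - Δ) by ring, Real.exp_neg,
      ← one_div, le_div_iff₀ (Real.exp_pos _)]
    exact a2
  let az : (Fin D → Γ) → (Fin D → ZMod Q) → Γ := fun h r => ∑ k, r k • h k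
  have haz : ∀ h p, ap h p = az h (md Q p) := fun h p => by
    simp [ap, az, md, Int.cast_smul_eq_zsmul]
  let alone : (Fin D → Γ) → (Fin D → ZMod Q) → Prop := fun h r =>
    ∀ r', typ r' → az h r' = az h r → r' = r
  let PP := Fintype.piFinset fun _ : Fin D => AA Q
  let m : (Fin D → ℤ) → ℝ := fun p => ∏ i, mu Q g (p i)
  have m0 : ∀ p, 0 ≤ m p := fun p => prod_nonneg fun i _ => hμ0 _
  have m1 : ∑ p ∈ PP, m p = 1 := prod_one _ _ hμ
  obtain ⟨h, -, hh⟩ : ∃ h ∈ (univ : Finset (Fin D → Γ)),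
      ∑ p ∈ PP, m p * ind (¬ alone h (md Q p)) ≤ Real.exp (-Δ) := by
    refine exists_le_of_expect_le univ_nonempty ?_
    rw [expect_sum_comm, ← one_mul (Real.exp _), ← m1, sum_mul]
    refine sum_le_sum fun p _ => ?_
    rw [← mul_expect]
    refine mul_le_mul_of_nonneg_left (le_trans ?_ hT) (m0 p)
    calc _ ≤ 𝔼 h : Fin D → Γ, ∑ r ∈ (univ.filter typ).erase (md Q p),
          ind (az h r = az h (md Q p)) := by
          refine expect_le_expect fun h _ => (ind_mono fun hh => ?_).trans (ind_exists_le _ _)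
          simp only [alone, not_forall] at hh
          obtain ⟨r, a1, a2, a3⟩ := hh
          exact ⟨r, by simp [a1, a3], a2⟩
      _ ≤ _ := by
          rw [expect_sum_comm, sum_congr rfl fun r hr => coll (ne_of_mem_erase hr), sum_const,
            nsmul_eq_mul, mul_one_div]
          gcongr
          exact erase_subset _ _
  let ft : (Fin D → ℤ) → Prop := fun p => |∑ i, ind (far Q (p i)) - D * q| ≤ q * D / 2
  let W := PP.filter fun p => typ (md Q p) ∧ ft p ∧ alone h (md Q p)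
  let L : Γ → Finset (Fin D → ℤ) := fun γ => W.filter fun p => ap h p = γ
  let θ : (Fin D → ℤ) → ℝ := fun p => Fintype.card Γ * m p
  have θ0 : ∀ p, 0 ≤ θ p := fun p => mul_nonneg g0.le (m0 p)
  have hL : ∀ γ, ∀ p ∈ L γ, (∀ i, p i ∈ AA Q) ∧ typ (md Q p) ∧ ft p ∧ alone h (md Q p) ∧
      ap h p = γ := fun γ p hp => by
    obtain ⟨a1, a2⟩ := mem_filter.1 hp
    obtain ⟨a3, a4, a5, a6⟩ := mem_filter.1 a1
    exact ⟨Fintype.mem_piFinset.1 a3, a4, a5, a6, a2⟩
  have hcg : ∀ γ, ∀ p ∈ L γ, ∀ p' ∈ L γ, md Q p = md Q p' := fun γ p hp p' hp' =>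
    (hL γ p' hp').2.2.2.1 _ (hL γ p hp).2.1 (by
      rw [← haz, ← haz, (hL γ p hp).2.2.2.2, (hL γ p' hp').2.2.2.2])
  have hcg' : ∀ γ, ∀ p ∈ L γ, ∀ p' ∈ L γ, ∀ i, (Q : ℤ) ∣ p i - p' i := fun γ p hp p' hp' i =>
    (ZMod.intCast_eq_intCast_iff_dvd_sub _ _ _).1 (congrFun (hcg γ p' hp' p hp) i)
  have av : 𝔼 γ, ∑ p ∈ L γ, θ p = ∑ p ∈ W, m p := by
    rw [Fintype.expect_eq_sum_div_card, sum_fiberwise, ← mul_sum, mul_div_cancel_left₀ _ g0.ne']
  have av1 : ∑ p ∈ W, m p ≤ 1 :=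
    (sum_le_sum_of_subset_of_nonneg (filter_subset _ _) fun p _ _ => m0 p).trans m1.le
  have av2 : 1 - (D * (g * Q) ^ 4 / Δ ^ 2 + 4 / (q * D) + Real.exp (-Δ)) ≤ ∑ p ∈ W, m p := by
    have c1 := prod_cheb' (D := D) (AA Q) (mu Q g) (fun a => Real.log (mub Q g a)) hμ hμ0 hΔ
      (v := (g * Q) ^ 4) (by
        rw [← one_mul (_ ^ 4), ← hμ, sum_mul]
        refine sum_le_sum fun a _ => mul_le_mul_of_nonneg_left ?_ (hμ0 a)
        rw [← hl, show (g * Q) ^ 4 = ((g * Q) ^ 2) ^ 2 by ring]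
        obtain ⟨a1, a2⟩ := lb a
        exact sq_le_sq' (by linarith) (by linarith))
    have c2 := prod_cheb' (D := D) (AA Q) (mu Q g) (fun a => ind (far Q a)) hμ hμ0
      (t := q * D / 2) (by positivity) (v := q) (by
        have : ∀ a, mu Q g a * (ind (far Q a) - q) ^ 2
            = (1 - 2 * q) * (mu Q g a * ind (far Q a)) + q ^ 2 * mu Q g a := fun a => by
          by_cases h : far Q a
          · rw [ind_pos h]; ring
          · rw [ind_neg h]; ring
        change ∑ a ∈ AA Q, mu Q g a * (ind (far Q a) - q) ^ 2 ≤ q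
        simp_rw [this]
        rw [sum_add_distrib, ← mul_sum, ← mul_sum, hμ]
        change (1 - 2 * q) * q + _ ≤ q
        nlinarith)
    rw [show D * q / (q * D / 2) ^ 2 = 4 / (q * D) by field_simp; norm_num] at c2
    change ∑ p ∈ PP, m p * ind (¬ typ (md Q p)) ≤ _ at c1
    change ∑ p ∈ PP, m p * ind (¬ ft p) ≤ _ at c2
    refine le_trans (by linarith : _ ≤ ∑ p ∈ PP, m p - (∑ p ∈ PP, m p * ind (¬ typ (md Q p)) +
      ∑ p ∈ PP, m p * ind (¬ ft p) + ∑ p ∈ PP, m p * ind (¬ alone h (md Q p)))) ?_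
    rw [sum_filter, ← sum_add_distrib, ← sum_add_distrib, ← sum_sub_distrib]
    refine sum_le_sum fun p _ => ?_
    have := m0 p
    by_cases a1 : typ (md Q p) <;> by_cases a2 : ft p <;> by_cases a3 : alone h (md Q p) <;>
      simp [a1, a2, a3, this]
  have FM : ∀ γ, ∑ p ∈ L γ, θ p ≤ Q * Real.exp (3 * Δ) := fun γ => by
    rcases (L γ).eq_empty_or_nonempty with h0 | ⟨p, hp⟩
    · rw [h0, sum_empty]; positivity
    refine le_trans ?_ (pm2 _ (hL γ p hp).2.1)
    rw [← mul_sum]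
    refine mul_le_mul_of_nonneg_left ?_ g0.le
    simp only [mub]
    rw [prod_univ_sum]
    exact sum_le_sum_of_subset_of_nonneg (fun p' hp' => Fintype.mem_piFinset.2 fun i =>
      mem_filter.2 ⟨(hL γ p' hp').1 i, congrFun (hcg γ p' hp' p hp) i⟩) fun p _ _ => m0 p
  let L' : Γ → Finset (Fin D → ℤ) := fun γ => if 1 ≤ ∑ p ∈ L γ, θ p then L γ else ∅
  have sub : ∀ γ, L' γ ⊆ L γ := fun γ => by
    simp only [L']; split_ifs
    · exact subset_rfl
    · exact empty_subset _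
  have le1 : ∀ γ, ∑ p ∈ L' γ, θ p ≤ ∑ p ∈ L γ, θ p := fun γ =>
    sum_le_sum_of_subset_of_nonneg (sub γ) fun p _ _ => θ0 p
  refine ⟨⟨h, L', θ, fun γ p hp => (hL γ p (sub γ hp)).2.2.2.2, fun γ p hp i => ?_,
    fun γ p hp p' hp' => hcg' γ p (sub γ hp) p' (sub γ hp'), fun γ => ?_,
    fun γ p hp => ⟨θ0 p, ?_⟩, fun γ => ?_, fun γ => (le1 γ).trans (FM γ),
    ⟨?_, (expect_le_expect fun γ _ => le1 γ).trans (av.le.trans av1)⟩, fun γ p hp o ho => ?_⟩⟩
  · have := mem_Ioo.1 ((hL γ p (sub γ hp)).1 i)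
    exact ⟨this.1.le, this.2⟩
  · have a1 : (L' γ).card ≤ (D + 1) ^ ⌊2 * q * D⌋₊ := by
      refine (card_le_card (sub γ)).trans (le_trans ?_
        (by simpa using card_small_sets (Fin D) ⌊2 * q * D⌋₊))
      refine card_le_card_of_injOn (fun p => univ.filter fun i => far Q (p i))
        (fun p hp => ?_) fun p hp p' hp' hpp => funext fun i =>
          far_inj hodd ((hL γ p hp).1 i) ((hL γ p' hp').1 i) (hcg' γ p hp p' hp' i)
            (by simpa using congrArg (i ∈ ·) hpp)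
      have a2 := (abs_le.1 (hL γ p hp).2.2.1).2
      have a3 : ∑ i, ind (far Q (p i)) = ((univ.filter fun i => far Q (p i)).card : ℝ) := by
        rw [card_eq_sum_ones, Nat.cast_sum, sum_filter]
        refine sum_congr rfl fun i _ => ?_
        split_ifs with h
        · simp [ind_pos h]
        · simp [ind_neg h]
      simp only [coe_filter, mem_univ, true_and, Set.mem_ofPred_eq]
      refine Nat.le_floor ?_
      rw [← a3]; nlinarith [mul_pos hq hD']
    calc ((L' γ).card : ℝ) ≤ (D + 1) ^ ⌊2 * q * D⌋₊ := by exact_mod_cast a1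
      _ = Real.exp (⌊2 * q * D⌋₊ * Real.log (D + 1)) := by
        rw [Real.exp_nat_mul, Real.exp_log (by positivity)]
      _ ≤ _ := by
        gcongr
        · exact Real.log_nonneg (by linarith)
        · exact Nat.floor_le (by positivity)
  · obtain ⟨a1, a2, a3, -⟩ := hL γ p (sub γ hp)
    have a4 := (abs_le.1 a3).1
    calc θ p ≤ Fintype.card Γ * ∏ i, mub Q g (p i) * Real.exp (-(ind (far Q (p i)) / 2)) :=
          mul_le_mul_of_nonneg_left (prod_le_prod (fun i _ => hμ0 _)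
            fun i _ => mu_le_mub hQ (a1 i)) g0.le
      _ = (Fintype.card Γ * ∏ i, mub Q g (md Q p i))
          * Real.exp (-((∑ i, ind (far Q (p i))) / 2)) := by
          rw [prod_mul_distrib, ← Real.exp_sum, sum_neg_distrib, ← sum_div, mul_assoc]; rfl
      _ ≤ Q * Real.exp (3 * Δ) * Real.exp (-(q * D / 4)) :=
          mul_le_mul (pm2 _ a2) (Real.exp_le_exp.2 (by linarith)) (Real.exp_pos _).le
            (by positivity)
      _ = _ := by rw [mul_assoc, ← Real.exp_add]; rfl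
  · simp only [L']; split_ifs with h
    · exact Or.inr h
    · exact Or.inl rfl
  · have a1 : 𝔼 γ, ind (∃ r ∈ univ.filter typ, az h r = γ) ≤ Real.exp (-Δ) := by
      refine le_trans ?_ hT
      refine (expect_le_expect fun γ _ => ind_exists_le _ _).trans (le_of_eq ?_)
      rw [expect_sum_comm, div_eq_mul_one_div]
      refine (sum_congr rfl fun r _ => ?_).trans ((sum_const _).trans (nsmul_eq_mul _ _))
      rw [Fintype.expect_eq_sum_div_card, sum_eq_single_of_mem (az h r) (mem_univ _)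
        fun b _ hb => ind_neg hb.symm, ind_pos rfl]
    have a2 : 𝔼 γ, ∑ p ∈ L γ, θ p ≤ 𝔼 γ, (∑ p ∈ L' γ, θ p
        + ind (∃ r ∈ univ.filter typ, az h r = γ)) := by
      refine expect_le_expect fun γ _ => ?_
      simp only [L']; split_ifs with h1
      · linarith [ind_nonneg (∃ r ∈ univ.filter typ, az h r = γ)]
      rcases (L γ).eq_empty_or_nonempty with h0 | ⟨p, hp⟩
      · simp [h0, ind_nonneg]
      · obtain ⟨-, a2, -, -, a3⟩ := hL γ p hp
        rw [ind_pos ⟨md Q p, by simp [a2], by rw [← haz, a3]⟩, sum_empty]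
        linarith
    rw [expect_add_distrib] at a2
    linarith
  · rw [mul_left_comm]
    refine mul_le_mul_of_nonneg_left ?_ g0.le
    rw [Real.exp_nat_mul]
    refine (prod_le_prod (fun i _ => hμ0 _) fun i _ =>
      mu_gau hg hg' hσ ((hL γ p (sub γ hp)).1 i) (ho i)).trans (le_of_eq ?_)
    rw [prod_mul_distrib]; simp

end

end Vale.Agent.P230
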