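import Vale.Agent.P230.Config

/-! The random convex body. -/

namespace Vale.Agent.P230

open Finset MeasureTheory Metric
open scoped RealInnerProductSpace ENNReal

noncomputable section

/-- the unit ball cut by the symmetric slabs indexed by `S` -/
def body {n k J : ℕ} (β : ℝ) (S : Finset (Om n k J)) : Set (E n) :=
  {y | ‖y‖ ≤ 1 ∧ ∀ ω ∈ S, |β * ⟪vec ω.1, y⟫| ≤ lev ω.2}

def cap {n k J : ℕ} (β : ℝ) (ω : Om n k J) : Set (E n) :=
  {y | ‖y‖ ≤ 1 ∧ lev ω.2 < |β * ⟪vec ω.1, y⟫|}

lemma body_convex {n k J : ℕ} (β : ℝ) (S : Finset (Om n k J)) : Convex ℝ (body β S) := by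
  rintro x ⟨hx1, hx2⟩ y ⟨hy1, hy2⟩ a b ha hb hab
  refine ⟨?_, fun ω hω => ?_⟩
  · refine (norm_add_le _ _).trans ?_
    rw [norm_smul, norm_smul, Real.norm_eq_abs, Real.norm_eq_abs, abs_of_nonneg ha,
      abs_of_nonneg hb]
    nlinarith
  · have e : β * ⟪vec ω.1, a • x + b • y⟫ = a * (β * ⟪vec ω.1, x⟫) + b * (β * ⟪vec ω.1, y⟫) := by
      rw [inner_add_right, inner_smul_right, inner_smul_right]; ring
    rw [e]
    refine (abs_add_le _ _).trans ?_
    rw [abs_mul a, abs_mul b, abs_of_nonneg ha, abs_of_nonneg hb]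
    have h1 := mul_le_mul_of_nonneg_left (hx2 ω hω) ha
    have h2 := mul_le_mul_of_nonneg_left (hy2 ω hω) hb
    have : a * lev ω.2 + b * lev ω.2 = lev ω.2 := by rw [← add_mul, hab, one_mul]
    linarith

lemma body_sub {n k J : ℕ} (β : ℝ) (S : Finset (Om n k J)) : body β S ⊆ closedBall 0 1 :=
  fun _ hy => mem_closedBall_zero_iff.2 hy.1

lemma body_compact {n k J : ℕ} (β : ℝ) (S : Finset (Om n k J)) : IsCompact (body β S) := by
  refine (isCompact_closedBall 0 1).of_isClosed_subset ?_ (body_sub β S)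
  have : body β S = {y | ‖y‖ ≤ 1} ∩ ⋂ ω ∈ S, {y | |β * ⟪vec ω.1, y⟫| ≤ lev ω.2} := by
    ext y; simp [body]
  rw [this]
  exact (isClosed_le (by fun_prop) (by fun_prop)).inter
    (isClosed_biInter fun ω _ => isClosed_le (by fun_prop) (by fun_prop))

lemma body_neg {n k J : ℕ} (β : ℝ) (S : Finset (Om n k J)) {y : E n} (hy : y ∈ body β S) :
    -y ∈ body β S :=
  ⟨by simpa using hy.1, fun ω hω => by simpa [inner_neg_right] using hy.2 ω hω⟩

lemma cap_meas {n k J : ℕ} (β : ℝ) (ω : Om n k J) : MeasurableSet (cap β ω) :=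
  (isClosed_le (by fun_prop) (by fun_prop) : IsClosed {y : E n | ‖y‖ ≤ 1}).measurableSet.inter
    (isOpen_lt (by fun_prop) (by fun_prop) :
      IsOpen {y : E n | lev ω.2 < |β * ⟪vec ω.1, y⟫|}).measurableSet

lemma cap_fin {n k J : ℕ} (β : ℝ) (ω : Om n k J) : volume (cap β ω) ≠ ∞ :=
  ((measure_mono fun _ hy => mem_closedBall_zero_iff.2 hy.1).trans_lt
    (measure_closedBall_lt_top (x := 0) (r := 1))).ne

/-- volume of the unit ball -/
def VV (n : ℕ) : ℝ := volume.real (closedBall (0 : E n) 1)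

lemma VV_pos (n : ℕ) : 0 < VV n :=
  ENNReal.toReal_pos (measure_closedBall_pos _ _ one_pos).ne' measure_closedBall_lt_top.ne

lemma vol_ball (n : ℕ) (c : E n) {r : ℝ} (hr : 0 ≤ r) :
    volume (closedBall c r) = ENNReal.ofReal (r ^ n * VV n) := by
  rw [Measure.addHaar_closedBall' _ _ hr, ENNReal.ofReal_mul (by positivity), VV, measureReal_def,
    ENNReal.ofReal_toReal measure_closedBall_lt_top.ne]
  simp

lemma body_vol {n k J : ℕ} (β : ℝ) (S : Finset (Om n k J)) :
    VV n ≤ volume.real (body β S) + ∑ ω ∈ S, volume.real (cap β ω) := by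
  have h : closedBall (0 : E n) 1 ⊆ body β S ∪ ⋃ ω ∈ S, cap β ω := by
    intro y hy
    have hy' := mem_closedBall_zero_iff.1 hy
    by_cases h : y ∈ body β S
    · exact Or.inl h
    · simp only [body, Set.mem_ofPred_eq, not_and, not_forall, not_le] at h
      obtain ⟨ω, hω, h⟩ := h hy'
      exact Or.inr (Set.mem_iUnion₂.2 ⟨ω, hω, hy', h⟩)
  refine (measureReal_mono h ?_).trans ((measureReal_union_le _ _).trans ?_)
  · exact measure_union_ne_top (body_compact β S).measure_lt_top.ne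
      (measure_biUnion_ne_top S.finite_toSet fun ω _ => cap_fin β ω)
  · exact add_le_add_right (measureReal_biUnion_finset_le _ _) _

lemma cap_sum {n k : ℕ} (hk : 0 < k) (J : ℕ) (β ρ : ℝ) (hρ : 1 ≤ ρ) :
    ∑ ω : Om n k J, pr n k J β ρ ω * volume.real (cap β ω) ≤ VV n / 4 := by
  classical
  have hp := pr_pos n k J β ρ
  have h1 : ∑ ω : Om n k J, ENNReal.ofReal (pr n k J β ρ ω) * volume (cap β ω)
      ≤ ENNReal.ofReal (1 / 4) * volume (closedBall (0 : E n) 1) := by
    rw [← lintegral_indicator_const measurableSet_closedBall]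
    simp_rw [← lintegral_indicator_const (cap_meas β _)]
    rw [← lintegral_finsetSum _ fun ω _ => measurable_const.indicator (cap_meas β ω)]
    refine lintegral_mono fun y => ?_
    by_cases hy : y ∈ closedBall (0 : E n) 1
    · rw [Set.indicator_of_mem hy]
      have hy' := (mem_closedBall_zero_iff.1 hy).trans hρ
      have e1 := cut_upper' hk J β ρ y hy'
      have e2 := cut_upper' hk J β ρ (-y) (by simpa using hy')
      have e3 : ∀ ω : Om n k J, (cap β ω).indicator (fun _ => ENNReal.ofReal (pr n k J β ρ ω)) y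
          ≤ ENNReal.ofReal ((if ω ∈ cutset n k J β y then pr n k J β ρ ω else 0) +
            (if ω ∈ cutset n k J β (-y) then pr n k J β ρ ω else 0)) := by
        intro ω
        by_cases h : y ∈ cap β ω
        · rw [Set.indicator_of_mem h]
          refine ENNReal.ofReal_le_ofReal ?_
          have := (hp ω).le
          rcases lt_abs.1 h.2 with h' | h'
          · rw [if_pos (by simpa [cutset] using h')]; split_ifs <;> linarith
          · rw [if_pos (c := ω ∈ cutset n k J β (-y))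
              (by simpa [cutset, inner_neg_right] using h')]
            split_ifs <;> linarith
        · rw [Set.indicator_of_notMem h]; exact zero_le
      refine (sum_le_sum fun ω _ => e3 ω).trans ?_
      rw [← ENNReal.ofReal_sum_of_nonneg fun ω _ => by
        have := (hp ω).le
        split_ifs <;> linarith]
      refine ENNReal.ofReal_le_ofReal ?_
      rw [sum_add_distrib, ← sum_filter, ← sum_filter, filter_mem_eq_inter, filter_mem_eq_inter,
        univ_inter, univ_inter]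
      linarith
    · rw [Set.indicator_of_notMem hy]
      refine le_of_eq (sum_eq_zero fun ω _ => Set.indicator_of_notMem (fun h => hy ?_) _)
      exact mem_closedBall_zero_iff.2 h.1
  have h2 := ENNReal.toReal_mono (ENNReal.mul_ne_top ENNReal.ofReal_ne_top
    measure_closedBall_lt_top.ne) h1
  rw [ENNReal.toReal_sum fun ω _ => ENNReal.mul_ne_top ENNReal.ofReal_ne_top (cap_fin β ω),
    ENNReal.toReal_mul, ENNReal.toReal_ofReal (by norm_num)] at h2
  simp only [ENNReal.toReal_mul, ENNReal.toReal_ofReal (hp _).le] at h2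
  simp only [measureReal_def, VV]
  linarith

lemma card_small_sets (ι : Type*) [Fintype ι] [DecidableEq ι] (m : ℕ) :
    ((univ : Finset (Finset ι)).filter fun Y => Y.card ≤ m).card ≤ (Fintype.card ι + 1) ^ m := by
  have h : ((univ : Finset (Finset ι)).filter fun Y => Y.card ≤ m)
      ⊆ (range (m + 1)).biUnion fun j => powersetCard j univ := by
    intro Y hY
    simp only [mem_filter, mem_univ, true_and] at hY
    exact mem_biUnion.2 ⟨Y.card, mem_range.2 (by omega), mem_powersetCard.2 ⟨subset_univ _, rfl⟩⟩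
  refine (card_le_card h).trans (card_biUnion_le.trans ?_)
  rw [add_pow]
  refine sum_le_sum fun j hj => ?_
  rw [card_powersetCard, card_univ, one_pow, mul_one, Nat.cast_id]
  exact (Nat.choose_le_pow _ _).trans (Nat.le_mul_of_pos_right _
    (Nat.choose_pos (by have := mem_range.1 hj; omega)))

open Classical in
/-- test points that are lightly covered by the configuration `Y` -/
def light {n : ℕ} {ι : Type*} (pos : ι → E n) (ρ A : ℝ) (Γ : Finset (E n)) (Y : Finset ι) :
    Finset (E n) :=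
  Γ.filter fun g => ∑ x ∈ Y with ‖g - pos x‖ ≤ ρ,
    Real.exp (n * (ρ ^ 2 - ‖g - pos x‖ ^ 2) / 4) ≤ A

theorem exists_body {n k : ℕ} (hk : 0 < k) (J : ℕ) (β η : ℝ) (hβ : 0 ≤ β) (hβ2 : β ^ 2 = bb * n)
    (hη : 0 ≤ η) (hη' : β * η * √(n * k) ≤ 1)
    (hJ : β * (1 + η) * √(n * k) + 2 ≤ J) (hk4 : (β * (1 + η)) ^ 4 ≤ 8 * k)
    {ι : Type*} [Fintype ι] [DecidableEq ι] (pos : ι → E n)
    (A : ℝ) (M : ℕ) (hA : 1 ≤ A) (hM : 1 ≤ M) (s1 : ℕ)
    (hs1 : A * Real.exp (-(s1 : ℝ)) ≤ 1)
    {ε : ℝ} (hε : 0 < ε) (hε' : ε ≤ 1 / 16) (Γ : Finset (E n))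
    (hΓ : Sep ε Γ) (hΓ' : 1 ≤ Γ.card * ε ^ n)
    (hnear : LL A s1 ^ 2 * (A * A * Real.exp (-(bb * n / 8 * ε ^ 2))) ≤ 1)
    (hunion : ((Fintype.card ι + 1 : ℕ) : ℝ) ^ M *
      Real.exp (-(Γ.card / (8 * XX n A M Γ.card s1))) < 1 / 2) :
    ∃ K : Set (E n), Convex ℝ K ∧ IsCompact K ∧ (∀ y ∈ K, -y ∈ K) ∧ K ⊆ closedBall 0 1 ∧
      VV n / 2 ≤ volume.real K ∧ ∀ Y : Finset ι, Y.card ≤ M →
        (Γ.card : ℝ) ≤ 2 * (light pos (1 + η) A Γ Y).card →
        ∃ g ∈ Γ, ∀ x ∈ Y, ∀ z ∈ K, η < ‖z - (g - pos x)‖ := by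
  classical
  have hw : Valid (pr n k J β (1 + η)) :=
    fun ω => ⟨(pr_pos _ _ _ _ _ _).le, pr_le_one _ _ _ _ _ _⟩
  have hV := VV_pos n
  let f : Finset (Om n k J) → ℝ := fun S => ∑ ω ∈ S, volume.real (cap β ω)
  let Bad : Finset ι → Finset (Om n k J) → Prop := fun Y S =>
    (Γ.card : ℝ) ≤ 2 * (light pos (1 + η) A Γ Y).card ∧
    ∀ g ∈ light pos (1 + η) A Γ Y, ∃ x ∈ Y, ‖g - pos x‖ ≤ 1 + η ∧
      ∀ ω ∈ S, ¬ lev ω.2 + 1 < β * ⟪vec ω.1, g - pos x⟫
  let 𝒴 := (univ : Finset (Finset ι)).filter fun Y => Y.card ≤ M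
  have h1 : Pr univ (pr n k J β (1 + η)) (fun S => VV n / 2 < f S) ≤ 1 / 2 := by
    have e1 := markov (U := univ) hw (f := f) (fun S _ => sum_nonneg fun _ _ => measureReal_nonneg)
      (a := VV n / 2)
    have e2 : Ex univ (pr n k J β (1 + η)) f
        = ∑ ω : Om n k J, pr n k J β (1 + η) ω * volume.real (cap β ω) := by
      have e3 : f = fun S => ∑ ω : Om n k J, ind ({ω} ⊆ S) * volume.real (cap β ω) := by
        funext S
        simp only [f]
        rw [← univ_inter S, ← filter_mem_eq_inter, sum_filter]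
        refine sum_congr rfl fun ω _ => ?_
        split_ifs with h
        · rw [ind_pos (by simpa using h), one_mul]
        · rw [ind_neg (by simpa using h), zero_mul]
      rw [e3, Ex_sum]
      refine sum_congr rfl fun ω _ => ?_
      rw [Ex_mul_const]
      congr 1
      have := Pr_all_open (w := pr n k J β (1 + η)) (subset_univ {ω})
      rw [prod_singleton] at this
      exact this
    have e4 := cap_sum (n := n) hk J β (1 + η) (by linarith)
    rw [e2] at e1
    by_contra hc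
    nlinarith
  have h2 : Pr univ (pr n k J β (1 + η)) (fun S => ∃ Y ∈ 𝒴, Bad Y S) < 1 / 2 := by
    refine (Pr_exists_le hw _ _).trans_lt (lt_of_le_of_lt ?_ hunion)
    refine (sum_le_card_nsmul _ _ (Real.exp (-(Γ.card / (8 * XX n A M Γ.card s1))))
      fun Y hY => ?_).trans ?_
    · by_cases hs : (Γ.card : ℝ) ≤ 2 * (light pos (1 + η) A Γ Y).card
      · refine (Pr_mono hw fun S _ hS => hS.2).trans ?_
        exact one_config hk J β (1 + η) hβ hβ2 hJ hk4 pos Y A M hA (by exact_mod_cast hM)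
          (by exact_mod_cast (mem_filter.1 hY).2) s1 hs1 hε hε' Γ hΓ hΓ' hnear _
          (filter_subset _ _) hs fun g hg => by convert (mem_filter.1 hg).2
      · refine (Pr_mono (B := fun _ => False) hw fun S _ hS => hs hS.1).trans ?_
        simp only [Pr, ind_false, Ex_const]
        positivity
    · rw [nsmul_eq_mul]
      refine mul_le_mul_of_nonneg_right ?_ (by positivity)
      exact_mod_cast card_small_sets ι M
  have h3 : Pr univ (pr n k J β (1 + η))
      (fun S => ¬ (VV n / 2 < f S ∨ ∃ Y ∈ 𝒴, Bad Y S)) ≠ 0 := by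
    rw [Pr_not]
    have := Pr_or_le (U := univ) hw (fun S => VV n / 2 < f S) (fun S => ∃ Y ∈ 𝒴, Bad Y S)
    linarith
  obtain ⟨S, -, -, hS⟩ := exists_of_Pr_pos h3
  rw [not_or] at hS
  refine ⟨body β S, body_convex β S, body_compact β S, fun y hy => body_neg β S hy, body_sub β S,
    ?_, fun Y hY hs => ?_⟩
  · have := body_vol β S
    have := not_lt.1 hS.1
    simp only [f] at this
    linarith
  · have hb : ¬ Bad Y S := fun h => hS.2 ⟨Y, mem_filter.2 ⟨mem_univ _, hY⟩, h⟩
    simp only [Bad, not_and] at hb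
    have hb' := hb hs
    push Not at hb'
    obtain ⟨g, hg, hg'⟩ := hb'
    refine ⟨g, (mem_filter.1 hg).1, fun x hx z hz => ?_⟩
    by_contra hc
    push Not at hc
    have e1 : ‖g - pos x‖ ≤ 1 + η := by
      have := norm_sub_norm_le (g - pos x) z
      rw [norm_sub_rev] at hc
      linarith [hz.1]
    obtain ⟨ω, hω, hω'⟩ := hg' x hx e1
    have e2 := (abs_le.1 (hz.2 ω hω)).2
    have e3 : ⟪vec ω.1, g - pos x⟫ = ⟪vec ω.1, z⟫ - ⟪vec ω.1, z - (g - pos x)⟫ := by
      rw [← inner_sub_right]; congr 1; abel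
    have e4 := (abs_le.1 ((abs_real_inner_le_norm (vec ω.1) (z - (g - pos x))).trans
      (mul_le_mul (norm_vec_le hk ω.1) hc (norm_nonneg _) (Real.sqrt_nonneg _)))).1
    have e5 := mul_le_mul_of_nonneg_left e4 hβ
    rw [e3] at hω'
    nlinarith

end

end Vale.Agent.P230
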