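import Mathlib

/-! Greedy clustering of a finite configuration. -/

namespace Vale.Agent.P230

open Finset

theorem exists_clusters {ι : Type*} [DecidableEq ι] (τ : ι → ι → ℝ) (hτ : ∀ i, τ i i = 0)
    (s0 : ℕ) (J : Finset ι) :
    ∃ (I : Finset ι) (G : ι → Finset ι) (s : ι → ℕ), I ⊆ J ∧
      (∀ i ∈ I, i ∈ G i ∧ G i ⊆ J ∧ s i ≤ s0 ∧ s i ≤ (G i).card ∧ ∀ j ∈ G i, τ i j ≤ s i) ∧
      (∀ j ∈ J, ∃ i ∈ I, j ∈ G i) ∧
      (∀ φ : ι → ℝ, (∀ j, 0 ≤ φ j) → ∑ i ∈ I, ∑ j ∈ G i, φ j ≤ ∑ j ∈ J, φ j) ∧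
      (∀ F ⊆ I, ∀ t : ℕ, t ≤ s0 → (∀ i ∈ F, ∀ k ∈ F, τ i k ≤ t) → F.card ≤ t + 1) := by
  classical
  induction J using Finset.strongInduction with
  | H J ih =>
    rcases J.eq_empty_or_nonempty with rfl | ⟨c, hc⟩
    · exact ⟨∅, fun _ => ∅, fun _ => 0, by simp, by simp, by simp, by simp, by simp⟩
    let Q : ℕ → Prop := fun t => t ≤ (J.filter fun j => τ c j ≤ t).card
    let t0 := Nat.findGreatest Q s0
    have hQ : Q t0 := Nat.findGreatest_spec (Nat.zero_le s0) (Nat.zero_le _)
    have ht0 : t0 ≤ s0 := Nat.findGreatest_le s0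
    let G0 := J.filter fun j => τ c j ≤ t0
    have hcG : c ∈ G0 := mem_filter.2 ⟨hc, by rw [hτ]; positivity⟩
    have hsub : J \ G0 ⊂ J := sdiff_ssubset (filter_subset _ _) ⟨c, hcG⟩
    obtain ⟨I, G, s, h1, h2, h3, h4, h5⟩ := ih _ hsub
    have hcI : c ∉ I := fun h => (mem_sdiff.1 (h1 h)).2 hcG
    have hne : ∀ i ∈ I, i ≠ c := fun i hi h => hcI (h ▸ hi)
    refine ⟨insert c I, Function.update G c G0, Function.update s c t0, ?_, ?_, ?_, ?_, ?_⟩
    · exact insert_subset hc (h1.trans sdiff_subset)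
    · intro i hi
      rcases mem_insert.1 hi with rfl | hi
      · simp only [Function.update_self]
        exact ⟨hcG, filter_subset _ _, ht0, hQ, fun j hj => (mem_filter.1 hj).2⟩
      · simp only [Function.update_of_ne (hne i hi)]
        obtain ⟨a, b, c', d, e⟩ := h2 i hi
        exact ⟨a, b.trans sdiff_subset, c', d, e⟩
    · intro j hj
      by_cases hjG : j ∈ G0
      · exact ⟨c, mem_insert_self _ _, by simpa using hjG⟩
      · obtain ⟨i, hi, hi'⟩ := h3 j (mem_sdiff.2 ⟨hj, hjG⟩)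
        exact ⟨i, mem_insert_of_mem hi, by rwa [Function.update_of_ne (hne i hi)]⟩
    · intro φ hφ
      rw [sum_insert hcI, Function.update_self]
      have e1 : ∑ i ∈ I, ∑ j ∈ Function.update G c G0 i, φ j = ∑ i ∈ I, ∑ j ∈ G i, φ j :=
        sum_congr rfl fun i hi => by rw [Function.update_of_ne (hne i hi)]
      have e2 := sum_sdiff (f := φ) (filter_subset (fun j => τ c j ≤ t0) J)
      rw [e1]
      linarith [h4 φ hφ]
    · intro F hF t ht hFt
      by_cases hcF : c ∈ F
      · rcases le_or_gt t t0 with h | h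
        · have : F ⊆ {c} := by
            intro k hk
            rcases mem_insert.1 (hF hk) with rfl | hkI
            · simp
            · exfalso
              have hk' := mem_sdiff.1 (h1 hkI)
              refine hk'.2 (mem_filter.2 ⟨hk'.1, (hFt c hcF k hk).trans ?_⟩)
              exact_mod_cast h
          have := card_le_card this
          simp at this
          omega
        · have hnQ : ¬ Q t := Nat.findGreatest_is_greatest h ht
          have : F ⊆ J.filter fun j => τ c j ≤ t := by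
            intro k hk
            refine mem_filter.2 ⟨?_, hFt c hcF k hk⟩
            rcases mem_insert.1 (hF hk) with rfl | hkI
            · exact hc
            · exact (mem_sdiff.1 (h1 hkI)).1
          have := card_le_card this
          simp only [Q] at hnQ
          omega
      · refine h5 F (fun k hk => ?_) t ht hFt
        rcases mem_insert.1 (hF hk) with rfl | hkI
        · exact absurd hk hcF
        · exact hkI

lemma sum_geom_aux (N : ℕ) :
    ∑ s ∈ range N, (4 * ((s : ℝ) + 1) + 1) * (1 / 2) ^ s = 18 - (4 * N + 9) * 2 * (1 / 2) ^ N := by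
  induction N with
  | zero => norm_num
  | succ N ih => rw [sum_range_succ, ih]; push_cast; ring

/-- Sparse centres have bounded total Gaussian weight seen from any point. -/
lemma sum_exp_le {ι : Type*} (I : Finset ι) (d : ι → ℝ) (s1 : ℕ)
    (h : ∀ t : ℕ, t ≤ s1 → ((I.filter fun k => d k ≤ t).card : ℝ) ≤ 4 * t + 1)
    (hd : ∀ k, 0 ≤ d k) :
    ∑ k ∈ I, Real.exp (-d k) ≤ 18 + I.card * Real.exp (-(s1 : ℝ)) := by
  classical
  have h1 : ∀ k, Real.exp (-d k) ≤ ∑ s ∈ range s1, (if d k ≤ ((s + 1 : ℕ) : ℝ) then (1 / 2) ^ s else 0)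
      + Real.exp (-(s1 : ℝ)) := by
    intro k
    have hnn : ∀ s ∈ range s1, (0 : ℝ) ≤ (if d k ≤ ((s + 1 : ℕ) : ℝ) then (1 / 2) ^ s else 0) := by
      intro s _; split_ifs <;> positivity
    rcases le_or_gt (s1 : ℝ) (d k) with h2 | h2
    · have := Real.exp_le_exp.2 (neg_le_neg h2)
      linarith [sum_nonneg hnn]
    · have h3 : ⌊d k⌋₊ < s1 := (Nat.floor_lt (hd k)).2 h2
      have h4 := single_le_sum hnn (mem_range.2 h3)
      rw [if_pos (by push_cast; exact (Nat.lt_floor_add_one _).le)] at h4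
      have h5 : Real.exp (-d k) ≤ (1 / 2) ^ ⌊d k⌋₊ := by
        calc Real.exp (-d k) ≤ Real.exp (⌊d k⌋₊ * (-1)) :=
              Real.exp_le_exp.2 (by linarith [Nat.floor_le (hd k)])
          _ = Real.exp (-1) ^ ⌊d k⌋₊ := Real.exp_nat_mul _ _
          _ ≤ _ := by
              refine pow_le_pow_left₀ (Real.exp_pos _).le ?_ _
              rw [Real.exp_neg, one_div]
              refine inv_anti₀ (by norm_num) ?_
              linarith [Real.add_one_le_exp 1]
      linarith [Real.exp_pos (-(s1 : ℝ))]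
  refine (sum_le_sum fun k _ => h1 k).trans ?_
  rw [sum_add_distrib, sum_const, nsmul_eq_mul, sum_comm]
  refine add_le_add_left ?_ _
  calc ∑ s ∈ range s1, ∑ k ∈ I, (if d k ≤ ((s + 1 : ℕ) : ℝ) then (1 / 2 : ℝ) ^ s else 0)
      ≤ ∑ s ∈ range s1, (4 * ((s : ℝ) + 1) + 1) * (1 / 2) ^ s := by
        refine sum_le_sum fun s hs => ?_
        rw [← sum_filter, sum_const, nsmul_eq_mul]
        refine mul_le_mul_of_nonneg_right ?_ (by positivity)
        have := h (s + 1) (mem_range.1 hs)
        push_cast at this ⊢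
        exact this
    _ ≤ 18 := by
        rw [sum_geom_aux]
        have : (0 : ℝ) ≤ (4 * s1 + 9) * 2 * (1 / 2) ^ s1 := by positivity
        linarith

end Vale.Agent.P230
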