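import Vale.Agent.P230.MGF

/-! The ground set of cutting half-spaces and its intensities. -/

namespace Vale.Agent.P230

open Finset
open scoped RealInnerProductSpace

noncomputable section

/-- a half-space is a direction together with a level -/
abbrev Om (n k J : ℕ) : Type := Sg n k × Fin (2 * J + 1)

def lev {J : ℕ} (j : Fin (2 * J + 1)) : ℝ := (j : ℕ) - (J : ℝ)

def kap (β ρ : ℝ) : ℝ := Real.exp (-(β ^ 2 * ρ ^ 2 / 2)) / 16

def pr (n k J : ℕ) (β ρ : ℝ) (ω : Om n k J) : ℝ :=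
  min 1 (kap β ρ * Real.exp (lev ω.2) / Fintype.card (Sg n k))

lemma kap_pos (β ρ : ℝ) : 0 < kap β ρ := by unfold kap; positivity

lemma card_Sg_pos (n k : ℕ) : (0 : ℝ) < Fintype.card (Sg n k) := by
  exact_mod_cast Fintype.card_pos

lemma pr_pos (n k J : ℕ) (β ρ : ℝ) (ω : Om n k J) : 0 < pr n k J β ρ ω := by
  have := kap_pos β ρ
  have := card_Sg_pos n k
  exact lt_min one_pos (by positivity)

lemma pr_le_one (n k J : ℕ) (β ρ : ℝ) (ω : Om n k J) : pr n k J β ρ ω ≤ 1 := min_le_left _ _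

lemma level_sum (N : ℕ) (a x : ℝ) :
    ∑ j ∈ range N, (if (j : ℝ) - a < x then Real.exp (j - a) else 0)
      ≤ 2 * Real.exp (min x (N - 1 - a)) := by
  induction N with
  | zero => simp; positivity
  | succ N ih =>
    rw [sum_range_succ]
    push_cast
    split_ifs with h
    · have h1 : min x ((N : ℝ) + 1 - 1 - a) = N - a := by
        rw [min_eq_right (by linarith)]; ring
      have h2 : Real.exp (min x (N - 1 - a)) ≤ Real.exp (N - a) / 2 := by
        have h3 : Real.exp (min x (N - 1 - a)) ≤ Real.exp (N - 1 - a) :=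
          Real.exp_le_exp.2 (min_le_right _ _)
        have h4 : Real.exp (N - a) = Real.exp (N - 1 - a) * Real.exp 1 := by
          rw [← Real.exp_add]; congr 1; ring
        have h5 := Real.add_one_le_exp 1
        have h6 := Real.exp_pos (N - 1 - a)
        nlinarith
      rw [h1]; linarith
    · have : Real.exp (min x (N - 1 - a)) ≤ Real.exp (min x ((N : ℝ) + 1 - 1 - a)) :=
        Real.exp_le_exp.2 (min_le_min_left _ (by linarith))
      linarith

/-- half-spaces cutting off the point `y` -/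
def cutset (n k J : ℕ) (β : ℝ) (y : E n) : Finset (Om n k J) :=
  univ.filter fun ω => lev ω.2 < β * ⟪vec ω.1, y⟫

lemma cut_upper {n k : ℕ} (hk : 0 < k) (J : ℕ) (β ρ : ℝ) (y : E n) :
    ∑ ω ∈ cutset n k J β y, pr n k J β ρ ω ≤ 2 * kap β ρ * Real.exp (β ^ 2 * ‖y‖ ^ 2 / 2) := by
  have hκ := kap_pos β ρ
  have hc := card_Sg_pos n k
  rw [cutset, sum_filter, Fintype.sum_prod_type]
  have h1 : ∀ e : Sg n k, ∑ j : Fin (2 * J + 1),
      (if lev j < β * ⟪vec e, y⟫ then pr n k J β ρ (e, j) else 0)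
      ≤ 2 * kap β ρ / Fintype.card (Sg n k) * Real.exp ⟪vec e, β • y⟫ := by
    intro e
    have h2 := level_sum (2 * J + 1) J (β * ⟪vec e, y⟫)
    rw [← Fin.sum_univ_eq_sum_range (fun j => if (j : ℝ) - J < β * ⟪vec e, y⟫
      then Real.exp (j - J) else 0)] at h2
    have h3 : Real.exp (min (β * ⟪vec e, y⟫) (((2 * J + 1 : ℕ) : ℝ) - 1 - J))
        ≤ Real.exp ⟪vec e, β • y⟫ := by
      rw [inner_smul_right]; exact Real.exp_le_exp.2 (min_le_left _ _)
    calc _ ≤ ∑ j : Fin (2 * J + 1), kap β ρ / Fintype.card (Sg n k) *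
          (if ((j : ℕ) : ℝ) - J < β * ⟪vec e, y⟫ then Real.exp ((j : ℕ) - J) else 0) := by
          refine sum_le_sum fun j _ => ?_
          unfold lev
          split_ifs
          · refine (min_le_right _ _).trans (le_of_eq ?_)
            unfold lev; ring
          · simp
      _ ≤ kap β ρ / Fintype.card (Sg n k) * (2 * Real.exp ⟪vec e, β • y⟫) := by
          rw [← mul_sum]
          exact mul_le_mul_of_nonneg_left (by linarith) (by positivity)
      _ = _ := by ring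
  refine (sum_le_sum fun e _ => h1 e).trans ?_
  rw [← mul_sum]
  refine (mul_le_mul_of_nonneg_left (mgf_upper hk (β • y)) (by positivity)).trans (le_of_eq ?_)
  rw [norm_smul, mul_pow, Real.norm_eq_abs, sq_abs]
  field_simp

lemma cut_upper' {n k : ℕ} (hk : 0 < k) (J : ℕ) (β ρ : ℝ) (y : E n) (hy : ‖y‖ ≤ ρ) :
    ∑ ω ∈ cutset n k J β y, pr n k J β ρ ω ≤ 1 / 8 := by
  refine (cut_upper hk J β ρ y).trans ?_
  have h1 : ‖y‖ ^ 2 ≤ ρ ^ 2 := pow_le_pow_left₀ (norm_nonneg _) hy 2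
  have h2 : Real.exp (-(β ^ 2 * ρ ^ 2 / 2)) * Real.exp (β ^ 2 * ‖y‖ ^ 2 / 2) ≤ 1 := by
    rw [← Real.exp_add, Real.exp_le_one_iff]
    nlinarith [mul_le_mul_of_nonneg_left h1 (sq_nonneg β)]
  unfold kap
  linarith

open Classical in
/-- half-spaces cutting off all points of a group, with room to spare -/
def grp (n k J : ℕ) (β : ℝ) {ι : Type*} (y : ι → E n) (G : Finset ι) : Finset (Om n k J) :=
  univ.filter fun ω => ∀ j ∈ G, lev ω.2 + 1 < β * ⟪vec ω.1, y j⟫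

lemma grp_inter {n k : ℕ} (hk : 0 < k) (J : ℕ) (β ρ : ℝ) {ι : Type*} (y y' : ι → E n)
    {G G' : Finset ι} {c c' : ι} (hc : c ∈ G) (hc' : c' ∈ G') (h : ‖y c‖ ≤ ρ) (h' : ‖y' c'‖ ≤ ρ) :
    ∑ ω ∈ grp n k J β y G ∩ grp n k J β y' G', pr n k J β ρ ω
      ≤ Real.exp (-(β ^ 2 / 8 * ‖y c - y' c'‖ ^ 2)) := by
  have hsub : grp n k J β y G ∩ grp n k J β y' G'
      ⊆ cutset n k J β ((1 / 2 : ℝ) • (y c + y' c')) := by
    intro ω hω
    simp only [grp, cutset, mem_inter, mem_filter, mem_univ, true_and] at hω ⊢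
    have h1 := hω.1 c hc
    have h2 := hω.2 c' hc'
    rw [inner_smul_right, inner_add_right]
    linarith
  refine (sum_le_sum_of_subset_of_nonneg hsub fun ω _ _ => (pr_pos _ _ _ _ _ _).le).trans ?_
  refine (cut_upper hk J β ρ _).trans ?_
  have h1 : ‖y c‖ ^ 2 ≤ ρ ^ 2 := pow_le_pow_left₀ (norm_nonneg _) h 2
  have h2 : ‖y' c'‖ ^ 2 ≤ ρ ^ 2 := pow_le_pow_left₀ (norm_nonneg _) h' 2
  have h3 := parallelogram_law_with_norm ℝ (y c) (y' c')
  have h4 : ‖(1 / 2 : ℝ) • (y c + y' c')‖ ^ 2 = ‖y c + y' c'‖ ^ 2 / 4 := by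
    rw [norm_smul, mul_pow]; norm_num; ring
  have h5 : Real.exp (-(β ^ 2 * ρ ^ 2 / 2))
      * Real.exp (β ^ 2 * ‖(1 / 2 : ℝ) • (y c + y' c')‖ ^ 2 / 2)
      ≤ Real.exp (-(β ^ 2 / 8 * ‖y c - y' c'‖ ^ 2)) := by
    rw [← Real.exp_add, Real.exp_le_exp, h4]
    have h6 : ‖y c + y' c'‖ ^ 2 + ‖y c - y' c'‖ ^ 2 ≤ 4 * ρ ^ 2 := by nlinarith
    nlinarith [mul_le_mul_of_nonneg_left h6 (sq_nonneg β)]
  unfold kap
  linarith [Real.exp_pos (-(β ^ 2 / 8 * ‖y c - y' c'‖ ^ 2))]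

lemma grp_lower {n k : ℕ} (hk : 0 < k) (J : ℕ) (β ρ : ℝ) (hβ : 0 ≤ β) {ι : Type*} (y : ι → E n)
    {G : Finset ι} {c : ι} (hc : c ∈ G) (hy : ∀ j ∈ G, ‖y j‖ ≤ ρ)
    (hJ : β * ρ * √(n * k) + 2 ≤ J) (hk4 : (β * ρ) ^ 4 ≤ 8 * k) (r2 fm : ℝ)
    (hr : ∀ j ∈ G, β ^ 2 * ‖y c - y j‖ ^ 2 ≤ r2)
    (hf : ∀ j ∈ G, β ^ 2 * (ρ ^ 2 - ‖y j‖ ^ 2) / 2 ≤ fm) :
    1 ≤ 16 * G.card * Real.exp (4 + r2 + fm) * ∑ ω ∈ grp n k J β y G, pr n k J β ρ ω := by
  have hκ := kap_pos β ρ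
  have hcard := card_Sg_pos n k
  have hG : G.Nonempty := ⟨c, hc⟩
  have hρ : 0 ≤ ρ := (norm_nonneg _).trans (hy c hc)
  let m : Sg n k → ℝ := fun e => G.inf' hG fun j => β * ⟪vec e, y j⟫
  have hm1 : ∀ e, ∀ j ∈ G, m e ≤ β * ⟪vec e, y j⟫ := fun e j hj => inf'_le _ hj
  have hm2 : ∀ e, ∃ j ∈ G, m e = β * ⟪vec e, y j⟫ := fun e => exists_mem_eq_inf' hG _
  have hm3 : ∀ e, |m e| ≤ J - 2 := by
    intro e
    obtain ⟨j, hj, h⟩ := hm2 e
    rw [h, abs_mul, abs_of_nonneg hβ]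
    have h1 := abs_real_inner_le_norm (vec e) (y j)
    have h2 := mul_le_mul (norm_vec_le hk e) (hy j hj) (norm_nonneg _) (Real.sqrt_nonneg _)
    have h3 := mul_le_mul_of_nonneg_left (h1.trans h2) hβ
    linarith
  have hmc : ‖β • y c‖ ≤ β * ρ := by
    rw [norm_smul, Real.norm_eq_abs, abs_of_nonneg hβ]
    exact mul_le_mul_of_nonneg_left (hy c hc) hβ
  -- one level for each direction
  have h1 : ∀ e : Sg n k, kap β ρ / Fintype.card (Sg n k) * Real.exp (m e - 2) ≤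
      ∑ j : Fin (2 * J + 1), (if (e, j) ∈ grp n k J β y G then pr n k J β ρ (e, j) else 0) := by
    intro e
    obtain ⟨ha, hb⟩ := abs_le.1 (hm3 e)
    have hj0 : ⌈m e + J - 2⌉₊ < 2 * J + 1 := by
      rw [Nat.lt_succ_iff, Nat.ceil_le]; push_cast; linarith
    let j0 : Fin (2 * J + 1) := ⟨_, hj0⟩
    have hl1 : m e - 2 ≤ lev j0 := by
      have := Nat.le_ceil (m e + J - 2)
      simp only [lev, j0]; linarith
    have hl2 : lev j0 + 1 < m e := by
      have := Nat.ceil_lt_add_one (a := m e + J - 2) (by linarith)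
      simp only [lev, j0]; linarith
    have hmem : (e, j0) ∈ grp n k J β y G := by
      simp only [grp, mem_filter, mem_univ, true_and]
      exact fun j hj => hl2.trans_le (hm1 e j hj)
    refine le_trans ?_ (single_le_sum (f := fun j => if (e, j) ∈ grp n k J β y G
      then pr n k J β ρ (e, j) else 0) (fun j _ => by
        split_ifs
        · exact (pr_pos _ _ _ _ _ _).le
        · exact le_rfl) (mem_univ j0))
    simp only [hmem, if_true, pr]
    refine le_min ?_ ?_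
    · have h2 : Real.exp (m e - 2) ≤ Real.exp ⟪vec e, β • y c⟫ := by
        rw [inner_smul_right]; exact Real.exp_le_exp.2 (by linarith [hm1 e c hc])
      have h3 : Real.exp ⟪vec e, β • y c⟫ ≤ ∑ e : Sg n k, Real.exp ⟪vec e, β • y c⟫ :=
        single_le_sum (f := fun e : Sg n k => Real.exp ⟪vec e, β • y c⟫)
          (fun _ _ => (Real.exp_pos _).le) (mem_univ e)
      have h4 := mgf_upper hk (β • y c)
      have h5 : Real.exp (‖β • y c‖ ^ 2 / 2) ≤ Real.exp (β ^ 2 * ρ ^ 2 / 2) := by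
        refine Real.exp_le_exp.2 ?_
        have := pow_le_pow_left₀ (norm_nonneg _) hmc 2
        linarith [mul_pow β ρ 2]
      have h6 := (h2.trans h3).trans (h4.trans (mul_le_mul_of_nonneg_left h5 hcard.le))
      refine (mul_le_mul_of_nonneg_left h6 (by positivity)).trans ?_
      have : kap β ρ / Fintype.card (Sg n k) * (Fintype.card (Sg n k)
          * Real.exp (β ^ 2 * ρ ^ 2 / 2)) = 1 / 16 := by
        unfold kap; rw [Real.exp_neg]; field_simp
      rw [this]; norm_num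
    · have := Real.exp_le_exp.2 hl1
      calc _ ≤ kap β ρ / Fintype.card (Sg n k) * Real.exp (lev j0) :=
            mul_le_mul_of_nonneg_left this (by positivity)
        _ = _ := by ring
  have h2 : kap β ρ / Fintype.card (Sg n k) * Real.exp (-2) * ∑ e, Real.exp (m e) ≤
      ∑ ω ∈ grp n k J β y G, pr n k J β ρ ω := by
    rw [← univ_inter (grp n k J β y G), ← filter_mem_eq_inter, sum_filter, Fintype.sum_prod_type,
      mul_sum]
    refine sum_le_sum fun e _ => le_trans (le_of_eq ?_) (h1 e)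
    rw [mul_assoc, ← Real.exp_add]; congr 2; ring
  -- Cauchy-Schwarz
  have h3 : (∑ e : Sg n k, Real.exp ⟪vec e, β • y c⟫) ^ 2 ≤ (∑ e, Real.exp (m e)) *
      ∑ e : Sg n k, ∑ j ∈ G, Real.exp ⟪vec e, β • ((2 : ℝ) • y c - y j)⟫ := by
    refine sum_sq_le_sum_mul_sum_of_sq_le_mul _ (fun _ _ => (Real.exp_pos _).le)
      (fun _ _ => sum_nonneg fun _ _ => (Real.exp_pos _).le) fun e _ => ?_
    obtain ⟨j, hj, h⟩ := hm2 e
    have h4 := single_le_sum (f := fun j => Real.exp ⟪vec e, β • ((2 : ℝ) • y c - y j)⟫)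
      (fun _ _ => (Real.exp_pos _).le) hj
    refine le_trans (le_of_eq ?_) (mul_le_mul_of_nonneg_left h4 (Real.exp_pos _).le)
    rw [← Real.exp_add, sq, ← Real.exp_add, h]
    simp only [inner_smul_right, inner_sub_right]
    congr 1; ring
  have h4 : ∑ e : Sg n k, ∑ j ∈ G, Real.exp ⟪vec e, β • ((2 : ℝ) • y c - y j)⟫ ≤
      G.card * (Fintype.card (Sg n k)
        * Real.exp (β ^ 2 * ‖y c‖ ^ 2 + r2 + fm - β ^ 2 * ρ ^ 2 / 2)) := by
    rw [sum_comm, ← nsmul_eq_mul, ← sum_const]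
    refine sum_le_sum fun j hj => (mgf_upper hk _).trans ?_
    refine mul_le_mul_of_nonneg_left (Real.exp_le_exp.2 ?_) hcard.le
    have h5 := parallelogram_law_with_norm ℝ (y c) (y c - y j)
    have h6 : y c + (y c - y j) = (2 : ℝ) • y c - y j := by rw [two_smul]; abel
    rw [h6, sub_sub_cancel] at h5
    rw [norm_smul, mul_pow, Real.norm_eq_abs, sq_abs]
    have h7 : ‖(2 : ℝ) • y c - y j‖ ^ 2 = 2 * ‖y c‖ ^ 2 + 2 * ‖y c - y j‖ ^ 2 - ‖y j‖ ^ 2 := by
      linarith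
    rw [h7]
    linarith [hr j hj, hf j hj]
  have h5 := mgf_lower hk (β • y c) ((pow_le_pow_left₀ (norm_nonneg _) hmc 4).trans hk4)
  rw [norm_smul, mul_pow, Real.norm_eq_abs, sq_abs] at h5
  have h6 := pow_le_pow_left₀ (by positivity) h5 2
  have hS : 0 ≤ ∑ e, Real.exp (m e) := sum_nonneg fun _ _ => (Real.exp_pos _).le
  have h7 := h6.trans (h3.trans (mul_le_mul_of_nonneg_left h4 hS))
  refine le_trans ?_ (mul_le_mul_of_nonneg_left h2 (by positivity))
  set S := ∑ e, Real.exp (m e)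
  set N : ℝ := (Fintype.card (Sg n k) : ℝ)
  have e1 : (N * Real.exp (β ^ 2 * ‖y c‖ ^ 2 / 2 - 1)) ^ 2
      = N * Real.exp (β ^ 2 * ‖y c‖ ^ 2 - 2) * N := by
    rw [mul_pow, sq (Real.exp _), ← Real.exp_add]; ring_nf
  have e2 : S * (G.card * (N * Real.exp (β ^ 2 * ‖y c‖ ^ 2 + r2 + fm - β ^ 2 * ρ ^ 2 / 2)))
      = N * Real.exp (β ^ 2 * ‖y c‖ ^ 2 - 2) * (N * (16 * G.card * Real.exp (4 + r2 + fm)
        * (kap β ρ / N * Real.exp (-2) * S))) := by
    have e3 : Real.exp (β ^ 2 * ‖y c‖ ^ 2 + r2 + fm - β ^ 2 * ρ ^ 2 / 2)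
        = Real.exp (β ^ 2 * ‖y c‖ ^ 2 - 2) * Real.exp (4 + r2 + fm) *
          Real.exp (-(β ^ 2 * ρ ^ 2 / 2)) * Real.exp (-2) := by
      simp only [← Real.exp_add]; congr 1; ring
    rw [e3]; unfold kap; field_simp
  rw [e1, e2] at h7
  have h8 := le_of_mul_le_mul_left h7 (by positivity)
  have h9 : N * 1 ≤ N * (16 * G.card * Real.exp (4 + r2 + fm)
        * (kap β ρ / N * Real.exp (-2) * S)) := by linarith
  exact le_of_mul_le_mul_left h9 hcard

end

end Vale.Agent.P230
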