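import Vale.Agent.P230.Defs

/-! Separated sets and nets in Euclidean balls. -/

namespace Vale.Agent.P230

open Finset MeasureTheory Metric
open scoped ENNReal Function

noncomputable section

/-- pairwise distances at least `ε` -/
def Sep {n : ℕ} (ε : ℝ) (F : Finset (E n)) : Prop := ∀ x ∈ F, ∀ y ∈ F, x ≠ y → ε ≤ ‖x - y‖

lemma Sep.mono {n : ℕ} {ε : ℝ} {F G : Finset (E n)} (h : Sep ε F) (hG : G ⊆ F) : Sep ε G :=
  fun x hx y hy => h x (hG hx) y (hG hy)

lemma card_le_of_sep {n : ℕ} {ε r : ℝ} (hε : 0 < ε) (hr : 0 ≤ r) (c : E n) (F : Finset (E n))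
    (hF : Sep ε F) (hc : ∀ x ∈ F, ‖x - c‖ ≤ r) : (F.card : ℝ) ≤ (2 * r / ε + 1) ^ n := by
  have hδ : 0 < ε / 2 := by positivity
  have hρ : 0 < r + ε / 2 := by positivity
  have D : Set.Pairwise (F : Set (E n)) (Disjoint on fun x => ball x (ε / 2)) := by
    rintro x hx y hy hxy
    apply ball_disjoint_ball
    rw [dist_eq_norm]
    linarith [hF x hx y hy hxy]
  have A_subset : (⋃ x ∈ F, ball x (ε / 2)) ⊆ ball c (r + ε / 2) := by
    refine Set.iUnion₂_subset fun x hx => ?_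
    apply ball_subset_ball'
    rw [dist_eq_norm]
    linarith [hc x hx]
  have I : (F.card : ℝ≥0∞) * ENNReal.ofReal ((ε / 2) ^ n) * volume (ball (0 : E n) 1) ≤
      ENNReal.ofReal ((r + ε / 2) ^ n) * volume (ball (0 : E n) 1) :=
    calc
      _ = volume (⋃ x ∈ F, ball x (ε / 2)) := by
        rw [measure_biUnion_finset D fun c _ => measurableSet_ball]
        simp only [Measure.addHaar_ball_of_pos _ _ hδ]
        simp only [Finset.sum_const, nsmul_eq_mul, mul_assoc, finrank_euclideanSpace,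
          Fintype.card_fin]
      _ ≤ volume (ball c (r + ε / 2)) := measure_mono A_subset
      _ = _ := by
        simp only [Measure.addHaar_ball_of_pos _ _ hρ, finrank_euclideanSpace, Fintype.card_fin]
  have J : (F.card : ℝ≥0∞) * ENNReal.ofReal ((ε / 2) ^ n) ≤ ENNReal.ofReal ((r + ε / 2) ^ n) :=
    (ENNReal.mul_le_mul_iff_left (measure_ball_pos _ _ zero_lt_one).ne' measure_ball_lt_top.ne).1 I
  have K := ENNReal.toReal_le_of_le_ofReal (pow_nonneg hρ.le _) J
  rw [ENNReal.toReal_mul, ENNReal.toReal_natCast, ENNReal.toReal_ofReal (by positivity),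
    ← le_div_iff₀ (by positivity), ← div_pow] at K
  have e : (r + ε / 2) / (ε / 2) = 2 * r / ε + 1 := by field_simp
  rwa [e] at K

lemma exists_net (n : ℕ) {ε R : ℝ} (hε : 0 < ε) (hR : 0 ≤ R) :
    ∃ F : Finset (E n), Sep ε F ∧ (∀ x ∈ F, ‖x‖ ≤ R) ∧
      ∀ x : E n, ‖x‖ ≤ R → ∃ y ∈ F, ‖x - y‖ ≤ ε := by
  classical
  let Q : ℕ → Prop := fun m => ∃ F : Finset (E n), Sep ε F ∧ (∀ x ∈ F, ‖x‖ ≤ R) ∧ F.card = m
  let B := ⌈(2 * R / ε + 1) ^ n⌉₊
  have hB : ∀ m, Q m → m ≤ B := by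
    rintro m ⟨F, h1, h2, rfl⟩
    have := card_le_of_sep hε hR 0 F h1 (by simpa using h2)
    exact_mod_cast this.trans (Nat.le_ceil _)
  have hQ : Q (Nat.findGreatest Q B) :=
    Nat.findGreatest_spec (Nat.zero_le B) ⟨∅, by simp [Sep], by simp, rfl⟩
  obtain ⟨F, h1, h2, h3⟩ := hQ
  refine ⟨F, h1, h2, fun x hx => ?_⟩
  by_contra hc
  push Not at hc
  have hxF : x ∉ F := fun h => by simpa using (hε.trans (hc x h))
  have hQ' : Q (Nat.findGreatest Q B + 1) := by
    refine ⟨insert x F, ?_, ?_, by rw [card_insert_of_notMem hxF, h3]⟩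
    · intro a ha b hb hab
      rcases mem_insert.1 ha with rfl | ha' <;> rcases mem_insert.1 hb with rfl | hb'
      · exact absurd rfl hab
      · exact (hc b hb').le
      · rw [norm_sub_rev]; exact (hc a ha').le
      · exact h1 a ha' b hb' hab
    · intro a ha
      rcases mem_insert.1 ha with rfl | ha'
      · exact hx
      · exact h2 a ha'
  exact Nat.findGreatest_is_greatest (Nat.lt_succ_self _) (hB _ hQ') hQ'

lemma le_card_of_cover {n : ℕ} {ε : ℝ} (hε : 0 < ε) (F : Finset (E n))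
    (h : ∀ x : E n, ‖x‖ ≤ 1 → ∃ y ∈ F, ‖x - y‖ ≤ ε) : 1 ≤ F.card * ε ^ n := by
  have hsub : closedBall (0 : E n) 1 ⊆ ⋃ y ∈ F, closedBall y ε := by
    intro x hx
    obtain ⟨y, hy, hxy⟩ := h x (by simpa using hx)
    exact Set.mem_iUnion₂.2 ⟨y, hy, by rwa [mem_closedBall, dist_eq_norm]⟩
  have h1 := (measure_mono (μ := volume) hsub).trans (measure_biUnion_finset_le _ _)
  simp only [Measure.addHaar_closedBall _ _ hε.le, Measure.addHaar_closedBall _ _ zero_le_one,
    finrank_euclideanSpace, Fintype.card_fin, sum_const, nsmul_eq_mul, ← mul_assoc] at h1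
  have h2 := (ENNReal.mul_le_mul_iff_left (measure_ball_pos _ _ zero_lt_one).ne'
    measure_ball_lt_top.ne).1 h1
  rw [← ENNReal.ofReal_natCast, ← ENNReal.ofReal_mul (by positivity),
    ENNReal.ofReal_le_ofReal_iff (by positivity)] at h2
  simpa using h2

end

end Vale.Agent.P230
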