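import Vale.Agent.P230.Hitting
import Vale.Agent.P230.Cluster
import Vale.Agent.P230.Levels
import Vale.Agent.P230.Net

/-! One fixed local configuration of translates is unlikely to cover all test points. -/

namespace Vale.Agent.P230

open Finset
open scoped RealInnerProductSpace

noncomputable section

def bb : ℝ := 24576

def BB (A : ℝ) : ℝ := Real.exp ((16 + 2 * bb) * A)

def LL (A : ℝ) (s1 : ℕ) : ℝ := 16 * A * Real.exp (4 + 32 * s1 + 2 * bb * Real.log A)

def XX (n : ℕ) (A M N : ℝ) (s1 : ℕ) : ℝ :=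
  A * M * 3 ^ n * BB A ^ 3 + 6 * LL A s1 ^ 2 * A * M * N * (1 / 8) ^ n

lemma gauss_sum_le {n : ℕ} {ε : ℝ} (hε : 0 < ε) (hε' : ε ≤ 1 / 16) (Γ : Finset (E n))
    (hΓ : Sep ε Γ) (hΓ' : 1 ≤ Γ.card * ε ^ n) (c : E n) :
    ∑ g ∈ Γ, Real.exp (-(bb * n / 8 * ‖c - g‖ ^ 2)) ≤ 2 * Γ.card * (1 / 8) ^ n := by
  classical
  have h1 : ∀ g ∈ Γ, Real.exp (-(bb * n / 8 * ‖c - g‖ ^ 2))
      ≤ (if ‖g - c‖ ≤ 1 / 32 then 1 else 0) + (1 / 8) ^ n := by
    intro g _
    split_ifs with h
    · have : Real.exp (-(bb * n / 8 * ‖c - g‖ ^ 2)) ≤ 1 := by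
        rw [Real.exp_le_one_iff, neg_nonpos]; unfold bb; positivity
      have : (0 : ℝ) ≤ (1 / 8) ^ n := by positivity
      linarith
    · rw [zero_add, norm_sub_rev]
      have h2 : (1 / 32 : ℝ) ^ 2 ≤ ‖g - c‖ ^ 2 := pow_le_pow_left₀ (by norm_num) (not_le.1 h).le 2
      calc _ ≤ Real.exp (n * (-3)) := by
            refine Real.exp_le_exp.2 ?_
            have := mul_le_mul_of_nonneg_left h2 (by positivity : (0 : ℝ) ≤ 3072 * n)
            unfold bb; linarith
        _ = Real.exp (-3) ^ n := Real.exp_nat_mul _ _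
        _ ≤ _ := by
            refine pow_le_pow_left₀ (Real.exp_pos _).le ?_ _
            rw [Real.exp_neg, one_div]
            refine inv_anti₀ (by norm_num) ?_
            have h3 : Real.exp 3 = Real.exp 1 ^ 3 := by rw [← Real.exp_nat_mul]; norm_num
            have h4 : (2 : ℝ) ^ 3 ≤ Real.exp 1 ^ 3 :=
              pow_le_pow_left₀ (by norm_num) (by linarith [Real.add_one_le_exp 1]) 3
            linarith
  refine (sum_le_sum h1).trans ?_
  rw [sum_add_distrib, sum_const, nsmul_eq_mul, ← sum_filter, sum_const, nsmul_eq_mul, mul_one]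
  have h2 := card_le_of_sep hε (by norm_num : (0 : ℝ) ≤ 1 / 32) c _
    (hΓ.mono (filter_subset (fun g => ‖g - c‖ ≤ 1 / 32) Γ)) fun x hx => (mem_filter.1 hx).2
  have h3 : (2 * (1 / 32) / ε + 1) ^ n ≤ Γ.card * (1 / 8) ^ n := by
    calc (2 * (1 / 32) / ε + 1) ^ n ≤ (Γ.card * ε ^ n) * (2 * (1 / 32) / ε + 1) ^ n :=
          le_mul_of_one_le_left (by positivity) hΓ'
      _ = Γ.card * (1 / 16 + ε) ^ n := by
          rw [mul_assoc, ← mul_pow]; congr 2; field_simp; ring
      _ ≤ _ := mul_le_mul_of_nonneg_left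
          (pow_le_pow_left₀ (by positivity) (by linarith) _) (by positivity)
  linarith

set_option maxHeartbeats 1000000 in
theorem one_config {n k : ℕ} (hk : 0 < k) (J : ℕ) (β ρ : ℝ) (hβ : 0 ≤ β) (hβ2 : β ^ 2 = bb * n)
    (hJ : β * ρ * √(n * k) + 2 ≤ J) (hk4 : (β * ρ) ^ 4 ≤ 8 * k)
    {ι : Type*} [Fintype ι] [DecidableEq ι] (pos : ι → E n) (Y : Finset ι)
    (A M : ℝ) (hA : 1 ≤ A) (hM : 1 ≤ M) (hY : (Y.card : ℝ) ≤ M) (s1 : ℕ)
    (hs1 : A * Real.exp (-(s1 : ℝ)) ≤ 1)
    {ε : ℝ} (hε : 0 < ε) (hε' : ε ≤ 1 / 16) (Γ : Finset (E n))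
    (hΓ : Sep ε Γ) (hΓ' : 1 ≤ Γ.card * ε ^ n)
    (hnear : LL A s1 ^ 2 * (A * A * Real.exp (-(bb * n / 8 * ε ^ 2))) ≤ 1)
    (P : Finset (E n)) (hP : P ⊆ Γ) (hP2 : (Γ.card : ℝ) ≤ 2 * P.card)
    (hcost : ∀ g ∈ P, ∑ x ∈ Y with ‖g - pos x‖ ≤ ρ,
      Real.exp (n * (ρ ^ 2 - ‖g - pos x‖ ^ 2) / 4) ≤ A) :
    Pr univ (pr n k J β ρ) (fun S => ∀ g ∈ P, ∃ x ∈ Y, ‖g - pos x‖ ≤ ρ ∧
      ∀ ω ∈ S, ¬ lev ω.2 + 1 < β * ⟪vec ω.1, g - pos x⟫)
      ≤ Real.exp (-(Γ.card / (8 * XX n A M Γ.card s1))) := by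
  classical
  have hbb : 0 < bb := by unfold bb; norm_num
  have hw : Valid (pr n k J β ρ) := fun ω => ⟨(pr_pos _ _ _ _ _ _).le, pr_le_one _ _ _ _ _ _⟩
  let JJ : E n → Finset ι := fun g => Y.filter fun x => ‖g - pos x‖ ≤ ρ
  let τ : ι → ι → ℝ := fun i j => bb * n / 8 * ‖pos i - pos j‖ ^ 2
  choose I G s h1 h2 h3 h4 h5 using fun g => exists_clusters τ (by simp [τ]) (4 * s1) (JJ g)
  let y : E n → ι → E n := fun g x => g - pos x
  let t : E n → ι → ℝ := fun g x => n * (ρ ^ 2 - ‖g - pos x‖ ^ 2)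
  have ht0 : ∀ g, ∀ x ∈ JJ g, 0 ≤ t g x := fun g x hx =>
    mul_nonneg (by positivity) (sub_nonneg.2
      (pow_le_pow_left₀ (norm_nonneg _) (mem_filter.1 hx).2 2))
  have ht1 : ∀ g ∈ P, ∀ x ∈ JJ g, t g x ≤ 4 * Real.log A := fun g hg x hx => by
    have h := (single_le_sum (f := fun x => Real.exp (t g x / 4))
      (fun _ _ => (Real.exp_pos _).le) hx).trans (hcost g hg)
    have := (Real.le_log_iff_exp_le (by linarith)).2 h
    linarith
  have hJA : ∀ g ∈ P, ((JJ g).card : ℝ) ≤ A := fun g hg => by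
    refine le_trans ?_ (hcost g hg)
    rw [card_eq_sum_ones, Nat.cast_sum]
    exact sum_le_sum fun x hx => by
      rw [Nat.cast_one]; exact Real.one_le_exp (by linarith [ht0 g x hx])
  have hIA : ∀ g ∈ P, ((I g).card : ℝ) ≤ A := fun g hg =>
    le_trans (by exact_mod_cast card_le_card (h1 g)) (hJA g hg)
  let fm : E n → ι → ℝ := fun g i => min (2 * bb * Real.log A) (∑ j ∈ G g i, bb / 2 * t g j)
  let L : E n → ι → ℝ := fun g i => 16 * (G g i).card * Real.exp (4 + 8 * s g i + fm g i)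
  have hlogA : 0 ≤ Real.log A := Real.log_nonneg hA
  have hfm0 : ∀ g, ∀ i ∈ I g, 0 ≤ fm g i := fun g i hi =>
    le_min (by positivity) (sum_nonneg fun j hj =>
      mul_nonneg (by positivity) (ht0 g j ((h2 g i hi).2.1 hj)))
  have hG1 : ∀ g, ∀ i ∈ I g, (1 : ℝ) ≤ (G g i).card := fun g i hi => by
    exact_mod_cast card_pos.2 ⟨i, (h2 g i hi).1⟩
  have hB1 : 1 ≤ BB A := Real.one_le_exp (by positivity)
  have hXX : 0 < XX n A M Γ.card s1 := by
    unfold XX
    have : 0 < A * M * 3 ^ n * BB A ^ 3 := by positivity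
    have : 0 ≤ 6 * LL A s1 ^ 2 * A * M * Γ.card * (1 / 8) ^ n := by positivity
    linarith
  have main := hitting (ι := ι) (pr n k J β ρ) (pr_pos n k J β ρ) (pr_le_one n k J β ρ)
    (fun _ => true, 0) P I (fun g i => grp n k J β (y g) (G g i)) L ?_ ?_
    (fun g i g' j => Real.exp (-(bb * n / 8 * ‖y g i - y g' j‖ ^ 2)))
    (fun _ _ _ _ => (Real.exp_pos _).le) ?_ 19 (by norm_num) ?_ (BB A) (LL A s1) ?_ ?_ ?_
    (XX n A M Γ.card s1) hXX ?_ ?_
  · refine le_trans (Pr_mono hw fun S _ hS g hg => ?_) (main.trans (Real.exp_le_exp.2 ?_))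
    · obtain ⟨x, hx, hx1, hx2⟩ := hS g hg
      obtain ⟨i, hi, hxi⟩ := h3 g x (mem_filter.2 ⟨hx, hx1⟩)
      refine ⟨i, hi, disjoint_left.2 fun ω hω hωS => hx2 ω hωS ?_⟩
      simp only [grp, mem_filter, mem_univ, true_and] at hω
      exact hω x hxi
    · rw [neg_le_neg_iff, div_le_div_iff₀ (by positivity) (by positivity)]
      nlinarith
  · intro g _ i hi
    have := hG1 g i hi
    have h := Real.one_le_exp (x := 4 + 8 * s g i + fm g i) (by have := hfm0 g i hi; positivity)
    simp only [L]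
    nlinarith
  · intro g hg i hi
    obtain ⟨a1, a2, -, -, a5⟩ := h2 g i hi
    refine grp_lower hk J β ρ hβ (y g) a1 (fun j hj => (mem_filter.1 (a2 hj)).2) hJ hk4 _ _
      (fun j hj => ?_) fun j hj => le_min ?_ ?_
    · have := a5 j hj
      have e : y g i - y g j = -(pos i - pos j) := by simp only [y]; abel
      rw [e, norm_neg, hβ2]
      simp only [τ] at this
      linarith
    · have := mul_le_mul_of_nonneg_left (ht1 g hg j (a2 hj)) hbb.le
      rw [hβ2]
      simp only [t, y] at this ⊢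
      linarith
    · refine le_trans (le_of_eq ?_) (single_le_sum (f := fun j => bb / 2 * t g j)
        (fun j hj => mul_nonneg (by positivity) (ht0 g j (a2 hj))) hj)
      rw [hβ2]; simp only [t, y]; ring
  · intro g _ i hi g' _ j hj
    have := grp_inter hk J β ρ (y g) (y g') (h2 g i hi).1 (h2 g' j hj).1
      (mem_filter.1 (h1 g hi)).2 (mem_filter.1 (h1 g' hj)).2
    rwa [hβ2] at this
  · intro g _ i _ g' hg'
    have := sum_exp_le (I g') (fun j => bb * n / 8 * ‖y g i - y g' j‖ ^ 2) s1 ?_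
      (fun j => by positivity)
    · have h6 := mul_le_mul_of_nonneg_right (hIA g' hg') (Real.exp_pos (-(s1 : ℝ))).le
      linarith
    · intro u hu
      have := h5 g' _ (filter_subset (fun j => bb * n / 8 * ‖y g i - y g' j‖ ^ 2 ≤ u) (I g'))
        (4 * u) (by omega) ?_
      · exact_mod_cast this
      · intro a ha b hb
        have ha' := (mem_filter.1 ha).2
        have hb' := (mem_filter.1 hb).2
        have e : pos a - pos b = (y g i - y g' a) - (y g i - y g' b) := by simp only [y]; abel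
        have e2 := parallelogram_law_with_norm ℝ (y g i - y g' a) (y g i - y g' b)
        have e3 : ‖pos a - pos b‖ ^ 2 ≤ 2 * ‖y g i - y g' a‖ ^ 2 + 2 * ‖y g i - y g' b‖ ^ 2 := by
          rw [e]; nlinarith [sq_nonneg ‖y g i - y g' a + (y g i - y g' b)‖]
        have e4 := mul_le_mul_of_nonneg_left e3 (by positivity : 0 ≤ bb * n / 8)
        simp only [τ]
        push_cast
        linarith
  · intro g hg
    calc (1 + 19 : ℝ) ^ (I g).card ≤ Real.exp 3 ^ (I g).card := by
          refine pow_le_pow_left₀ (by norm_num) ?_ _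
          have h3 : Real.exp 3 = Real.exp 1 ^ 3 := by rw [← Real.exp_nat_mul]; norm_num
          have h4 : (2.718 : ℝ) ^ 3 ≤ Real.exp 1 ^ 3 :=
            pow_le_pow_left₀ (by norm_num) (by linarith [Real.exp_one_gt_d9]) 3
          rw [h3]; refine le_trans (by norm_num) h4
      _ = Real.exp ((I g).card * 3) := (Real.exp_nat_mul _ _).symm
      _ ≤ BB A := Real.exp_le_exp.2 (by nlinarith [hIA g hg])
  · intro g hg
    let φ : ι → ℝ := fun j => max 0 (16 + bb / 2 * t g j)
    calc ∏ i ∈ I g, L g i ≤ ∏ i ∈ I g, Real.exp (∑ j ∈ G g i, φ j) := by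
          refine prod_le_prod (fun i _ => by positivity) fun i hi => ?_
          obtain ⟨-, a2, -, a4, -⟩ := h2 g i hi
          have a5 : ((s g i : ℕ) : ℝ) ≤ (G g i).card := by exact_mod_cast a4
          have a6 : ∑ j ∈ G g i, (16 + bb / 2 * t g j) ≤ ∑ j ∈ G g i, φ j :=
            sum_le_sum fun j _ => le_max_right _ _
          rw [sum_add_distrib, sum_const, nsmul_eq_mul] at a6
          have a7 : fm g i ≤ ∑ j ∈ G g i, bb / 2 * t g j := min_le_right _ _
          have a8 : (16 : ℝ) ≤ Real.exp 3 := by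
            have h3 : Real.exp 3 = Real.exp 1 ^ 3 := by rw [← Real.exp_nat_mul]; norm_num
            have h4 : (2.718 : ℝ) ^ 3 ≤ Real.exp 1 ^ 3 :=
              pow_le_pow_left₀ (by norm_num) (by linarith [Real.exp_one_gt_d9]) 3
            rw [h3]; refine le_trans (by norm_num) h4
          have a9 : ((G g i).card : ℝ) ≤ Real.exp (G g i).card := by
            linarith [Real.add_one_le_exp ((G g i).card : ℝ)]
          have a10 := hG1 g i hi
          calc L g i ≤ Real.exp 3 * Real.exp (G g i).card * Real.exp (4 + 8 * s g i + fm g i) :=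
                mul_le_mul_of_nonneg_right (mul_le_mul a8 a9 (by positivity) (by positivity))
                  (by positivity)
            _ = Real.exp (3 + (G g i).card + (4 + 8 * s g i + fm g i)) := by
                rw [← Real.exp_add, ← Real.exp_add]
            _ ≤ _ := Real.exp_le_exp.2 (by linarith)
      _ = Real.exp (∑ i ∈ I g, ∑ j ∈ G g i, φ j) := (Real.exp_sum _ _).symm
      _ ≤ BB A := by
          refine Real.exp_le_exp.2 ((h4 g φ fun j => le_max_left _ _).trans ?_)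
          refine le_trans ?_ (mul_le_mul_of_nonneg_left (hcost g hg) (by positivity))
          rw [mul_sum]
          refine sum_le_sum fun j hj => max_le (by positivity) ?_
          have a1 := Real.add_one_le_exp (t g j / 4)
          have a2 := ht0 g j hj
          have a3 := mul_le_mul_of_nonneg_left a1 (by positivity : 0 ≤ 16 + 2 * bb)
          simp only [t] at a1 a2 a3 ⊢
          nlinarith
  · intro g hg i hi
    obtain ⟨-, a2, a3, -, -⟩ := h2 g i hi
    have a5 : ((s g i : ℕ) : ℝ) ≤ 4 * s1 := by exact_mod_cast a3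
    have a6 : ((G g i).card : ℝ) ≤ A := le_trans (by exact_mod_cast card_le_card a2) (hJA g hg)
    have a7 : fm g i ≤ 2 * bb * Real.log A := min_le_left _ _
    exact mul_le_mul (by linarith) (Real.exp_le_exp.2 (by linarith)) (by positivity)
      (by positivity)
  · unfold XX
    have a1 : (1 : ℝ) ≤ 3 ^ n := one_le_pow₀ (by norm_num)
    have a2 : BB A ≤ BB A ^ 3 := le_self_pow₀ hB1 (by norm_num)
    have a3 : 1 ≤ A * M * 3 ^ n := one_le_mul_of_one_le_of_one_le
      (one_le_mul_of_one_le_of_one_le hA hM) a1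
    have a4 := le_mul_of_one_le_left (by positivity : 0 ≤ BB A ^ 3) a3
    have : 0 ≤ 6 * LL A s1 ^ 2 * A * M * Γ.card * (1 / 8) ^ n := by positivity
    linarith
  · intro g hg
    rw [sum_add_distrib, ← sum_mul, ← mul_sum, ← mul_sum]
    let c : ι → ι → E n := fun i j => g - pos i + pos j
    have hc : ∀ i j g', y g i - y g' j = c i j - g' := fun i j g' => by simp only [y, c]; abel
    have hIY : ∀ g', I g' ⊆ Y := fun g' => (h1 g').trans (filter_subset _ _)
    have n1 : ∑ g' ∈ P, ind (1 < LL A s1 ^ 2 * ∑ i ∈ I g, ∑ j ∈ I g',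
        Real.exp (-(bb * n / 8 * ‖y g i - y g' j‖ ^ 2))) ≤ A * M * 3 ^ n := by
      calc _ ≤ ∑ g' ∈ P, ∑ i ∈ I g, ∑ j ∈ Y, ind (‖g' - c i j‖ ≤ ε) := by
            refine sum_le_sum fun g' hg' => ?_
            refine le_trans (ind_mono (B := ∃ i ∈ I g, ∃ j ∈ Y, ‖g' - c i j‖ ≤ ε) ?_)
              ((ind_exists_le _ _).trans (sum_le_sum fun i _ => ind_exists_le _ _))
            intro hn
            by_contra hcon
            push Not at hcon
            have a1 : ∑ i ∈ I g, ∑ j ∈ I g', Real.exp (-(bb * n / 8 * ‖y g i - y g' j‖ ^ 2))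
                ≤ ∑ i ∈ I g, ∑ j ∈ I g', Real.exp (-(bb * n / 8 * ε ^ 2)) := by
              refine sum_le_sum fun i hi => sum_le_sum fun j hj => Real.exp_le_exp.2 ?_
              rw [hc, norm_sub_rev, neg_le_neg_iff]
              exact mul_le_mul_of_nonneg_left
                (pow_le_pow_left₀ hε.le (hcon i hi j (hIY g' hj)).le 2) (by positivity)
            rw [sum_const, sum_const, nsmul_eq_mul, nsmul_eq_mul, ← mul_assoc] at a1
            have a2 := mul_le_mul_of_nonneg_right (mul_le_mul (hIA g hg) (hIA g' hg')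
              (by positivity) (by positivity)) (Real.exp_pos (-(bb * n / 8 * ε ^ 2))).le
            have a3 := mul_le_mul_of_nonneg_left (a1.trans a2) (sq_nonneg (LL A s1))
            linarith
        _ = ∑ i ∈ I g, ∑ j ∈ Y, ∑ g' ∈ P, ind (‖g' - c i j‖ ≤ ε) := by
            rw [sum_comm]; exact sum_congr rfl fun i _ => sum_comm
        _ ≤ ∑ i ∈ I g, ∑ j ∈ Y, (3 : ℝ) ^ n := by
            refine sum_le_sum fun i _ => sum_le_sum fun j _ => ?_
            have a1 := card_le_of_sep hε hε.le (c i j) _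
              (hΓ.mono ((filter_subset (fun g' => ‖g' - c i j‖ ≤ ε) P).trans hP))
              fun x hx => (mem_filter.1 hx).2
            have a2 : 2 * ε / ε + 1 = 3 := by field_simp; norm_num
            rw [a2, card_eq_sum_ones, Nat.cast_sum, sum_filter] at a1
            refine le_trans (le_of_eq (sum_congr rfl fun g' _ => ?_)) a1
            split_ifs with h
            · rw [ind_pos h]; simp
            · rw [ind_neg h]
        _ ≤ _ := by
            rw [sum_const, sum_const, nsmul_eq_mul, nsmul_eq_mul, ← mul_assoc]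
            exact mul_le_mul_of_nonneg_right (mul_le_mul (hIA g hg) hY (by positivity)
              (by positivity)) (by positivity)
    have n2 : ∑ g' ∈ P, ∑ i ∈ I g, ∑ j ∈ I g', Real.exp (-(bb * n / 8 * ‖y g i - y g' j‖ ^ 2))
        ≤ A * M * (2 * Γ.card * (1 / 8) ^ n) := by
      calc _ ≤ ∑ g' ∈ Γ, ∑ i ∈ I g, ∑ j ∈ Y, Real.exp (-(bb * n / 8 * ‖c i j - g'‖ ^ 2)) := by
            refine le_trans (sum_le_sum fun g' _ => sum_le_sum fun i _ => ?_)
              (sum_le_sum_of_subset_of_nonneg hP fun _ _ _ => by positivity)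
            simp only [hc]
            exact sum_le_sum_of_subset_of_nonneg (hIY g') fun _ _ _ => by positivity
        _ = ∑ i ∈ I g, ∑ j ∈ Y, ∑ g' ∈ Γ, Real.exp (-(bb * n / 8 * ‖c i j - g'‖ ^ 2)) := by
            rw [sum_comm]; exact sum_congr rfl fun i _ => sum_comm
        _ ≤ ∑ i ∈ I g, ∑ j ∈ Y, (2 * Γ.card * (1 / 8) ^ n : ℝ) :=
            sum_le_sum fun i _ => sum_le_sum fun j _ => gauss_sum_le hε hε' Γ hΓ hΓ' _
        _ ≤ _ := by
            rw [sum_const, sum_const, nsmul_eq_mul, nsmul_eq_mul, ← mul_assoc]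
            exact mul_le_mul_of_nonneg_right (mul_le_mul (hIA g hg) hY (by positivity)
              (by positivity)) (by positivity)
    have n3 := mul_le_mul_of_nonneg_right n1 (by positivity : 0 ≤ BB A ^ 3)
    have n4 := mul_le_mul_of_nonneg_left n2 (by positivity : 0 ≤ 3 * LL A s1 ^ 2)
    unfold XX
    nlinarith

end

end Vale.Agent.P230
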