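import Mathlib

/-!
Definitions for the worst-case covering density of convex bodies.
-/

open MeasureTheory Filter
open scoped ENNReal

namespace Vale.Agent.P230

/-- Euclidean `n`-space. -/
abbrev E (n : ℕ) : Type := EuclideanSpace ℝ (Fin n)

/-- A convex body: a compact convex set with nonempty interior. -/
def IsConvexBody {n : ℕ} (K : Set (E n)) : Prop :=
  IsCompact K ∧ Convex ℝ K ∧ (interior K).Nonempty

/-- `K + X = ℝ^n`. -/
def Covers {n : ℕ} (K X : Set (E n)) : Prop :=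
  ∀ p : E n, ∃ k ∈ K, ∃ x ∈ X, p = k + x

/-- Every bounded set contains finitely many points of `X`. -/
def LocFinite {n : ℕ} (X : Set (E n)) : Prop :=
  ∀ S : Set (E n), Bornology.IsBounded S → (X ∩ S).Finite

/-- The cube `Q_R = [-R, R]^n`. -/
def cube (n : ℕ) (R : ℝ) : Set (E n) :=
  {x | ∀ i, |x i| ≤ R}

/-- `limsup_{R → ∞} #(X ∩ Q_R) / (2R)^n`. -/
noncomputable def upperDensity {n : ℕ} (X : Set (E n)) : ℝ≥0∞ :=
  limsup (fun R : ℝ => ((X ∩ cube n R).encard : ℝ≥0∞) / ENNReal.ofReal ((2 * R) ^ n)) atTop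

/-- The translative covering density `θ_T(K)`. -/
noncomputable def thetaT {n : ℕ} (K : Set (E n)) : ℝ≥0∞ :=
  ⨅ (X : Set (E n)) (_ : LocFinite X) (_ : Covers K X), volume K * upperDensity X

/-- The lattice covering density `θ_L(K)`: the infimum over full-rank lattices `Λ`. -/
noncomputable def thetaL {n : ℕ} (K : Set (E n)) : ℝ≥0∞ :=
  ⨅ (Λ : Submodule ℤ (E n)) (_ : DiscreteTopology Λ) (_ : IsZLattice ℝ Λ)
    (_ : Covers K (Λ : Set (E n))), volume K / ENNReal.ofReal (ZLattice.covolume Λ)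

/-- `Θ_T(n)`, the supremum of `θ_T(K)` over convex bodies `K ⊆ ℝ^n`. -/
noncomputable def ThetaT (n : ℕ) : ℝ≥0∞ :=
  ⨆ (K : Set (E n)) (_ : IsConvexBody K), thetaT K

/-- `Θ_L(n)`, the supremum of `θ_L(K)` over convex bodies `K ⊆ ℝ^n`. -/
noncomputable def ThetaL (n : ℕ) : ℝ≥0∞ :=
  ⨆ (K : Set (E n)) (_ : IsConvexBody K), thetaL K

end Vale.Agent.P230
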