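import Vale.Agent.P230.Step

/-! The discrete Gaussian on `(-Q, Q)` and product Chebyshev bounds. -/

open Finset MeasureTheory
open scoped BigOperators

namespace Vale.Agent.P230

noncomputable section

lemma prod_cheb {D : ℕ} (A : Finset ℤ) (μ φ : ℤ → ℝ) (h1 : ∑ a ∈ A, μ a = 1)
    (h0 : ∑ a ∈ A, μ a * φ a = 0) :
    ∑ p ∈ Fintype.piFinset fun _ : Fin D => A, (∏ i, μ (p i)) * (∑ i, φ (p i)) ^ 2
      = D * ∑ a ∈ A, μ a * φ a ^ 2 := by
  have key : ∀ i j : Fin D, ∑ p ∈ Fintype.piFinset fun _ : Fin D => A,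
      (∏ k, μ (p k)) * (φ (p i) * φ (p j)) = if i = j then ∑ a ∈ A, μ a * φ a ^ 2 else 0 := by
    intro i j
    have e : ∀ p : Fin D → ℤ, (∏ k, μ (p k)) * (φ (p i) * φ (p j)) =
        ∏ k, μ (p k) * ((if k = i then φ (p k) else 1) * (if k = j then φ (p k) else 1)) := by
      intro p
      rw [prod_mul_distrib, prod_mul_distrib]; simp
    simp_rw [e]
    rw [← prod_univ_sum (fun _ => A) fun k a =>
      μ a * ((if k = i then φ a else 1) * (if k = j then φ a else 1))]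
    split_ifs with h
    · subst h
      rw [prod_eq_single i (fun k _ hk => by simp [hk, h1]) (by simp)]
      simp [sq]
    · exact prod_eq_zero (mem_univ i) (by simp [h, h0])
  simp_rw [sq (∑ _i, _), sum_mul_sum, mul_sum]
  rw [sum_comm]
  simp_rw [sum_comm (s := Fintype.piFinset _), key]
  simp [mul_sum]

lemma prod_one {D : ℕ} (A : Finset ℤ) (μ : ℤ → ℝ) (h1 : ∑ a ∈ A, μ a = 1) :
    ∑ p ∈ Fintype.piFinset fun _ : Fin D => A, ∏ i, μ (p i) = 1 := by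
  rw [← prod_univ_sum (fun _ => A) fun _ a => μ a]; simp [h1]

lemma prod_cheb' {D : ℕ} (A : Finset ℤ) (μ φ : ℤ → ℝ) (h1 : ∑ a ∈ A, μ a = 1)
    (hμ : ∀ a, 0 ≤ μ a) {v t : ℝ} (ht : 0 < t)
    (hv : ∑ a ∈ A, μ a * (φ a - ∑ b ∈ A, μ b * φ b) ^ 2 ≤ v) :
    ∑ p ∈ Fintype.piFinset fun _ : Fin D => A, (∏ i, μ (p i)) *
      ind (¬ |∑ i, φ (p i) - D * ∑ b ∈ A, μ b * φ b| ≤ t) ≤ D * v / t ^ 2 := by
  have := prod_cheb (D := D) A μ (fun a => φ a - ∑ b ∈ A, μ b * φ b) h1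
    (by simp [mul_sub, sum_sub_distrib, ← sum_mul, h1])
  rw [le_div_iff₀ (by positivity), sum_mul]
  refine le_trans (sum_le_sum fun p _ => ?_) (this.le.trans (by gcongr))
  rw [mul_assoc]
  refine mul_le_mul_of_nonneg_left ?_ (prod_nonneg fun _ _ => hμ _)
  simp only [sum_sub_distrib, sum_const, card_univ, Fintype.card_fin, nsmul_eq_mul]
  by_cases h : |∑ i, φ (p i) - D * ∑ b ∈ A, μ b * φ b| ≤ t
  · rw [ind_neg (not_not.2 h), zero_mul]; positivity
  · rw [ind_pos h, one_mul, ← sq_abs (_ - _)]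
    exact pow_le_pow_left₀ ht.le (not_le.1 h).le 2

def om (g : ℝ) (a : ℤ) : ℝ := Real.exp (-((g * a) ^ 2 / 2))

def AA (Q : ℕ) : Finset ℤ := Ioo (-(Q : ℤ)) Q

def ZZ (Q : ℕ) (g : ℝ) : ℝ := ∑ a ∈ AA Q, om g a

def mu (Q : ℕ) (g : ℝ) (a : ℤ) : ℝ := om g a / ZZ Q g

def mub (Q : ℕ) (g : ℝ) (r : ZMod Q) : ℝ :=
  ∑ a ∈ (AA Q).filter (fun a : ℤ => (a : ZMod Q) = r), mu Q g a

def far (Q : ℕ) (a : ℤ) : Prop := (Q : ℤ) < 2 * |a|

def qq (Q : ℕ) (g : ℝ) : ℝ := ∑ a ∈ AA Q, mu Q g a * ind (far Q a)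

lemma om_pos (g : ℝ) (a : ℤ) : 0 < om g a := Real.exp_pos _

lemma om_le_one (g : ℝ) (a : ℤ) : om g a ≤ 1 := Real.exp_le_one_iff.2 (by
  have := sq_nonneg (g * a); linarith)

lemma om_anti (g : ℝ) {a b : ℤ} (h : |a| ≤ |b|) : om g b ≤ om g a := by
  refine Real.exp_le_exp.2 ?_
  have h1 : (a : ℝ) ^ 2 ≤ (b : ℝ) ^ 2 := by exact_mod_cast sq_le_sq.2 h
  have := mul_le_mul_of_nonneg_left h1 (sq_nonneg g)
  rw [mul_pow, mul_pow]; linarith

lemma card_AA (Q : ℕ) : ((AA Q).card : ℝ) ≤ 2 * Q := by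
  have : (AA Q).card ≤ 2 * Q := by rw [AA, Int.card_Ioo]; omega
  exact_mod_cast this

lemma ZZ_le (Q : ℕ) (g : ℝ) : ZZ Q g ≤ 2 * Q := by
  refine (sum_le_card_nsmul _ _ 1 fun a _ => om_le_one g a).trans ?_
  simpa using card_AA Q

lemma ZZ_ge {Q : ℕ} {g : ℝ} (hg : 0 < g) (hσ : 4 ≤ g * Q) :
    √(2 * Real.pi) - Real.exp (-((g * Q) ^ 2 / 2)) - g ≤ g * ZZ Q g := by
  let f : ℝ → ℝ := fun x => Real.exp (-(g ^ 2 / 2) * x ^ 2)
  have hf : AntitoneOn f (Set.Icc 0 (0 + Q)) := fun x hx y _ hxy => Real.exp_le_exp.2 (by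
    have := pow_le_pow_left₀ hx.1 hxy 2
    nlinarith [sq_nonneg g])
  have h1 := hf.integral_le_sum
  have hi : ∀ c, IntegrableOn f (Set.Ioi c) := fun c =>
    (integrable_exp_neg_mul_sq (by positivity)).integrableOn
  rw [zero_add, ← intervalIntegral.integral_Ioi_sub_Ioi (hi 0) (Nat.cast_nonneg Q),
    integral_gaussian_Ioi] at h1
  have hQ : (0 : ℝ) < Q := by
    by_contra h
    nlinarith [not_lt.1 h]
  have ha : -(g * Q * g / 2) < 0 := by have : 0 < g * Q * g / 2 := by positivity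
                                       linarith
  have h2 : ∫ x in Set.Ioi (Q : ℝ), f x ≤ ∫ x in Set.Ioi (Q : ℝ),
      Real.exp (-(g * Q * g / 2) * x) := by
    refine setIntegral_mono_on (hi _) (integrableOn_exp_mul_Ioi ha _) measurableSet_Ioi
      fun x hx => Real.exp_le_exp.2 ?_
    have h3 : (Q : ℝ) * x ≤ x * x := mul_le_mul_of_nonneg_right (le_of_lt hx) (hQ.trans hx).le
    nlinarith [mul_le_mul_of_nonneg_left h3 (sq_nonneg g)]
  rw [integral_exp_mul_Ioi ha] at h2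
  have h3 : √(Real.pi / (g ^ 2 / 2)) = √(2 * Real.pi) / g := by
    rw [eq_div_iff hg.ne', ← Real.sqrt_sq hg.le, ← Real.sqrt_mul (by positivity), Real.sqrt_sq hg.le]
    congr 1; field_simp
  have h4 : 2 * ∑ i ∈ range Q, f (0 + i) ≤ ZZ Q g + 1 := by
    have e := sum_union_inter (s₁ := (range Q).image fun i : ℕ => (i : ℤ))
      (s₂ := (range Q).image fun i : ℕ => -(i : ℤ)) (f := om g)
    rw [sum_image fun _ _ _ _ h => by simpa using h,
      sum_image fun _ _ _ _ h => by simpa using h] at e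
    have e1 : ∀ i : ℕ, om g i = f (0 + i) := fun i => by
      simp only [om, f]; congr 1; push_cast; ring
    have e2 : ∀ i : ℕ, om g (-i) = f (0 + i) := fun i => by
      simp only [om, f]; congr 1; push_cast; ring
    simp only [e1, e2] at e
    rw [two_mul, ← e]
    refine add_le_add (sum_le_sum_of_subset_of_nonneg ?_ fun _ _ _ => (om_pos _ _).le)
      ((sum_le_sum_of_subset_of_nonneg (t := {0}) ?_ fun _ _ _ => (om_pos _ _).le).trans
        (by simp [om]))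
    · intro a ha
      simp only [mem_union, mem_image, mem_range, AA, mem_Ioo] at ha ⊢
      rcases ha with ⟨i, hi, rfl⟩ | ⟨i, hi, rfl⟩ <;> omega
    · intro a ha
      simp only [mem_inter, mem_image, mem_range, mem_singleton] at ha ⊢
      obtain ⟨⟨i, hi, e1⟩, j, hj, e2⟩ := ha
      omega
  have h5 : -Real.exp (-(g * Q * g / 2) * Q) / -(g * Q * g / 2)
      = Real.exp (-((g * Q) ^ 2 / 2)) * (2 / (g * Q)) / g := by
    rw [show -(g * Q * g / 2) * Q = -((g * Q) ^ 2 / 2) by ring]; field_simp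
  have h6 : Real.exp (-((g * Q) ^ 2 / 2)) * (2 / (g * Q)) ≤ Real.exp (-((g * Q) ^ 2 / 2)) / 2 := by
    have : 2 / (g * Q) ≤ 1 / 2 := by
      rw [div_le_div_iff₀ (by linarith) (by norm_num)]; linarith
    nlinarith [Real.exp_pos (-((g * Q) ^ 2 / 2))]
  rw [h3] at h1
  rw [h5, le_div_iff₀ hg] at h2
  have h7 := mul_le_mul_of_nonneg_left (le_trans (mul_le_mul_of_nonneg_left h1 zero_le_two) h4) hg.le
  have h8 : g * (2 * (√(2 * Real.pi) / g / 2 - ∫ x in Set.Ioi (Q : ℝ), f x))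
      = √(2 * Real.pi) - 2 * ((∫ x in Set.Ioi (Q : ℝ), f x) * g) := by field_simp
  rw [h8] at h7
  linarith

lemma sqrt_two_pi : 5 / 2 ≤ √(2 * Real.pi) ∧ √(2 * Real.pi) ≤ 251 / 100 :=
  ⟨Real.le_sqrt_of_sq_le (by linarith [Real.pi_gt_d2]),
    Real.sqrt_le_iff.2 ⟨by norm_num, by linarith [Real.pi_lt_d2]⟩⟩

variable {Q : ℕ} {g : ℝ}

lemma ZZ_ge' (hg : 0 < g) (hg' : g ≤ 1 / 2) (hσ : 4 ≤ g * Q) : 1 ≤ g * ZZ Q g := by
  have h1 := ZZ_ge hg hσ
  have h2 : Real.exp (-((g * Q) ^ 2 / 2)) ≤ 1 := Real.exp_le_one_iff.2 (by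
    have := sq_nonneg (g * Q); linarith)
  linarith [sqrt_two_pi.1]

lemma ZZ_pos (hQ : 0 < Q) : 0 < ZZ Q g :=
  sum_pos (fun _ _ => om_pos _ _) ⟨0, by simp [AA, hQ]⟩

lemma mu_pos (hQ : 0 < Q) (a : ℤ) : 0 < mu Q g a := div_pos (om_pos _ _) (ZZ_pos hQ)

lemma mu_sum (hQ : 0 < Q) : ∑ a ∈ AA Q, mu Q g a = 1 := by
  simp only [mu, ← sum_div]
  exact div_self (ZZ_pos hQ).ne'

lemma mub_sum [NeZero Q] : ∑ r, mub Q g r = 1 := by
  rw [← mu_sum (g := g) (NeZero.pos Q)]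
  exact sum_fiberwise _ _ _

lemma mub_le_one [NeZero Q] (r : ZMod Q) : mub Q g r ≤ 1 := by
  rw [← mu_sum (g := g) (NeZero.pos Q)]
  exact sum_le_sum_of_subset_of_nonneg (filter_subset _ _)
    fun _ _ _ => (mu_pos (NeZero.pos Q) _).le

lemma mub_ge [NeZero Q] (_hg : 0 < g) (hσ : 4 ≤ g * Q) (r : ZMod Q) :
    Real.exp (-((g * Q) ^ 2 / 2)) ≤ Q * mub Q g r := by
  have hQ := NeZero.pos Q
  have hQ' : (0 : ℝ) < Q := by exact_mod_cast hQ
  have h1 : 2 * |r.valMinAbs| ≤ Q := by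
    have := r.natAbs_valMinAbs_le
    rw [Int.abs_eq_natAbs]; omega
  have h2 : mu Q g r.valMinAbs ≤ mub Q g r :=
    single_le_sum (f := mu Q g) (fun _ _ => (mu_pos hQ _).le) (mem_filter.2 ⟨by
      simp only [AA, mem_Ioo]
      rcases abs_cases r.valMinAbs with h | h <;> omega, r.coe_valMinAbs⟩)
  have h3 : Real.exp (-((g * Q) ^ 2 / 8)) ≤ om g r.valMinAbs := by
    refine Real.exp_le_exp.2 ?_
    have a1 : 2 * |(r.valMinAbs : ℝ)| ≤ Q := by exact_mod_cast h1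
    have a2 := pow_le_pow_left₀ (by positivity) a1 2
    rw [mul_pow, sq_abs] at a2
    have := mul_le_mul_of_nonneg_left a2 (sq_nonneg g)
    rw [mul_pow, mul_pow]; linarith
  have h4 : 2 * Real.exp (-((g * Q) ^ 2 / 2)) ≤ Real.exp (-((g * Q) ^ 2 / 8)) := by
    have : Real.exp (-((g * Q) ^ 2 / 8))
        = Real.exp (3 * (g * Q) ^ 2 / 8) * Real.exp (-((g * Q) ^ 2 / 2)) := by
      rw [← Real.exp_add]; congr 1; ring
    rw [this]
    refine mul_le_mul_of_nonneg_right ?_ (Real.exp_pos _).le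
    nlinarith [Real.add_one_le_exp (3 * (g * Q) ^ 2 / 8)]
  have h5 : om g r.valMinAbs / (2 * Q) ≤ mu Q g r.valMinAbs :=
    div_le_div_of_nonneg_left (om_pos _ _).le (ZZ_pos hQ) (ZZ_le Q g)
  rw [div_le_iff₀ (by positivity)] at h5
  nlinarith

lemma mub_pos [NeZero Q] (hg : 0 < g) (hσ : 4 ≤ g * Q) (r : ZMod Q) : 0 < mub Q g r :=
  (pos_iff_pos_of_mul_pos ((Real.exp_pos _).trans_le (mub_ge hg hσ r))).1
    (by exact_mod_cast NeZero.pos Q)

lemma mub_le [NeZero Q] (hg : 0 < g) (hg' : g ≤ 1 / 2) (hσ : 4 ≤ g * Q) (r : ZMod Q) :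
    Q * mub Q g r ≤ Real.exp ((g * Q) ^ 2 / 2) := by
  have hQ := NeZero.pos Q
  have hZ := ZZ_pos (g := g) hQ
  have h1 : mub Q g r ≤ 2 * g := by
    have a1 : ∀ a, mu Q g a ≤ g := fun a => by
      rw [mu, div_le_iff₀ hZ]
      linarith [om_le_one g a, ZZ_ge' hg hg' hσ]
    refine (sum_le_sum_of_subset_of_nonneg (t := {(r.val : ℤ), (r.val : ℤ) - Q}) ?_
      fun _ _ _ => (mu_pos hQ _).le).trans ((sum_le_card_nsmul _ _ g fun a _ => a1 a).trans ?_)
    · intro a ha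
      obtain ⟨a2, a3⟩ := mem_filter.1 ha
      simp only [AA, mem_Ioo] at a2
      have a4 := r.val_lt
      have := two_vals (Q := Q) (a := a) (b := r.val) (by omega) (by omega)
        ((ZMod.intCast_eq_intCast_iff_dvd_sub _ _ _).1 (by simp [a3]))
      simp only [mem_insert, mem_singleton]
      omega
    · rw [nsmul_eq_mul]
      exact mul_le_mul_of_nonneg_right (by exact_mod_cast card_le_two) hg.le
  have h2 := mul_le_mul_of_nonneg_left h1 (Nat.cast_nonneg (α := ℝ) Q)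
  nlinarith [Real.add_one_le_exp ((g * Q) ^ 2 / 2)]

lemma mu_le_mub (hQ : 0 < Q) {a : ℤ} (ha : a ∈ AA Q) :
    mu Q g a ≤ mub Q g a * Real.exp (-(ind (far Q a) / 2)) := by
  by_cases h : far Q a
  · rw [ind_pos h]
    simp only [AA, mem_Ioo] at ha
    simp only [far] at h
    obtain ⟨b, h1, h2, h3, h4⟩ : ∃ b : ℤ, b ∈ AA Q ∧ a ≠ b ∧ (b : ZMod Q) = a ∧ |b| ≤ |a| := by
      rcases abs_cases a with h' | h'
      · exact ⟨a - Q, by simp only [AA, mem_Ioo]; omega, by omega, by simp,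
          by rcases abs_cases (a - Q) with h'' | h'' <;> omega⟩
      · exact ⟨a + Q, by simp only [AA, mem_Ioo]; omega, by omega, by simp,
          by rcases abs_cases (a + Q) with h'' | h'' <;> omega⟩
    have e1 : mu Q g a ≤ mu Q g b := div_le_div_of_nonneg_right (om_anti g h4) (ZZ_pos hQ).le
    have e2 : ∑ x ∈ ({a, b} : Finset ℤ), mu Q g x ≤ mub Q g a :=
      sum_le_sum_of_subset_of_nonneg (by
        intro x hx
        rcases mem_insert.1 hx with rfl | hx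
        · exact mem_filter.2 ⟨by simp only [AA, mem_Ioo]; omega, rfl⟩
        · rw [mem_singleton.1 hx]; exact mem_filter.2 ⟨h1, h3⟩) fun _ _ _ => (mu_pos hQ _).le
    rw [sum_pair h2] at e2
    have e3 := Real.add_one_le_exp (-(1 / 2))
    nlinarith [mu_pos (g := g) hQ a]
  · rw [ind_neg h]
    simpa [mub] using single_le_sum (f := mu Q g) (fun _ _ => (mu_pos hQ _).le)
      (mem_filter.2 ⟨ha, rfl⟩ : a ∈ (AA Q).filter fun x : ℤ => (x : ZMod Q) = a)

lemma far_inj (hQ : Odd Q) {a b : ℤ} (ha : a ∈ AA Q) (hb : b ∈ AA Q) (h : (Q : ℤ) ∣ a - b)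
    (hf : far Q a ↔ far Q b) : a = b := by
  simp only [AA, mem_Ioo] at ha hb
  obtain ⟨k, hk⟩ := hQ
  have := two_vals (Q := Q) (a := a) (b := b) (by omega) (by omega) h
  simp only [far] at hf
  rcases abs_cases a with h1 | h1 <;> rcases abs_cases b with h2 | h2 <;> omega

lemma qq_le (hg : 0 < g) (hg' : g ≤ 1 / 2) (hσ : 4 ≤ g * Q) :
    qq Q g ≤ 2 * (g * Q) * Real.exp (-((g * Q) ^ 2 / 8)) := by
  have hQ : 0 < Q := Nat.pos_of_ne_zero (by rintro rfl; norm_num at hσ)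
  have hZ := ZZ_pos (g := g) hQ
  refine (sum_le_card_nsmul _ _ (g * Real.exp (-((g * Q) ^ 2 / 8))) fun a _ => ?_).trans ?_
  · by_cases h : far Q a
    · rw [ind_pos h, mul_one, mu, div_le_iff₀ hZ]
      have h3 : om g a ≤ Real.exp (-((g * Q) ^ 2 / 8)) := by
        refine Real.exp_le_exp.2 ?_
        have a1 : (Q : ℝ) ≤ 2 * |(a : ℝ)| := by exact_mod_cast le_of_lt h
        have a2 := pow_le_pow_left₀ (by positivity) a1 2
        rw [mul_pow, sq_abs] at a2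
        have := mul_le_mul_of_nonneg_left a2 (sq_nonneg g)
        rw [mul_pow, mul_pow]; linarith
      nlinarith [ZZ_ge' hg hg' hσ, Real.exp_pos (-((g * Q) ^ 2 / 8))]
    · rw [ind_neg h, mul_zero]; positivity
  · rw [nsmul_eq_mul]
    have := mul_le_mul_of_nonneg_right (card_AA Q)
      (by positivity : 0 ≤ g * Real.exp (-((g * Q) ^ 2 / 8)))
    linarith

lemma qq_ge (hg : 0 < g) (hg' : g ≤ 1 / 2) (hσ : 4 ≤ g * Q) :
    Real.exp (-((g * Q / 2 + 2) ^ 2 / 2)) / (2 * (g * Q)) ≤ qq Q g := by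
  have hQ : 0 < Q := Nat.pos_of_ne_zero (by rintro rfl; norm_num at hσ)
  have hQ' : (0 : ℝ) < Q := by exact_mod_cast hQ
  have hZ := ZZ_pos (g := g) hQ
  set k := ⌈1 / g⌉₊ with hk
  have k1 : 1 / g ≤ k := Nat.le_ceil _
  have k2 : (k : ℝ) < 1 / g + 1 := Nat.ceil_lt_add_one (by positivity)
  have k3 : g * k < 1 + g := by
    have := mul_lt_mul_of_pos_left k2 hg
    rwa [mul_add, mul_one_div_cancel hg.ne', mul_one] at this
  have k4 : 2 * k < Q := by
    have : g * (2 * k) < g * Q := by nlinarith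
    exact_mod_cast lt_of_mul_lt_mul_left this hg.le
  let T : Finset ℤ := Ioc ((Q / 2 : ℕ) : ℤ) ((Q / 2 : ℕ) + k)
  have h1 : ∑ a ∈ T, mu Q g a * ind (far Q a) ≤ qq Q g :=
    sum_le_sum_of_subset_of_nonneg (fun a ha => by
      simp only [T, AA, mem_Ioc, mem_Ioo] at ha ⊢; omega)
      fun _ _ _ => mul_nonneg (mu_pos hQ _).le (ind_nonneg _)
  refine le_trans ?_ ((card_nsmul_le_sum _ _ (Real.exp (-((g * Q / 2 + 2) ^ 2 / 2)) / (2 * Q))
    fun a ha => ?_).trans h1)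
  · simp only [T, Int.card_Ioc, add_sub_cancel_left, Int.toNat_natCast, nsmul_eq_mul]
    calc _ = 1 / g * (Real.exp (-((g * Q / 2 + 2) ^ 2 / 2)) / (2 * Q)) := by field_simp
      _ ≤ _ := by gcongr
  · simp only [T, mem_Ioc] at ha
    rw [ind_pos (by simp only [far]; rcases abs_cases a with h | h <;> omega), mul_one]
    refine div_le_div₀ (om_pos _ _).le (Real.exp_le_exp.2 ?_) hZ (ZZ_le Q g)
    have a1 : (0 : ℝ) ≤ a := by exact_mod_cast (show 0 ≤ a by omega)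
    have a2 : 2 * (a : ℝ) ≤ Q + 2 * k := by exact_mod_cast (show 2 * a ≤ Q + 2 * k by omega)
    have a3 : g * a ≤ g * Q / 2 + 2 := by nlinarith
    have := pow_le_pow_left₀ (by positivity) a3 2
    linarith

end

end Vale.Agent.P230
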