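import Vale.Agent.P230.PLw

/-! The additive energy of a convex body is exponentially small. -/

open MeasureTheory Set
open scoped ENNReal

namespace Vale.Agent.P230

variable {m : ℕ}

/-- `vol {x ∈ K : s + σ x ∈ K}` -/
noncomputable def cv (K : Set (Fin m → ℝ)) (σ : ℝ) (s : Fin m → ℝ) : ℝ≥0∞ :=
  volume {x | x ∈ K ∧ s + σ • x ∈ K}

lemma cv_set_meas {K : Set (Fin m → ℝ)} (hK : MeasurableSet K) (σ : ℝ) (s : Fin m → ℝ) :
    MeasurableSet {x | x ∈ K ∧ s + σ • x ∈ K} :=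
  hK.inter (hK.preimage (by fun_prop))

lemma cv_meas {K : Set (Fin m → ℝ)} (hK : MeasurableSet K) (σ : ℝ) : Measurable (cv K σ) :=
  measurable_measure_prodMk_left (s := {p : (Fin m → ℝ) × (Fin m → ℝ) | p.2 ∈ K ∧ p.1 + σ • p.2 ∈ K})
    ((hK.preimage measurable_snd).inter (hK.preimage (by fun_prop)))

lemma cv_eq {K : Set (Fin m → ℝ)} (hK : MeasurableSet K) (σ : ℝ) (s : Fin m → ℝ) :
    cv K σ s = ∫⁻ x, K.indicator 1 x * K.indicator 1 (s + σ • x) := by
  rw [cv, ← lintegral_indicator_one (cv_set_meas hK σ s)]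
  refine lintegral_congr fun x => ?_
  by_cases h1 : x ∈ K <;> by_cases h2 : s + σ • x ∈ K <;> simp [h1, h2]

lemma cv_logc {K : Set (Fin m → ℝ)} (hK : MeasurableSet K) (hc : Convex ℝ K) (σ : ℝ)
    {a b : ℝ} (ha : 0 < a) (hb : 0 < b) (hab : a + b = 1) (s t : Fin m → ℝ) :
    cv K σ s ^ a * cv K σ t ^ b ≤ cv K σ (a • s + b • t) := by
  refine (plw_pi m).set ha hb hab (cv_set_meas hK σ s) (cv_set_meas hK σ t) (cv_set_meas hK σ _)
    fun x hx y hy => ⟨hc hx.1 hy.1 ha.le hb.le hab, ?_⟩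
  have := hc hx.2 hy.2 ha.le hb.le hab
  convert this using 1
  module

lemma push_cv {K : Set (Fin m → ℝ)} (hK : MeasurableSet K) (σ : ℝ) {φ : (Fin m → ℝ) → ℝ≥0∞}
    (hφ : Measurable φ) :
    ∫⁻ x, ∫⁻ y, K.indicator 1 x * K.indicator 1 y * φ (y - σ • x) = ∫⁻ s, cv K σ s * φ s := by
  have h1 : Measurable (K.indicator (1 : (Fin m → ℝ) → ℝ≥0∞)) := measurable_one.indicator hK
  calc _ = ∫⁻ x, ∫⁻ s, K.indicator 1 x * K.indicator 1 (s + σ • x) * φ s := by
        refine lintegral_congr fun x => ?_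
        rw [← lintegral_add_right_eq_self _ (σ • x)]
        simp
    _ = ∫⁻ s, ∫⁻ x, K.indicator 1 x * K.indicator 1 (s + σ • x) * φ s :=
        lintegral_lintegral_swap (by fun_prop)
    _ = _ := by
        refine lintegral_congr fun s => ?_
        rw [lintegral_mul_const _ (by fun_prop), cv_eq hK]

lemma int_cv {K : Set (Fin m → ℝ)} (hK : MeasurableSet K) (σ : ℝ) :
    ∫⁻ s, cv K σ s = volume K ^ 2 := by
  have h1 : Measurable (K.indicator (1 : (Fin m → ℝ) → ℝ≥0∞)) := measurable_one.indicator hK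
  have := push_cv hK σ (φ := fun _ => 1) measurable_const
  simp only [mul_one] at this
  rw [← this]
  simp_rw [lintegral_const_mul _ h1, lintegral_mul_const _ h1, lintegral_indicator_one hK, sq]

lemma lint_smul {φ : (Fin m → ℝ) → ℝ≥0∞} (hφ : Measurable φ) {r : ℝ} (hr : r ≠ 0) :
    ∫⁻ x, φ (r • x) = ENNReal.ofReal (|r|⁻¹ ^ m) * ∫⁻ x, φ x := by
  rw [← lintegral_map hφ (by fun_prop), Measure.map_addHaar_smul _ hr, lintegral_smul_measure]
  simp [abs_pow]

lemma energy_eq {K : Set (Fin m → ℝ)} (hK : MeasurableSet K) :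
    ∫⁻ s, cv K (-1) s ^ 2 = ∫⁻ s, cv K 1 s ^ 2 := by
  have h1 : Measurable (K.indicator (1 : (Fin m → ℝ) → ℝ≥0∞)) := measurable_one.indicator hK
  simp_rw [sq]
  rw [← push_cv hK _ (cv_meas hK _), ← push_cv hK _ (cv_meas hK _)]
  simp_rw [cv_eq hK]
  calc _ = ∫⁻ x, ∫⁻ y, ∫⁻ z, K.indicator 1 x * K.indicator 1 y *
          (K.indicator 1 z * K.indicator (1 : (Fin m → ℝ) → ℝ≥0∞) (y - (-1 : ℝ) • x + (-1 : ℝ) • z)) := by
        exact lintegral_congr fun x => lintegral_congr fun y =>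
          (lintegral_const_mul _ (by fun_prop)).symm
    _ = ∫⁻ x, ∫⁻ z, ∫⁻ y, K.indicator 1 x * K.indicator 1 y *
          (K.indicator 1 z * K.indicator (1 : (Fin m → ℝ) → ℝ≥0∞) (y - (-1 : ℝ) • x + (-1 : ℝ) • z)) :=
        lintegral_congr fun x => lintegral_lintegral_swap (by fun_prop)
    _ = ∫⁻ z, ∫⁻ x, ∫⁻ y, K.indicator 1 x * K.indicator 1 y *
          (K.indicator 1 z * K.indicator (1 : (Fin m → ℝ) → ℝ≥0∞) (y - (-1 : ℝ) • x + (-1 : ℝ) • z)) :=
        lintegral_lintegral_swap (by fun_prop)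
    _ = _ := by
        refine lintegral_congr fun z => lintegral_congr fun x => ?_
        rw [← lintegral_const_mul _ (by fun_prop)]
        refine lintegral_congr fun y => ?_
        have : y - (-1 : ℝ) • x + (-1 : ℝ) • z = x - (1 : ℝ) • z + (1 : ℝ) • y := by module
        rw [this]; ring

lemma pl_cv {K : Set (Fin m → ℝ)} (hK : MeasurableSet K) (hc : Convex ℝ K) (σ : ℝ) :
    (ENNReal.ofReal ((15 / 16) ^ m) * ∫⁻ s, cv K σ s ^ (15 / 16 : ℝ)) ^ (16 / 17 : ℝ) *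
      (ENNReal.ofReal (2 ^ m) * ∫⁻ s, cv K σ s ^ 2) ^ (1 / 17 : ℝ) ≤ volume K ^ 2 := by
  have hm := cv_meas hK σ
  have := plw_pi m (16 / 17) (1 / 17) (by norm_num) (by norm_num) (by norm_num)
    (fun x => cv K σ ((16 / 15 : ℝ) • x) ^ (15 / 16 : ℝ)) (fun x => cv K σ ((1 / 2 : ℝ) • x) ^ 2)
    (cv K σ) (by fun_prop) (by fun_prop) hm fun x y => by
      have h := cv_logc hK hc σ (a := 15 / 17) (b := 2 / 17) (by norm_num) (by norm_num)
        (by norm_num) ((16 / 15 : ℝ) • x) ((1 / 2 : ℝ) • y)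
      rw [smul_smul, smul_smul] at h
      rw [← ENNReal.rpow_natCast, ← ENNReal.rpow_mul, ← ENNReal.rpow_mul]
      norm_num at h ⊢
      exact h
  rw [lint_smul (φ := fun x => cv K σ x ^ (15 / 16 : ℝ)) (by fun_prop) (by norm_num),
    lint_smul (φ := fun x => cv K σ x ^ 2) (by fun_prop) (by norm_num), int_cv hK] at this
  norm_num at this ⊢
  exact this

lemma level_cv {K : Set (Fin m → ℝ)} (hK : MeasurableSet K) {β : ℝ≥0∞} (h0 : β ≠ 0)
    (ht : β ≠ ∞) :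
    volume K ^ 2 ≤ β ^ (1 / 16 : ℝ) * (∫⁻ s, cv K (-1) s ^ (15 / 16 : ℝ)) +
      β ^ (1 / 16 : ℝ) * (∫⁻ s, cv K 1 s ^ (15 / 16 : ℝ)) +
      β⁻¹ ^ 2 * (ENNReal.ofReal ((1 / 2) ^ m) * volume K ^ 4) := by
  have h1 : Measurable (K.indicator (1 : (Fin m → ℝ) → ℝ≥0∞)) := measurable_one.indicator hK
  have hm := cv_meas hK
  let φ : ℝ → (Fin m → ℝ) → ℝ≥0∞ := fun σ => {s | cv K σ s ≤ β}.indicator 1
  have hφ : ∀ σ, Measurable (φ σ) := fun σ =>
    measurable_one.indicator (measurableSet_le (hm σ) measurable_const)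
  have e1 : ∀ σ, ∫⁻ s, cv K σ s * φ σ s ≤ β ^ (1 / 16 : ℝ) * ∫⁻ s, cv K σ s ^ (15 / 16 : ℝ) := by
    intro σ
    rw [← lintegral_const_mul _ (by have := hm σ; fun_prop)]
    refine lintegral_mono fun s => ?_
    by_cases h : cv K σ s ≤ β
    · simp only [φ]
      rw [indicator_of_mem (by exact h), Pi.one_apply, mul_one]
      calc cv K σ s = cv K σ s ^ (1 / 16 : ℝ) * cv K σ s ^ (15 / 16 : ℝ) := by
            rw [← ENNReal.rpow_add_of_nonneg _ _ (by norm_num) (by norm_num)]; norm_num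
        _ ≤ _ := by gcongr
    · simp [φ, h]
  have e2 : ∫⁻ x, ∫⁻ y, cv K (-1) (y - (-1 : ℝ) • x) * cv K 1 (y - (1 : ℝ) • x)
      = ENNReal.ofReal ((1 / 2) ^ m) * volume K ^ 4 := by
    have := hm (-1)
    have := hm 1
    calc _ = ∫⁻ x, ∫⁻ s, cv K (-1) s * cv K 1 (s + (-2 : ℝ) • x) := by
          refine lintegral_congr fun x => ?_
          rw [← lintegral_add_right_eq_self _ ((-1 : ℝ) • x)]
          refine lintegral_congr fun s => ?_
          congr 2 <;> module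
      _ = ∫⁻ s, ∫⁻ x, cv K (-1) s * cv K 1 (s + (-2 : ℝ) • x) :=
          lintegral_lintegral_swap (by fun_prop)
      _ = ∫⁻ s, cv K (-1) s * (ENNReal.ofReal ((1 / 2) ^ m) * volume K ^ 2) := by
          refine lintegral_congr fun s => ?_
          rw [lintegral_const_mul _ (by fun_prop),
            lint_smul (φ := fun x => cv K 1 (s + x)) (by fun_prop) (by norm_num),
            lintegral_add_left_eq_self, int_cv hK]
          norm_num
      _ = _ := by rw [lintegral_mul_const _ (hm _), int_cv hK]; ring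
  have e3 := push_cv hK 1 (φ := fun _ => 1) measurable_const
  simp only [mul_one] at e3
  rw [int_cv hK] at e3
  rw [← e3, ← e2]
  refine le_trans ?_ (add_le_add_left (add_le_add (e1 _) (e1 _)) _)
  have := hm (-1)
  have := hm 1
  have := hφ (-1)
  have := hφ 1
  rw [← push_cv hK _ (hφ _), ← push_cv hK _ (hφ _), ← lintegral_const_mul _ (by fun_prop),
    ← lintegral_add_left (by fun_prop), ← lintegral_add_left (by fun_prop)]
  refine lintegral_mono fun x => ?_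
  rw [← lintegral_const_mul _ (by fun_prop),
    ← lintegral_add_left (by fun_prop), ← lintegral_add_left (by fun_prop)]
  refine lintegral_mono fun y => ?_
  by_cases a1 : cv K (-1) (y - (-1 : ℝ) • x) ≤ β
  · refine le_add_right (le_add_right ?_)
    simp only [φ]
    rw [indicator_of_mem (s := {s | cv K (-1) s ≤ β}) (by exact a1), Pi.one_apply, mul_one]
  by_cases a2 : cv K 1 (y - (1 : ℝ) • x) ≤ β
  · refine le_add_right (le_add_left ?_)
    simp only [φ]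
    rw [indicator_of_mem (s := {s | cv K 1 s ≤ β}) (by exact a2), Pi.one_apply, mul_one]
  refine le_add_left ?_
  have a3 : ∀ x, K.indicator (1 : (Fin m → ℝ) → ℝ≥0∞) x ≤ 1 := fun x => by
    by_cases h : x ∈ K <;> simp [h]
  calc _ ≤ (1 : ℝ≥0∞) * 1 := mul_le_mul' (a3 x) (a3 y)
    _ = β⁻¹ ^ 2 * (β * β) := by
        rw [sq, mul_mul_mul_comm, ENNReal.inv_mul_cancel h0 ht]
    _ ≤ _ := mul_le_mul_right (mul_le_mul' (not_le.1 a1).le (not_le.1 a2).le) _

lemma cv_le (K : Set (Fin m → ℝ)) (σ : ℝ) (s : Fin m → ℝ) : cv K σ s ≤ volume K :=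
  measure_mono fun _ hx => hx.1

lemma energy_alg {v e z1 z2 : ℝ} (hv : 0 < v) (he : 0 < e) (hz1 : 0 ≤ z1) (hz2 : 0 ≤ z2)
    (h1 : ((15 / 16) ^ m * z1) ^ 16 * (2 ^ m * e) ≤ (v ^ 2) ^ 17)
    (h2 : ((15 / 16) ^ m * z2) ^ 16 * (2 ^ m * e) ≤ (v ^ 2) ^ 17)
    (h3 : ∀ b : ℝ, 0 < b → v ^ 2 ≤ b * z1 + b * z2 + (b ^ 16)⁻¹ ^ 2 * ((1 / 2) ^ m * v ^ 4)) :
    e ≤ 2 ^ 33 * (994 / 1000) ^ m * v ^ 3 := by
  set β : ℝ := ((15 / 16) ^ m) ^ 16 * (2 ^ m * e) / (4 ^ 16 * v ^ 2) with hβ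
  have hβ0 : 0 < β := by positivity
  set b := β ^ ((16 : ℕ) : ℝ)⁻¹ with hb
  have hb0 : 0 < b := Real.rpow_pos_of_pos hβ0 _
  have hb16 : b ^ 16 = β := Real.rpow_inv_natCast_pow hβ0.le (by norm_num)
  have k : ∀ z, 0 ≤ z → ((15 / 16) ^ m * z) ^ 16 * (2 ^ m * e) ≤ (v ^ 2) ^ 17 →
      b * z ≤ v ^ 2 / 4 := by
    intro z hz h
    refine le_of_pow_le_pow_left₀ (n := 16) (by norm_num) (by positivity) ?_
    rw [mul_pow, hb16, hβ, div_mul_eq_mul_div, div_le_iff₀ (by positivity)]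
    calc _ = ((15 / 16) ^ m * z) ^ 16 * (2 ^ m * e) := by ring
      _ ≤ _ := h
      _ = _ := by ring
  have h4 := h3 b hb0
  rw [hb16] at h4
  have h5 : v ^ 2 / 2 ≤ β⁻¹ ^ 2 * ((1 / 2) ^ m * v ^ 4) := by linarith [k z1 hz1 h1, k z2 hz2 h2]
  rw [inv_pow, ← div_eq_inv_mul, le_div_iff₀ (by positivity), hβ, div_pow, ← mul_div_assoc,
    div_le_iff₀ (by positivity)] at h5
  refine le_of_pow_le_pow_left₀ (n := 2) (by norm_num) (by positivity) ?_
  have h6 : (1 / 2 : ℝ) ^ m ≤ ((994 / 1000) ^ 2 * (15 / 16) ^ 32 * 4) ^ m :=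
    pow_le_pow_left₀ (by norm_num) (by norm_num) m
  have h7 : 0 < v ^ 2 * (((15 / 16 : ℝ) ^ m) ^ 16 * 2 ^ m) ^ 2 := by positivity
  refine le_of_mul_le_mul_left ?_ h7
  have h8 : ((994 / 1000 : ℝ) ^ 2 * (15 / 16) ^ 32 * 4) ^ m
      = ((994 / 1000) ^ m) ^ 2 * (((15 / 16 : ℝ) ^ m) ^ 16 * 2 ^ m) ^ 2 := by
    rw [mul_pow, mul_pow, mul_pow, ← pow_mul, ← pow_mul, ← pow_mul, ← pow_mul, ← pow_mul,
      ← pow_mul, show (4 : ℝ) = 2 ^ 2 by norm_num, ← pow_mul]
    ring_nf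
  rw [h8] at h6
  have h9 := mul_le_mul_of_nonneg_right h6 (by positivity : 0 ≤ v ^ 4 * (4 ^ 16 * v ^ 2) ^ 2)
  nlinarith

theorem energy_le {K : Set (Fin m → ℝ)} (hK : MeasurableSet K) (hc : Convex ℝ K)
    (hfin : volume K ≠ ∞) :
    ∫⁻ s, cv K (-1) s ^ 2 ≤ ENNReal.ofReal (2 ^ 33 * (994 / 1000) ^ m) * volume K ^ 3 := by
  set e := ∫⁻ s, cv K (-1) s ^ 2 with he
  have e1 : e ≤ volume K * volume K ^ 2 := by
    rw [← int_cv hK (-1), ← lintegral_const_mul _ (cv_meas hK _)]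
    exact lintegral_mono fun s => by rw [sq]; exact mul_le_mul_left (cv_le K _ s) _
  by_cases e0 : e = 0
  · simp [e0]
  have v0 : volume K ≠ 0 := fun h => e0 (by simpa [h] using e1)
  have et : e ≠ ∞ := ne_top_of_le_ne_top (by finiteness) e1
  have k : ∀ z : ℝ≥0∞, (ENNReal.ofReal ((15 / 16) ^ m) * z) ^ (16 / 17 : ℝ) *
      (ENNReal.ofReal (2 ^ m) * e) ^ (1 / 17 : ℝ) ≤ volume K ^ 2 → z ≠ ∞ ∧
      ((15 / 16) ^ m * z.toReal) ^ 16 * (2 ^ m * e.toReal) ≤ ((volume K).toReal ^ 2) ^ 17 := by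
    intro z h
    have h2 := pow_le_pow_left' h 17
    rw [mul_pow, ← ENNReal.rpow_natCast _ 17, ← ENNReal.rpow_natCast _ 17, ← ENNReal.rpow_mul,
      ← ENNReal.rpow_mul, show (16 / 17 * (17 : ℕ) : ℝ) = (16 : ℕ) by norm_num,
      show (1 / 17 * (17 : ℕ) : ℝ) = 1 by norm_num, ENNReal.rpow_one, ENNReal.rpow_natCast] at h2
    have zt : z ≠ ∞ := by
      rintro rfl
      rw [ENNReal.mul_top (by simp), ENNReal.top_pow (by norm_num),
        ENNReal.top_mul (mul_ne_zero (by simp) e0), top_le_iff] at h2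
      exact absurd h2 (by finiteness)
    refine ⟨zt, ?_⟩
    have h3 := ENNReal.toReal_mono (by finiteness) h2
    simpa [ENNReal.toReal_ofReal (show (0 : ℝ) ≤ (15 / 16) ^ m by positivity),
      ENNReal.toReal_ofReal (show (0 : ℝ) ≤ 2 ^ m by positivity)] using h3
  obtain ⟨a1, a2⟩ := k _ (pl_cv hK hc (-1))
  obtain ⟨b1, b2⟩ := k _ (by rw [he, energy_eq hK]; exact pl_cv hK hc 1)
  have h := energy_alg (ENNReal.toReal_pos v0 hfin) (ENNReal.toReal_pos e0 et)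
    ENNReal.toReal_nonneg ENNReal.toReal_nonneg a2 b2 fun b hb => by
      have h := level_cv hK (β := ENNReal.ofReal (b ^ 16)) (by simp; positivity)
        ENNReal.ofReal_ne_top
      have hb' : ENNReal.ofReal (b ^ 16) ^ (1 / 16 : ℝ) = ENNReal.ofReal b := by
        rw [ENNReal.ofReal_pow hb.le, ← ENNReal.rpow_natCast, ← ENNReal.rpow_mul]; norm_num
      rw [hb', ← ENNReal.ofReal_inv_of_pos (by positivity)] at h
      have h3 := ENNReal.toReal_mono (by finiteness) h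
      rw [ENNReal.toReal_add (by finiteness) (by finiteness),
        ENNReal.toReal_add (by finiteness) (by finiteness)] at h3
      simpa [ENNReal.toReal_ofReal hb.le,
        ENNReal.toReal_ofReal (show (0 : ℝ) ≤ (b ^ 16)⁻¹ by positivity),
        ENNReal.toReal_ofReal (show (0 : ℝ) ≤ (2 ^ m)⁻¹ by positivity)] using h3
  rw [← ENNReal.ofReal_toReal et, ← ENNReal.ofReal_toReal hfin,
    ← ENNReal.ofReal_pow ENNReal.toReal_nonneg, ← ENNReal.ofReal_mul (by positivity)]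
  exact ENNReal.ofReal_le_ofReal h

/-- the shifted energy bound -/
theorem energy_shift {K : Set (Fin m → ℝ)} (hK : MeasurableSet K) (hc : Convex ℝ K)
    (hfin : volume K ≠ ∞) (u : Fin m → ℝ) :
    ∫⁻ x, ∫⁻ y, K.indicator 1 x * K.indicator 1 y * cv K (-1) (y - (-1 : ℝ) • x + u)
      ≤ ENNReal.ofReal (2 ^ 33 * (994 / 1000) ^ m) * volume K ^ 3 := by
  have hm := cv_meas hK (-1)
  rw [push_cv hK _ (φ := fun s => cv K (-1) (s + u)) (by fun_prop)]
  refine le_trans ?_ (energy_le hK hc hfin)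
  have h := plw_pi 0
  calc _ ≤ ∫⁻ s, (ENNReal.ofReal (1 / 2) * cv K (-1) s ^ 2 +
        ENNReal.ofReal (1 / 2) * cv K (-1) (s + u) ^ 2) := by
        refine lintegral_mono fun s => le_trans (le_of_eq ?_)
          (amgm_enn (by norm_num) (by norm_num) (by norm_num) _ _)
        rw [← ENNReal.rpow_natCast, ← ENNReal.rpow_natCast, ← ENNReal.rpow_mul,
          ← ENNReal.rpow_mul]
        norm_num
    _ = _ := by
        rw [lintegral_add_left (by fun_prop), lintegral_const_mul _ (by fun_prop),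
          lintegral_const_mul _ (by fun_prop),
          lintegral_add_right_eq_self (fun s => cv K (-1) s ^ 2), ← add_mul,
          ← ENNReal.ofReal_add (by norm_num) (by norm_num)]
        norm_num

end Vale.Agent.P230
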