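import Vale.Agent.P230.PLw
import Vale.Agent.P230.Net

/-! Random Gaussian projections: concentration of smoothed marginals. -/

open MeasureTheory ProbabilityTheory Finset
open scoped RealInnerProductSpace NNReal

namespace Vale.Agent.P230

noncomputable section

variable {n : ℕ}

def bump (t u : ℝ) : ℝ := Real.exp (-((u - t) ^ 2 / 2))

lemma bump_pos (t u : ℝ) : 0 < bump t u := Real.exp_pos _

lemma bump_le (t u : ℝ) : bump t u ≤ 1 :=
  Real.exp_le_one_iff.2 (by have := sq_nonneg (u - t); linarith)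

@[fun_prop] lemma bump_cont (t : ℝ) : Continuous (bump t) := by unfold bump; fun_prop

lemma bump_eq (t u : ℝ) :
    (bump t u : ℂ) = ∫ ξ, Complex.exp (((u - t) * ξ : ℝ) * Complex.I) ∂gaussianReal 0 1 := by
  have := charFun_gaussianReal (μ := 0) (v := 1) (u - t)
  rw [charFun_apply_real] at this
  simp only [Complex.ofReal_mul]
  rw [this, bump]; push_cast; congr 1; simp

lemma dual {Ω : Type*} [MeasurableSpace Ω] (P : Measure Ω) [IsProbabilityMeasure P]
    {w : Ω → E n} (hw : Measurable w) {c : Ω → ℝ} (hc : Measurable c) :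
    ∫ z, ∫ ω, Complex.exp ((⟪z, w ω⟫ - c ω : ℝ) * Complex.I) ∂P ∂stdGaussian (E n) =
      ∫ ω, Complex.exp ((-c ω : ℝ) * Complex.I) * Real.exp (-(‖w ω‖ ^ 2 / 2)) ∂P := by
  rw [integral_integral_swap (Integrable.of_bound (Measurable.aestronglyMeasurable (by
    unfold Function.uncurry; fun_prop)) 1 (ae_of_all _ fun p => by
      simp only [Function.uncurry]; rw [Complex.norm_exp_ofReal_mul_I]))]
  refine integral_congr_ae (ae_of_all _ fun ω => ?_)
  have := charFun_stdGaussian (w ω)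
  rw [charFun_apply] at this
  simp only [sub_eq_add_neg, Complex.ofReal_add, add_mul, Complex.exp_add]
  rw [integral_mul_const, this, mul_comm]; push_cast; congr 2; ring

lemma one_pt (t : ℝ) (x : E n) : ((∫ z, bump t ⟪z, x⟫ ∂stdGaussian (E n) : ℝ) : ℂ) =
    ∫ ξ, Complex.exp ((-(t * ξ) : ℝ) * Complex.I) * Real.exp (-(‖ξ • x‖ ^ 2 / 2))
      ∂gaussianReal 0 1 := by
  rw [← dual (gaussianReal 0 1) (w := fun ξ => ξ • x) (by fun_prop) (by fun_prop),
    ← integral_complex_ofReal]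
  simp only [bump_eq, real_inner_smul_right]
  congr! 6; ring

lemma one_pt' (t : ℝ) (x : E n) : ∫ z, bump t ⟪z, x⟫ ∂stdGaussian (E n) =
    √(1 / (1 + ‖x‖ ^ 2)) * Real.exp (-(t ^ 2 / (2 * (1 + ‖x‖ ^ 2)))) := by
  apply Complex.ofReal_injective
  have hp : 0 < 1 / (1 + ‖x‖ ^ 2) := by positivity
  let v : ℝ≥0 := ⟨_, hp.le⟩
  have hv : v ≠ 0 := fun h => hp.ne' (congrArg NNReal.toReal h)
  have h := charFun_gaussianReal (μ := 0) (v := v) (-t)
  rw [charFun_apply_real, integral_gaussianReal_eq_integral_smul hv] at h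
  rw [one_pt, integral_gaussianReal_eq_integral_smul one_ne_zero, Complex.ofReal_mul]
  have e : ((Real.exp (-(t ^ 2 / (2 * (1 + ‖x‖ ^ 2)))) : ℝ) : ℂ)
      = Complex.exp ((-t : ℝ) * (0 : ℝ) * Complex.I - (v : ℝ) * (-t : ℝ) ^ 2 / 2) := by
    rw [Complex.ofReal_exp]; congr 1
    have : (v : ℝ) = 1 / (1 + ‖x‖ ^ 2) := rfl
    rw [this]; norm_cast; simp only [Complex.ofReal_zero, mul_zero, zero_mul, zero_sub]
    norm_cast; field_simp
  rw [e, ← h, ← integral_const_mul]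
  refine integral_congr_ae (ae_of_all _ fun ξ => ?_)
  have key : gaussianPDFReal 0 1 ξ * Real.exp (-(‖ξ • x‖ ^ 2 / 2))
      = √(1 / (1 + ‖x‖ ^ 2)) * gaussianPDFReal 0 v ξ := by
    have : (v : ℝ) = 1 / (1 + ‖x‖ ^ 2) := rfl
    simp only [gaussianPDFReal, this, NNReal.coe_one, mul_one, sub_zero]
    rw [mul_assoc, ← Real.exp_add, Real.sqrt_mul (by positivity) (1 / _), ← mul_assoc, norm_smul,
      mul_pow, Real.norm_eq_abs, sq_abs]
    have := Real.sqrt_pos.2 hp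
    congr 1
    · field_simp
    · congr 1; field_simp; ring
  have := congrArg (fun r : ℝ => (r : ℂ)) key
  simp only [Complex.real_smul, Complex.ofReal_mul] at this ⊢
  rw [← mul_assoc _ (_ : ℂ) (Complex.exp _), ← this]; push_cast; ring_nf

lemma exp_lip {a b : ℝ} (ha : a ≤ 0) (hb : b ≤ 0) : |Real.exp a - Real.exp b| ≤ |a - b| := by
  wlog h : b ≤ a generalizing a b
  · rw [abs_sub_comm, abs_sub_comm a]; exact this hb ha (not_le.1 h).le
  rw [abs_of_nonneg (sub_nonneg.2 (Real.exp_le_exp.2 h)), abs_of_nonneg (sub_nonneg.2 h)]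
  have h1 := Real.add_one_le_exp (b - a)
  have h2 : Real.exp b = Real.exp a * Real.exp (b - a) := by rw [← Real.exp_add]; ring_nf
  have h3 := Real.exp_le_one_iff.2 ha
  nlinarith [Real.exp_pos a]

lemma two_pt (t : ℝ) (x y : E n) :
    |∫ z, bump t ⟪z, x⟫ * bump t ⟪z, y⟫ ∂stdGaussian (E n) - (∫ z, bump t ⟪z, x⟫ ∂stdGaussian (E n))
      * ∫ z, bump t ⟪z, y⟫ ∂stdGaussian (E n)| ≤ |⟪x, y⟫| := by
  set P := (gaussianReal 0 1).prod (gaussianReal 0 1) with hP
  have h1 : ((∫ z, bump t ⟪z, x⟫ * bump t ⟪z, y⟫ ∂stdGaussian (E n) : ℝ) : ℂ) =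
      ∫ p : ℝ × ℝ, Complex.exp ((-(t * (p.1 + p.2)) : ℝ) * Complex.I)
        * Real.exp (-(‖p.1 • x + p.2 • y‖ ^ 2 / 2)) ∂P := by
    rw [← dual P (w := fun p => p.1 • x + p.2 • y) (by fun_prop) (by fun_prop),
      ← integral_complex_ofReal]
    simp only [Complex.ofReal_mul (bump _ _), bump_eq, ← integral_prod_mul, ← Complex.exp_add,
      inner_add_right, real_inner_smul_right]
    congr! 5; push_cast; ring
  have hb : ∀ (c : ℝ × ℝ → ℝ) (f : ℝ × ℝ → ℝ), Measurable c → Measurable f → (∀ p, 0 ≤ f p) →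
      Integrable (fun p => Complex.exp ((c p : ℝ) * Complex.I) * Real.exp (-(f p / 2))) P :=
    fun c f hc hf h0 => Integrable.of_bound (Measurable.aestronglyMeasurable (by fun_prop)) 1
      (ae_of_all _ fun p => by
        rw [norm_mul, Complex.norm_exp_ofReal_mul_I, one_mul, Complex.norm_real, Real.norm_eq_abs,
          Real.abs_exp, Real.exp_le_one_iff]
        linarith [h0 p])
  have h2 : (((∫ z, bump t ⟪z, x⟫ ∂stdGaussian (E n)) * ∫ z, bump t ⟪z, y⟫ ∂stdGaussian (E n) : ℝ)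
      : ℂ) = ∫ p : ℝ × ℝ, Complex.exp ((-(t * (p.1 + p.2)) : ℝ) * Complex.I)
        * Real.exp (-((‖p.1 • x‖ ^ 2 + ‖p.2 • y‖ ^ 2) / 2)) ∂P := by
    rw [Complex.ofReal_mul, one_pt, one_pt, ← integral_prod_mul]
    congr! 2 with p
    rw [mul_mul_mul_comm, ← Complex.exp_add, ← Complex.ofReal_mul, ← Real.exp_add]
    congr 2
    · push_cast; ring
    · ring_nf
  have i2 : Integrable (fun ξ : ℝ => ξ ^ 2) (gaussianReal 0 1) :=
    (memLp_id_gaussianReal 2).integrable_sq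
  have v2 : ∫ ξ : ℝ, ξ ^ 2 ∂gaussianReal 0 1 = 1 := by
    have := variance_id_gaussianReal (μ := 0) (v := 1)
    rw [variance_eq_integral measurable_id.aemeasurable] at this
    simpa using this
  have j1 : Integrable (fun p : ℝ × ℝ => p.1 ^ 2) P := i2.comp_fst _
  have j2 : Integrable (fun p : ℝ × ℝ => p.2 ^ 2) P := i2.comp_snd _
  rw [← Real.norm_eq_abs, ← Complex.norm_real, Complex.ofReal_sub, h1, h2, ← integral_sub
    (hb _ _ (by fun_prop) (by fun_prop) fun _ => by positivity)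
    (hb _ _ (by fun_prop) (by fun_prop) fun _ => by positivity)]
  refine (norm_integral_le_of_norm_le (((j1.add j2).div_const 2).mul_const |⟪x, y⟫|)
    (ae_of_all _ fun p => ?_)).trans (le_of_eq ?_)
  · rw [← mul_sub, norm_mul, Complex.norm_exp_ofReal_mul_I, one_mul, ← Complex.ofReal_sub,
      Complex.norm_real, Real.norm_eq_abs]
    refine (exp_lip (neg_nonpos.2 (by positivity)) (neg_nonpos.2 (by positivity))).trans ?_
    rw [norm_add_sq_real, real_inner_smul_left, real_inner_smul_right,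
      show ∀ a b c : ℝ, -((a + 2 * (p.1 * (p.2 * c)) + b) / 2) - -((a + b) / 2) = -(p.1 * p.2) * c
        from fun a b c => by ring, abs_mul]
    refine mul_le_mul_of_nonneg_right (abs_le.2 ⟨?_, ?_⟩) (abs_nonneg _) <;>
      simp only [Pi.add_apply] <;> nlinarith [sq_nonneg (p.1 + p.2), sq_nonneg (p.1 - p.2)]
  · simp only [Pi.add_apply]
    rw [integral_mul_const, integral_div, integral_add j1 j2,
      integral_fun_fst fun ξ : ℝ => ξ ^ 2, integral_fun_snd fun ξ : ℝ => ξ ^ 2]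
    simp [v2]

lemma prod_sub_le {ι : Type*} (s : Finset ι) (a b : ι → ℝ) (ha : ∀ i, 0 ≤ a i ∧ a i ≤ 1)
    (hb : ∀ i, 0 ≤ b i ∧ b i ≤ 1) : ∏ i ∈ s, a i - ∏ i ∈ s, b i ≤ ∑ i ∈ s, |a i - b i| := by
  classical
  induction s using Finset.induction_on with
  | empty => simp
  | insert i s hi ih =>
    rw [prod_insert hi, prod_insert hi, sum_insert hi]
    have h1 : ∏ i ∈ s, b i ≤ 1 := prod_le_one (fun i _ => (hb i).1) fun i _ => (hb i).2
    have h2 : 0 ≤ ∏ i ∈ s, b i := prod_nonneg fun i _ => (hb i).1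
    have h3 : 0 ≤ ∑ i ∈ s, |a i - b i| := sum_nonneg fun i _ => abs_nonneg _
    have h4 := mul_le_mul_of_nonneg_left ih (ha i).1
    have h5 := mul_le_mul_of_nonneg_right (ha i).2 h3
    have h6 := mul_le_mul_of_nonneg_right (le_abs_self (a i - b i)) h2
    have h7 := mul_le_mul_of_nonneg_left h1 (abs_nonneg (a i - b i))
    linarith

/-- isotropic, up to the factor `n` -/
structure Iso (ν : Measure (E n)) : Prop where
  bd : ∃ R, ∀ᵐ x ∂ν, ‖x‖ ≤ R
  iso : ∀ u, ∫ x, ⟪u, x⟫ ^ 2 ∂ν = ‖u‖ ^ 2 / n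

variable {ν : Measure (E n)} [IsProbabilityMeasure ν]

lemma Iso.int (h : Iso ν) {f : E n → ℝ} (hf : Continuous f) : Integrable f ν := by
  obtain ⟨R, hR⟩ := h.bd
  obtain ⟨C, hC⟩ := (isCompact_closedBall (0 : E n) R).exists_bound_of_continuousOn hf.continuousOn
  exact Integrable.of_bound hf.aestronglyMeasurable C (hR.mono fun x hx => hC x (by simpa using hx))

lemma Iso.sq (h : Iso ν) (hn : 0 < n) : ∫ x, ‖x‖ ^ 2 ∂ν = 1 := by
  simp_rw [← (EuclideanSpace.basisFun (Fin n) ℝ).sum_sq_inner_right]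
  rw [integral_finsetSum _ fun i _ => h.int (by fun_prop)]
  simp_rw [h.iso]
  simp [hn.ne']

lemma Iso.inner_le (h : Iso ν) (hn : 0 < n) : ∫ x, ∫ y, |⟪x, y⟫| ∂ν ∂ν ≤ 1 / √n := by
  have hs : 0 < √(n : ℝ) := Real.sqrt_pos.2 (by exact_mod_cast hn)
  have hs2 : √(n : ℝ) ^ 2 = n := Real.sq_sqrt (Nat.cast_nonneg _)
  calc _ ≤ ∫ x, (‖x‖ ^ 2 + 1) / (2 * √n) ∂ν := by
        refine integral_mono_of_nonneg (ae_of_all _ fun x => integral_nonneg fun y => abs_nonneg _)
          (h.int (by fun_prop)) (ae_of_all _ fun x => ?_)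
        calc ∫ y, |⟪x, y⟫| ∂ν ≤ ∫ y, (n * ⟪x, y⟫ ^ 2 + 1) / (2 * √n) ∂ν := by
              refine integral_mono (h.int (by fun_prop)) (h.int (by fun_prop)) fun y => ?_
              simp only
              rw [le_div_iff₀ (by positivity), ← sq_abs ⟪x, y⟫]
              nlinarith [sq_nonneg (√n * |⟪x, y⟫| - 1)]
          _ = _ := by
              rw [integral_div, integral_add (h.int (by fun_prop)) (integrable_const _),
                integral_const_mul, h.iso]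
              simp [mul_div_cancel₀, hn.ne']
    _ = _ := by
        rw [integral_div, integral_add (h.int (by fun_prop)) (integrable_const _), h.sq hn]
        simp; field_simp; norm_num

variable {ι : Type} [Fintype ι]

/-- the linear map with given rows -/
def rows (Γ : ι → E n) : E n →L[ℝ] EuclideanSpace ℝ ι :=
  (EuclideanSpace.equiv ι ℝ).symm.toContinuousLinearMap.comp
    (ContinuousLinearMap.pi fun i => innerSL ℝ (Γ i))

theorem conc (h : Iso ν) (hn : 0 < n) {s : ℝ} (hs : 0 < s) (N : Finset (EuclideanSpace ℝ ι)) :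
    ∃ π : E n →L[ℝ] EuclideanSpace ℝ ι, ∀ t ∈ N,
      (∫ x, Real.exp (-(‖π x - t‖ ^ 2 / (2 * s ^ 2))) ∂ν -
        ∫ x, √(s ^ 2 / (s ^ 2 + ‖x‖ ^ 2)) ^ Fintype.card ι *
          Real.exp (-(‖t‖ ^ 2 / (2 * (s ^ 2 + ‖x‖ ^ 2)))) ∂ν) ^ 2
        ≤ N.card * (Fintype.card ι / (s ^ 2 * √n)) := by
  let P : Measure (ι → E n) := Measure.pi fun _ => stdGaussian (E n)
  let ψ : EuclideanSpace ℝ ι → (ι → E n) → E n → ℝ := fun t Γ x =>
    ∏ i, bump (t i / s) ⟪Γ i, s⁻¹ • x⟫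
  have ψ0 : ∀ t Γ x, 0 ≤ ψ t Γ x := fun t Γ x => prod_nonneg fun i _ => (bump_pos _ _).le
  have ψ1 : ∀ t Γ x, ψ t Γ x ≤ 1 := fun t Γ x =>
    prod_le_one (fun i _ => (bump_pos _ _).le) fun i _ => bump_le _ _
  have ψc : ∀ t, Continuous fun p : (ι → E n) × E n => ψ t p.1 p.2 := fun t => by
    simp only [ψ]; fun_prop
  have e1 : ∀ t Γ x, Real.exp (-(‖rows Γ x - t‖ ^ 2 / (2 * s ^ 2))) = ψ t Γ x := fun t Γ x => by
    simp only [ψ, bump, ← Real.exp_sum, EuclideanSpace.real_norm_sq_eq, sum_div, ← sum_neg_distrib,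
      real_inner_smul_right]
    congr 1
    refine sum_congr rfl fun i _ => ?_
    have : (rows Γ x - t) i = ⟪Γ i, x⟫ - t i := rfl
    rw [this]; field_simp
  let M : EuclideanSpace ℝ ι → ι → E n → ℝ := fun t i x =>
    ∫ z, bump (t i / s) ⟪z, s⁻¹ • x⟫ ∂stdGaussian (E n)
  have e2 : ∀ t x, √(s ^ 2 / (s ^ 2 + ‖x‖ ^ 2)) ^ Fintype.card ι *
      Real.exp (-(‖t‖ ^ 2 / (2 * (s ^ 2 + ‖x‖ ^ 2)))) = ∏ i, M t i x := fun t x => by
    simp only [M, one_pt', prod_mul_distrib, prod_const, card_univ, ← Real.exp_sum,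
      EuclideanSpace.real_norm_sq_eq t, sum_div, ← sum_neg_distrib, norm_smul, mul_pow,
      Real.norm_eq_abs, sq_abs]
    congr 3
    · field_simp
    · ext i; field_simp
  have e3 : ∀ t x, ∫ Γ, ψ t Γ x ∂P = ∏ i, M t i x := fun t x =>
    integral_fintype_prod_eq_prod fun i z => bump (t i / s) ⟪z, s⁻¹ • x⟫
  have b01 : ∀ {Ω : Type} [MeasurableSpace Ω] (μ : Measure Ω) [IsProbabilityMeasure μ] (f : Ω → ℝ),
      (∀ x, 0 ≤ f x ∧ f x ≤ 1) → 0 ≤ ∫ x, f x ∂μ ∧ ∫ x, f x ∂μ ≤ 1 := fun μ _ f hf =>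
    ⟨integral_nonneg fun x => (hf x).1, by
      simpa using integral_mono_of_nonneg (ae_of_all μ fun x => (hf x).1) (integrable_const 1)
        (ae_of_all μ fun x => (hf x).2)⟩
  have ib : ∀ {Ω : Type} [MeasurableSpace Ω] (μ : Measure Ω) [IsProbabilityMeasure μ] (f : Ω → ℝ),
      StronglyMeasurable f → (∀ x, 0 ≤ f x ∧ f x ≤ 1) → Integrable f μ := fun μ _ f hm hf =>
    Integrable.of_bound hm.aestronglyMeasurable 1 (ae_of_all _ fun x => by
      rw [Real.norm_of_nonneg (hf x).1]; exact (hf x).2)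
  have M01 : ∀ t i x, 0 ≤ M t i x ∧ M t i x ≤ 1 := fun t i x =>
    b01 _ _ fun z => ⟨(bump_pos _ _).le, bump_le _ _⟩
  have mul01 : ∀ a b : ℝ, 0 ≤ a ∧ a ≤ 1 → 0 ≤ b ∧ b ≤ 1 → 0 ≤ a * b ∧ a * b ≤ 1 :=
    fun a b ha hb => ⟨mul_nonneg ha.1 hb.1, mul_le_one₀ ha.2 hb.1 hb.2⟩
  have e4 : ∀ t x y, ∫ Γ, ψ t Γ x * ψ t Γ y ∂P ≤ (∏ i, M t i x) * (∏ i, M t i y)
      + Fintype.card ι / s ^ 2 * |⟪x, y⟫| := fun t x y => by
    simp only [ψ, ← prod_mul_distrib]
    rw [integral_fintype_prod_eq_prod fun i z =>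
      bump (t i / s) ⟪z, s⁻¹ • x⟫ * bump (t i / s) ⟪z, s⁻¹ • y⟫, ← sub_le_iff_le_add']
    refine (prod_sub_le _ _ _ (fun i => b01 _ _ fun z => mul01 _ _ ⟨(bump_pos _ _).le, bump_le _ _⟩
      ⟨(bump_pos _ _).le, bump_le _ _⟩) fun i => mul01 _ _ (M01 t i x) (M01 t i y)).trans
      ((sum_le_card_nsmul _ _ _ fun i _ => two_pt _ _ _).trans (le_of_eq ?_))
    rw [real_inner_smul_left, real_inner_smul_right, abs_mul, abs_mul, abs_of_pos (inv_pos.2 hs),
      nsmul_eq_mul, card_univ]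
    field_simp
  let F : EuclideanSpace ℝ ι → (ι → E n) → ℝ := fun t Γ => ∫ x, ψ t Γ x ∂ν
  have F01 : ∀ t Γ, 0 ≤ F t Γ ∧ F t Γ ≤ 1 := fun t Γ => b01 _ _ fun x => ⟨ψ0 _ _ _, ψ1 _ _ _⟩
  have Fm : ∀ t, StronglyMeasurable (F t) := fun t => (ψc t).stronglyMeasurable.integral_prod_right'
  have Mc : ∀ t, Continuous fun x => ∏ i, M t i x := fun t => by
    simp only [← e2]
    fun_prop (disch := intro x; positivity)
  let G : EuclideanSpace ℝ ι → ℝ := fun t => ∫ x, ∏ i, M t i x ∂ν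
  have m1 : ∀ t, ∫ Γ, F t Γ ∂P = G t := fun t => by
    simp only [F, G, ← e3]
    exact integral_integral_swap (ib _ _ (ψc t).stronglyMeasurable fun p => ⟨ψ0 _ _ _, ψ1 _ _ _⟩)
  have m2 : ∀ t, ∫ Γ, F t Γ ^ 2 ∂P ≤ G t ^ 2 + Fintype.card ι / (s ^ 2 * √n) := fun t => by
    have a1 : Integrable (fun p : E n × E n => |⟪p.1, p.2⟫|) (ν.prod ν) := by
      obtain ⟨R, hR⟩ := h.bd
      refine Integrable.of_bound (Continuous.aestronglyMeasurable (by fun_prop)) (R * R) ?_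
      filter_upwards [Measure.quasiMeasurePreserving_fst.ae hR,
        Measure.quasiMeasurePreserving_snd.ae hR] with p h1 h2
      rw [Real.norm_eq_abs, abs_abs]
      exact (abs_real_inner_le_norm _ _).trans
        (mul_le_mul h1 h2 (norm_nonneg _) ((norm_nonneg _).trans h1))
    have a2 : Integrable (fun p : E n × E n => (∏ i, M t i p.1) * ∏ i, M t i p.2) (ν.prod ν) :=
      (h.int (Mc t)).mul_prod (h.int (Mc t))
    simp only [F, G, sq (∫ _, _ ∂_), ← integral_prod_mul]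
    have a3 : Integrable (fun q : (ι → E n) × E n × E n => ψ t q.1 q.2.1 * ψ t q.1 q.2.2)
        (P.prod (ν.prod ν)) := ib _ _ (Continuous.stronglyMeasurable (by simp only [ψ]; fun_prop))
      fun p => mul01 _ _ ⟨ψ0 _ _ _, ψ1 _ _ _⟩ ⟨ψ0 _ _ _, ψ1 _ _ _⟩
    rw [integral_integral_swap (f := fun Γ (p : E n × E n) => ψ t Γ p.1 * ψ t Γ p.2) a3]
    refine (integral_mono_of_nonneg (ae_of_all _ fun p => integral_nonneg fun Γ =>
      mul_nonneg (ψ0 _ _ _) (ψ0 _ _ _)) (a2.add (a1.const_mul _))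
      (ae_of_all _ fun p => e4 t p.1 p.2)).trans ?_
    simp only [Pi.add_apply]
    rw [integral_add a2 (a1.const_mul _), integral_const_mul, integral_prod _ a1, ← div_div,
      div_eq_mul_one_div _ √n]
    gcongr
    exact h.inner_le hn
  have i1 : ∀ t, Integrable (F t) P := fun t => ib _ _ (Fm t) (F01 t)
  have i2 : ∀ t, Integrable (fun Γ => F t Γ ^ 2) P := fun t =>
    ib _ _ ((Fm t).pow 2) fun Γ => by rw [sq]; exact mul01 _ _ (F01 t Γ) (F01 t Γ)
  have e5 : ∀ t Γ, (F t Γ - G t) ^ 2 = F t Γ ^ 2 - 2 * G t * F t Γ + G t ^ 2 := fun t Γ => by ring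
  have i3 : ∀ t, Integrable (fun Γ => (F t Γ - G t) ^ 2) P := fun t => by
    simp only [e5]
    exact ((i2 t).sub ((i1 t).const_mul _)).add (integrable_const _)
  obtain ⟨Γ, hΓ⟩ := exists_le_integral (integrable_finsetSum N fun t _ => i3 t)
  refine ⟨rows Γ, fun t ht => ?_⟩
  simp only [e1, e2]
  refine (single_le_sum (f := fun t => (F t Γ - G t) ^ 2) (fun _ _ => sq_nonneg _) ht).trans
    (hΓ.trans ?_)
  rw [integral_finsetSum N fun t _ => i3 t, ← nsmul_eq_mul]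
  refine sum_le_card_nsmul _ _ _ fun t _ => ?_
  simp only [e5]
  rw [integral_add (f := fun Γ => F t Γ ^ 2 - 2 * G t * F t Γ)
    ((i2 t).sub ((i1 t).const_mul _)) (integrable_const _), integral_sub (i2 t) ((i1 t).const_mul _), integral_const_mul, m1]
  simp only [integral_const, probReal_univ, smul_eq_mul]
  linarith [m2 t]

end

end Vale.Agent.P230
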