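import Vale.Agent.P230.Energy

/-! Counting integer points of fat convex sets. -/

open MeasureTheory Set Metric
open scoped ENNReal

namespace Vale.Agent.P230

variable {m : ℕ}

/-- integer vectors as real vectors -/
def ic {ι : Type*} (x : ι → ℤ) : ι → ℝ := fun i => x i

/-- reduction modulo `P` -/
def md {ι : Type*} (P : ℕ) (x : ι → ℤ) : ι → ZMod P := fun i => x i

def cell (h : ℝ) (x : Fin m → ℤ) : Set (Fin m → ℝ) := Set.pi univ fun i => Ico (x i : ℝ) (x i + h)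

lemma cell_meas (h : ℝ) (x : Fin m → ℤ) : MeasurableSet (cell h x) :=
  MeasurableSet.univ_pi fun _ => measurableSet_Ico

lemma cell_vol {h : ℝ} (hh : 0 ≤ h) (x : Fin m → ℤ) : volume (cell h x) = ENNReal.ofReal (h ^ m) := by
  rw [cell, Real.volume_pi_Ico]
  simp [ENNReal.ofReal_pow hh]

lemma cell_norm {h : ℝ} (hh : 0 ≤ h) {x : Fin m → ℤ} {y : Fin m → ℝ} (hy : y ∈ cell h x) :
    ‖y - ic x‖ ≤ h := by
  refine (pi_norm_le_iff_of_nonneg hh).2 fun i => ?_
  have := hy i trivial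
  simp only [mem_Ico] at this
  rw [Real.norm_eq_abs, abs_le]
  simp only [Pi.sub_apply, ic]
  constructor <;> linarith

lemma sum_le_lint {h : ℕ} (S : Finset (Fin m → ℤ))
    (hS : ∀ x ∈ S, ∀ y ∈ S, x ≠ y → ∃ k, (h : ℤ) ≤ |x k - y k|) (f : (Fin m → ℤ) → ℝ≥0∞)
    (F : (Fin m → ℝ) → ℝ≥0∞) (hf : ∀ x ∈ S, ∀ y ∈ cell h x, f x ≤ F y) :
    (∑ x ∈ S, f x) * ENNReal.ofReal (h ^ m) ≤ ∫⁻ y, F y := by
  refine le_trans ?_ (setLIntegral_le_lintegral (⋃ x ∈ S, cell h x) F)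
  rw [lintegral_biUnion_finset _ fun x _ => cell_meas _ x, Finset.sum_mul]
  · refine Finset.sum_le_sum fun x hx => ?_
    rw [← cell_vol (Nat.cast_nonneg h) x, ← setLIntegral_const]
    exact setLIntegral_mono' (cell_meas _ x) (hf x hx)
  · intro x hx y hy hxy
    obtain ⟨k, hk⟩ := hS x hx y hy hxy
    refine Set.disjoint_left.2 fun z h1 h2 => ?_
    have a1 := h1 k trivial
    have a2 := h2 k trivial
    simp only [mem_Ico] at a1 a2
    have hk' : (h : ℝ) ≤ |(x k : ℝ) - y k| := by exact_mod_cast hk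
    rcases le_abs.1 hk' with h | h <;> linarith

lemma sep_one (S : Finset (Fin m → ℤ)) :
    ∀ x ∈ S, ∀ y ∈ S, x ≠ y → ∃ k, ((1 : ℕ) : ℤ) ≤ |x k - y k| := by
  intro x _ y _ hxy
  obtain ⟨k, hk⟩ := Function.ne_iff.1 hxy
  exact ⟨k, Int.one_le_abs (sub_ne_zero.2 hk)⟩

/-- A fat compact convex set together with its integer points. -/
structure Fat (B : Set (Fin m → ℝ)) (c : Fin m → ℝ) (ρ : ℝ) (A : Finset (Fin m → ℤ)) : Prop where
  cpt : IsCompact B
  cvx : Convex ℝ B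
  ball : closedBall c ρ ⊆ B
  big : 2 * m ≤ ρ
  big' : 4 ≤ ρ
  mem : ∀ x, x ∈ A ↔ ic x ∈ B

def dil (B : Set (Fin m → ℝ)) (c : Fin m → ℝ) (r : ℝ) : Set (Fin m → ℝ) :=
  AffineMap.homothety c r '' B

lemma dil_vol (B : Set (Fin m → ℝ)) (c : Fin m → ℝ) {r : ℝ} (hr : 0 ≤ r) :
    volume (dil B c r) = ENNReal.ofReal (r ^ m) * volume B := by
  rw [dil, Measure.addHaar_image_homothety]
  simp [abs_of_nonneg hr]

lemma dil_cpt {B : Set (Fin m → ℝ)} (hB : IsCompact B) (c : Fin m → ℝ) (r : ℝ) :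
    IsCompact (dil B c r) := hB.image (AffineMap.homothety_continuous c r)

lemma dil_cvx {B : Set (Fin m → ℝ)} (hB : Convex ℝ B) (c : Fin m → ℝ) (r : ℝ) :
    Convex ℝ (dil B c r) := hB.affine_image _

lemma mem_dil {B : Set (Fin m → ℝ)} (hB : Convex ℝ B) {c : Fin m → ℝ} {ρ t : ℝ} (hρ : 0 < ρ)
    (hb : closedBall c ρ ⊆ B) (ht : 0 < t) {x y : Fin m → ℝ} (hx : x ∈ B) (hy : ‖y - x‖ ≤ t) :
    y ∈ dil B c (1 + t / ρ) := by
  have h1 : c + (ρ / t) • (y - x) ∈ B := hb (by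
    rw [mem_closedBall, dist_eq_norm, add_sub_cancel_left, norm_smul, Real.norm_eq_abs,
      abs_of_pos (by positivity), div_mul_eq_mul_div, div_le_iff₀ ht]
    gcongr)
  refine ⟨_, hB hx h1 (a := ρ / (ρ + t)) (b := t / (ρ + t)) (by positivity) (by positivity)
    (by field_simp), ?_⟩
  rw [AffineMap.homothety_apply]
  ext i
  simp only [vsub_eq_sub, vadd_eq_add, Pi.add_apply, Pi.smul_apply, Pi.sub_apply, smul_eq_mul]
  field_simp
  ring

variable {B : Set (Fin m → ℝ)} {c : Fin m → ℝ} {ρ : ℝ} {A : Finset (Fin m → ℤ)}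

lemma Fat.count_sep (hF : Fat B c ρ A) {h : ℕ} (hh : 0 < h) (S : Finset (Fin m → ℤ))
    (hSA : S ⊆ A) (hS : ∀ x ∈ S, ∀ y ∈ S, x ≠ y → ∃ k, (h : ℤ) ≤ |x k - y k|) :
    (S.card : ℝ) ≤ (1 / h + 1 / ρ) ^ m * volume.real B := by
  have hρ : 0 < ρ := by linarith [hF.big']
  have hh' : (0 : ℝ) < h := by exact_mod_cast hh
  have h1 := sum_le_lint S hS (fun _ => 1) ((dil B c (1 + h / ρ)).indicator 1) fun x hx y hy => by
    rw [indicator_of_mem (mem_dil hF.cvx hρ hF.ball hh' ((hF.mem x).1 (hSA hx))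
      (cell_norm hh'.le hy))]
    rfl
  rw [lintegral_indicator_one (dil_cpt hF.cpt _ _).measurableSet, dil_vol _ _ (by positivity)] at h1
  have h2 := ENNReal.toReal_mono (ENNReal.mul_ne_top ENNReal.ofReal_ne_top
    hF.cpt.measure_lt_top.ne) h1
  simp only [Finset.sum_const, nsmul_eq_mul, mul_one, ENNReal.toReal_mul, ENNReal.toReal_natCast]
    at h2
  rw [ENNReal.toReal_ofReal (by positivity), ENNReal.toReal_ofReal (by positivity),
    ← le_div_iff₀ (by positivity), mul_div_right_comm, ← div_pow] at h2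
  have e : 1 / (h : ℝ) + 1 / ρ = (1 + h / ρ) / h := by field_simp
  rw [e]; exact h2

lemma Fat.vol_le (hF : Fat B c ρ A) : volume.real B ≤ 2 * A.card := by
  have hρ : 0 < ρ := by linarith [hF.big']
  have h0 : 0 ≤ 1 - 1 / ρ := by
    rw [sub_nonneg, div_le_one hρ]; linarith [hF.big']
  have h1 : dil B c (1 - 1 / ρ) ⊆ ⋃ x ∈ A, cell 1 x := by
    rintro _ ⟨z, hz, rfl⟩
    set y := AffineMap.homothety c (1 - 1 / ρ) z with hy
    have hc : y ∈ cell 1 fun i => ⌊y i⌋ := fun i _ => ⟨Int.floor_le _, Int.lt_floor_add_one _⟩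
    refine mem_iUnion₂.2 ⟨_, (hF.mem _).2 ?_, hc⟩
    have h2 : c + ρ • (ic (fun i => ⌊y i⌋) - y) ∈ B := hF.ball (by
      rw [mem_closedBall, dist_eq_norm, add_sub_cancel_left, norm_smul, Real.norm_eq_abs,
        abs_of_pos hρ, norm_sub_rev]
      exact mul_le_of_le_one_right hρ.le (cell_norm zero_le_one hc))
    convert hF.cvx hz h2 h0 (b := 1 / ρ) (by positivity) (by ring) using 1
    generalize ic (fun i => ⌊y i⌋) = w
    rw [hy, AffineMap.homothety_apply]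
    ext i
    simp only [vsub_eq_sub, vadd_eq_add, Pi.add_apply, Pi.smul_apply, Pi.sub_apply, smul_eq_mul]
    field_simp
    ring
  have h2 := (measure_mono (μ := volume) h1).trans (measure_biUnion_finset_le _ _)
  simp only [dil_vol _ _ h0, cell_vol zero_le_one, one_pow, ENNReal.ofReal_one, Finset.sum_const,
    nsmul_eq_mul, mul_one] at h2
  have h3 := ENNReal.toReal_mono (ENNReal.natCast_ne_top _) h2
  rw [ENNReal.toReal_mul, ENNReal.toReal_ofReal (by positivity), ENNReal.toReal_natCast] at h3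
  have h4 : 1 + (m : ℝ) * (-(1 / ρ)) ≤ (1 + -(1 / ρ)) ^ m := one_add_mul_le_pow (by linarith) m
  have h5 : (m : ℝ) * (1 / ρ) ≤ 1 / 2 := by
    rw [mul_one_div, div_le_iff₀ hρ]; linarith [hF.big]
  have h6 : 1 / 2 ≤ (1 - 1 / ρ) ^ m := by rw [sub_eq_add_neg]; linarith
  have := mul_le_mul_of_nonneg_right h6 (ENNReal.toReal_nonneg (a := volume B))
  rw [measureReal_def]; linarith

lemma one_add_pow_le (hm : 2 * m ≤ ρ) (hρ : 0 < ρ) : (1 + 2 / ρ) ^ m ≤ 3 := by
  calc (1 + 2 / ρ) ^ m ≤ Real.exp (2 / ρ) ^ m :=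
        pow_le_pow_left₀ (by positivity) (by linarith [Real.add_one_le_exp (2 / ρ)]) m
    _ = Real.exp (m * (2 / ρ)) := (Real.exp_nat_mul _ _).symm
    _ ≤ Real.exp 1 := Real.exp_le_exp.2 (by
        rw [← mul_div_assoc, div_le_one hρ]; linarith)
    _ ≤ 3 := Real.exp_one_lt_d9.le.trans (by norm_num)

lemma Fat.card_le (hF : Fat B c ρ A) : (A.card : ℝ) ≤ 3 * volume.real B := by
  have hρ : 0 < ρ := by linarith [hF.big']
  refine (hF.count_sep one_pos A le_rfl (sep_one A)).trans ?_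
  refine mul_le_mul_of_nonneg_right (le_trans ?_ (one_add_pow_le hF.big hρ)) measureReal_nonneg
  refine pow_le_pow_left₀ (by positivity) ?_ m
  simp only [Nat.cast_one, div_one, add_le_add_iff_left]
  gcongr; norm_num

open Classical in
lemma Fat.triple (hF : Fat B c ρ A) (u : Fin m → ℤ) :
    ∑ x ∈ A, ∑ y ∈ A, ((A.filter fun z => x + y - z + u ∈ A).card : ℝ)
      ≤ 2 ^ 41 * (994 / 1000) ^ m * (A.card : ℝ) ^ 3 := by
  have hρ : 0 < ρ := by linarith [hF.big']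
  set D := dil B c (1 + 2 / ρ) with hD
  have hDc : IsCompact D := dil_cpt hF.cpt _ _
  have hDm := hDc.measurableSet
  have hin : ∀ x ∈ A, ∀ y, ‖y - ic x‖ ≤ 2 → y ∈ D := fun x hx y hy =>
    mem_dil hF.cvx hρ hF.ball two_pos ((hF.mem x).1 hx) hy
  have hin' : ∀ x ∈ A, ∀ y ∈ cell ((1 : ℕ) : ℝ) x, y ∈ D := fun x hx y hy =>
    hin x hx y ((cell_norm (by norm_num) hy).trans (by norm_num))
  have h1 := energy_shift hDm (dil_cvx hF.cvx _ _) hDc.measure_lt_top.ne (ic u)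
  have h2 : ∑ x ∈ A, ∑ y ∈ A, ((A.filter fun z => x + y - z + u ∈ A).card : ℝ≥0∞) ≤ _ :=
    le_trans ?_ h1
  · have h3 := ENNReal.toReal_mono (ENNReal.mul_ne_top ENNReal.ofReal_ne_top
      (ENNReal.pow_ne_top hDc.measure_lt_top.ne)) h2
    simp_rw [← Nat.cast_sum] at h3 ⊢
    rw [ENNReal.toReal_natCast, ENNReal.toReal_mul, ENNReal.toReal_ofReal (by positivity),
      ENNReal.toReal_pow, hD, dil_vol _ _ (by positivity), ENNReal.toReal_mul,
      ENNReal.toReal_ofReal (by positivity)] at h3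
    have h4 : (1 + 2 / ρ) ^ m * (volume B).toReal ≤ 3 * (2 * A.card) :=
      mul_le_mul (one_add_pow_le hF.big hρ) hF.vol_le ENNReal.toReal_nonneg (by norm_num)
    calc _ ≤ _ := h3
      _ ≤ 2 ^ 33 * (994 / 1000) ^ m * (3 * (2 * (A.card : ℝ))) ^ 3 := by gcongr
      _ ≤ _ := by
        have : 0 ≤ (994 / 1000 : ℝ) ^ m * (A.card : ℝ) ^ 3 := by positivity
        nlinarith
  · have e := fun (f : (Fin m → ℤ) → ℝ≥0∞) (F : (Fin m → ℝ) → ℝ≥0∞) (S : Finset (Fin m → ℤ))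
      (h : ∀ x ∈ S, ∀ y ∈ cell ((1 : ℕ) : ℝ) x, f x ≤ F y) => sum_le_lint S (sep_one S) f F h
    simp only [Nat.cast_one, one_pow, ENNReal.ofReal_one, mul_one] at e hin'
    refine e _ _ _ fun x hx X hX => e _ _ _ fun y hy Y hY => ?_
    rw [indicator_of_mem (hin' x hx X hX), indicator_of_mem (hin' y hy Y hY), cv_eq hDm]
    simp only [Pi.one_apply, one_mul, Finset.card_eq_sum_ones, Nat.cast_sum, Nat.cast_one]
    refine e _ _ _ fun z hz Z hZ => ?_
    obtain ⟨hz1, hz2⟩ := Finset.mem_filter.1 hz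
    rw [indicator_of_mem (hin' z hz1 Z hZ), indicator_of_mem (hin _ hz2 _ ?_)]
    · simp
    · refine (pi_norm_le_iff_of_nonneg (by norm_num)).2 fun i => ?_
      have a1 := hX i trivial
      have a2 := hY i trivial
      have a3 := hZ i trivial
      simp only [mem_Ico] at a1 a2 a3
      rw [Real.norm_eq_abs, abs_le]
      simp only [Pi.sub_apply, Pi.add_apply, Pi.smul_apply, smul_eq_mul, ic]
      push_cast
      constructor <;> linarith

lemma int_eq_of_mod {P : ℕ} {a b : ℤ} (h : (a : ZMod P) = b) (hab : |a - b| < P) : a = b := by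
  rw [ZMod.intCast_eq_intCast_iff_dvd_sub] at h
  have := Int.eq_zero_of_abs_lt_dvd h (by rwa [abs_sub_comm])
  linarith

lemma Fat.sep_le (hF : Fat B c ρ A) {h : ℤ} (hh : 2 ≤ |h|) (S : Finset (Fin m → ℤ))
    (hSA : S ⊆ A) (hS : ∀ x ∈ S, ∀ y ∈ S, ∀ k, h ∣ x k - y k) :
    (S.card : ℝ) ≤ 2 * (3 / 4) ^ m * A.card := by
  have hρ : 0 < ρ := by linarith [hF.big']
  have h0 : 2 ≤ h.natAbs := by rw [Int.abs_eq_natAbs] at hh; exact_mod_cast hh
  have h1 := hF.count_sep (h := h.natAbs) (by omega) S hSA fun x hx y hy hxy => by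
    obtain ⟨k, hk⟩ := Function.ne_iff.1 hxy
    refine ⟨k, Int.le_of_dvd (abs_pos.2 (sub_ne_zero.2 hk)) ?_⟩
    simpa using hS x hx y hy k
  have h2 : (1 / (h.natAbs : ℝ) + 1 / ρ) ^ m ≤ (3 / 4) ^ m := by
    refine pow_le_pow_left₀ (by positivity) ?_ m
    have a1 : 1 / (h.natAbs : ℝ) ≤ 1 / 2 := by gcongr; exact_mod_cast h0
    have a2 : 1 / ρ ≤ 1 / 4 := by gcongr; exact hF.big'
    linarith
  calc _ ≤ _ := h1
    _ ≤ (3 / 4) ^ m * (2 * A.card) := mul_le_mul h2 hF.vol_le measureReal_nonneg (by positivity)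
    _ = _ := by ring

open Classical in
lemma Fat.dilate (hF : Fat B c ρ A) {P R : ℕ} [Fact P.Prime] (hR : ∀ x ∈ A, ∀ y ∈ A, ∀ k,
    |x k - y k| ≤ R) (hP : 4 * R ^ 2 < P) (l : ZMod P) (h0 : l ≠ 0) (h1 : l ≠ 1) (h2 : l ≠ -1)
    (v : Fin m → ZMod P) :
    ((A.filter fun x => ∃ y ∈ A, l • md P x + v = md P y).card : ℝ)
      ≤ max (1 : ℝ) (2 * (3 / 4) ^ m * A.card) := by
  set S := A.filter fun x => ∃ y ∈ A, l • md P x + v = md P y with hS
  rcases le_or_gt S.card 1 with h | h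
  · exact le_max_of_le_left (by exact_mod_cast h)
  refine le_max_of_le_right ?_
  have hSA : S ⊆ A := Finset.filter_subset _ _
  choose! w hw1 hw2 using fun x (hx : x ∈ S) => (Finset.mem_filter.1 hx).2
  have hw : ∀ x ∈ S, ∀ y ∈ S, ∀ k, l * ((x k - y k : ℤ) : ZMod P) = ((w x k - w y k : ℤ) : ZMod P) := by
    intro x hx y hy k
    have a1 := congrFun (hw2 x hx) k
    have a2 := congrFun (hw2 y hy) k
    simp only [md, Pi.add_apply, Pi.smul_apply, smul_eq_mul] at a1 a2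
    push_cast
    rw [← a1, ← a2]; ring
  obtain ⟨x, hx, x', hx', hxx⟩ := Finset.one_lt_card.1 h
  obtain ⟨i, hi⟩ := Function.ne_iff.1 hxx
  have hi' : x i - x' i ≠ 0 := sub_ne_zero.2 hi
  obtain ⟨α, β, hc, ha, hb⟩ := Int.exists_gcd_one
    (Int.gcd_pos_of_ne_zero_right (w x i - w x' i) hi')
  set g : ℤ := (Int.gcd (w x i - w x' i) (x i - x' i) : ℤ) with hg
  have hg0 : 0 < g := by rw [hg]; exact_mod_cast Int.gcd_pos_of_ne_zero_right _ hi'
  have hP' : 4 * (R : ℤ) ^ 2 < P := by exact_mod_cast hP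
  have r1 := hR x (hSA hx) x' (hSA hx') i
  have r2 := hR _ (hw1 x hx) _ (hw1 x' hx') i
  have hR1 : (1 : ℤ) ≤ R := (Int.one_le_abs hi').trans r1
  have hβ0 : β ≠ 0 := by rintro rfl; exact hi' (by simpa using hb)
  have hβR : |β| ≤ R := by
    rw [hb, abs_mul, abs_of_pos hg0] at r1; nlinarith [abs_nonneg β]
  have hαR : |α| ≤ R := by
    rw [ha, abs_mul, abs_of_pos hg0] at r2; nlinarith [abs_nonneg α]
  have hgR : g ≤ R := by
    rw [hb, abs_mul, abs_of_pos hg0] at r1; nlinarith [Int.one_le_abs hβ0]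
  have nz : ∀ t : ℤ, t ≠ 0 → |t| ≤ R → (t : ZMod P) ≠ 0 := fun t ht htR h =>
    ht (int_eq_of_mod (P := P) (b := 0) (by simpa using h) (by rw [sub_zero]; nlinarith))
  have hl : l * β = α := by
    have := hw x hx x' hx' i
    rw [ha, hb] at this
    push_cast at this
    exact mul_right_cancel₀ (nz g hg0.ne' (by rwa [abs_of_pos hg0])) (by rw [← this]; ring)
  have key : ∀ z ∈ S, ∀ z' ∈ S, ∀ k, α * (z k - z' k) = β * (w z k - w z' k) := by
    intro z hz z' hz' k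
    refine int_eq_of_mod (P := P) ?_ ?_
    · rw [Int.cast_mul, Int.cast_mul, ← hw z hz z' hz' k, ← hl]; ring
    · have a1 := hR z (hSA hz) z' (hSA hz') k
      have a2 := hR _ (hw1 z hz) _ (hw1 z' hz') k
      have a3 : |α * (z k - z' k)| ≤ R * R := by
        rw [abs_mul]; exact mul_le_mul hαR a1 (abs_nonneg _) (by linarith)
      have a4 : |β * (w z k - w z' k)| ≤ R * R := by
        rw [abs_mul]; exact mul_le_mul hβR a2 (abs_nonneg _) (by linarith)
      have := abs_sub (α * (z k - z' k)) (β * (w z k - w z' k))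
      nlinarith
  have hco : IsCoprime α β := Int.isCoprime_iff_gcd_eq_one.2 hc
  rcases le_or_gt 2 |β| with hb2 | hb2
  · exact hF.sep_le hb2 S hSA fun z hz z' hz' k =>
      hco.symm.dvd_of_dvd_mul_left ⟨_, key z hz z' hz' k⟩
  have hb1 : β = 1 ∨ β = -1 := by
    have := Int.one_le_abs hβ0
    rcases abs_cases β with h | h <;> omega
  have hα0 : α ≠ 0 := by
    rintro rfl
    rcases hb1 with rfl | rfl <;> simp [h0] at hl
  have ha2 : 2 ≤ |α| := by
    by_contra hh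
    have ha1 : α = 1 ∨ α = -1 := by
      have := Int.one_le_abs hα0
      rcases abs_cases α with h | h <;> omega
    rcases hb1 with rfl | rfl <;> rcases ha1 with rfl | rfl <;>
      simp [h1, h2, neg_eq_iff_eq_neg] at hl
  have hinj : Set.InjOn w S := by
    intro z hz z' hz' hzz
    funext k
    have := key z hz z' hz' k
    rw [hzz, sub_self, mul_zero] at this
    exact sub_eq_zero.1 ((mul_eq_zero.1 this).resolve_left hα0)
  rw [← Finset.card_image_of_injOn hinj]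
  refine hF.sep_le ha2 _ (fun y hy => ?_) fun y hy y' hy' k => ?_
  · obtain ⟨z, hz, rfl⟩ := Finset.mem_image.1 hy
    exact hw1 z hz
  · obtain ⟨z, hz, rfl⟩ := Finset.mem_image.1 hy
    obtain ⟨z', hz', rfl⟩ := Finset.mem_image.1 hy'
    exact hco.dvd_of_dvd_mul_left ⟨_, (key z hz z' hz' k).symm⟩

open Classical in
lemma Fat.triple_mod (hF : Fat B c ρ A) {P R : ℕ} (hR : ∀ x ∈ A, ∀ y ∈ A, ∀ k,
    |x k - y k| ≤ R) (hP : 4 * R ^ 2 < P) (v : Fin m → ZMod P) :
    ∑ x ∈ A, ∑ y ∈ A,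
      ((A.filter fun z => ∃ w ∈ A, md P x + md P y - md P z + v = md P w).card : ℝ)
      ≤ 2 ^ 41 * (994 / 1000) ^ m * (A.card : ℝ) ^ 3 := by
  by_cases h : ∃ x ∈ A, ∃ y ∈ A, ∃ z ∈ A, ∃ w ∈ A, md P x + md P y - md P z + v = md P w
  · obtain ⟨x0, hx0, y0, hy0, z0, hz0, w0, hw0, h⟩ := h
    refine le_trans ?_ (hF.triple (w0 - x0 - y0 + z0))
    refine Finset.sum_le_sum fun x hx => Finset.sum_le_sum fun y hy => ?_
    refine Nat.cast_le.2 (Finset.card_le_card fun z hz => ?_)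
    obtain ⟨hz1, w, hw, hz2⟩ := Finset.mem_filter.1 hz
    refine Finset.mem_filter.2 ⟨hz1, ?_⟩
    convert hw
    funext k
    refine int_eq_of_mod (P := P) ?_ ?_
    · have a1 := congrFun h k
      have a2 := congrFun hz2 k
      simp only [md, Pi.add_apply, Pi.sub_apply] at a1 a2 ⊢
      push_cast
      rw [← a1, ← a2]; ring
    · have a1 := abs_le.1 (hR x hx x0 hx0 k)
      have a2 := abs_le.1 (hR y hy y0 hy0 k)
      have a3 := abs_le.1 (hR z hz1 z0 hz0 k)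
      have a4 := abs_le.1 (hR w hw w0 hw0 k)
      have hP' : 4 * (R : ℤ) ^ 2 < P := by exact_mod_cast hP
      have : (R : ℤ) ≤ R ^ 2 := by nlinarith [sq_nonneg ((R : ℤ) - 1), Int.natCast_nonneg R, Int.le_self_sq R]
      simp only [Pi.add_apply, Pi.sub_apply]
      rw [abs_lt]
      constructor <;> linarith
  · push Not at h
    refine le_trans (le_of_eq ?_) (by positivity : (0 : ℝ) ≤ _)
    refine Finset.sum_eq_zero fun x hx => Finset.sum_eq_zero fun y hy => ?_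
    rw [Nat.cast_eq_zero, Finset.card_eq_zero, Finset.filter_eq_empty_iff]
    rintro z hz ⟨w, hw, h'⟩
    exact h x hx y hy z hz w hw h'

end Vale.Agent.P230
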