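import Vale.Agent.P230.Tuples

/-! The probability that none of many hitting events occurs. -/

namespace Vale.Agent.P230

open Finset Function

noncomputable section

variable {ι Ω : Type*} [Fintype ι] [DecidableEq ι] [Fintype Ω] [DecidableEq Ω]

/-- coordinate laws attached to a family of sets -/
def law (p : Ω → ℝ) (ω0 : Ω) (I : Finset ι) (A : ι → Finset Ω) : ι → Ω → ℝ := fun i ω =>
  if i ∈ I then (if ω ∈ A i then p ω / ∑ ω' ∈ A i, p ω' else 0) else (if ω = ω0 then 1 else 0)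

omit [Fintype ι] in
lemma law_PV {p : Ω → ℝ} (hp : ∀ ω, 0 < p ω) (ω0 : Ω) (I : Finset ι) (A : ι → Finset Ω)
    (h : ∀ i ∈ I, 0 < ∑ ω' ∈ A i, p ω') : PV (law p ω0 I A) := by
  constructor
  · intro i ω
    unfold law
    split_ifs with h1 h2
    · exact div_nonneg (hp ω).le (h i h1).le
    all_goals norm_num
  · intro i
    unfold law
    split_ifs with h1
    · rw [← sum_filter, filter_mem_eq_inter, univ_inter, ← sum_div, div_self (h i h1).ne']
    · simp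

omit [Fintype ι] in
lemma rho_law {p : Ω → ℝ} (hp : ∀ ω, 0 < p ω) (ω0 : Ω) {I I' : Finset ι} (A A' : ι → Finset Ω)
    {i k : ι} (hi : i ∈ I) (hk : k ∈ I') :
    rho p (law p ω0 I A) (law p ω0 I' A') i k
      = (∑ ω ∈ A i ∩ A' k, p ω) * (∑ ω' ∈ A i, p ω')⁻¹ * (∑ ω' ∈ A' k, p ω')⁻¹ := by
  unfold rho law
  simp only [hi, hk, if_true]
  rw [sum_mul, sum_mul, ← univ_inter (A i ∩ A' k), ← filter_mem_eq_inter, sum_filter]
  refine sum_congr rfl fun ω _ => ?_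
  have := (hp ω).ne'
  by_cases h1 : ω ∈ A i <;> by_cases h2 : ω ∈ A' k <;> simp [h1, h2]
  field_simp

omit [Fintype ι] [Fintype Ω] in
lemma prod_le_prod_image {p : Ω → ℝ} (hp : ∀ ω, 0 < p ω) (hp1 : ∀ ω, p ω ≤ 1) (I : Finset ι)
    (f : ι → Ω) : ∏ i ∈ I, p (f i) ≤ ∏ ω ∈ I.image f, p ω := by
  induction I using Finset.induction_on with
  | empty => simp
  | insert i I hi ih =>
    rw [prod_insert hi, image_insert]
    by_cases h : f i ∈ I.image f
    · rw [insert_eq_of_mem h]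
      exact (mul_le_of_le_one_left (prod_nonneg fun j _ => (hp _).le) (hp1 _)).trans ih
    · rw [prod_insert h]
      exact mul_le_mul_of_nonneg_left ih (hp _).le

omit [Fintype Ω] in
lemma law_wt_le {p : Ω → ℝ} (hp : ∀ ω, 0 < p ω) (hp1 : ∀ ω, p ω ≤ 1) (ω0 : Ω) (I : Finset ι)
    (A : ι → Finset Ω) (L : ι → ℝ) (h : ∀ i ∈ I, 1 ≤ L i * ∑ ω' ∈ A i, p ω')
    (hL : ∀ i ∈ I, 1 ≤ L i) (f : ι → Ω) :
    ∏ i, law p ω0 I A i (f i) ≤ (∏ i ∈ I, L i) * ∏ ω ∈ I.image f, p ω := by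
  have hpos : ∀ i ∈ I, 0 < ∑ ω' ∈ A i, p ω' := fun i hi => by
    by_contra hc
    have := mul_nonpos_of_nonneg_of_nonpos (zero_le_one.trans (hL i hi)) (not_lt.1 hc)
    linarith [h i hi]
  have h0 : ∀ i, 0 ≤ law p ω0 I A i (f i) := fun i => by
    unfold law
    split_ifs with h1 h2
    · exact div_nonneg (hp _).le (hpos i h1).le
    all_goals norm_num
  calc ∏ i, law p ω0 I A i (f i) ≤ ∏ i, (if i ∈ I then L i * p (f i) else 1) := by
        refine prod_le_prod (fun i _ => h0 i) fun i _ => ?_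
        unfold law
        split_ifs with h1 h2
        · rw [div_le_iff₀ (hpos i h1)]
          have := mul_le_mul_of_nonneg_left (h i h1) (hp (f i)).le
          linarith
        · exact mul_nonneg (zero_le_one.trans (hL i h1)) (hp _).le
        all_goals norm_num
    _ = (∏ i ∈ I, L i) * ∏ i ∈ I, p (f i) := by
        rw [← prod_filter, filter_mem_eq_inter, univ_inter, prod_mul_distrib]
    _ ≤ _ := mul_le_mul_of_nonneg_left (prod_le_prod_image hp hp1 I f)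
        (prod_nonneg fun i hi => zero_le_one.trans (hL i hi))

theorem hitting {γ : Type*} (p : Ω → ℝ) (hp0 : ∀ ω, 0 < p ω) (hp1 : ∀ ω, p ω ≤ 1) (ω0 : Ω)
    (P : Finset γ) (I : γ → Finset ι) (A : γ → ι → Finset Ω) (L : γ → ι → ℝ)
    (hL1 : ∀ g ∈ P, ∀ i ∈ I g, 1 ≤ L g i)
    (hL : ∀ g ∈ P, ∀ i ∈ I g, 1 ≤ L g i * ∑ ω ∈ A g i, p ω)
    (K : γ → ι → γ → ι → ℝ) (hK0 : ∀ g i g' k, 0 ≤ K g i g' k)
    (hK : ∀ g ∈ P, ∀ i ∈ I g, ∀ g' ∈ P, ∀ k ∈ I g', ∑ ω ∈ A g i ∩ A g' k, p ω ≤ K g i g' k)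
    (C : ℝ) (hC0 : 0 ≤ C) (hC : ∀ g ∈ P, ∀ i ∈ I g, ∀ g' ∈ P, ∑ k ∈ I g', K g i g' k ≤ C)
    (B Lm : ℝ) (hB1 : ∀ g ∈ P, (1 + C) ^ (I g).card ≤ B) (hB2 : ∀ g ∈ P, ∏ i ∈ I g, L g i ≤ B)
    (hLm : ∀ g ∈ P, ∀ i ∈ I g, L g i ≤ Lm) (Ξ : ℝ) (hΞ0 : 0 < Ξ) (hΞB : B ≤ Ξ)
    (hΞ : ∀ g ∈ P, ∑ g' ∈ P, (ind (1 < Lm ^ 2 * ∑ i ∈ I g, ∑ k ∈ I g', K g i g' k) * B ^ 3
      + 3 * (Lm ^ 2 * ∑ i ∈ I g, ∑ k ∈ I g', K g i g' k)) ≤ Ξ) :
    Pr univ p (fun S => ∀ g ∈ P, ∃ i ∈ I g, Disjoint (A g i) S)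
      ≤ Real.exp (-(P.card / (4 * Ξ))) := by
  classical
  have hw : Valid p := fun ω => ⟨(hp0 ω).le, hp1 ω⟩
  have hpos : ∀ g ∈ P, ∀ i ∈ I g, 0 < ∑ ω' ∈ A g i, p ω' := fun g hg i hi => by
    by_contra hc
    have := mul_nonpos_of_nonneg_of_nonpos (zero_le_one.trans (hL1 g hg i hi)) (not_lt.1 hc)
    linarith [hL g hg i hi]
  let a : γ → ι → Ω → ℝ := fun g => law p ω0 (I g) (A g)
  have ha : ∀ g ∈ P, PV (a g) := fun g hg => law_PV hp0 ω0 _ _ (hpos g hg)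
  set z := 1 / (2 * Ξ) with hz
  have hz0 : 0 < z := by positivity
  let T : γ × (ι → Ω) → Finset Ω := fun x => (I x.1).image x.2
  let q : γ × (ι → Ω) → ℝ := fun x =>
    if x.1 ∈ P then z * (∏ i, a x.1 i (x.2 i)) / ∏ ω ∈ T x, p ω else 0
  have hPT : ∀ S : Finset Ω, 0 < ∏ ω ∈ S, p ω := fun S => prod_pos fun ω _ => hp0 ω
  have hq0 : ∀ x, 0 ≤ q x := by
    intro x
    simp only [q]
    split_ifs with h
    · exact div_nonneg (mul_nonneg hz0.le (prod_nonneg fun i _ => (ha _ h).1 _ _)) (hPT _).le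
    · exact le_rfl
  have hq1 : ∀ x, q x ≤ 1 := by
    intro x
    simp only [q]
    split_ifs with h
    · rw [div_le_one (hPT _)]
      have h1 := law_wt_le hp0 hp1 ω0 (I x.1) (A x.1) (L x.1) (hL _ h) (hL1 _ h) x.2
      have h2 := mul_le_mul_of_nonneg_right ((hB2 _ h).trans hΞB) (hPT (T x)).le
      have h3 := mul_le_mul_of_nonneg_left (h1.trans h2) hz0.le
      have h4 : z * (Ξ * ∏ ω ∈ T x, p ω) = (∏ ω ∈ T x, p ω) / 2 := by rw [hz]; field_simp
      have := hPT (T x)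
      linarith
    · exact zero_le_one
  have hJ := janson (U := univ) hw (P ×ˢ univ) T (fun _ => subset_univ _) q hq0 hq1
  have h1 : Pr univ p (fun S => ∀ g ∈ P, ∃ i ∈ I g, Disjoint (A g i) S) ≤
      Ex univ p (fun ω => ∏ x ∈ P ×ˢ univ, (1 - q x * ind (T x ⊆ ω))) := by
    refine Ex_mono hw fun S _ => ?_
    by_cases hS : ∀ g ∈ P, ∃ i ∈ I g, Disjoint (A g i) S
    · rw [ind_pos hS]
      refine le_of_eq (prod_eq_one fun x hx => ?_).symm
      have hg : x.1 ∈ P := (mem_product.1 hx).1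
      obtain ⟨i, hi, hd⟩ := hS _ hg
      by_cases hxi : x.2 i ∈ A x.1 i
      · rw [ind_neg]
        · simp
        · intro hsub
          exact disjoint_left.1 hd hxi (hsub (mem_image_of_mem _ hi))
      · have : ∏ j, a x.1 j (x.2 j) = 0 := prod_eq_zero (mem_univ i) (by simp [a, law, hi, hxi])
        simp [q, this]
    · rw [ind_neg hS]
      exact prod_nonneg fun x _ => sub_nonneg.2
        (mul_le_one₀ (hq1 x) (ind_nonneg _) (ind_le_one _))
  refine h1.trans (hJ.trans (Real.exp_le_exp.2 ?_))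
  have h2 : ∑ x ∈ P ×ˢ univ, q x * ∏ e ∈ T x, p e = z * P.card := by
    rw [sum_product, card_eq_sum_ones, Nat.cast_sum, mul_sum]
    refine sum_congr rfl fun g hg => ?_
    have := TEx_const (ha g hg) z
    rw [Nat.cast_one, mul_one, ← this, TEx]
    refine sum_congr rfl fun f _ => ?_
    simp only [q, hg, if_true]
    have := (hPT (T (g, f))).ne'
    field_simp
  have h3 : ∑ x ∈ P ×ˢ univ, ∑ y ∈ P ×ˢ univ, q x * q y * (ind (¬ Disjoint (T x) (T y)) *
      ∏ e ∈ T x ∪ T y, p e) = z ^ 2 * ∑ g ∈ P, ∑ g' ∈ P, Ov p (a g) (a g') (I g) (I g') := by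
    rw [sum_product, mul_sum]
    refine sum_congr rfl fun g hg => ?_
    simp only [sum_product]
    rw [sum_comm, mul_sum]
    refine sum_congr rfl fun g' hg' => ?_
    simp only [Ov, TEx, mul_sum]
    refine sum_congr rfl fun f _ => sum_congr rfl fun f' _ => ?_
    simp only [q, hg, hg', if_true, Psi, prod_inv_distrib]
    have e1 := (hPT (T (g, f))).ne'
    have e2 := (hPT (T (g', f'))).ne'
    have e3 := (hPT (T (g, f) ∩ T (g', f'))).ne'
    have e4 : (∏ e ∈ T (g, f) ∪ T (g', f'), p e) * ∏ e ∈ T (g, f) ∩ T (g', f'), p e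
        = (∏ e ∈ T (g, f), p e) * ∏ e ∈ T (g', f'), p e := prod_union_inter
    have e5 : (∏ e ∈ T (g, f) ∪ T (g', f'), p e) = (∏ e ∈ T (g, f), p e) *
        (∏ e ∈ T (g', f'), p e) / ∏ e ∈ T (g, f) ∩ T (g', f'), p e := by
      rw [← e4]; field_simp
    rw [e5]
    simp only [T] at e1 e2 e3 ⊢
    field_simp
  have h4 : ∀ g ∈ P, ∀ g' ∈ P, Ov p (a g) (a g') (I g) (I g') ≤
      ind (1 < Lm ^ 2 * ∑ i ∈ I g, ∑ k ∈ I g', K g i g' k) * B ^ 3
      + 3 * (Lm ^ 2 * ∑ i ∈ I g, ∑ k ∈ I g', K g i g' k) := by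
    intro g hg g' hg'
    have hρ : ∀ i ∈ I g, ∀ k ∈ I g', rho p (a g) (a g') i k ≤ K g i g' k * L g i * L g' k := by
      intro i hi k hk
      rw [rho_law hp0 ω0 _ _ hi hk]
      have e1 : (∑ ω' ∈ A g i, p ω')⁻¹ ≤ L g i := by
        rw [inv_le_iff_one_le_mul₀ (hpos g hg i hi)]; exact hL g hg i hi
      have e2 : (∑ ω' ∈ A g' k, p ω')⁻¹ ≤ L g' k := by
        rw [inv_le_iff_one_le_mul₀ (hpos g' hg' k hk)]; exact hL g' hg' k hk
      have e3 := hK g hg i hi g' hg' k hk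
      have e4 := hK0 g i g' k
      have e5 := hL1 g hg i hi
      exact mul_le_mul (mul_le_mul e3 e1 (inv_nonneg.2 (hpos g hg i hi).le) e4) e2
        (inv_nonneg.2 (hpos g' hg' k hk).le) (by positivity)
    set D := Lm ^ 2 * ∑ i ∈ I g, ∑ k ∈ I g', K g i g' k with hD
    have hD0 : 0 ≤ D := mul_nonneg (sq_nonneg _)
      (sum_nonneg fun i _ => sum_nonneg fun k _ => hK0 _ _ _ _)
    by_cases hn : 1 < D
    · rw [ind_pos hn, one_mul]
      have e1 := MM_near hp0 (ha g hg) (ha g' hg') (I g) (I g') (fun i k => K g i g' k) (L g) (L g')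
        C hC0 (fun i k => hK0 _ _ _ _) (hL1 g hg) (hL1 g' hg') hρ (fun i hi => hC g hg i hi g' hg')
        (I g) Subset.rfl (I g') Subset.rfl
      have hB0 : 0 ≤ B := le_trans (by positivity) (hB1 g hg)
      have e2 : (1 + C) ^ (I g).card * (∏ i ∈ I g, L g i) * ∏ k ∈ I g', L g' k ≤ B * B * B :=
        mul_le_mul (mul_le_mul (hB1 g hg) (hB2 g hg)
          (prod_nonneg fun i hi => zero_le_one.trans (hL1 g hg i hi)) hB0) (hB2 g' hg')
          (prod_nonneg fun i hi => zero_le_one.trans (hL1 g' hg' i hi)) (by positivity)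
      have e3 := Ov_le_MM hp0 (ha g hg) (ha g' hg') (I g) (I g')
      nlinarith
    · rw [ind_neg hn, zero_mul, zero_add]
      have e1 := Ov_far hp0 (ha g hg) (ha g' hg') (I g) (I g') (I g) Subset.rfl
      have e2 : ∑ i ∈ I g, ∑ k ∈ I g', rho p (a g) (a g') i k ≤ D := by
        rw [hD, mul_sum]
        refine sum_le_sum fun i hi => ?_
        rw [mul_sum]
        refine sum_le_sum fun k hk => (hρ i hi k hk).trans ?_
        have e3 := hL1 g hg i hi
        have e4 := hL1 g' hg' k hk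
        have e5 := mul_le_mul (hLm g hg i hi) (hLm g' hg' k hk) (by linarith)
          (by linarith [hLm g hg i hi])
        have := mul_le_mul_of_nonneg_left e5 (hK0 g i g' k)
        nlinarith
      have e3 : Real.exp (∑ i ∈ I g, ∑ k ∈ I g', rho p (a g) (a g') i k) ≤ 3 :=
        (Real.exp_le_exp.2 (e2.trans (not_lt.1 hn))).trans
          (Real.exp_one_lt_d9.le.trans (by norm_num))
      refine e1.trans ?_
      rw [mul_comm]
      exact mul_le_mul e3 e2 (sum_nonneg fun i _ => sum_nonneg fun k _ =>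
        rho_nonneg hp0 (ha g hg) (ha g' hg') i k) (by norm_num)
  have h5 : ∑ g ∈ P, ∑ g' ∈ P, Ov p (a g) (a g') (I g) (I g') ≤ P.card * Ξ := by
    rw [← nsmul_eq_mul, ← sum_const]
    exact sum_le_sum fun g hg => (sum_le_sum fun g' hg' => h4 g hg g' hg').trans (hΞ g hg)
  rw [h2, h3]
  have h6 := mul_le_mul_of_nonneg_left h5 (sq_nonneg z)
  have h7 : -(z * P.card) + z ^ 2 * (P.card * Ξ) = -(P.card / (4 * Ξ)) := by
    rw [hz]; field_simp; ring
  linarith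

end

end Vale.Agent.P230
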