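import Vale.Agent.P230.Grid
import Vale.Agent.P230.Body

/-! The probability that a random affine subspace misses a given set. -/

open Finset
open scoped BigOperators

namespace Vale.Agent.P230

noncomputable section

lemma expect_add_right {G : Type*} [AddGroup G] [Fintype G] (f : G → ℝ) (a : G) :
    𝔼 x, f (x + a) = 𝔼 x, f x :=
  Fintype.expect_equiv (Equiv.addRight a) _ _ fun _ => rfl

lemma expect_surj {A B : Type*} [AddGroup A] [Fintype A] [AddCommGroup B] [Fintype B]
    (φ : A →+ B) (hφ : Function.Surjective φ) (f : B → ℝ) : 𝔼 a, f (φ a) = 𝔼 b, f b := by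
  obtain ⟨s, hs⟩ := hφ.hasRightInverse
  calc 𝔼 a, f (φ a) = 𝔼 b : B, 𝔼 a, f (φ (a + s b)) := by
        simp_rw [expect_add_right (fun a => f (φ a))]
        rw [Fintype.expect_const]
    _ = 𝔼 a, 𝔼 b : B, f (b + φ a) := by
        rw [expect_comm]
        simp_rw [map_add, hs _, add_comm]
    _ = _ := by simp_rw [expect_add_right f]; rw [Fintype.expect_const]

section Bonf

variable {α F W : Type*} [Fintype α] [DecidableEq α] [Field F] [AddCommGroup W] [Module F W]
  (v : α → W)

open Classical in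
def RR (I : Finset α) : ℕ := (univ.filter fun x => x ∉ I ∧ v x ∈ Submodule.span F (v '' I)).card

open Classical in
def II (D : ℕ) : Finset (Finset α) := univ.filter fun I => LinearIndepOn F v I ∧ I.card ≤ D

open Classical in
def II' (D : ℕ) : Finset (Finset α) := univ.filter fun I => LinearIndepOn F v I ∧ I.card < D

lemma bonf_point {D : ℕ} (hD : Even D) (Y : Finset α) :
    ind (Y = ∅) - ∑ I ∈ II' (F := F) v D, RR (F := F) v I * ind (I ⊆ Y)
      ≤ ∑ I ∈ II (F := F) v D, (-1) ^ I.card * ind (I ⊆ Y) ∧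
    ∑ I ∈ II (F := F) v D, (-1) ^ I.card * ind (I ⊆ Y) ≤ ind (Y = ∅) +
      ∑ I ∈ powersetCard D univ, ind (I ⊆ Y) +
      ∑ I ∈ II' (F := F) v D, RR (F := F) v I * ind (I ⊆ Y) := by
  classical
  have n1 : 0 ≤ ∑ I ∈ II' (F := F) v D, (RR (F := F) v I : ℝ) * ind (I ⊆ Y) :=
    sum_nonneg fun _ _ => mul_nonneg (Nat.cast_nonneg _) (ind_nonneg _)
  have n2 : 0 ≤ ∑ I ∈ powersetCard D univ, ind (I ⊆ Y) := sum_nonneg fun _ _ => ind_nonneg _
  rcases Y.eq_empty_or_nonempty with rfl | ⟨y, hy⟩
  · have : ∑ I ∈ II (F := F) v D, (-1) ^ I.card * ind (I ⊆ ∅) = 1 := by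
      rw [sum_eq_single_of_mem ∅ (by simp [II])]
      · simp
      · intro I _ hI
        rw [ind_neg (by simpa using hI), mul_zero]
    rw [this, ind_pos rfl]
    constructor <;> linarith
  rw [ind_neg (ne_empty_of_mem hy)]
  let Good : Finset α → Prop := fun I =>
    I ⊆ Y ∧ LinearIndepOn F v (insert y I : Finset α) ∧ (insert y I).card ≤ D
  let tg : Finset α → Finset α := fun I => if y ∈ I then I.erase y else insert y I
  have t1 : ∀ I, insert y (tg I) = insert y I := fun I => by
    by_cases h : y ∈ I <;> simp [tg, h]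
  have t2 : ∀ I, Good (tg I) ↔ Good I := fun I => by
    simp only [Good, t1]
    refine and_congr_left' ?_
    by_cases h : y ∈ I
    · simp only [tg, if_pos h]
      exact ⟨fun h' => by rw [← insert_erase h]; exact insert_subset hy h',
        fun h' => (erase_subset _ _).trans h'⟩
    · simp [tg, h, insert_subset_iff, hy]
  have h0 : ∑ I : Finset α, (-1 : ℝ) ^ I.card * ind (Good I) = 0 := by
    refine sum_involution (fun I _ => tg I) (fun I _ => ?_) (fun I _ _ => ?_) (fun _ _ => mem_univ _)
      fun I _ => ?_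
    · rw [ind_congr (t2 I), ← add_mul]
      by_cases h : y ∈ I
      · simp only [tg, if_pos h]
        rw [← card_erase_add_one h, pow_succ]; ring
      · simp only [tg, if_neg h]
        rw [card_insert_of_notMem h, pow_succ]; ring
    · by_cases h : y ∈ I
      · simp only [tg, if_pos h]; exact fun h' => by simpa [h] using erase_eq_self.1 h'
      · simp only [tg, if_neg h]; exact fun h' => h (h' ▸ mem_insert_self y I)
    · by_cases h : y ∈ I <;> simp [tg, h]
  have key : ∀ I : Finset α,
      (-1 : ℝ) ^ I.card * ind (Good I) -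
          (if I ∈ II' (F := F) v D then (RR (F := F) v I : ℝ) * ind (I ⊆ Y) else 0)
        ≤ (if I ∈ II (F := F) v D then (-1) ^ I.card * ind (I ⊆ Y) else 0) ∧
      (if I ∈ II (F := F) v D then (-1) ^ I.card * ind (I ⊆ Y) else 0) ≤
        (-1 : ℝ) ^ I.card * ind (Good I) + (if I ∈ powersetCard D univ then ind (I ⊆ Y) else 0) +
          (if I ∈ II' (F := F) v D then (RR (F := F) v I : ℝ) * ind (I ⊆ Y) else 0) := by
    intro I
    have m1 : 0 ≤ (if I ∈ II' (F := F) v D then (RR (F := F) v I : ℝ) * ind (I ⊆ Y) else 0) := by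
      split_ifs
      · exact mul_nonneg (Nat.cast_nonneg _) (ind_nonneg _)
      · rfl
    have m2 : 0 ≤ (if I ∈ powersetCard D univ then ind (I ⊆ Y) else 0) := by
      split_ifs
      · exact ind_nonneg _
      · rfl
    by_cases hG : Good I
    · have : I ∈ II (F := F) v D := by
        simp only [II, mem_filter, mem_univ, true_and]
        exact ⟨hG.2.1.mono (by simp), (card_le_card (subset_insert _ _)).trans hG.2.2⟩
      rw [if_pos this, ind_pos hG, ind_pos hG.1] at *
      constructor <;> linarith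
    rw [ind_neg hG, mul_zero]
    by_cases h1 : I ∈ II (F := F) v D
    swap
    · rw [if_neg h1]; constructor <;> linarith
    by_cases h2 : I ⊆ Y
    swap
    · rw [ind_neg h2]; simp
    rw [if_pos h1, ind_pos h2] at *
    simp only [II, mem_filter, mem_univ, true_and] at h1
    have hyI : y ∉ I := fun h => hG ⟨h2, by rw [insert_eq_of_mem h]; exact h1⟩
    rcases h1.2.eq_or_lt with h3 | h3
    · rw [h3, hD.neg_one_pow, if_pos (c := I ∈ powersetCard D univ) (by simp [h3])]
      constructor <;> linarith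
    · have h4 : v y ∈ Submodule.span F (v '' I) := by
        by_contra h
        exact hG ⟨h2, by rw [coe_insert]; exact h1.1.insert h,
          by rw [card_insert_of_notMem hyI]; exact h3⟩
      have h5 : (1 : ℝ) ≤ RR (F := F) v I := by
        exact_mod_cast card_pos.2 ⟨y, by simp [hyI, h4]⟩
      rw [if_pos (c := I ∈ II' (F := F) v D) (by simp [II', h1.1, h3])]
      rcases neg_one_pow_eq_or ℝ I.card with h | h <;> rw [h] <;> constructor <;> linarith
  have k1 := sum_le_sum fun I (_ : I ∈ univ) => (key I).1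
  have k2 := sum_le_sum fun I (_ : I ∈ univ) => (key I).2
  simp only [sum_sub_distrib, sum_add_distrib, h0, sum_ite_mem, univ_inter] at k1 k2
  exact ⟨k1, k2⟩

lemma bonf_bound {Ω : Type*} [Fintype Ω] [Nonempty Ω] (Y : Ω → Finset α) {p : ℝ} (hp0 : 0 ≤ p)
    (hp1 : p ≤ 1) (hY : ∀ I : Finset α, LinearIndepOn F v I → 𝔼 ω, ind (I ⊆ Y ω) = p ^ I.card)
    {D : ℕ} (hD : Even D) :
    𝔼 ω, ind (Y ω = ∅) ≤ Real.exp (-(Fintype.card α * p)) +
      (1 / 2) ^ D * Real.exp (2 * (Fintype.card α * p)) +
      2 * ∑ I ∈ II' (F := F) v D, RR (F := F) v I * p ^ I.card := by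
  classical
  have hw : Valid fun _ : α => p := valid_const hp0 hp1
  have a1 := expect_le_expect fun ω (_ : ω ∈ univ) => (bonf_point (F := F) v hD (Y ω)).1
  have a2 := Ex_mono (U := univ) hw fun Y _ => (bonf_point (F := F) v hD Y).2
  have hP : ∀ I : Finset α, Ex univ (fun _ => p) (fun Y => ind (I ⊆ Y)) = p ^ I.card := fun I => by
    have := Pr_all_open (w := fun _ => p) (subset_univ I)
    rw [prod_const] at this
    exact this
  have hP0 : Ex univ (fun _ : α => p) (fun Y => ind (Y = ∅)) = (1 - p) ^ Fintype.card α := by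
    have := Pr_all_closed (w := fun _ : α => p) (subset_univ univ)
    rw [prod_const] at this
    rw [← card_univ, ← this]
    exact Ex_congr fun Y _ => ind_congr (disjoint_top (a := Y)).symm
  simp only [expect_sub_distrib, expect_sum_comm, ← mul_expect] at a1
  simp only [Ex_add, Ex_sum, Ex_const_mul, hP, hP0] at a2
  rw [sum_congr rfl fun I hI => by rw [hY I (by simpa [II'] using (mem_filter.1 hI).2.1)],
    sum_congr (s₁ := II v D) rfl fun I hI => by
      rw [hY I (by simpa [II] using (mem_filter.1 hI).2.1)]] at a1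
  have a3 : (1 - p) ^ Fintype.card α ≤ Real.exp (-(Fintype.card α * p)) := by
    rw [← mul_neg, Real.exp_nat_mul]
    exact pow_le_pow_left₀ (by linarith) (by linarith [Real.add_one_le_exp (-p)]) _
  have a4 : ∑ I ∈ powersetCard D (univ : Finset α), p ^ I.card
      ≤ (1 / 2) ^ D * Real.exp (2 * (Fintype.card α * p)) := by
    rw [sum_congr rfl fun I hI => by rw [(mem_powersetCard.1 hI).2], sum_const, card_powersetCard,
      card_univ, nsmul_eq_mul]
    have b1 := Real.pow_div_factorial_le_exp (2 * (Fintype.card α * p)) (by positivity) D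
    have b2 : ((Fintype.card α).choose D : ℝ) ≤ (Fintype.card α : ℝ) ^ D / D.factorial :=
      Nat.choose_le_pow_div D _
    calc _ ≤ (Fintype.card α : ℝ) ^ D / D.factorial * p ^ D := by gcongr
      _ = (1 / 2) ^ D * ((2 * (Fintype.card α * p)) ^ D / D.factorial) := by
          rw [mul_pow, mul_pow, one_div, inv_pow]; field_simp
      _ ≤ _ := by gcongr
  linarith

end Bonf

lemma resample {ι α : Type*} [Fintype ι] [DecidableEq ι] [Fintype α] (l : ι) (f : (ι → α) → ℝ) :
    Fintype.card α * ∑ x, f x = ∑ x, ∑ y, f (Function.update x l y) := by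
  let e : (ι → α) × α → (ι → α) × α := fun q => (Function.update q.1 l q.2, q.1 l)
  have he : Function.Involutive e := fun q => by simp [e]
  calc _ = ∑ q : (ι → α) × α, f q.1 := by
        rw [Fintype.sum_prod_type, mul_sum]; simp
    _ = ∑ q : (ι → α) × α, f (e q).1 := (he.bijective.sum_comp fun q => f q.1).symm
    _ = _ := Fintype.sum_prod_type _

section Count

variable {α μ : Type} [Fintype α] [DecidableEq α] {P : ℕ} [Fact P.Prime] (u : α → μ → ZMod P)

omit [Fintype α] [DecidableEq α] in
lemma sum_upd {i : ℕ} (c : Fin i → ZMod P) (x : Fin i → α) (l : Fin i) (y : α) :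
    ∑ k, c k • u (Function.update x l y k) = c l • u y + (∑ k, c k • u (x k) - c l • u (x l)) := by
  rw [← add_sum_erase _ _ (mem_univ l), ← add_sum_erase _ (fun k => c k • u (x k)) (mem_univ l),
    Function.update_self, add_sub_cancel_left]
  congr 1
  exact sum_congr rfl fun k hk => by rw [Function.update_of_ne (ne_of_mem_erase hk)]

omit [DecidableEq α] in
lemma count_lam [Nonempty α] {β : ℝ} (hβ : 0 ≤ β)
    (H1 : ∀ l : ZMod P, l ≠ 0 → l ≠ 1 → l ≠ -1 → ∀ c,
      ∑ x, ind (∃ y, l • u x + c = u y) ≤ β * Fintype.card α)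
    (H2 : ∀ c, ∑ x, ∑ y, ∑ z, ind (∃ w, u x + u y - u z + c = u w) ≤ β * Fintype.card α ^ 3)
    {i : ℕ} (hi : 2 * i + 2 < P) (c : Fin i → ZMod P) (hc : ∑ k, c k = 1) (hu : u.Injective) :
    ∑ x : Fin i → α, ind (∃ y, (∀ k, y ≠ x k) ∧ ∑ k, c k • u (x k) = u y)
      ≤ β * Fintype.card α ^ i := by
  have ha : (0 : ℝ) < Fintype.card α := by exact_mod_cast Fintype.card_pos
  let g : (Fin i → α) → ℝ := fun x => ind (∃ y, ∑ k, c k • u (x k) = u y)
  have hg : ∑ x : Fin i → α, ind (∃ y, (∀ k, y ≠ x k) ∧ ∑ k, c k • u (x k) = u y) ≤ ∑ x, g x :=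
    sum_le_sum fun x _ => ind_mono fun ⟨y, _, h⟩ => ⟨y, h⟩
  by_cases h : ∃ l, c l ≠ 0 ∧ c l ≠ 1 ∧ c l ≠ -1
  · obtain ⟨l, h0, h1, h2⟩ := h
    refine hg.trans (le_of_mul_le_mul_left ?_ ha)
    rw [resample l]
    refine (sum_le_card_nsmul _ _ (β * Fintype.card α) fun x _ => ?_).trans (le_of_eq ?_)
    · simp only [g, sum_upd]
      exact H1 _ h0 h1 h2 _
    · simp; ring
  push Not at h
  have h2 : (1 : ZMod P) ≠ -1 := fun h => by
    have := int_eq_of_mod (P := P) (a := 1) (b := -1) (by simpa using h) (by norm_num; omega)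
    omega
  set A1 := univ.filter fun k => c k = 1 with hA1
  set A2 := univ.filter fun k => c k = -1 with hA2
  have hsum : ∀ {M : Type} [AddCommGroup M] [Module (ZMod P) M] (w : Fin i → M),
      ∑ k, c k • w k = ∑ k ∈ A1, w k - ∑ k ∈ A2, w k := by
    intro M _ _ w
    rw [hA1, hA2, sum_filter, sum_filter, ← sum_sub_distrib]
    refine sum_congr rfl fun k _ => ?_
    by_cases a0 : c k = 0
    · simp [a0]
    by_cases a1 : c k = 1
    · simp [a1, h2]
    · simp [h k a0 a1, h2.symm]
  have hcard : A1.card = A2.card + 1 := by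
    have e := hsum (M := ZMod P) fun _ => 1
    simp only [smul_eq_mul, mul_one, hc, sum_const, nsmul_eq_mul] at e
    have b1 : A1.card ≤ i := (card_le_univ _).trans (by simp)
    have b2 : A2.card ≤ i := (card_le_univ _).trans (by simp)
    have := int_eq_of_mod (P := P) (a := A1.card) (b := A2.card + 1)
      (by push_cast; linear_combination -e) (by rw [abs_lt]; constructor <;> omega)
    omega
  rcases A2.eq_empty_or_nonempty with h3 | ⟨l3, h3⟩
  · rw [h3, card_empty, card_eq_one] at hcard
    obtain ⟨l, hl⟩ := hcard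
    refine le_trans (le_of_eq (sum_eq_zero fun x _ => ind_neg ?_)) (by positivity)
    rintro ⟨y, hy, hy'⟩
    rw [hsum, h3, hl, sum_singleton, sum_empty, sub_zero] at hy'
    exact hy l (hu hy').symm
  obtain ⟨l1, h1, l2, h1', h12⟩ := one_lt_card.1
    (show 1 < A1.card by have := card_pos.2 ⟨l3, h3⟩; omega)
  have c1 : c l1 = 1 := (mem_filter.1 h1).2
  have c2 : c l2 = 1 := (mem_filter.1 h1').2
  have c3 : c l3 = -1 := (mem_filter.1 h3).2
  have h13 : l1 ≠ l3 := fun h => h2 (c1.symm.trans (h ▸ c3))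
  have h23 : l2 ≠ l3 := fun h => h2 (c2.symm.trans (h ▸ c3))
  refine hg.trans (le_of_mul_le_mul_left ?_ (pow_pos ha 3))
  have e : (Fintype.card α : ℝ) ^ 3 * ∑ x, g x = ∑ x, ∑ y1, ∑ y2, ∑ y3,
      g (Function.update (Function.update (Function.update x l1 y1) l2 y2) l3 y3) := by
    rw [pow_succ, mul_assoc, resample l3, sq, mul_assoc,
      resample l2 (fun x => ∑ y, g (Function.update x l3 y)), resample l1]
  rw [e]
  refine (sum_le_card_nsmul _ _ (β * Fintype.card α ^ 3) fun x _ => ?_).trans (le_of_eq ?_)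
  · refine le_trans (le_of_eq ?_)
      (H2 (∑ k, c k • u (x k) - u (x l1) - u (x l2) + u (x l3)))
    refine sum_congr rfl fun y1 _ => sum_congr rfl fun y2 _ => sum_congr rfl fun y3 _ => ?_
    simp only [g, sum_upd, c1, c2, c3, Function.update_of_ne h12.symm,
      Function.update_of_ne h13.symm, Function.update_of_ne h23.symm, one_smul, neg_smul]
    refine ind_congr (exists_congr fun w => Eq.congr_left ?_)
    abel
  · simp; ring

/-- homogenised vectors -/
def hom1 (x : α) : Option μ → ZMod P := fun k => k.elim 1 (u x)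

lemma err_le [Nonempty α] {β : ℝ} (hβ : 0 ≤ β)
    (H1 : ∀ l : ZMod P, l ≠ 0 → l ≠ 1 → l ≠ -1 → ∀ c,
      ∑ x, ind (∃ y, l • u x + c = u y) ≤ β * Fintype.card α)
    (H2 : ∀ c, ∑ x, ∑ y, ∑ z, ind (∃ w, u x + u y - u z + c = u w) ≤ β * Fintype.card α ^ 3)
    {i : ℕ} (hi : 2 * i + 2 < P) (hu : u.Injective) :
    ∑ I ∈ powersetCard i univ, (RR (F := ZMod P) (hom1 u) I : ℝ)
      ≤ P ^ i * (β * Fintype.card α ^ i) := by
  classical
  have hex : ∀ I : Finset α, ∃ x : Fin i → α, I.card = i → Set.range x = I := by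
    intro I
    by_cases h : I.card = i
    · refine ⟨fun k => (I.equivFinOfCardEq h).symm k, fun _ => ?_⟩
      ext y
      exact ⟨fun ⟨k, hk⟩ => hk ▸ Subtype.prop _,
        fun hy => ⟨I.equivFinOfCardEq h ⟨y, hy⟩, by simp⟩⟩
    · exact ⟨fun _ => Classical.arbitrary α, fun h' => absurd h' h⟩
  choose e he using hex
  let g : (Fin i → α) → ℝ := fun x => ∑ c : Fin i → ZMod P,
    ind (∑ k, c k = 1) * ind (∃ y, (∀ k, y ≠ x k) ∧ ∑ k, c k • u (x k) = u y)
  have g0 : ∀ x, 0 ≤ g x := fun x =>
    sum_nonneg fun _ _ => mul_nonneg (ind_nonneg _) (ind_nonneg _)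
  have h1 : ∀ I ∈ powersetCard i univ, (RR (F := ZMod P) (hom1 u) I : ℝ) ≤ g (e I) := by
    intro I hI
    have hI' := he I (mem_powersetCard.1 hI).2
    have hc : ∀ y, ∃ c : Fin i → ZMod P, hom1 u y ∈ Submodule.span (ZMod P) (hom1 u '' I) →
        ∑ k, c k • hom1 u (e I k) = hom1 u y := by
      intro y
      by_cases h : hom1 u y ∈ Submodule.span (ZMod P) (hom1 u '' I)
      · rw [← hI', ← Set.range_comp, Submodule.mem_span_range_iff_exists_fun] at h
        obtain ⟨c, hc⟩ := h
        exact ⟨c, fun _ => hc⟩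
      · exact ⟨0, fun h' => absurd h' h⟩
    choose c hc using hc
    have hc1 : ∀ y, hom1 u y ∈ Submodule.span (ZMod P) (hom1 u '' I) →
        ∑ k, c y k = 1 ∧ ∑ k, c y k • u (e I k) = u y := fun y hy =>
      ⟨by simpa [hom1] using congrFun (hc y hy) none,
        funext fun j => by simpa [hom1] using congrFun (hc y hy) (some j)⟩
    set S := univ.filter fun x => x ∉ I ∧ hom1 u x ∈ Submodule.span (ZMod P) (hom1 u '' I) with hS
    have hR : RR (F := ZMod P) (hom1 u) I = S.card := by rw [hS, RR]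
    have hinj : Set.InjOn c S := fun y hy y' hy' h => hu (by
      rw [← (hc1 y (mem_filter.1 hy).2.2).2, ← (hc1 y' (mem_filter.1 hy').2.2).2, h])
    rw [hR, ← card_image_of_injOn hinj, card_eq_sum_ones, Nat.cast_sum]
    refine le_trans (le_of_eq (sum_congr rfl fun d hd => ?_))
      (sum_le_sum_of_subset_of_nonneg (subset_univ _)
        fun _ _ _ => mul_nonneg (ind_nonneg _) (ind_nonneg _))
    obtain ⟨y, hy, rfl⟩ := mem_image.1 hd
    obtain ⟨hy1, hy2⟩ := (mem_filter.1 hy).2
    rw [ind_pos (hc1 y hy2).1, ind_pos ⟨y, fun k hk => hy1 (by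
      rw [← mem_coe, ← hI']; exact ⟨k, hk.symm⟩), (hc1 y hy2).2⟩]
    simp
  have h2 : Set.InjOn e (powersetCard i univ : Finset (Finset α)) := fun I hI J hJ h =>
    coe_injective (by
      rw [← he I (mem_powersetCard.1 hI).2, ← he J (mem_powersetCard.1 hJ).2, h])
  refine (sum_le_sum h1).trans ?_
  rw [← sum_image h2]
  refine (sum_le_sum_of_subset_of_nonneg (subset_univ _) fun _ _ _ => g0 _).trans ?_
  simp only [g]
  rw [sum_comm]
  refine (sum_le_card_nsmul _ _ (β * Fintype.card α ^ i) fun c _ => ?_).trans (le_of_eq ?_)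
  · rw [← mul_sum]
    by_cases hc : ∑ k, c k = 1
    · rw [ind_pos hc, one_mul]
      exact count_lam u hβ H1 H2 hi c hc hu
    · rw [ind_neg hc, zero_mul]; positivity
  · simp [ZMod.card]

omit [Fintype α] in
lemma prob_indep {κ F G : Type*} [Fintype κ] [DecidableEq κ] [Field F] [AddCommGroup G]
    [Module F G] [Fintype G] (v : α → κ → F) (I : Finset α) (hI : LinearIndepOn F v I) :
    𝔼 H : κ → G, ind (∀ x ∈ I, ∑ k, v x k • H k = 0) = (1 / Fintype.card G) ^ I.card := by
  classical
  let φ : (κ → G) →+ (I → G) :=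
    { toFun := fun H x => ∑ k, v x k • H k
      map_zero' := by ext; simp
      map_add' := fun _ _ => by ext; simp [sum_add_distrib] }
  have hφ : Function.Surjective φ := by
    intro t
    obtain ⟨L, hL⟩ := LinearMap.exists_leftInverse_of_injective
      (Fintype.linearCombination F fun x : I => v x)
      (LinearMap.ker_eq_bot.2 (linearIndependent_iff_injective_fintypeLinearCombination.1 hI))
    refine ⟨fun k => ∑ x : I, L (Pi.single k 1) x • t x, funext fun y => ?_⟩
    have h1 : L (v y) = Pi.single y 1 := by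
      have := LinearMap.congr_fun hL (Pi.single y 1)
      simpa [Fintype.linearCombination_apply_single] using this
    have h2 : ∑ k, v y k • L (Pi.single k 1) = L (v y) := by
      simp_rw [← map_smul, ← map_sum]
      congr 1
      ext k; simp [Pi.single_apply]
    change ∑ k, v y k • ∑ x : I, L (Pi.single k 1) x • t x = t y
    simp_rw [smul_sum, smul_smul]
    rw [sum_comm]
    simp_rw [← sum_smul]
    have h3 : ∀ x : I, ∑ k, v y k * L (Pi.single k 1) x = (Pi.single y 1 : I → F) x := fun x => by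
      rw [← h1, ← h2]; simp
    simp [h3, Pi.single_apply]
  have := expect_surj φ hφ fun t => ind (t = 0)
  calc _ = 𝔼 H : κ → G, ind (φ H = 0) := by
        refine expect_congr rfl fun H _ => ind_congr ?_
        simp [φ, funext_iff]
    _ = _ := by
        rw [this, Fintype.expect_eq_sum_div_card, sum_eq_single_of_mem 0 (mem_univ _)
          fun b _ hb => ind_neg hb]
        simp

theorem hole_bound [Fintype μ] [DecidableEq μ] [Nonempty α] {G : Type*} [AddCommGroup G]
    [Module (ZMod P) G] [Fintype G] {β : ℝ} (hβ : 0 ≤ β)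
    (H1 : ∀ l : ZMod P, l ≠ 0 → l ≠ 1 → l ≠ -1 → ∀ c,
      ∑ x, ind (∃ y, l • u x + c = u y) ≤ β * Fintype.card α)
    (H2 : ∀ c, ∑ x, ∑ y, ∑ z, ind (∃ w, u x + u y - u z + c = u w) ≤ β * Fintype.card α ^ 3)
    (hu : u.Injective) {D : ℕ} (hD : Even D) (hDP : 2 * D < P) {V : ℝ}
    (hV : V = Fintype.card α / Fintype.card G) :
    𝔼 H : μ → G, 𝔼 τ : G, ind (∀ x, ∑ k, u x k • H k ≠ τ) ≤
      Real.exp (-V) + (1 / 2) ^ D * Real.exp (2 * V) + 2 * (D * (P * (V + 1)) ^ D * β) := by
  classical
  have hG : (1 : ℝ) ≤ Fintype.card G := by exact_mod_cast Fintype.card_pos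
  have hV0 : 0 ≤ V := by rw [hV]; positivity
  have hP : (1 : ℝ) ≤ P := by exact_mod_cast (Fact.out : P.Prime).one_le
  have h := bonf_bound (F := ZMod P) (hom1 u) (Ω := Option μ → G)
    (fun H => univ.filter fun x => ∑ k, hom1 u x k • H k = 0) (p := 1 / Fintype.card G)
    (by positivity) ((div_le_one (by linarith)).2 hG) (fun I hI => by
      rw [← prob_indep (G := G) (hom1 u) I hI]
      exact expect_congr rfl fun H _ => ind_congr (by simp [subset_iff])) hD
  rw [mul_one_div, ← hV] at h
  refine le_trans (le_of_eq ?_) (h.trans ?_)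
  · rw [expect_comm, ← expect_product' univ univ, univ_product_univ]
    refine (Fintype.expect_equiv ((Equiv.piOptionEquivProd (β := fun _ => G)).trans
      ((Equiv.neg G).prodCongr (Equiv.refl _))) _ _ fun H => ind_congr ?_).symm
    rw [filter_eq_empty_iff]
    simp only [mem_univ, true_implies, hom1, Fintype.sum_option, Option.elim, one_smul,
      add_eq_zero_iff_neg_eq]
    exact forall_congr' fun x => not_congr eq_comm
  · gcongr
    calc _ ≤ ∑ I ∈ (range D).biUnion fun i => powersetCard i univ,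
            (RR (F := ZMod P) (hom1 u) I : ℝ) * (1 / Fintype.card G) ^ I.card := by
          refine sum_le_sum_of_subset_of_nonneg (fun I hI => ?_) fun _ _ _ => by positivity
          exact mem_biUnion.2 ⟨I.card, mem_range.2 (mem_filter.1 hI).2.2, by simp⟩
      _ = ∑ i ∈ range D, ∑ I ∈ powersetCard i univ,
            (RR (F := ZMod P) (hom1 u) I : ℝ) * (1 / Fintype.card G) ^ I.card :=
          sum_biUnion fun i _ j _ hij => (pairwise_disjoint_powersetCard univ) hij
      _ ≤ ∑ i ∈ range D, (P * (V + 1)) ^ D * β := by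
          refine sum_le_sum fun i hi => ?_
          have hi' := mem_range.1 hi
          rw [sum_congr rfl fun I hI => by rw [(mem_powersetCard.1 hI).2], ← sum_mul]
          calc _ ≤ P ^ i * (β * Fintype.card α ^ i) * (1 / Fintype.card G : ℝ) ^ i := by
                gcongr
                exact err_le u hβ H1 H2 (by omega) hu
            _ = (P * V) ^ i * β := by rw [hV, mul_pow, div_pow, div_pow]; ring
            _ ≤ (P * (V + 1)) ^ i * β := by gcongr; linarith
            _ ≤ _ := by gcongr; nlinarith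
      _ = _ := by simp [mul_assoc]

end Count

lemma sum_ind_coe {α : Type*} (A : Finset α) (Q : α → Prop) [DecidablePred Q] :
    ∑ x : A, ind (Q x) = (A.filter Q).card := by
  rw [sum_coe_sort A fun x => ind (Q x), card_eq_sum_ones, Nat.cast_sum, sum_filter]
  refine sum_congr rfl fun x _ => ?_
  split_ifs with h
  · simp [ind_pos h]
  · simp [ind_neg h]

theorem Fat.hole {m : ℕ} {B : Set (Fin m → ℝ)} {c : Fin m → ℝ} {ρ : ℝ} {A : Finset (Fin m → ℤ)}
    (hF : Fat B c ρ A) {P R : ℕ} [Fact P.Prime] (hR : ∀ x ∈ A, ∀ y ∈ A, ∀ k, |x k - y k| ≤ R)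
    (hP : 4 * R ^ 2 < P) (hA : 1 ≤ (994 / 1000 : ℝ) ^ m * A.card) {G : Type*} [AddCommGroup G]
    [Module (ZMod P) G] [Fintype G] {D : ℕ} (hD : Even D) (hDP : 2 * D < P) {V : ℝ}
    (hV : V = A.card / Fintype.card G) :
    𝔼 H : Fin m → G, 𝔼 τ : G, ind (∀ x ∈ A, ∑ k, x k • H k ≠ τ) ≤
      Real.exp (-V) + (1 / 2) ^ D * Real.exp (2 * V) +
        2 * (D * (P * (V + 1)) ^ D * (2 ^ 41 * (994 / 1000) ^ m)) := by
  classical
  have hne : A.Nonempty := by
    rw [← card_pos]
    by_contra h
    rw [Nat.eq_zero_of_not_pos h] at hA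
    norm_num at hA
  have : Nonempty A := hne.to_subtype
  have hq : (0 : ℝ) ≤ (994 / 1000) ^ m * A.card := by positivity
  have h := hole_bound (α := A) (μ := Fin m) (P := P) (fun x => md P x.1) (G := G)
    (β := 2 ^ 41 * (994 / 1000) ^ m) (by positivity) (fun l h0 h1 h2 v => by
      have := hF.dilate hR hP l h0 h1 h2 v
      rw [← sum_ind_coe] at this
      refine le_trans (le_of_eq (sum_congr rfl fun x _ => ind_congr (by simp))) (this.trans ?_)
      rw [Fintype.card_coe]
      have e : (3 / 4 : ℝ) ^ m ≤ (994 / 1000) ^ m := pow_le_pow_left₀ (by norm_num) (by norm_num) m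
      have e2 := mul_le_mul_of_nonneg_right e (Nat.cast_nonneg (α := ℝ) A.card)
      exact max_le (by linarith) (by linarith))
    (fun v => by
      have := hF.triple_mod hR hP v
      rw [Fintype.card_coe]
      refine le_trans (le_of_eq ?_) this
      rw [← sum_coe_sort A]
      refine sum_congr rfl fun x _ => ?_
      rw [← sum_coe_sort A]
      refine sum_congr rfl fun y _ => ?_
      rw [← sum_ind_coe]
      exact sum_congr rfl fun z _ => ind_congr (by simp))
    (fun x y h => Subtype.ext (funext fun k => int_eq_of_mod (congrFun h k) (by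
      have := hR x x.2 y y.2 k
      have h2 : 4 * (R : ℤ) ^ 2 < P := by exact_mod_cast hP
      nlinarith [Int.le_self_sq R, sq_nonneg (R : ℤ)]))) hD hDP (V := V)
    (by rw [hV, Fintype.card_coe])
  refine le_trans (le_of_eq ?_) h
  refine expect_congr rfl fun H _ => expect_congr rfl fun τ _ => ind_congr ?_
  simp [md, Int.cast_smul_eq_zsmul]

end

end Vale.Agent.P230
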