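import Vale.Agent.P230.Prob

/-! A weighted form of Janson's inequality. -/

namespace Vale.Agent.P230

open Finset

noncomputable section

variable {ε : Type*} [DecidableEq ε] {U : Finset ε} {w : ε → ℝ}

lemma one_sub_sum_le_prod {α : Type*} (s : Finset α) (x : α → ℝ) (h0 : ∀ a, 0 ≤ x a)
    (h1 : ∀ a, x a ≤ 1) : 1 - ∑ a ∈ s, x a ≤ ∏ a ∈ s, (1 - x a) := by
  classical
  induction s using Finset.induction_on with
  | empty => simp
  | insert a s ha ih =>
    rw [sum_insert ha, prod_insert ha]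
    have := mul_le_mul_of_nonneg_left ih (sub_nonneg.2 (h1 a))
    have h2 : 0 ≤ x a * ∑ b ∈ s, x b := mul_nonneg (h0 a) (sum_nonneg fun b _ => h0 b)
    nlinarith

theorem janson (hw : Valid w) {α : Type*} (s : Finset α) (T : α → Finset ε) (hT : ∀ a, T a ⊆ U)
    (q : α → ℝ) (hq0 : ∀ a, 0 ≤ q a) (hq1 : ∀ a, q a ≤ 1) :
    Ex U w (fun ω => ∏ a ∈ s, (1 - q a * ind (T a ⊆ ω))) ≤
      Real.exp (-(∑ a ∈ s, q a * ∏ e ∈ T a, w e) +
        ∑ a ∈ s, ∑ b ∈ s, q a * q b * (ind (¬ Disjoint (T a) (T b)) * ∏ e ∈ T a ∪ T b, w e)) := by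
  classical
  have hx0 : ∀ a ω, 0 ≤ q a * ind (T a ⊆ ω) := fun a ω => mul_nonneg (hq0 a) (ind_nonneg _)
  have hx1 : ∀ a ω, q a * ind (T a ⊆ ω) ≤ 1 := fun a ω =>
    mul_le_one₀ (hq1 a) (ind_nonneg _) (ind_le_one _)
  have hP : ∀ S : Finset ε, 0 ≤ ∏ e ∈ S, w e := fun S => prod_nonneg fun e _ => (hw e).1
  have hD : ∀ a b, 0 ≤ q a * q b * (ind (¬ Disjoint (T a) (T b)) * ∏ e ∈ T a ∪ T b, w e) :=
    fun a b => mul_nonneg (mul_nonneg (hq0 a) (hq0 b)) (mul_nonneg (ind_nonneg _) (hP _))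
  induction s using Finset.induction_on with
  | empty => simp
  | insert a s ha ih =>
    set s1 := s.filter (fun b => ¬ Disjoint (T a) (T b)) with hs1
    set s2 := s.filter (fun b => ¬ ¬ Disjoint (T a) (T b)) with hs2
    let D : Finset ε → ℝ := fun ω => ∏ b ∈ s1, (1 - q b * ind (T b ⊆ ω))
    let G : Finset ε → ℝ := fun ω => ∏ b ∈ s2, (1 - q b * ind (T b ⊆ ω))
    let F : Finset ε → ℝ := fun ω => ∏ b ∈ s, (1 - q b * ind (T b ⊆ ω))
    have hF : ∀ ω, F ω = D ω * G ω := fun ω => (prod_filter_mul_prod_filter_not s _ _).symm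
    have hG0 : ∀ ω, 0 ≤ G ω := fun ω => prod_nonneg fun b _ => sub_nonneg.2 (hx1 b ω)
    have hD0 : ∀ ω, 0 ≤ D ω := fun ω => prod_nonneg fun b _ => sub_nonneg.2 (hx1 b ω)
    have hD1 : ∀ ω, D ω ≤ 1 := fun ω =>
      prod_le_one (fun b _ => sub_nonneg.2 (hx1 b ω)) fun b _ => sub_le_self _ (hx0 b ω)
    have hGanti : Antitone G := by
      intro ω ω' h
      refine prod_le_prod (fun b _ => sub_nonneg.2 (hx1 b ω')) fun b _ => ?_
      have : ind (T b ⊆ ω) ≤ ind (T b ⊆ ω') := ind_mono fun h' => h'.trans h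
      have := mul_le_mul_of_nonneg_left this (hq0 b)
      linarith
    have hF0 : 0 ≤ Ex U w F := Ex_nonneg hw fun ω _ => by rw [hF]; exact mul_nonneg (hD0 ω) (hG0 ω)
    have hFG : Ex U w F ≤ Ex U w G := Ex_mono hw fun ω _ => by
      rw [hF]; exact mul_le_of_le_one_left (hG0 ω) (hD1 ω)
    -- independence
    have hind : Ex U w (fun ω => ind (T a ⊆ ω) * G ω) = (∏ e ∈ T a, w e) * Ex U w G := by
      have h1 := Ex_indep (U := U) (w := w) (T a) (fun ω => ind (T a ⊆ ω)) G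
      have h2 : ∀ ω, G (ω \ T a) = G ω := by
        intro ω
        refine prod_congr rfl fun b hb => ?_
        have hb' : Disjoint (T a) (T b) := by simpa [hs2] using (mem_filter.1 hb).2
        rw [ind_congr (A := T b ⊆ ω \ T a) (B := T b ⊆ ω)]
        rw [subset_sdiff]
        exact ⟨fun h => h.1, fun h => ⟨h, hb'.symm⟩⟩
      have h3 : ∀ ω, ind (T a ⊆ ω ∩ T a) = ind (T a ⊆ ω) := fun ω =>
        ind_congr (by simp [subset_inter_iff])
      simp only [h2, h3] at h1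
      rw [h1]
      congr 1
      exact Pr_all_open (hT a)
    have hharris : ∀ b, Ex U w (fun ω => ind (T a ∪ T b ⊆ ω) * G ω)
        ≤ (∏ e ∈ T a ∪ T b, w e) * Ex U w G := by
      intro b
      have h1 := harris_mono_anti (U := U) hw (f := fun ω => ind (T a ∪ T b ⊆ ω)) (g := G)
        (fun ω ω' h => ind_mono fun h' => h'.trans h) hGanti
      rw [← Pr_all_open (union_subset (hT a) (hT b))]
      exact h1
    set c := (∏ e ∈ T a, w e) - ∑ b ∈ s1, q b * ∏ e ∈ T a ∪ T b, w e with hc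
    have hlow : c * Ex U w G ≤ Ex U w (fun ω => ind (T a ⊆ ω) * F ω) := by
      have h1 : Ex U w (fun ω => ind (T a ⊆ ω) * G ω
          - ∑ b ∈ s1, q b * (ind (T a ∪ T b ⊆ ω) * G ω))
          ≤ Ex U w (fun ω => ind (T a ⊆ ω) * F ω) := by
        refine Ex_mono hw fun ω _ => ?_
        have h2 := one_sub_sum_le_prod s1 (fun b => q b * ind (T b ⊆ ω)) (fun b => hx0 b ω)
          (fun b => hx1 b ω)
        have h3 := mul_le_mul_of_nonneg_left h2 (mul_nonneg (ind_nonneg (T a ⊆ ω)) (hG0 ω))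
        have h4 : ∑ b ∈ s1, q b * (ind (T a ∪ T b ⊆ ω) * G ω)
            = ind (T a ⊆ ω) * G ω * ∑ b ∈ s1, q b * ind (T b ⊆ ω) := by
          rw [mul_sum]
          refine sum_congr rfl fun b _ => ?_
          rw [ind_congr union_subset_iff, ind_and]; ring
        rw [h4, hF]
        calc _ = ind (T a ⊆ ω) * G ω * (1 - ∑ b ∈ s1, q b * ind (T b ⊆ ω)) := by ring
          _ ≤ ind (T a ⊆ ω) * G ω * D ω := h3
          _ = _ := by ring
      refine le_trans ?_ h1
      rw [Ex_sub, Ex_sum, hind, hc, sub_mul, sum_mul]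
      refine sub_le_sub_left (sum_le_sum fun b _ => ?_) _
      rw [Ex_const_mul, mul_assoc]
      exact mul_le_mul_of_nonneg_left (hharris b) (hq0 b)
    have hlow' : c * Ex U w F ≤ Ex U w (fun ω => ind (T a ⊆ ω) * F ω) := by
      rcases le_total 0 c with h | h
      · exact (mul_le_mul_of_nonneg_left hFG h).trans hlow
      · refine (mul_nonpos_of_nonpos_of_nonneg h hF0).trans (Ex_nonneg hw fun ω _ => ?_)
        rw [hF]; exact mul_nonneg (ind_nonneg _) (mul_nonneg (hD0 ω) (hG0 ω))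
    have hstep : Ex U w (fun ω => ∏ b ∈ insert a s, (1 - q b * ind (T b ⊆ ω)))
        ≤ Real.exp (-(q a * c)) * Ex U w F := by
      have h1 : Ex U w (fun ω => ∏ b ∈ insert a s, (1 - q b * ind (T b ⊆ ω)))
          = Ex U w F - q a * Ex U w (fun ω => ind (T a ⊆ ω) * F ω) := by
        rw [← Ex_const_mul, ← Ex_sub]
        refine Ex_congr fun ω _ => ?_
        rw [prod_insert ha]; ring
      rw [h1]
      have h2 := mul_le_mul_of_nonneg_left hlow' (hq0 a)
      have h3 := mul_le_mul_of_nonneg_right (Real.add_one_le_exp (-(q a * c))) hF0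
      nlinarith
    refine hstep.trans ((mul_le_mul_of_nonneg_left ih (Real.exp_pos _).le).trans ?_)
    rw [← Real.exp_add, Real.exp_le_exp, sum_insert ha, sum_insert ha, sum_insert ha]
    have e1 : ∑ b ∈ s, q a * q b * (ind (¬ Disjoint (T a) (T b)) * ∏ e ∈ T a ∪ T b, w e)
        = q a * ∑ b ∈ s1, q b * ∏ e ∈ T a ∪ T b, w e := by
      rw [hs1, sum_filter, mul_sum]
      refine sum_congr rfl fun b _ => ?_
      split_ifs with h
      · rw [ind_neg (not_not.2 h)]; ring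
      · rw [ind_pos h]; ring
    have e2 : ∑ b ∈ s, ∑ b' ∈ s,
          q b * q b' * (ind (¬ Disjoint (T b) (T b')) * ∏ e ∈ T b ∪ T b', w e)
        ≤ ∑ b ∈ s, ∑ b' ∈ insert a s,
          q b * q b' * (ind (¬ Disjoint (T b) (T b')) * ∏ e ∈ T b ∪ T b', w e) :=
      sum_le_sum fun b _ => by rw [sum_insert ha]; linarith [hD b a]
    have e3 := hD a a
    rw [e1, hc]
    linarith

end

end Vale.Agent.P230
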