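import Vale.Agent.P230.Average

/-! The lower bound: a symmetric convex body with covering density of order `n log n`. -/

namespace Vale.Agent.P230

open Finset MeasureTheory Metric Filter Topology
open scoped ENNReal

noncomputable section

lemma interior_nonempty_of_vol {n : ℕ} {K : Set (E n)} (hK : Convex ℝ K) (h : volume K ≠ 0) :
    (interior K).Nonempty := by
  rw [hK.interior_nonempty_iff_affineSpan_eq_top]
  by_contra hc
  exact h (measure_mono_null (subset_affineSpan ℝ K)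
    (Measure.addHaar_affineSubspace volume _ hc))

lemma sq_le_exp {x : ℝ} (hx : 0 ≤ x) : x ^ 2 / 4 ≤ Real.exp x := by
  have h : Real.exp x = Real.exp (x / 2) ^ 2 := by rw [← Real.exp_nat_mul]; congr 1; push_cast; ring
  have h2 : (x / 2) ^ 2 ≤ Real.exp (x / 2) ^ 2 :=
    pow_le_pow_left₀ (by positivity) (by linarith [Real.add_one_le_exp (x / 2)]) 2
  rw [h]; linarith

lemma LL_le {A l : ℝ} (hl : 10 ^ 7 ≤ l) (hA : 1 ≤ A) (hA' : A ≤ Real.exp (2 * l)) :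
    LL A ⌈Real.log A⌉₊ ≤ Real.exp (10 ^ 5 * l) := by
  have h0 : 0 ≤ Real.log A := Real.log_nonneg hA
  have h1 : Real.log A ≤ 2 * l := (Real.log_le_iff_le_exp (by linarith)).2 hA'
  have h2 := Nat.ceil_lt_add_one h0
  have h3 : (16 : ℝ) ≤ Real.exp 15 := by linarith [Real.add_one_le_exp 15]
  unfold LL
  calc _ ≤ Real.exp 15 * Real.exp (2 * l) *
        Real.exp (4 + 32 * (⌈Real.log A⌉₊ : ℝ) + 2 * bb * Real.log A) := by gcongr
    _ ≤ _ := by
        rw [← Real.exp_add, ← Real.exp_add, Real.exp_le_exp]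
        unfold bb; linarith

lemma near_ok {A l n L : ℝ} (hl : 10 ^ 7 ≤ l) (hn : n = Real.exp l) (hA : 0 ≤ A)
    (hA' : A ≤ Real.exp (2 * l)) (hL0 : 0 ≤ L) (hL : L ≤ Real.exp (10 ^ 5 * l)) :
    L ^ 2 * (A * A * Real.exp (-(bb * n / 8 * Real.exp (-(l / 4)) ^ 2))) ≤ 1 := by
  have e1 : n * Real.exp (-(l / 4)) ^ 2 = Real.exp (l / 2) := by
    rw [hn, ← Real.exp_nat_mul, ← Real.exp_add]; congr 1; push_cast; ring
  have e2 := sq_le_exp (x := l / 2) (by linarith)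
  have e3 : bb * n / 8 * Real.exp (-(l / 4)) ^ 2 = 3072 * Real.exp (l / 2) := by
    rw [← e1]; unfold bb; ring
  rw [e3]
  calc _ ≤ Real.exp (10 ^ 5 * l) ^ 2 * (Real.exp (2 * l) * Real.exp (2 * l) *
        Real.exp (-(3072 * Real.exp (l / 2)))) := by gcongr
    _ ≤ 1 := by
        rw [← Real.exp_nat_mul, ← Real.exp_add, ← Real.exp_add, ← Real.exp_add,
          Real.exp_le_one_iff]
        push_cast
        nlinarith

lemma union_ok {n : ℕ} {l L N C : ℝ} (hl : 10 ^ 7 ≤ l) (hn : (n : ℝ) = Real.exp l)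
    (hL0 : 0 ≤ L) (hL : L ≤ Real.exp (10 ^ 5 * l)) (hN : Real.exp (n * l / 4) ≤ N)
    (hC0 : 0 ≤ C) (hC : C ≤ Real.exp (n ^ 2)) :
    C ^ (2 ^ n * n ^ 2) * Real.exp (-(N / (8 * ((n * l / 1180032) * ((2 ^ n * n ^ 2 : ℕ) : ℝ) *
      3 ^ n * BB (n * l / 1180032) ^ 3 + 6 * L ^ 2 * (n * l / 1180032) *
        ((2 ^ n * n ^ 2 : ℕ) : ℝ) * N * (1 / 8) ^ n)))) < 1 / 2 := by
  have hnl : l ≤ n := by linarith [Real.add_one_le_exp l]
  have hn1 : (1 : ℝ) ≤ n := by linarith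
  have hN0 : 0 < N := (Real.exp_pos _).trans_le hN
  set M : ℝ := ((2 ^ n * n ^ 2 : ℕ) : ℝ) with hM
  have hM' : M = 2 ^ n * n ^ 2 := by rw [hM]; push_cast; ring
  set A : ℝ := n * l / 1180032 with hA
  have hA0 : 0 < A := by rw [hA]; have : 0 < l := by linarith
                         positivity
  have hA1 : A ≤ n ^ 2 := by rw [hA]; nlinarith
  have h2n : (1 : ℝ) ≤ 2 ^ n := one_le_pow₀ (by norm_num)
  have hM1 : 1 ≤ M := by rw [hM']; nlinarith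
  set T : ℝ := n ^ 2 * M + 1 with hT
  have hT1 : T ≤ 2 * (n ^ 2 * M) := by
    have : 1 ≤ (n : ℝ) ^ 2 * M := one_le_mul_of_one_le_of_one_le (by nlinarith) hM1
    linarith
  have hB : BB A ^ 3 = Real.exp (n * l / 8) := by
    rw [BB, ← Real.exp_nat_mul]; congr 1; rw [hA]; unfold bb; push_cast; ring
  have hn8 : (n : ℝ) ^ 8 = Real.exp (8 * l) := by
    rw [hn, ← Real.exp_nat_mul]; norm_num
  have k1 : 16 * T * (A * M * 3 ^ n * BB A ^ 3) ≤ N := by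
    refine le_trans ?_ hN
    have a1 : (12 : ℝ) ^ n ≤ Real.exp (n * 11) := by
      rw [Real.exp_nat_mul]
      exact pow_le_pow_left₀ (by norm_num) (by linarith [Real.add_one_le_exp 11]) n
    have a2 : (32 : ℝ) ≤ Real.exp 31 := by linarith [Real.add_one_le_exp 31]
    calc _ ≤ 16 * (2 * (n ^ 2 * M)) * (n ^ 2 * M * 3 ^ n * BB A ^ 3) := by
          rw [hB]; gcongr
      _ = 32 * n ^ 8 * 12 ^ n * Real.exp (n * l / 8) := by
          rw [hB, hM', show (12 : ℝ) = 2 * 2 * 3 by norm_num, mul_pow, mul_pow]; ring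
      _ ≤ Real.exp 31 * Real.exp (8 * l) * Real.exp (n * 11) * Real.exp (n * l / 8) := by
          rw [hn8]; gcongr
      _ ≤ _ := by
          rw [← Real.exp_add, ← Real.exp_add, ← Real.exp_add, Real.exp_le_exp]
          nlinarith
  have k2 : 16 * T * (6 * L ^ 2 * A * M * (1 / 8) ^ n) ≤ 1 := by
    have a1 : (1 / 2 : ℝ) ^ n ≤ Real.exp (n * (-(1 / 2))) := by
      rw [Real.exp_nat_mul]
      exact pow_le_pow_left₀ (by norm_num) (by linarith [Real.add_one_le_exp (-(1 / 2))]) n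
    have a2 : (192 : ℝ) ≤ Real.exp 191 := by linarith [Real.add_one_le_exp 191]
    have a3 := sq_le_exp (x := l) (by linarith)
    calc _ ≤ 16 * (2 * (n ^ 2 * M)) * (6 * Real.exp (10 ^ 5 * l) ^ 2 * n ^ 2 * M * (1 / 8) ^ n) := by
          gcongr
      _ = 192 * n ^ 8 * Real.exp (10 ^ 5 * l) ^ 2 * (2 * 2 * (1 / 8)) ^ n := by
          rw [hM', mul_pow, mul_pow]; ring
      _ ≤ Real.exp 191 * Real.exp (8 * l) * Real.exp (10 ^ 5 * l) ^ 2 *
            Real.exp (n * (-(1 / 2))) := by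
          rw [hn8, show (2 * 2 * (1 / 8) : ℝ) = 1 / 2 by norm_num]; gcongr
      _ ≤ _ := by
          rw [← Real.exp_nat_mul, ← Real.exp_add, ← Real.exp_add, ← Real.exp_add,
            Real.exp_le_one_iff]
          push_cast
          nlinarith
  have hX : 0 < A * M * 3 ^ n * BB A ^ 3 + 6 * L ^ 2 * A * M * N * (1 / 8) ^ n := by
    rw [hB]; positivity
  have k3 : T ≤ N / (8 * (A * M * 3 ^ n * BB A ^ 3 + 6 * L ^ 2 * A * M * N * (1 / 8) ^ n)) := by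
    rw [le_div_iff₀ (by linarith)]
    have := mul_le_mul_of_nonneg_right k2 hN0.le
    nlinarith
  calc _ ≤ Real.exp (n ^ 2) ^ (2 ^ n * n ^ 2) * Real.exp (-T) := by gcongr
    _ = Real.exp (-1) := by
        rw [← Real.exp_nat_mul, ← Real.exp_add, hT, ← hM]; congr 1; ring
    _ < 1 / 2 := by
        rw [Real.exp_neg, one_div]
        exact inv_strictAnti₀ (by norm_num) (by linarith [Real.add_one_lt_exp one_ne_zero])

lemma net_ok {n : ℕ} {l c : ℝ} (hl : 10 ^ 7 ≤ l) (hn : (n : ℝ) = Real.exp l)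
    (e1 : c ≤ (2 * 2 / (1 / (10 ^ 7 * (n : ℝ) ^ 2)) + 1) ^ n) : c + 1 ≤ Real.exp (n ^ 2) := by
  have hnl2 : l ^ 2 / 4 ≤ n := hn ▸ sq_le_exp (by linarith)
  have hl0 : 0 < l := by linarith
  have e0 : (10 : ℝ) ^ 8 ≤ n := by nlinarith
  have hn0 : (0 : ℝ) < n := by linarith
  have e2 : 2 * 2 / (1 / (10 ^ 7 * (n : ℝ) ^ 2)) + 1 = 4 * 10 ^ 7 * n ^ 2 + 1 := by
    field_simp; ring
  have e3 : 4 * 10 ^ 7 * (n : ℝ) ^ 2 + 1 ≤ n ^ 3 := by nlinarith
  have e4 : (n : ℝ) ^ 3 = Real.exp (3 * l) := by rw [hn, ← Real.exp_nat_mul]; norm_num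
  have e5 : (4 * 10 ^ 7 * (n : ℝ) ^ 2 + 1) ^ n ≤ Real.exp (n * (3 * l)) := by
    rw [Real.exp_nat_mul, ← e4]; gcongr
  have e6 : 1 ≤ Real.exp (n * (3 * l)) := Real.one_le_exp (by positivity)
  have e7 : 2 * Real.exp (n * (3 * l)) ≤ Real.exp (n ^ 2) := by
    calc _ ≤ Real.exp 1 * Real.exp (n * (3 * l)) := by
          gcongr; linarith [Real.add_one_le_exp 1]
      _ ≤ _ := by
          rw [← Real.exp_add, Real.exp_le_exp]
          have : 4 * l ≤ n := by nlinarith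
          nlinarith
  rw [e2] at e1
  linarith

lemma eta_ok {n : ℕ} (hn : 1 ≤ n) :
    √(bb * n) * (1 / (10 ^ 7 * (n : ℝ) ^ 2)) * √(n * (2 * 24576 ^ 2 * n ^ 2 : ℕ)) ≤ 1 := by
  have hn0 : (0 : ℝ) < n := by exact_mod_cast hn
  have hbb : (0 : ℝ) ≤ bb * n := by unfold bb; positivity
  have e : √(bb * n) * √(n * (2 * 24576 ^ 2 * n ^ 2 : ℕ)) ≤ 10 ^ 7 * n ^ 2 := by
    rw [← Real.sqrt_mul hbb]
    refine Real.sqrt_le_iff.2 ⟨by positivity, ?_⟩
    have : (0 : ℝ) ≤ n ^ 4 := by positivity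
    unfold bb; push_cast; nlinarith
  calc _ = (1 / (10 ^ 7 * (n : ℝ) ^ 2)) * (√(bb * n) * √(n * (2 * 24576 ^ 2 * n ^ 2 : ℕ))) := by
        ring
    _ ≤ (1 / (10 ^ 7 * (n : ℝ) ^ 2)) * (10 ^ 7 * n ^ 2) := by gcongr
    _ = 1 := by field_simp

lemma k4_ok (n : ℕ) {η : ℝ} (h0 : 0 ≤ η) (h1 : η ≤ 1) :
    (√(bb * n) * (1 + η)) ^ 4 ≤ 8 * ((2 * 24576 ^ 2 * n ^ 2 : ℕ) : ℝ) := by
  have hbb : (0 : ℝ) ≤ bb * n := by unfold bb; positivity
  have e1 : (1 + η) ^ 4 ≤ 2 ^ 4 := pow_le_pow_left₀ (by linarith) (by linarith) 4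
  have e2 : √(bb * n) ^ 4 = (bb * n) ^ 2 := by
    rw [show 4 = 2 * 2 by norm_num, pow_mul, Real.sq_sqrt hbb]
  rw [mul_pow, e2]
  calc (bb * n) ^ 2 * (1 + η) ^ 4 ≤ (bb * n) ^ 2 * 2 ^ 4 := by gcongr
    _ = _ := by unfold bb; push_cast; ring

lemma rho_ok (n : ℕ) {η : ℝ} (h0 : 0 ≤ η) (h1 : η * n ≤ 1 / 4) : (1 + 2 * η) ^ n ≤ 2 :=
  calc (1 + 2 * η) ^ n ≤ Real.exp (2 * η) ^ n :=
        pow_le_pow_left₀ (by linarith) (by linarith [Real.add_one_le_exp (2 * η)]) n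
    _ = Real.exp (n * (2 * η)) := (Real.exp_nat_mul _ _).symm
    _ ≤ Real.exp (1 / 2) := Real.exp_le_exp.2 (by linarith)
    _ ≤ 2 := by
        have := Real.add_one_le_exp (-(1 / 2))
        rw [Real.exp_neg] at this
        have h0 := Real.exp_pos (1 / 2)
        have := mul_le_mul_of_nonneg_left this h0.le
        rw [mul_inv_cancel₀ h0.ne'] at this
        linarith

lemma D_ok {n : ℕ} (hn : 1 ≤ n) {A V : ℝ} (hA : 0 < A) (hA2 : A ≤ n ^ 2) (hV : 0 < V) :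
    2 * (2 * (A / 1664) / V) * V * (104 / A + 2 ^ n / ((2 ^ n * n ^ 2 : ℕ) : ℝ)) < 1 := by
  have hn0 : (0 : ℝ) < n := by exact_mod_cast hn
  have e : 2 * (2 * (A / 1664) / V) * V * (104 / A + 2 ^ n / ((2 ^ n * n ^ 2 : ℕ) : ℝ))
      = 1 / 4 + A / n ^ 2 / 416 := by
    push_cast; field_simp; ring
  have e2 : A / n ^ 2 ≤ 1 := (div_le_one (by positivity)).2 hA2
  rw [e]; linarith

lemma s1_ok {A : ℝ} (hA : 1 ≤ A) : A * Real.exp (-(⌈Real.log A⌉₊ : ℝ)) ≤ 1 := by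
  have e := Nat.le_ceil (Real.log A)
  calc _ = Real.exp (Real.log A + -(⌈Real.log A⌉₊ : ℝ)) := by
        rw [Real.exp_add, Real.exp_log (by linarith)]
    _ ≤ 1 := Real.exp_le_one_iff.2 (by linarith)

lemma params {n : ℕ} {l : ℝ} (hl : 10 ^ 7 ≤ l) (hn : (n : ℝ) = Real.exp l) :
    1 ≤ n ∧ 1 / (10 ^ 7 * (n : ℝ) ^ 2) * n ≤ 1 / 10 ^ 7 ∧ 1 / (10 ^ 7 * (n : ℝ) ^ 2) ≤ 1 / 10 ^ 7 ∧
      Real.exp (-(l / 4)) ≤ 1 / 16 ∧ 1 ≤ n * l / 1180032 ∧ n * l / 1180032 ≤ n ^ 2 ∧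
      n * l / 1180032 ≤ Real.exp (2 * l) := by
  have hnl : l ≤ n := by linarith [Real.add_one_le_exp l]
  have hn1 : (1 : ℝ) ≤ n := by linarith
  have hA2 : n * l / 1180032 ≤ n ^ 2 := by nlinarith
  refine ⟨by exact_mod_cast hn1, ?_, ?_, ?_, by nlinarith, hA2, hA2.trans (le_of_eq ?_)⟩
  · rw [div_mul_eq_mul_div, div_le_div_iff₀ (by positivity) (by positivity)]; nlinarith
  · rw [div_le_div_iff₀ (by positivity) (by positivity)]; nlinarith
  · rw [Real.exp_neg, one_div]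
    exact inv_anti₀ (by norm_num) (by linarith [Real.add_one_le_exp (l / 4)])
  · rw [hn, ← Real.exp_nat_mul]; norm_num

theorem exists_bad_body {n : ℕ} (hl : (10 : ℝ) ^ 7 ≤ Real.log n) :
    ∃ K : Set (E n), IsConvexBody K ∧ (∀ y ∈ K, -y ∈ K) ∧
      ENNReal.ofReal (1 / (1180032 * 1664) * n * Real.log n) ≤ thetaT K := by
  classical
  have hn0 : (0 : ℝ) < n := by
    rcases Nat.eq_zero_or_pos n with rfl | h
    · norm_num at hl
    · exact_mod_cast h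
  have hn : (n : ℝ) = Real.exp (Real.log n) := (Real.exp_log hn0).symm
  generalize Real.log n = l at hl hn ⊢
  obtain ⟨hn1, hηn, hη1, hε1, hA1, hA2, hA3⟩ := params hl hn
  have hV := VV_pos n
  have hη0 : 0 < 1 / (10 ^ 7 * (n : ℝ) ^ 2) := by positivity
  have hε0 : 0 < Real.exp (-(l / 4)) := Real.exp_pos _
  obtain ⟨Γ, hΓ1, hΓ2, hΓ3⟩ := exists_net n hε0 zero_le_one
  have hΓ4 := le_card_of_cover hε0 Γ hΓ3
  obtain ⟨𝒩, h𝒩1, h𝒩2, h𝒩3⟩ := exists_net n hη0 zero_le_two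
  have hN : Real.exp (n * l / 4) ≤ Γ.card := by
    have e : Real.exp (n * l / 4) * Real.exp (-(l / 4)) ^ n = 1 := by
      rw [← Real.exp_nat_mul, ← Real.exp_add, ← Real.exp_zero]; congr 1; ring
    have h0 : 0 < Real.exp (-(l / 4)) ^ n := by positivity
    exact le_of_mul_le_mul_right (e.le.trans hΓ4) h0
  have hN0 : 0 < Γ.card := by exact_mod_cast (Real.exp_pos _).trans_le hN
  have hC : ((Fintype.card 𝒩 + 1 : ℕ) : ℝ) ≤ Real.exp (n ^ 2) := by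
    push_cast
    rw [Fintype.card_coe]
    exact net_ok hl hn (card_le_of_sep hη0 zero_le_two 0 𝒩 h𝒩1 (by simpa using h𝒩2))
  have hbb : (0 : ℝ) ≤ bb * n := by unfold bb; positivity
  have hLL := LL_le hl hA1 hA3
  have hA0 : 0 < n * l / 1180032 := by linarith
  have hL0 : 0 ≤ LL (n * l / 1180032) ⌈Real.log (n * l / 1180032)⌉₊ := by unfold LL; positivity
  have hM : 0 < 2 ^ n * n ^ 2 := by positivity
  obtain ⟨K, hK1, hK2, hK3, hK4, hK5, hK6⟩ := exists_body (n := n) (k := 2 * 24576 ^ 2 * n ^ 2)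
    (by positivity) _ √(bb * n) _ (Real.sqrt_nonneg _) (Real.sq_sqrt hbb) hη0.le
    (eta_ok hn1) (Nat.le_ceil _) (k4_ok n hη0.le (by linarith))
    (Subtype.val : 𝒩 → E n) _ (2 ^ n * n ^ 2) hA1 hM _ (s1_ok hA1)
    hε0 hε1 Γ hΓ1 hΓ4 (near_ok hl hn hA0.le hA3 hL0 hLL)
    (union_ok hl hn hL0 hLL hN (Nat.cast_nonneg _) hC)
  have hKv : ENNReal.ofReal (VV n / 2) ≤ volume K := by
    rw [← ENNReal.ofReal_toReal hK2.measure_lt_top.ne]
    exact ENNReal.ofReal_le_ofReal hK5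
  refine ⟨K, ⟨hK2, hK1, interior_nonempty_of_vol hK1 ?_⟩, hK3, ?_⟩
  · exact ((ENNReal.ofReal_pos.2 (by positivity)).trans_le hKv).ne'
  · refine le_iInf fun X => le_iInf fun hX => le_iInf fun hc => ?_
    have hd := density_lower hn1 hη0.le
      ((pow_le_pow_left₀ (by linarith) (by linarith : _ ≤ (6 / 5 : ℝ)) 2).trans (by norm_num))
      (rho_ok n hη0.le (by linarith)) hK4 hX hc 𝒩 h𝒩3 Γ hΓ2 hN0 hA0 hM
      (by positivity) hK6 (D_ok hn1 hA0 hA2 hV)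
    refine le_trans (le_of_eq ?_) (mul_le_mul' hKv hd)
    rw [← ENNReal.ofReal_mul (by positivity)]
    congr 1
    field_simp

end

end Vale.Agent.P230
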