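import Vale.Agent.P230.Slab
import Vale.Agent.P230.Lower

/-! Lattice coverings of density `O(n log n)`. -/

open Finset Real MeasureTheory Metric
open scoped BigOperators Pointwise ENNReal Topology

namespace Vale.Agent.P230

noncomputable section

variable {n m : ℕ} {ι : Type} [Fintype ι] {K : Set (E n)} {A : E n →L[ℝ] EuclideanSpace ℝ ι} {T : ℝ}

/-- horizontal slices -/
def sl (Ψ : ((Fin m → ℝ) × EuclideanSpace ℝ ι) ≃L[ℝ] E n) (K : Set (E n))
    (t : EuclideanSpace ℝ ι) : Set (Fin m → ℝ) := {x | Ψ (x, t) ∈ K}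

variable (Ψ : ((Fin m → ℝ) × EuclideanSpace ℝ ι) ≃L[ℝ] E n)

omit [Fintype ι] in
lemma sl_cpt (hK : IsCompact K) (t : EuclideanSpace ℝ ι) : IsCompact (sl Ψ K t) :=
  ((hK.image Ψ.symm.continuous).image continuous_fst).of_isClosed_subset
    (hK.isClosed.preimage (f := fun x => Ψ (x, t)) (by fun_prop))
    fun x hx => ⟨(x, t), ⟨_, hx, by simp⟩, rfl⟩

omit [Fintype ι] in
lemma sl_cvx (hK : Convex ℝ K) (t : EuclideanSpace ℝ ι) : Convex ℝ (sl Ψ K t) := by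
  intro x hx y hy a b ha hb hab
  have := hK hx hy ha hb hab
  rwa [← map_smul, ← map_smul, ← map_add, Prod.smul_mk, Prod.smul_mk, Prod.mk_add_mk, ← add_smul,
    hab, one_smul] at this

lemma vol_pre (hK : IsConvexBody K) : (volume.prod volume) (Ψ ⁻¹' K) ≠ 0 ∧
    (volume.prod volume) (Ψ ⁻¹' K) ≠ ∞ := by
  obtain ⟨J, J0, -, hJ⟩ := exists_haar Ψ
  have h0 := (Measure.measure_pos_of_nonempty_interior volume hK.2.2).ne'
  have h1 := (hK.1.measure_lt_top (μ := volume)).ne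
  rw [hJ, Measure.smul_apply, Measure.map_apply Ψ.continuous.measurable hK.1.measurableSet,
    smul_eq_mul] at h0 h1
  exact ⟨right_ne_zero_of_mul h0, fun h => h1 (by rw [h, ENNReal.mul_top J0])⟩

lemma HS.slice' [Nonempty ι] (h : HS K A T) (hK : IsConvexBody K) (hΨ : ∀ p, A (Ψ p) = p.2) {t}
    (ht : ‖t‖ ≤ T) : phi t / 10 * (volume.prod volume).real (Ψ ⁻¹' K) ≤ volume.real (sl Ψ K t) := by
  have := ENNReal.toReal_mono (sl_cpt Ψ hK.1 t).measure_lt_top.ne (h.slice hK Ψ hΨ ht)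
  rwa [ENNReal.toReal_mul, ENNReal.toReal_ofReal (by have := phi_pos t; positivity)] at this

lemma HS.pos [Nonempty ι] (h : HS K A T) (hK : IsConvexBody K) (hΨ : ∀ p, A (Ψ p) = p.2) {t}
    (ht : ‖t‖ ≤ T) : volume (sl Ψ K t) ≠ 0 := fun h0 => by
  have h1 := h.slice' Ψ hK hΨ ht
  have h2 := ENNReal.toReal_pos (vol_pre Ψ hK).1 (vol_pre Ψ hK).2
  have h3 := phi_pos t
  rw [measureReal_def volume, h0] at h1
  exact h1.not_gt (mul_pos (by positivity) h2)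

omit Ψ in
lemma exists_frame [Nonempty ι] (h : HS K A T) (hK : IsConvexBody K) (hT : 0 ≤ T)
    (hm : m + Fintype.card ι = n) (hm1 : 1 ≤ m) :
    ∃ Ψ : ((Fin m → ℝ) × EuclideanSpace ℝ ι) ≃L[ℝ] E n, (∀ p, A (Ψ p) = p.2) ∧ ∃ c : Fin m → ℝ,
      closedBall c (1 / (2 * m ^ 2)) ⊆ sl Ψ K 0 ∧ sl Ψ K 0 ⊆ closedBall c (2 / m) := by
  have hs := (LinearMap.range_eq_top (f := A.toLinearMap)).2
    (h.surj (Measure.measure_pos_of_nonempty_interior volume hK.2.2).ne' hT)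
  obtain ⟨R, hR⟩ := A.exists_rightInverse_of_surjective hs
  let e0 := ContinuousLinearEquiv.equivOfRightInverse A R fun y => DFunLike.congr_fun hR y
  have hr := A.toLinearMap.finrank_range_add_finrank_ker
  rw [hs, finrank_top, finrank_euclideanSpace, finrank_euclideanSpace, Fintype.card_fin] at hr
  let e1 : (Fin m → ℝ) ≃L[ℝ] A.toLinearMap.ker := ContinuousLinearEquiv.ofFinrankEq (by
    rw [Module.finrank_fin_fun]; omega)
  let Ψ := ((e1.prodCongr (.refl ℝ _)).trans (.prodComm ℝ _ _)).trans e0.symm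
  have hΨ : ∀ p, A (Ψ p) = p.2 := fun p => congrArg Prod.fst (e0.apply_symm_apply (p.2, e1 p.1))
  obtain ⟨a, ha⟩ : (interior (sl Ψ K 0)).Nonempty := by
    rw [(sl_cvx Ψ hK.2.1 0).interior_nonempty_iff_affineSpan_eq_top]
    by_contra hc
    exact h.pos Ψ hK hΨ (by simpa using hT) (measure_mono_null (subset_affineSpan ℝ _)
      (Measure.addHaar_affineSubspace volume _ hc))
  let e2 := EuclideanSpace.equiv (Fin m) ℝ
  obtain ⟨b, b1, b2⟩ := exists_adapted_basis' hm1 (K := (fun y => e2 y + a) ⁻¹' sl Ψ K 0)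
    ((e2.toHomeomorph.trans (.addRight a)).isCompact_preimage.2 (sl_cpt Ψ hK.1 0))
    (((sl_cvx Ψ hK.2.1 0).translate_preimage_left a).is_linear_preimage e2.toLinearMap.isLinear)
    (ContinuousAt.preimage_mem_nhds (by fun_prop) (by simpa using mem_interior_iff_mem_nhds.1 ha))
  have m0 : (1 : ℝ) ≤ m := by exact_mod_cast hm1
  let a' := b.equivFunL (e2.symm a)
  have key : ∀ x, x ∈ sl (((b.equivFunL.symm.trans e2).prodCongr (.refl ℝ _)).trans Ψ) K 0 ↔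
      b.equivFunL.symm (x - a') ∈ (fun y => e2 y + a) ⁻¹' sl Ψ K 0 := fun x => by
    simp [a', sl]
  have key2 : ∀ x i, b.repr (b.equivFunL.symm x) i = x i := fun x i =>
    congrFun (b.equivFunL.apply_symm_apply x) i
  refine ⟨((b.equivFunL.symm.trans e2).prodCongr (.refl ℝ _)).trans Ψ, fun p => hΨ _,
    a' + (fun _ => 1 / (2 * m ^ 2) : Fin m → ℝ), fun x hx => (key x).2 (b2 _ fun i => ?_), fun x hx => ?_⟩
  · have := abs_le.1 ((norm_le_pi_norm _ i).trans (mem_closedBall_iff_norm.1 hx))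
    simp only [Pi.sub_apply, Pi.add_apply] at this
    rw [key2, Pi.sub_apply, show 1 / (m : ℝ) ^ 2 = 1 / (2 * m ^ 2) + 1 / (2 * m ^ 2) by field_simp; ring]
    constructor <;> linarith
  · refine mem_closedBall_iff_norm.2 ((pi_norm_le_iff_of_nonneg (by positivity)).2 fun i => ?_)
    have := abs_le.1 (b1 _ ((key x).1 hx) i)
    have h1 : 1 / (2 * (m : ℝ) ^ 2) ≤ 1 / m := by gcongr; nlinarith
    have h2 : 0 ≤ 1 / (2 * (m : ℝ) ^ 2) := by positivity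
    simp only [key2, Pi.sub_apply, Pi.add_apply, Real.norm_eq_abs, abs_le] at this ⊢
    rw [show 2 / (m : ℝ) = 1 / m + 1 / m by ring]
    constructor <;> linarith

lemma exists_P (hm : 10 ^ 5 ≤ m) : ∃ P : ℕ, P.Prime ∧ m ^ 16 < P ∧ P ≤ 2 * m ^ 16 ∧
    ((m : ℝ) ^ 4 / 2) ^ m ≤ P ^ (m / 4) ∧ (P : ℝ) ^ (m / 4) ≤ (2 * m ^ 4) ^ m := by
  obtain ⟨P, h0, h1, h2⟩ := Nat.exists_prime_lt_and_le_two_mul (m ^ 16) (by positivity)
  have m1 : (10 : ℝ) ^ 5 ≤ m := by exact_mod_cast hm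
  have m4 : (1 : ℝ) ≤ m ^ 4 := one_le_pow₀ (by linarith)
  refine ⟨P, h0, h1, h2, ?_, ?_⟩
  · have a1 : (m : ℝ) ^ 12 ≤ 2 ^ m := by
      have b1 := Real.pow_div_factorial_le_exp (m / 2 : ℝ) (by positivity) 24
      have b2 : (10 : ℝ) ^ 60 ≤ m ^ 12 := le_trans (by norm_num) (pow_le_pow_left₀ (by norm_num) m1 12)
      have b3 := mul_le_mul_of_nonneg_right b2 (by positivity : (0 : ℝ) ≤ m ^ 12)
      have b4 : exp (m / 2) ≤ 2 ^ m := by
        rw [div_eq_mul_one_div, exp_nat_mul]; gcongr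
        have := add_one_le_exp (-(1 / 2))
        rw [exp_neg, le_inv_comm₀ (by norm_num) (exp_pos _)] at this
        linarith
      norm_num [Nat.factorial] at b1
      nlinarith [pow_pos (by linarith : (0 : ℝ) < m) 12]
    rw [div_pow, div_le_iff₀ (by positivity)]
    calc ((m : ℝ) ^ 4) ^ m ≤ (m ^ 4) ^ (4 * (m / 4) + 3) := pow_le_pow_right₀ m4 (by omega)
      _ = (m ^ 16) ^ (m / 4) * m ^ 12 := by ring
      _ ≤ _ := by gcongr; exact_mod_cast h1.le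
  · calc (P : ℝ) ^ (m / 4) ≤ (2 * m ^ 16) ^ (m / 4) := by gcongr; exact_mod_cast h2
      _ = 2 ^ (m / 4) * (m ^ 4) ^ (4 * (m / 4)) := by ring
      _ ≤ _ := by rw [mul_pow]; gcongr; exacts [one_le_two, by omega, by omega]

omit [Fintype ι] in
theorem slab' {P : ℕ} [Fact P.Prime] {G : Type} [AddCommGroup G] [Module (ZMod P) G] [Fintype G]
    (hm : 10 ^ 5 ≤ m) (hP : m ^ 16 < P) (hP' : P ≤ 2 * m ^ 16)
    (hG : ((m : ℝ) ^ 4 / 2) ^ m ≤ Fintype.card G) (hG' : Fintype.card G ≤ (2 * (m : ℝ) ^ 4) ^ m)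
    (hK : IsConvexBody K) {c : Fin m → ℝ} (h2 : sl Ψ K 0 ⊆ closedBall c (2 / m))
    {t : EuclideanSpace ℝ ι} (n1 : (sl Ψ K t).Nonempty) (n2 : (sl Ψ K (-t)).Nonempty) {l V : ℝ}
    (hl : 0 < l) (hV : V * Fintype.card G ≤ l ^ m / 2 * volume.real (sl Ψ K t))
    (hV' : V * log m ≤ m / 10 ^ 6) :
    ∃ A : Finset (Fin m → ℤ), (∀ a ∈ A, ∀ z, ‖z‖ ≤ 1 → ∃ y ∈ sl Ψ K t,
      ∃ b ∈ closedBall c (1 / (2 * m ^ 2)),
        l⁻¹ • (ic a + z) = (1 - 2 * (1 / (4 * m)) : ℝ) • y + (1 / (4 * m) : ℝ) • b) ∧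
      𝔼 H : Fin m → G, 𝔼 τ : G, ind (∀ x ∈ A, ap H x ≠ τ) ≤ 3 * exp (-(V / 2)) := by
  have m1 : (10 : ℝ) ^ 5 ≤ m := by exact_mod_cast hm
  have m0 : (0 : ℝ) < m := by linarith
  set ε : ℝ := 1 / (4 * m) with hε
  have e0 : 0 < ε := by positivity
  have e1 : ε * m = 1 / 4 := by rw [hε]; field_simp
  have e2 : ε ≤ 1 / 4 := by nlinarith
  set κ := l * (1 - 2 * ε) with hκ
  have k0 : 0 < κ := mul_pos hl (by linarith)
  have k1 : κ ≤ l := mul_le_of_le_one_right hl.le (by linarith)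
  obtain ⟨y0, hy0⟩ := n1
  obtain ⟨z, hz⟩ := n2
  have wd : ∀ y ∈ sl Ψ K t, ‖y + z - (2 : ℝ) • c‖ ≤ 4 / m := fun y hy => by
    have a1 := hK.2.1 hy hz (by norm_num : (0 : ℝ) ≤ 1 / 2) (by norm_num : (0 : ℝ) ≤ 1 / 2)
      (by norm_num)
    rw [← map_smul, ← map_smul, ← map_add, ← smul_add, Prod.mk_add_mk, add_neg_cancel, Prod.smul_mk,
      smul_zero] at a1
    have a2 := mem_closedBall_iff_norm.1 (h2 a1)
    rw [show y + z - (2 : ℝ) • c = (2 : ℝ) • ((1 / 2 : ℝ) • (y + z) - c) by module, norm_smul,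
      Real.norm_two, show 4 / (m : ℝ) = 2 * (2 / m) by ring]
    gcongr
  set ρ := l / (16 * m ^ 3) with hρ
  have r0 : 0 < ρ := by positivity
  have cp := ((sl_cpt Ψ hK.1 t).smul κ).add (isCompact_closedBall ((l * ε) • c) ρ)
  obtain ⟨A, a1, a2⟩ := slab hm hP hP' hG hG' cp
    (((sl_cvx Ψ hK.2.1 t).smul κ).add (convex_closedBall _ _)) (c := κ • y0 + (l * ε) • c) r0
    (fun x hx => ⟨_, Set.smul_mem_smul_set hy0, x - κ • y0, by
      rwa [mem_closedBall_iff_norm, sub_sub, ← mem_closedBall_iff_norm], by simp⟩) (by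
      rintro _ ⟨_, ⟨y, hy, rfl⟩, u, hu, rfl⟩
      rw [mem_closedBall_iff_norm] at hu ⊢
      have b1 := norm_sub_le (y + z - (2 : ℝ) • c) (y0 + z - (2 : ℝ) • c)
      have b2 := norm_add_le (κ • (y + z - (2 : ℝ) • c - (y0 + z - (2 : ℝ) • c))) (u - (l * ε) • c)
      rw [norm_smul, Real.norm_of_nonneg k0.le] at b2
      have b3 := mul_le_mul k1 (b1.trans (add_le_add (wd y hy) (wd y0 hy0))) (norm_nonneg _) hl.le
      have b4 : l * (4 / m + 4 / m) = 128 * m ^ 2 * ρ := by rw [hρ]; field_simp; norm_num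
      have b5 : 1 * ρ ≤ m ^ 2 * ρ := by gcongr; nlinarith
      refine le_trans (le_of_eq (congrArg _ ?_)) (b2.trans (by linarith))
      simp only; module) (hV.trans (by
      have b1 : (· + -((l * ε) • c)) ⁻¹' (κ • sl Ψ K t) ⊆ κ • sl Ψ K t + closedBall ((l * ε) • c) ρ :=
        fun x hx => ⟨_, hx, _, mem_closedBall_self r0.le, by simp⟩
      refine le_trans ?_ (measureReal_mono b1 cp.measure_lt_top.ne)
      rw [measureReal_def volume (_ ⁻¹' _), measure_preimage_add_right,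
        Measure.addHaar_smul_of_nonneg _ k0.le, ENNReal.toReal_mul,
        ENNReal.toReal_ofReal (by positivity), Module.finrank_fin_fun, hκ, mul_pow, div_eq_mul_one_div]
      have := one_add_mul_le_pow (a := -(2 * ε)) (by linarith) m
      rw [← sub_eq_add_neg 1 (2 * ε)] at this
      exact mul_le_mul_of_nonneg_right (mul_le_mul_of_nonneg_left (by linarith) (by positivity))
        measureReal_nonneg)) hV'
  refine ⟨A, fun a ha u hu => ?_, a2⟩
  obtain ⟨⟨_, ⟨y, hy, rfl⟩, v, hv, h⟩, h'⟩ := a1 a ha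
  refine ⟨y, hy, (l * ε)⁻¹ • (v + u), ?_, ?_⟩
  · rw [mem_closedBall_iff_norm] at hv ⊢
    have b1 := norm_add_le (v - (l * ε) • c) u
    rw [show (l * ε)⁻¹ • (v + u) - c = (l * ε)⁻¹ • (v - (l * ε) • c + u) by
      match_scalars <;> field_simp, norm_smul, Real.norm_of_nonneg (by positivity),
      inv_mul_le_iff₀ (by positivity), show l * ε * (1 / (2 * m ^ 2)) = 2 * ρ by
        rw [hρ, hε]; field_simp; norm_num]
    linarith
  · rw [← h, hκ]
    match_scalars <;> field_simp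

lemma exists_basis {l : ℝ} (hl : 0 < l) {g : ι → ℝ} (hg : ∀ i, 0 < g i) (hK : MeasurableSet K) :
    ∃ b : Module.Basis (Fin m ⊕ ι) ℝ (E n), (∀ z, b.equivFun.symm z = Ψ (l⁻¹ • z ∘ Sum.inl,
      WithLp.toLp 2 fun i => g i * z (Sum.inr i))) ∧
      volume.real K * (l⁻¹ ^ m * ∏ i, g i) =
        (volume.prod volume).real (Ψ ⁻¹' K) * volume.real (ZSpan.fundamentalDomain b) := by
  let Θ : ((Fin m → ℝ) × EuclideanSpace ℝ ι) ≃ₗ[ℝ] (Fin m ⊕ ι → ℝ) :=
    { toFun p := Sum.elim (l • p.1) fun i => p.2 i / g i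
      invFun z := (l⁻¹ • z ∘ Sum.inl, WithLp.toLp 2 fun i => g i * z (Sum.inr i))
      map_add' p q := by ext (i | i) <;> simp [add_div]
      map_smul' c p := by ext (i | i) <;> simp [mul_div_assoc, mul_left_comm]
      left_inv p := by ext i <;> simp [hl.ne', mul_div_cancel₀, (hg _).ne']
      right_inv z := by ext (i | i) <;> simp [hl.ne', (hg _).ne'] }
  refine ⟨Module.Basis.ofEquivFun (Ψ.symm.toLinearEquiv.trans Θ), fun z => by
    rw [Module.Basis.equivFun_ofEquivFun]; rfl, ?_⟩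
  obtain ⟨J, -, -, hJ⟩ := exists_haar Ψ
  have h1 : ∀ S, MeasurableSet S → volume.real S = J.toReal * (volume.prod volume).real (Ψ ⁻¹' S) :=
    fun S hS => by
      rw [measureReal_def, hJ, Measure.smul_apply, Measure.map_apply Ψ.continuous.measurable hS,
        smul_eq_mul, ENNReal.toReal_mul]; rfl
  have h2 : Ψ ⁻¹' ZSpan.fundamentalDomain (Module.Basis.ofEquivFun (Ψ.symm.toLinearEquiv.trans Θ))
      = (Set.pi Set.univ fun _ => Set.Ico 0 l⁻¹) ×ˢ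
        (WithLp.ofLp ⁻¹' Set.pi Set.univ fun i => Set.Ico 0 (g i)) := by
    ext p
    have : ∀ x, l * x < 1 ↔ x < l⁻¹ := fun x => by rw [← one_div, lt_div_iff₀' hl]
    simp [ZSpan.mem_fundamentalDomain, Θ, hl, this, hg, div_lt_one, le_div_iff₀]
  rw [h1 K hK, h1 _ (ZSpan.fundamentalDomain_measurableSet _), h2, measureReal_prod_prod,
    (PiLp.volume_preserving_ofLp ι).measureReal_preimage
      (MeasurableSet.univ_pi fun _ => measurableSet_Ico).nullMeasurableSet,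
    measureReal_def volume (Set.pi _ _), measureReal_def volume (Set.pi _ _),
    Real.volume_pi_Ico_toReal fun _ => (inv_pos.2 hl).le,
    Real.volume_pi_Ico_toReal fun i => (hg i).le]
  simp only [sub_zero, prod_const, card_univ, Fintype.card_fin]
  ring

lemma ap_sub {κ G : Type*} [Fintype κ] [AddCommGroup G] (H : κ → G) (x y : κ → ℤ) :
    ap H (x - y) = ap H x - ap H y := by simp [ap, sub_smul]

lemma phi_le {t : EuclideanSpace ℝ ι} {r : ℝ} (h : ‖t‖ ^ 2 * (1 - r ^ 2) ≤ 1) :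
    phi (r • t) ≤ 2 * phi t := by
  rw [phi_eq, phi_eq, ← mul_div_assoc, norm_smul, mul_pow, Real.norm_eq_abs, sq_abs]
  gcongr
  calc _ ≤ exp (1 / 2) * exp (-(‖t‖ ^ 2 / 2)) := by rw [← exp_add, exp_le_exp]; linarith
    _ ≤ _ := by
      gcongr
      have := add_one_le_exp (-(1 / 2))
      rw [exp_neg, le_inv_comm₀ (by norm_num) (exp_pos _)] at this
      linarith

lemma norm_le_of_abs {t : EuclideanSpace ℝ ι} {r : ℝ} (h : ∀ i, |t i| ≤ r) :
    ‖t‖ ^ 2 ≤ Fintype.card ι * r ^ 2 := by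
  rw [EuclideanSpace.real_norm_sq_eq, ← nsmul_eq_mul]
  exact sum_le_card_nsmul _ _ _ fun i _ => sq_le_sq' (abs_le.1 (h i)).1 (abs_le.1 (h i)).2

/-- heights of the slices used -/
def tp (g : ι → ℝ) (j : ι → Fin (4 * m)) (p : ι → ℤ) : EuclideanSpace ℝ ι :=
  (1 - 2 * (1 / (4 * m)) : ℝ)⁻¹ •
    WithLp.toLp 2 fun i => g i * p i + g i * ((j i : ℕ) * (1 / (4 * m)))

omit [Fintype ι] in
lemma covers (hm : 1 ≤ m) (hK : Convex ℝ K) {g : ι → ℝ} (hg : ∀ i, 0 < g i ∧ g i ≤ 1) {l : ℝ}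
    (l0 : 0 < l) {C : Set (Fin m → ℝ)} (c1 : C ⊆ sl Ψ K 0)
    (ne : ∀ t : EuclideanSpace ℝ ι, (∀ i, |t i| ≤ 1) → (sl Ψ K t).Nonempty) {X : Set (E n)}
    (hX : ∀ (q : ι → ℤ) (j : ι → Fin (4 * m)) (z : Fin m → ℤ), ∃ p a,
      Ψ (l⁻¹ • ic (z - a), WithLp.toLp 2 fun i => g i * ic (q - p) i) ∈ X ∧
      ∀ u, ‖u‖ ≤ 1 → ∃ y ∈ sl Ψ K (tp g j p), ∃ b ∈ C,
        l⁻¹ • (ic a + u) = (1 - 2 * (1 / (4 * m)) : ℝ) • y + (1 / (4 * m) : ℝ) • b) :
    Covers K X := by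
  intro y
  have m0 : (1 : ℝ) ≤ m := by exact_mod_cast hm
  set ε : ℝ := 1 / (4 * m) with hε
  have e0 : 0 < ε := by positivity
  have e2 : ε ≤ 1 / 4 := by rw [hε]; gcongr; linarith
  obtain ⟨⟨x, y⟩, rfl⟩ := Ψ.surjective y
  let j : ι → Fin (4 * m) := fun i => ⟨⌊Int.fract (y i / g i) * (4 * m)⌋₊, by
    rw [Nat.floor_lt (mul_nonneg (Int.fract_nonneg _) (by positivity))]
    push_cast
    exact mul_lt_of_lt_one_left (by positivity) (Int.fract_lt_one _)⟩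
  let δ : EuclideanSpace ℝ ι :=
    WithLp.toLp 2 fun i => g i * Int.fract (Int.fract (y i / g i) * (4 * m))
  obtain ⟨k, hk⟩ := ne δ fun i => by
    have a1 := Int.fract_nonneg (Int.fract (y i / g i) * (4 * m))
    rw [abs_of_nonneg (mul_nonneg (hg i).1.le a1)]
    exact mul_le_one₀ (hg i).2 a1 (Int.fract_lt_one _).le
  let z : Fin m → ℤ := fun i => ⌊(l • (x - ε • k)) i⌋
  obtain ⟨p, a, h1, h2⟩ := hX (fun i => ⌊y i / g i⌋) j z
  obtain ⟨u, hu, r, hr, e'⟩ := h2 (l • (x - ε • k) - ic z)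
    ((pi_norm_le_iff_of_nonneg zero_le_one).2 fun i =>
      (abs_of_nonneg (Int.fract_nonneg _)).trans_le (Int.fract_lt_one _).le)
  refine ⟨_, hK.sum_mem (t := univ) (w := ![1 - 2 * ε, ε, ε]) (z := ![Ψ (u, tp g j p), Ψ (k, δ),
    Ψ (r, 0)]) (fun i _ => by fin_cases i <;> simp <;> linarith) (by simp [Fin.sum_univ_three]; ring)
    (fun i _ => by fin_cases i; exacts [hu, hk, c1 hr]), _, h1, ?_⟩
  simp only [Fin.sum_univ_three, Matrix.cons_val_zero, Matrix.cons_val_one, Matrix.cons_val,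
    ← map_smul, ← map_add, Prod.smul_mk, Prod.mk_add_mk, tp, ← hε,
    smul_inv_smul₀ (by linarith : 1 - 2 * ε ≠ 0)]
  congr 2
  · have : ic (z - a) = ic z - ic a := by ext i; simp [ic]
    rw [this, add_right_comm _ (ε • k), ← e']
    match_scalars <;> field_simp <;> ring
  · ext i
    have a1 : ((j i : ℕ) : ℝ) = ⌊Int.fract (y i / g i) * (4 * m)⌋ :=
      natCast_floor_eq_intCast_floor (mul_nonneg (Int.fract_nonneg _) (by positivity))
    have := (hg i).1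
    simp only [PiLp.add_apply, PiLp.smul_apply, smul_eq_mul, PiLp.zero_apply, ic, δ, a1,
      Pi.sub_apply, Int.cast_sub, hε]
    rw [Int.fract]
    generalize ⌊Int.fract (y i / g i) * (4 * m)⌋ = s
    rw [Int.fract]
    field_simp; ring

lemma slabs [Nonempty ι] {Γ : Type} [AddCommGroup Γ] [Fintype Γ] {g : ι → ℝ} {h : ι → Γ} {B : ℕ}
    {σ w D : ℝ} (hK : IsConvexBody K) (hA : HS K A T) (hΨ : ∀ p, A (Ψ p) = p.2)
    {P : ℕ} [Fact P.Prime] {G : Type} [AddCommGroup G] [Module (ZMod P) G] [Fintype G]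
    (hm : 10 ^ 5 ≤ m) (p1 : m ^ 16 < P) (p2 : P ≤ 2 * m ^ 16)
    (p3 : ((m : ℝ) ^ 4 / 2) ^ m ≤ Fintype.card G) (p4 : Fintype.card G ≤ (2 * (m : ℝ) ^ 4) ^ m)
    {c : Fin m → ℝ} (c2 : sl Ψ K 0 ⊆ closedBall c (2 / m)) (hg : ∀ i, 0 < g i ∧ g i ≤ 1)
    (T0 : 0 ≤ T) (T1 : 4 * (Fintype.card ι * (σ + 1) ^ 2) ≤ T ^ 2) (T2 : T ^ 2 ≤ m)
    (D0 : 0 < D) (hw : D / 40 * w * log m ≤ m / 10 ^ 6) {l : ℝ} (l0 : 0 < l)
    (l1 : l ^ m * (volume.prod volume).real (Ψ ⁻¹' K) =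
      D * Fintype.card G * Fintype.card Γ * ∏ i, g i) {γ S θ} (hS : Good g h B σ w γ S θ)
    (j : ι → Fin (4 * m)) {p} (hp : p ∈ S) :
    ∃ A : Finset (Fin m → ℤ), (∀ a ∈ A, ∀ z, ‖z‖ ≤ 1 → ∃ y ∈ sl Ψ K (tp g j p),
      ∃ b ∈ closedBall c (1 / (2 * m ^ 2)),
        l⁻¹ • (ic a + z) = (1 - 2 * (1 / (4 * m)) : ℝ) • y + (1 / (4 * m) : ℝ) • b) ∧
      𝔼 H : Fin m → G, 𝔼 τ : G, ind (∀ x ∈ A, ap H x ≠ τ) ≤ 3 * exp (-(D / 40 * θ p / 2)) := by
  have m1 : (10 : ℝ) ^ 5 ≤ m := by exact_mod_cast hm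
  have m0 : (0 : ℝ) < m := by linarith
  have g0 : 0 < ∏ i, g i := prod_pos fun i _ => (hg i).1
  have ne : ∀ t, ‖t‖ ≤ T → (sl Ψ K t).Nonempty := fun t ht =>
    nonempty_of_measure_ne_zero (hA.pos Ψ hK hΨ ht)
  obtain ⟨-, s1, -, s2, s3⟩ := hS.2 p hp
  set ε : ℝ := 1 / (4 * m) with hε
  have e0 : 0 < ε := by positivity
  have e1 : ε * m = 1 / 4 := by rw [hε]; field_simp
  have e2 : ε ≤ 1 / 4 := by nlinarith
  have ho : ∀ i, 0 ≤ g i * ((j i : ℕ) * ε) ∧ g i * ((j i : ℕ) * ε) ≤ g i := fun i => by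
    have a1 : ((j i : ℕ) : ℝ) ≤ 4 * m := by exact_mod_cast (j i).2.le
    have := (hg i).1
    exact ⟨by positivity, mul_le_of_le_one_right this.le (by nlinarith)⟩
  have ht : (1 - 2 * ε) • tp g j p = WithLp.toLp 2 fun i => g i * p i + g i * ((j i : ℕ) * ε) :=
    smul_inv_smul₀ (by linarith) _
  set t := tp g j p
  have ht' : ‖t‖ ≤ T := by
    have a1 := norm_le_of_abs (t := (1 - 2 * ε) • t) (r := σ + 1) fun i => by
      rw [ht]
      refine (abs_add_le _ _).trans (add_le_add (s1 i).2 ?_)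
      rw [abs_of_nonneg (ho i).1]; exact (ho i).2.trans (hg i).2
    rw [norm_smul, Real.norm_of_nonneg (by linarith), mul_pow] at a1
    have a2 := mul_le_mul_of_nonneg_right (by nlinarith : 1 / 4 ≤ (1 - 2 * ε) ^ 2) (sq_nonneg ‖t‖)
    exact (abs_le_of_sq_le_sq' (by linarith) T0).2
  refine slab' Ψ hm p1 p2 p3 p4 hK c2 (ne _ ht') (ne _ (by simpa using ht')) l0 ?_
    (le_trans (by gcongr) hw)
  have a1 := s3 _ ho
  have b1 := (pow_le_pow_left₀ (norm_nonneg _) ht' 2).trans T2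
  have b2 := mul_le_mul b1 (by nlinarith : 1 - (1 - 2 * ε) ^ 2 ≤ 4 * ε) (by nlinarith) m0.le
  have a2 := phi_le (t := t) (r := 1 - 2 * ε) (by linarith)
  rw [ht] at a2
  rw [prod_mul_distrib] at a1
  calc _ ≤ D / 40 * (Fintype.card Γ * ((∏ i, g i) * (2 * phi t))) * Fintype.card G := by
        gcongr; exact a1.trans (by gcongr; exact a2)
    _ = l ^ m / 2 * (phi t / 10 * (volume.prod volume).real (Ψ ⁻¹' K)) := by
        linear_combination (-phi t / 20) * l1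
    _ ≤ _ := by gcongr; exact hA.slice' Ψ hK hΨ ht'

omit Ψ in
theorem core [Nonempty ι] {Γ : Type} [AddCommGroup Γ] [Fintype Γ] {g : ι → ℝ} {h : ι → Γ} {B : ℕ}
    {σ w c0 D : ℝ} (hK : IsConvexBody K) (hA : HS K A T) (hn : m + Fintype.card ι = n)
    (hm : 10 ^ 5 ≤ m) (hg : ∀ i, 0 < g i ∧ g i ≤ 1)
    (hv : ∀ γ, ∃ S θ, Good g h B σ w γ S θ ∧ c0 ≤ ∑ p ∈ S, θ p) (hc : 0 < c0) (hσ : 0 ≤ σ)
    (T0 : 0 ≤ T) (T1 : 4 * (Fintype.card ι * (σ + 1) ^ 2) ≤ T ^ 2) (T2 : T ^ 2 ≤ m) (hB : 2 * B ≤ m)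
    (D0 : 0 < D) (hw : D / 40 * w * log m ≤ m / 10 ^ 6)
    (hN : (2 * (m : ℝ) ^ 4) ^ m * ((6 * (((2 * B + 1) * (4 * m) * (2 * B + 1) : ℝ)
      ^ Fintype.card ι) ^ 2) ^ (2 * B + 1) ^ Fintype.card ι * exp (-(D / 40 * c0 / 2))) < 1) :
    thetaL K ≤ ENNReal.ofReal D := by
  classical
  have m1 : (10 : ℝ) ^ 5 ≤ m := by exact_mod_cast hm
  have m0 : (0 : ℝ) < m := by linarith
  obtain ⟨Ψ, hΨ, c, c1, c2⟩ := exists_frame hA hK T0 hn (by omega)
  obtain ⟨P, hP, p1, p2, p3, p4⟩ := exists_P hm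
  have := Fact.mk hP
  let G := Fin (m / 4) → ZMod P
  have hG : (Fintype.card G : ℝ) = P ^ (m / 4) := by simp [G]
  rw [← hG] at p3 p4
  have G0 : (0 : ℝ) < Fintype.card G := by exact_mod_cast Fintype.card_pos
  have Γ0 : (0 : ℝ) < Fintype.card Γ := by exact_mod_cast Fintype.card_pos
  have g0 : 0 < ∏ i, g i := prod_pos fun i _ => (hg i).1
  have v0 : 0 < (volume.prod volume).real (Ψ ⁻¹' K) :=
    ENNReal.toReal_pos (vol_pre Ψ hK).1 (vol_pre Ψ hK).2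
  obtain ⟨l, l0, l1⟩ : ∃ l : ℝ, 0 < l ∧ l ^ m * (volume.prod volume).real (Ψ ⁻¹' K)
      = D * Fintype.card G * Fintype.card Γ * ∏ i, g i :=
    ⟨((D * Fintype.card G * Fintype.card Γ * ∏ i, g i) / (volume.prod volume).real (Ψ ⁻¹' K))
      ^ (m : ℝ)⁻¹, by positivity, by
      rw [rpow_inv_natCast_pow (by positivity) (by omega), div_mul_cancel₀ _ v0.ne']⟩
  choose S θ hS hθ using hv
  choose! X x1 x2 using fun (i : Γ × (ι → Fin (4 * m))) p (hp : p ∈ S i.1) =>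
    slabs Ψ hK hA hΨ hm p1 p2 p3 p4 c2 hg T0 T1 T2 D0 hw l0 l1 (hS i.1) i.2 hp
  have sub : ∀ γ, S γ ⊆ Fintype.piFinset fun _ => Icc (-B : ℤ) B := fun γ p hp =>
    Fintype.mem_piFinset.2 fun i => mem_Icc.2 (abs_le.1 (((hS γ).2 p hp).2.1 i).1)
  have cd : (Fintype.piFinset fun _ : ι => Icc (-B : ℤ) B).card = (2 * B + 1) ^ Fintype.card ι := by
    simp only [Fintype.card_piFinset, Int.card_Icc, prod_const, card_univ]
    congr 1; omega
  have cΓ : Fintype.card Γ ≤ (2 * B + 1) ^ Fintype.card ι := by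
    rw [← cd]
    refine card_le_card_of_surjOn (ap h) fun γ _ => ?_
    obtain ⟨p, hp⟩ := nonempty_of_sum_ne_zero (hc.trans_le (hθ γ)).ne'
    exact ⟨p, sub γ hp, ((hS γ).2 p hp).1⟩
  have B1 : (1 : ℝ) ≤ 2 * B + 1 := by linarith [Nat.cast_nonneg (α := ℝ) B]
  obtain ⟨H, Φ, hH⟩ := cover (G := G) (fun i : Γ × (ι → Fin (4 * m)) => S i.1) (fun i => (hS _).1)
    (fun i p hp q hq k hk => smul_bij (Q := P) fun h0 => hk (int_eq_of_mod (P := P)
      (by rwa [Int.cast_sub, sub_eq_zero] at h0) (by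
        have a1 := abs_le.1 (((hS _).2 p hp).2.1 k).1
        have a2 := abs_le.1 (((hS _).2 q hq).2.1 k).1
        have a3 := (Nat.le_self_pow (by norm_num) m).trans_lt p1
        rw [abs_lt]; omega)))
    (fun i => (card_le_card (sub i.1)).trans cd.le) X (fun i p => D / 40 * θ i.1 p) x2
    (N := ((2 * B + 1) * (4 * m) * (2 * B + 1) : ℝ) ^ Fintype.card ι) (v := D / 40 * c0)
    (one_le_pow₀ (one_le_mul_of_one_le_of_one_le (one_le_mul_of_one_le_of_one_le B1 (by linarith))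
      B1)) (by
      rw [mul_pow, mul_pow, Fintype.card_prod, Fintype.card_fun, Fintype.card_fin]
      push_cast
      gcongr
      exact_mod_cast cΓ) (fun i => by rw [← mul_sum]; gcongr; exact hθ _)
    (lt_of_le_of_lt (by gcongr) hN)
  let χ : (Fin m ⊕ ι → ℤ) →+ G × Γ :=
    { toFun z := (ap H (z ∘ Sum.inl) + ap Φ (z ∘ Sum.inr), ap h (z ∘ Sum.inr))
      map_zero' := by simp [ap]
      map_add' x y := by simp [ap, add_smul, sum_add_distrib, add_add_add_comm] }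
  obtain ⟨b, b1, b2⟩ := exists_basis Ψ l0 (fun i => (hg i).1) hK.1.measurableSet
  obtain ⟨Λ, i1, i2, d1, d2⟩ := exists_lattice b χ fun ⟨τ, γ⟩ => by
    obtain ⟨p, hp, a, -, ha⟩ := hH (γ, fun _ => ⟨0, by omega⟩) τ
    exact ⟨Sum.elim a p, Prod.ext (eq_sub_iff_add_eq.1 ha) ((hS γ).2 p hp).1⟩
  refine iInf_le_of_le Λ (iInf_le_of_le i1 (iInf_le_of_le i2 (iInf_le_of_le
    (covers Ψ (by omega) hK.2.1 hg l0 c1 (fun t ht => ?_) fun q j z => ?_) ?_)))
  · refine nonempty_of_measure_ne_zero (hA.pos Ψ hK hΨ (abs_le_of_sq_le_sq'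
      ((norm_le_of_abs ht).trans ?_) T0).2)
    have a1 := Nat.cast_nonneg (α := ℝ) (Fintype.card ι)
    nlinarith [mul_nonneg a1 (by positivity : 0 ≤ σ ^ 2 + 2 * σ)]
  · obtain ⟨p, hp, a, ha, e⟩ := hH (ap h q, j) (ap H z + ap Φ q)
    refine ⟨p, a, ?_, x1 (ap h q, j) p hp a ha⟩
    have := d2 (Sum.elim (z - a) (q - p)) (Prod.ext ?_ ?_)
    · rwa [b1] at this
    · change ap H (z - a) + ap Φ (q - p) = 0
      rw [ap_sub, ap_sub, e]; abel
    · change ap h (q - p) = 0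
      rw [ap_sub, ((hS _).2 p hp).1, sub_self]
  · have f0 := fd_pos b
    rw [← ofReal_measureReal (hK.1.measure_lt_top (μ := volume)).ne,
      ← ENNReal.ofReal_div_of_pos (ZLattice.covolume_pos Λ volume), d1]
    refine ENNReal.ofReal_le_ofReal (le_of_eq ?_)
    rw [div_eq_iff (by positivity), Fintype.card_prod, Nat.cast_mul]
    rw [inv_pow] at b2
    have : l ^ m ≠ 0 := by positivity
    field_simp at b2
    refine mul_right_cancel₀ g0.ne' ?_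
    linear_combination b2 + volume.real (ZSpan.fundamentalDomain b) * l1

lemma fin_ok {n m d B : ℕ} {L z : ℝ} (hn : (n : ℝ) = exp L) (hL : L = exp z) (hz : 1 ≤ z)
    (key : 10 ^ 26 * z ^ 12 ≤ L) (hm : m ≤ n) (hd : d ≤ 48 * z ^ 2) (hB : B ≤ 65 * z ^ 2) :
    (2 * (m : ℝ) ^ 4) ^ m * ((6 * (((2 * B + 1) * (4 * m) * (2 * B + 1) : ℝ) ^ d) ^ 2)
      ^ (2 * B + 1) ^ d * exp (-(7 * n * L))) < 1 := by
  have z2 : z ≤ z ^ 2 := le_self_pow₀ hz two_ne_zero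
  have z4 : z ^ 2 ≤ z ^ 4 := pow_le_pow_right₀ hz (by norm_num)
  have z12 : z ^ 4 ≤ z ^ 12 := pow_le_pow_right₀ hz (by norm_num)
  have n1 : L + 1 ≤ n := hn ▸ add_one_le_exp L
  have m1 : (m : ℝ) ≤ n := by exact_mod_cast hm
  have pw : ∀ k : ℕ, (n : ℝ) ^ k = exp (k * L) := fun k => by rw [hn, exp_nat_mul]
  have a1 : (2 * (m : ℝ) ^ 4) ^ m ≤ exp (5 * n * L) := by
    calc _ ≤ ((n : ℝ) * n ^ 4) ^ m := by gcongr; linarith
      _ = exp (5 * m * L) := by rw [← pow_succ', ← pow_mul, pw]; push_cast; ring_nf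
      _ ≤ _ := by gcongr; linarith
  have a2 : (6 * (((2 * B + 1) * (4 * m) * (2 * B + 1) : ℝ) ^ d) ^ 2) ≤ exp (L ^ 2) := by
    calc _ ≤ (n : ℝ) * ((n * (n * n) * n) ^ d) ^ 2 := by gcongr <;> linarith
      _ = exp ((8 * d + 1) * L) := by
        rw [show (n : ℝ) * ((n * (n * n) * n) ^ d) ^ 2 = n ^ (8 * d + 1) by ring, pw]; push_cast; rfl
      _ ≤ _ := by rw [sq L]; gcongr <;> linarith
  have a3 : (((2 * B + 1) ^ d : ℕ) : ℝ) * L ^ 2 ≤ n := by
    calc _ ≤ exp (d * (2 * B + 1)) * exp (2 * z) := by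
          push_cast
          gcongr
          · exact pow_le_exp (by positivity) d
          · rw [hL, ← exp_nat_mul]; rfl
      _ ≤ _ := by
          have : (d : ℝ) * (2 * B + 1) ≤ 48 * z ^ 2 * (131 * z ^ 2) := by gcongr; linarith
          rw [← exp_add, hn, exp_le_exp]; linarith
  calc _ ≤ exp (5 * n * L) * (exp (L ^ 2) ^ (2 * B + 1) ^ d * exp (-(7 * n * L))) := by gcongr
    _ < 1 := by
      rw [← exp_nat_mul, ← exp_add, ← exp_add, exp_lt_one_iff]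
      nlinarith [mul_le_mul_of_nonneg_left (by linarith : 1 ≤ L) (by linarith : (0 : ℝ) ≤ n)]

theorem thetaL_le : ∃ C : ℝ, 0 < C ∧ ∃ n₀ : ℕ, ∀ n ≥ n₀,
    ThetaL n ≤ ENNReal.ofReal (C * n * log n) := by
  obtain ⟨c0, c1, -, hv⟩ := vert
  refine ⟨560 / c0, by positivity, ⌈exp (exp (max (exp (10 ^ 8)) (10 ^ 8 / c0)))⌉₊, fun n hn =>
    iSup₂_le fun K hK => ?_⟩
  have n1 := Nat.ceil_le.1 hn
  have n0 : (0 : ℝ) < n := (exp_pos _).trans_le n1
  have l1 := (le_log_iff_exp_le n0).2 n1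
  set L := log n with hL
  have L0 : 0 < L := (exp_pos _).trans_le l1
  have z1 := (le_log_iff_exp_le L0).2 l1
  set z := log L with hz
  have e1 : (n : ℝ) = exp L := (exp_log n0).symm
  have e2 : L = exp z := (exp_log L0).symm
  clear_value z L
  have z2 := (le_max_left _ _).trans z1
  have z3 := (le_max_right _ _).trans z1
  have z4 : 10 ^ 40 ≤ z := by
    refine le_trans ?_ ((Real.pow_div_factorial_le_exp (10 ^ 8) (by norm_num) 6).trans z2)
    norm_num [Nat.factorial]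
  have z0 : 0 < z := by linarith
  have key : 10 ^ 26 * z ^ 12 ≤ L := by
    have := Real.pow_div_factorial_le_exp z z0.le 13
    have h2 := mul_le_mul_of_nonneg_right z4 (pow_pos z0 12).le
    norm_num [Nat.factorial] at this
    rw [e2]; nlinarith [pow_pos z0 12]
  have y1 : z ≤ z ^ 2 := le_self_pow₀ (by linarith) two_ne_zero
  have y2 : z ^ 2 ≤ z ^ 4 := pow_le_pow_right₀ (by linarith) (by norm_num)
  have y3 : z ^ 4 ≤ z ^ 12 := pow_le_pow_right₀ (by linarith) (by norm_num)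
  have y4 : 2 * L ≤ n := by
    have := sq_le_exp L0.le
    rw [e1]; nlinarith
  set t := log (4 * z) / 6.8 with ht
  have t1 : exp (6.8 * t) = 4 * z := by rw [ht, mul_div_cancel₀ _ (by norm_num), exp_log (by linarith)]
  have t2 : 10 ^ 7 ≤ t := by
    have := (le_log_iff_exp_le (by linarith)).2 (by linarith : exp (10 ^ 8) ≤ 4 * z)
    rw [ht, le_div_iff₀ (by norm_num)]; linarith
  have t3 : exp (12 * t) ≤ 16 * z ^ 2 := by
    calc _ ≤ exp (6.8 * t) * exp (6.8 * t) := by rw [← exp_add, exp_le_exp]; linarith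
      _ = _ := by rw [t1]; ring
  have t4 : exp (10 * t) ≤ exp (12 * t) := exp_le_exp.2 (by linarith)
  obtain ⟨ι, Γ, _, _, _, g, h, _, d1, g1, hS⟩ := hv t t2
  have d2 : (Fintype.card ι : ℝ) ≤ 48 * z ^ 2 := by linarith
  have d3 : Fintype.card ι ≤ n := by exact_mod_cast (by linarith : (Fintype.card ι : ℝ) ≤ n)
  have m1 : ((n - Fintype.card ι : ℕ) : ℝ) = n - Fintype.card ι := Nat.cast_sub d3
  have b1 : (⌈4 * exp (12 * t)⌉₊ : ℝ) ≤ 65 * z ^ 2 := by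
    linarith [Nat.ceil_lt_add_one (by positivity : 0 ≤ 4 * exp (12 * t))]
  obtain ⟨A, hA⟩ := exists_HS (ι := ι) hK (T := 28 * z ^ 2) (by linarith) (by linarith) (by
    rw [e1, ← exp_half, exp_le_exp]; linarith [pow_pos z0 12])
  have s1 : √(24 * t) ≤ z := sqrt_le_iff.2 ⟨z0.le, by linarith [eet t2 6.8 (by norm_num)]⟩
  refine core hK hA (Nat.sub_add_cancel d3) (by exact_mod_cast (by rw [m1]; linarith :
    (10 : ℝ) ^ 5 ≤ (n - Fintype.card ι : ℕ))) g1 hS c1 (sqrt_nonneg _) (by positivity) ?_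
    (by rw [m1]; linarith) (by exact_mod_cast (by rw [m1]; linarith :
      2 * (⌈4 * exp (12 * t)⌉₊ : ℝ) ≤ (n - Fintype.card ι : ℕ))) (by positivity) ?_ ?_
  · calc _ ≤ 4 * (48 * z ^ 2 * (2 * z) ^ 2) := by gcongr; linarith
      _ ≤ _ := by linarith [pow_pos z0 4]
  · have a1 : log ((n - Fintype.card ι : ℕ) : ℝ) ≤ L := by
      rw [log_le_iff_le_exp (by rw [m1]; linarith), ← e1, m1]
      linarith [Nat.cast_nonneg (α := ℝ) (Fintype.card ι)]
    have a2 : exp (-(4 * z)) = (L ^ 4)⁻¹ := by rw [exp_neg, e2, ← exp_nat_mul]; rfl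
    have a3 : 10 ^ 8 ≤ c0 * L ^ 2 := by
      rw [← div_le_iff₀' c1]; nlinarith
    rw [t1, a2, m1]
    calc _ ≤ 560 / c0 * n * L / 40 * (L ^ 4)⁻¹ * L := by rw [← m1]; gcongr
      _ = 14 * n / (c0 * L ^ 2) := by field_simp; norm_num
      _ ≤ 14 * n / 10 ^ 8 := by gcongr
      _ ≤ _ := by linarith
  · rw [show 560 / c0 * n * L / 40 * c0 / 2 = 7 * n * L by field_simp; norm_num]
    exact fin_ok e1 e2 (by linarith) key (Nat.sub_le _ _) d2 b1

end

end Vale.Agent.P230
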