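import Vale.Agent.P230.Defs

/-! A finite family of vectors whose exponential moments are almost Gaussian. -/

namespace Vale.Agent.P230

open Finset
open scoped RealInnerProductSpace

noncomputable section

lemma one_add_le_cosh (s : ℝ) : 1 + s ^ 2 / 2 ≤ Real.cosh s := by
  have h := Real.hasSum_cosh s
  have := sum_le_hasSum (range 2) (fun i _ => by
    have : 0 ≤ s ^ (2 * i) := by rw [pow_mul]; positivity
    positivity) h
  simpa [sum_range_succ] using this

lemma exp_le_cosh (s : ℝ) : Real.exp (s ^ 2 / 2 - s ^ 4 / 8) ≤ Real.cosh s := by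
  refine le_trans ?_ (one_add_le_cosh s)
  have hx : 0 ≤ s ^ 2 / 2 := by positivity
  rw [← Real.le_log_iff_exp_le (by positivity)]
  refine le_trans ?_ (Real.le_log_one_add_of_nonneg hx)
  rw [le_div_iff₀ (by positivity)]
  have : 0 ≤ s ^ 6 := by positivity
  nlinarith

/-- sign patterns -/
abbrev Sg (n k : ℕ) : Type := Fin n × Fin k → Bool

def sgn (b : Bool) : ℝ := if b then 1 else -1

def vec {n k : ℕ} (e : Sg n k) : E n := WithLp.toLp 2 fun i => (∑ l, sgn (e (i, l))) / √k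

lemma sum_exp_inner {n k : ℕ} (v : E n) :
    ∑ e : Sg n k, Real.exp ⟪vec e, v⟫
      = Fintype.card (Sg n k) * ∏ x : Fin n × Fin k, Real.cosh (v x.1 / √k) := by
  have h1 : ∀ e : Sg n k, Real.exp ⟪vec e, v⟫
      = ∏ x : Fin n × Fin k, Real.exp (sgn (e x) * (v x.1 / √k)) := by
    intro e
    rw [← Real.exp_sum, Fintype.sum_prod_type]
    congr 1
    simp only [PiLp.inner_apply, vec, RCLike.inner_apply, conj_trivial]
    refine sum_congr rfl fun i _ => ?_
    rw [← sum_mul]; ring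
  simp only [h1]
  rw [← Fintype.piFinset_univ, ← prod_univ_sum (fun _ => univ)
    (fun (x : Fin n × Fin k) (b : Bool) => Real.exp (sgn b * (v x.1 / √k)))]
  rw [Fintype.card_fun, Fintype.card_bool, Nat.cast_pow, ← card_univ, ← prod_const,
    ← prod_mul_distrib]
  refine prod_congr rfl fun x _ => ?_
  simp [sgn, Real.cosh_eq]
  ring

lemma norm_sq_eq {n : ℕ} (v : E n) : ‖v‖ ^ 2 = ∑ i, v i ^ 2 := by
  rw [EuclideanSpace.norm_sq_eq]; simp

lemma mgf_upper {n k : ℕ} (hk : 0 < k) (v : E n) :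
    ∑ e : Sg n k, Real.exp ⟪vec e, v⟫ ≤ Fintype.card (Sg n k) * Real.exp (‖v‖ ^ 2 / 2) := by
  rw [sum_exp_inner]
  refine mul_le_mul_of_nonneg_left ?_ (by positivity)
  refine (prod_le_prod (fun x _ => (Real.cosh_pos _).le)
    fun x _ => Real.cosh_le_exp_half_sq _).trans (le_of_eq ?_)
  rw [← Real.exp_sum, Fintype.sum_prod_type, norm_sq_eq, sum_div]
  congr 1
  refine sum_congr rfl fun i _ => ?_
  have hk' : (0 : ℝ) < k := by exact_mod_cast hk
  simp only [sum_const, card_univ, Fintype.card_fin, nsmul_eq_mul, div_pow, Real.sq_sqrt hk'.le]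
  field_simp

lemma mgf_lower {n k : ℕ} (hk : 0 < k) (v : E n) (hv : ‖v‖ ^ 4 ≤ 8 * k) :
    Fintype.card (Sg n k) * Real.exp (‖v‖ ^ 2 / 2 - 1) ≤ ∑ e : Sg n k, Real.exp ⟪vec e, v⟫ := by
  rw [sum_exp_inner]
  refine mul_le_mul_of_nonneg_left ?_ (by positivity)
  refine le_trans ?_ (prod_le_prod (fun x _ => (Real.exp_pos _).le) fun x _ => exp_le_cosh _)
  rw [← Real.exp_sum, Real.exp_le_exp, Fintype.sum_prod_type]
  have hk' : (0 : ℝ) < k := by exact_mod_cast hk
  have h1 : ∀ i, ∑ _y : Fin k, ((v i / √k) ^ 2 / 2 - (v i / √k) ^ 4 / 8)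
      = v i ^ 2 / 2 - (v i ^ 2) ^ 2 / (8 * k) := by
    intro i
    have : √k ^ 4 = (k : ℝ) ^ 2 := by rw [show 4 = 2 * 2 by rfl, pow_mul, Real.sq_sqrt hk'.le]
    simp only [sum_const, card_univ, Fintype.card_fin, nsmul_eq_mul, div_pow, Real.sq_sqrt hk'.le,
      this]
    field_simp
  simp only [h1]
  rw [sum_sub_distrib, ← sum_div, ← sum_div, ← norm_sq_eq]
  have h2 : ∑ i, (v i ^ 2) ^ 2 ≤ (∑ i, v i ^ 2) ^ 2 :=
    sum_sq_le_sq_sum_of_nonneg fun i _ => sq_nonneg _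
  rw [← norm_sq_eq, ← pow_mul] at h2
  have h3 : (∑ i, (v i ^ 2) ^ 2) / (8 * k) ≤ 1 := by
    rw [div_le_one (by positivity)]; exact h2.trans hv
  linarith

lemma norm_vec_le {n k : ℕ} (hk : 0 < k) (e : Sg n k) : ‖vec e‖ ≤ √(n * k) := by
  have hk' : (0 : ℝ) < k := by exact_mod_cast hk
  apply Real.le_sqrt_of_sq_le
  rw [norm_sq_eq]
  have : ∀ i, (vec e i) ^ 2 ≤ k := by
    intro i
    have h1 : |∑ l, sgn (e (i, l))| ≤ k := by
      refine (abs_sum_le_sum_abs _ _).trans ?_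
      have : ∀ l, |sgn (e (i, l))| = 1 := fun l => by unfold sgn; split_ifs <;> simp
      simp [this]
    have h2 : (∑ l, sgn (e (i, l))) ^ 2 ≤ (k : ℝ) ^ 2 := sq_le_sq' (abs_le.1 h1).1 (abs_le.1 h1).2
    simp only [vec, div_pow, Real.sq_sqrt hk'.le]
    rw [div_le_iff₀ hk']; linarith
  refine (sum_le_sum fun i _ => this i).trans ?_
  simp

end

end Vale.Agent.P230
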