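import Vale.Agent.P230.Tree

/-! Stacking blocks of the vertical lattice. -/

open Finset
open scoped BigOperators

namespace Vale.Agent.P230

noncomputable section

/-- standard Gaussian density -/
def ph (x : ℝ) : ℝ := Real.exp (-(x ^ 2 / 2)) / √(2 * Real.pi)

lemma ph_pos (x : ℝ) : 0 < ph x := by unfold ph; have := Real.pi_pos; positivity

structure Block (Q D : ℕ) (Γ : Type) [AddCommGroup Γ] [Fintype Γ] (g N w M ε Cb : ℝ) where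
  h : Fin D → Γ
  L : Γ → Finset (Fin D → ℤ)
  θ : (Fin D → ℤ) → ℝ
  hL : ∀ γ, ∀ p ∈ L γ, ap h p = γ
  bd : ∀ γ, ∀ p ∈ L γ, ∀ i, -(Q : ℤ) ≤ p i ∧ p i < Q
  cong : ∀ γ, ∀ p ∈ L γ, ∀ q ∈ L γ, ∀ i, (Q : ℤ) ∣ p i - q i
  card : ∀ γ, ((L γ).card : ℝ) ≤ N
  θb : ∀ γ, ∀ p ∈ L γ, 0 ≤ θ p ∧ θ p ≤ w
  Fb : ∀ γ, L γ = ∅ ∨ 1 ≤ ∑ p ∈ L γ, θ p
  FM : ∀ γ, ∑ p ∈ L γ, θ p ≤ M
  avg : 1 - ε ≤ 𝔼 γ, ∑ p ∈ L γ, θ p ∧ 𝔼 γ, ∑ p ∈ L γ, θ p ≤ 1
  gau : ∀ γ, ∀ p ∈ L γ, ∀ o : Fin D → ℝ, (∀ i, 0 ≤ o i ∧ o i ≤ g) →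
    θ p ≤ Cb * (Fintype.card Γ * ∏ i, g * ph (g * p i + o i))

/-- a weighted binary-branching set of points in a fibre -/
def Good {ι Γ : Type} [Fintype ι] [AddCommGroup Γ] [Fintype Γ] (g : ι → ℝ) (h : ι → Γ) (B : ℕ)
    (σ w : ℝ) (γ : Γ) (S : Finset (ι → ℤ)) (θ : (ι → ℤ) → ℝ) : Prop :=
  Split S ∧ ∀ p ∈ S, ap h p = γ ∧ (∀ i, |p i| ≤ B ∧ |g i * p i| ≤ σ) ∧ 0 ≤ θ p ∧ θ p ≤ w ∧
    ∀ o : ι → ℝ, (∀ i, 0 ≤ o i ∧ o i ≤ g i) →
      θ p ≤ Fintype.card Γ * ∏ i, g i * ph (g i * p i + o i)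

structure Sys (ι Γ1 Γ2 Γ3 : Type) [Fintype ι] [AddCommGroup Γ1] [Fintype Γ1] [AddCommGroup Γ2]
    [Fintype Γ2] [AddCommGroup Γ3] [Fintype Γ3] (B : ℕ) (σ M ε δ c w : ℝ) where
  g : ι → ℝ
  h : ι → (Γ1 × Γ2) × Γ3
  F : Γ1 → ℝ
  Bad : Γ1 × Γ2 → Prop
  g0 : ∀ i, 0 < g i ∧ g i ≤ 1
  Fb : ∀ γ, 0 ≤ F γ ∧ F γ ≤ M
  avg : 1 - ε ≤ 𝔼 γ, F γ ∧ 𝔼 γ, F γ ≤ 1
  bad : 𝔼 γ, ind (Bad γ) ≤ δ
  main : ∀ γ : (Γ1 × Γ2) × Γ3, ¬ Bad γ.1 →
    ∃ S θ, Good g h B σ w γ S θ ∧ c * F γ.1.1 ≤ ∑ p ∈ S, θ p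

lemma two_vals {Q a b : ℤ} (ha : -Q ≤ a ∧ a < Q) (hb : -Q ≤ b ∧ b < Q) (h : Q ∣ a - b) :
    a = b ∨ a - b = Q ∨ a - b = -Q := by
  obtain ⟨s, hs⟩ := h
  have hQ : 0 < Q := by omega
  have h1 : s < 2 := by by_contra h; nlinarith
  have h2 : -2 < s := by by_contra h; nlinarith
  have : s = 0 ∨ s = 1 ∨ s = -1 := by omega
  rcases this with rfl | rfl | rfl <;> omega

variable {Q D : ℕ} {Γ0 : Type} [AddCommGroup Γ0] [Fintype Γ0] {g N w0 M0 ε0 Cb : ℝ}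

lemma Block.three (K : Block Q D Γ0 g N w0 M0 ε0 Cb) {γ : Γ0} {x y z : Fin D → ℤ}
    (hx : x ∈ K.L γ) (hy : y ∈ K.L γ) (hz : z ∈ K.L γ) {i : Fin D} (h : x i ≠ y i) :
    z i = x i ∨ z i = y i := by
  have a1 := K.bd γ x hx i
  have a2 := K.bd γ y hy i
  have a3 := K.bd γ z hz i
  have b1 := two_vals a1 a2 (K.cong γ x hx y hy i)
  have b2 := two_vals a3 a1 (K.cong γ z hz x hx i)
  have b3 := two_vals a3 a2 (K.cong γ z hz y hy i)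
  omega

lemma Block.split (K : Block Q D Γ0 g N w0 M0 ε0 Cb) (γ : Γ0) : Split (K.L γ) := by
  intro T hT h
  obtain ⟨x, hx, y, hy, hxy⟩ := one_lt_card.1 h
  obtain ⟨i, hi⟩ := Function.ne_iff.1 hxy
  exact ⟨i, x i, y i, hi, fun z hz => K.three (hT hx) (hT hy) (hT hz) hi, ⟨x, hx, rfl⟩, y, hy, rfl⟩

lemma Block.uni (K : Block Q D Γ0 g N w0 M0 ε0 Cb) (γ : Γ0) {Γ : Type} [AddCommGroup Γ]
    (hQ : Function.Bijective fun x : Γ => (Q : ℤ) • x) : Uni Γ (K.L γ) := by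
  intro p hp q hq i hi
  rcases two_vals (K.bd γ p hp i) (K.bd γ q hq i) (K.cong γ p hp q hq i) with h | h | h
  · exact absurd h hi
  · rwa [h]
  · rw [h]
    simpa [Function.comp_def] using (Equiv.neg Γ).bijective.comp hQ

variable {ι Γ1 Γ2 Γ3 : Type} [Fintype ι] [AddCommGroup Γ1] [Fintype Γ1] [AddCommGroup Γ2]
  [Fintype Γ2] [AddCommGroup Γ3] [Fintype Γ3] {B : ℕ} {σ M ε δ c w : ℝ}

open Classical in
lemma exists_shear (K : Block Q D Γ0 g N w0 M0 ε0 Cb) (Y : Sys ι Γ1 Γ2 Γ3 B σ M ε δ c w)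
    (hQ : Function.Bijective fun x : Γ1 × Γ2 => (Q : ℤ) • x) {η : ℝ} (hη : 0 < η) (hε : ε ≤ η)
    (hw0 : 0 < w0) (hM : 0 < M) (k : ℕ)
    (h1 : Fintype.card Γ0 * (Fintype.card (Γ1 × Γ2) * (N * δ) ^ (k + 1)) ≤ 1 / 4) :
    ∃ T : Fin D → Γ1 × Γ2,
      𝔼 γ : Γ0 × Γ1, ind (∑ p ∈ K.L γ.1, K.θ p * Y.F (γ.2 - (ap T p).1)
        < (1 - 2 * η) * ∑ p ∈ K.L γ.1, K.θ p) ≤ 2 * (w0 * M / η ^ 2) ∧
      ∀ γ0 γ, ((K.L γ0).filter fun p => Y.Bad (γ - ap T p)).card < 2 ^ k := by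
  have hδ0 : 0 ≤ δ := (expect_nonneg fun _ _ => ind_nonneg _).trans Y.bad
  have fst : ∀ f : Γ1 → ℝ, 𝔼 γ : Γ1 × Γ2, f γ.1 = 𝔼 γ, f γ := fun f =>
    expect_surj (AddMonoidHom.fst Γ1 Γ2) Prod.fst_surjective f
  let d : (Fin D → Γ1 × Γ2) → ℝ := fun T => 𝔼 γ : Γ0 × Γ1,
    ind (∑ p ∈ K.L γ.1, K.θ p * Y.F (γ.2 - (ap T p).1) < (1 - 2 * η) * ∑ p ∈ K.L γ.1, K.θ p)
  let u : (Fin D → Γ1 × Γ2) → ℝ := fun T =>
    ind (∃ γ0 γ, 2 ^ k ≤ ((K.L γ0).filter fun p => Y.Bad (γ - ap T p)).card)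
  have hd : 𝔼 T, d T ≤ w0 * M / η ^ 2 := by
    simp only [d]
    simp_rw [← univ_product_univ, expect_product]
    rw [expect_comm]
    refine expect_le univ_nonempty fun γ0 _ => ?_
    rcases K.Fb γ0 with h0 | h0
    · simp only [h0, sum_empty, mul_zero, lt_irrefl, ind_false, expect_const_zero]
      positivity
    have hv := tree_var (K.L γ0) (K.uni γ0 hQ) K.θ (K.θb γ0) (fun γ => Y.F γ.1)
      (fun γ => Y.Fb _) (by rw [fst]; exact Y.avg.2)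
    rw [fst] at hv
    set s := ∑ p ∈ K.L γ0, K.θ p with hs
    calc _ ≤ (𝔼 T : Fin D → Γ1 × Γ2, 𝔼 γ : Γ1 × Γ2, (∑ p ∈ K.L γ0,
            K.θ p * (Y.F (γ - ap T p).1 - 𝔼 x, Y.F x)) ^ 2) / (η * s) ^ 2 := by
          rw [expect_div]
          refine expect_le_expect fun T _ => ?_
          rw [expect_div, ← fst]
          refine expect_le_expect fun γ _ => ?_
          by_cases h : ∑ p ∈ K.L γ0, K.θ p * Y.F (γ.1 - (ap T p).1) < (1 - 2 * η) * s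
          · rw [ind_pos h, le_div_iff₀ (by positivity), one_mul]
            simp only [mul_sub, sum_sub_distrib, ← sum_mul, ← hs, Prod.fst_sub]
            have a1 := mul_le_mul_of_nonneg_left Y.avg.1 (by linarith : 0 ≤ s)
            have a2 := mul_le_mul_of_nonneg_left hε (by linarith : 0 ≤ s)
            rw [← neg_sq (_ - _)]
            exact pow_le_pow_left₀ (by positivity) (by linarith) 2
          · rw [ind_neg h]; positivity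
      _ ≤ w0 * M * s / (η * s) ^ 2 := by gcongr
      _ = w0 * M / η ^ 2 / s := by field_simp
      _ ≤ _ := div_le_self (by positivity) h0
  have hu : 𝔼 T, u T ≤ 1 / 4 := by
    refine le_trans ?_ h1
    calc _ ≤ 𝔼 T : Fin D → Γ1 × Γ2, ∑ γ0, ∑ γ,
            ind (2 ^ k ≤ ((K.L γ0).filter fun p => Y.Bad (γ - ap T p)).card) := by
          refine expect_le_expect fun T _ => ?_
          refine le_trans (ind_mono fun ⟨a, h⟩ => ⟨a, mem_univ _, h⟩) ((ind_exists_le _ _).trans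
            (sum_le_sum fun γ0 _ => ?_))
          exact le_trans (ind_mono fun ⟨a, h⟩ => ⟨a, mem_univ _, h⟩) (ind_exists_le _ _)
      _ ≤ _ := by
          rw [expect_sum_comm, ← card_univ, ← nsmul_eq_mul]
          refine sum_le_card_nsmul _ _ _ fun γ0 _ => ?_
          simp_rw [← Fintype.card_mul_expect]
          rw [← mul_expect]
          refine mul_le_mul_of_nonneg_left ?_ (Nat.cast_nonneg _)
          refine (tree_count Y.Bad Y.bad _ (K.split γ0) (K.uni γ0 hQ) k).trans ?_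
          gcongr
          exact K.card γ0
  have hpos : 0 < 2 * (w0 * M / η ^ 2) := by positivity
  have : 𝔼 T, (d T / (2 * (w0 * M / η ^ 2)) + u T) < 1 := by
    rw [expect_add_distrib, ← expect_div]
    have : (𝔼 T, d T) / (2 * (w0 * M / η ^ 2)) ≤ 1 / 2 := by
      rw [div_le_iff₀ hpos]; linarith
    linarith
  obtain ⟨T, -, hT⟩ := exists_lt_of_expect_lt univ_nonempty this
  have d0 : 0 ≤ d T / (2 * (w0 * M / η ^ 2)) :=
    div_nonneg (expect_nonneg fun _ _ => ind_nonneg _) hpos.le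
  have u0 : 0 ≤ u T := ind_nonneg _
  refine ⟨T, (div_le_one hpos).1 (by linarith : d T / _ ≤ 1), fun γ0 γ => ?_⟩
  by_contra h
  have : u T = 1 := ind_pos ⟨γ0, γ, not_lt.1 h⟩
  linarith

theorem step (K : Block Q D Γ0 g N w0 M0 ε0 Cb) (Y : Sys ι Γ1 Γ2 Γ3 B σ M ε δ c w)
    (hQ : Function.Bijective fun x : Γ1 × Γ2 => (Q : ℤ) • x) {η : ℝ} (hη : 0 < η) (hε : ε ≤ η)
    (hw0 : 0 < w0) (hM : 0 < M) (k : ℕ)
    (h1 : Fintype.card Γ0 * (Fintype.card (Γ1 × Γ2) * (N * δ) ^ (k + 1)) ≤ 1 / 4)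
    (h2 : 2 ^ k * w0 * M ≤ η) (hCb : 1 ≤ Cb) (hc : 0 ≤ c) (hg : 0 < g ∧ g ≤ 1) (hB : Q ≤ B)
    (hσ : g * Q ≤ σ) :
    ∃ Y' : Sys (Fin D ⊕ ι) Γ0 Γ1 (Γ2 × Γ3) B σ M0 ε0 (2 * (w0 * M / η ^ 2))
      (c * (1 - 3 * η) / Cb) (w0 * w),
      (∀ γ, Y'.F γ = ∑ p ∈ K.L γ, K.θ p) ∧ ((∀ γ, Y.F γ = 1) → ∀ γ, ¬ Y'.Bad γ) := by
  classical
  obtain ⟨T, hT1, hT2⟩ := exists_shear K Y hQ hη hε hw0 hM k h1
  have s0 : ∀ γ, 0 ≤ ∑ p ∈ K.L γ, K.θ p := fun γ => sum_nonneg fun p hp => (K.θb γ p hp).1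
  refine ⟨⟨Sum.elim (fun _ => g) Y.g, Sum.elim (fun i => ((K.h i, (T i).1), ((T i).2, 0)))
    (fun j => ((0, (Y.h j).1.1), ((Y.h j).1.2, (Y.h j).2))), fun γ => ∑ p ∈ K.L γ, K.θ p,
    fun γ => ∑ p ∈ K.L γ.1, K.θ p * Y.F (γ.2 - (ap T p).1) < (1 - 2 * η) * ∑ p ∈ K.L γ.1, K.θ p,
    ?_, fun γ => ⟨s0 γ, K.FM γ⟩, K.avg, hT1, ?_⟩, fun _ => rfl, fun hF γ h => ?_⟩
  · rintro (i | i)
    · exact hg
    · exact Y.g0 i
  swap
  · simp only [hF, mul_one] at h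
    nlinarith [s0 γ.1]
  rintro ⟨⟨γ0, γ1⟩, γ2, γ3⟩ hb
  simp only [not_lt] at hb
  choose! S θ hS hθ using fun (p : Fin D → ℤ) (hp : ¬ Y.Bad ((γ1, γ2) - ap T p)) =>
    Y.main ((γ1, γ2) - ap T p, γ3) hp
  let G := (K.L γ0).filter fun p => ¬ Y.Bad ((γ1, γ2) - ap T p)
  let e : (Σ _ : Fin D → ℤ, ι → ℤ) → Fin D ⊕ ι → ℤ := fun q => Sum.elim q.1 q.2
  have he : e.Injective := by
    rintro ⟨a, b⟩ ⟨a', b'⟩ h
    obtain rfl : a = a' := funext fun i => congrFun h (Sum.inl i)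
    obtain rfl : b = b' := funext fun i => congrFun h (Sum.inr i)
    rfl
  have hmem : ∀ x ∈ (G.sigma S).image e, x ∘ Sum.inl ∈ K.L γ0 ∧
      ¬ Y.Bad ((γ1, γ2) - ap T (x ∘ Sum.inl)) ∧ x ∘ Sum.inr ∈ S (x ∘ Sum.inl) := by
    intro x hx
    obtain ⟨q, hq, rfl⟩ := mem_image.1 hx
    obtain ⟨a1, a2⟩ := mem_sigma.1 hq
    exact ⟨(mem_filter.1 a1).1, (mem_filter.1 a1).2, a2⟩
  refine ⟨(G.sigma S).image e,
    fun x => K.θ (x ∘ Sum.inl) / Cb * θ (x ∘ Sum.inl) (x ∘ Sum.inr), ⟨?_, ?_⟩, ?_⟩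
  · intro U hU h
    by_cases hx : ∃ x ∈ U, ∃ y ∈ U, ∃ i, x (Sum.inl i) ≠ y (Sum.inl i)
    · obtain ⟨x, hx, y, hy, i, hi⟩ := hx
      exact ⟨Sum.inl i, _, _, hi, fun z hz => K.three (hmem x (hU hx)).1 (hmem y (hU hy)).1
        (hmem z (hU hz)).1 hi, ⟨x, hx, rfl⟩, y, hy, rfl⟩
    push Not at hx
    obtain ⟨x, hxU⟩ := card_pos.1 (zero_lt_one.trans h)
    have hinj : Set.InjOn (fun y : Fin D ⊕ ι → ℤ => y ∘ Sum.inr) U := by
      intro y hy z hz hyz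
      funext i
      rcases i with i | i
      · exact hx y hy z hz i
      · exact congrFun hyz i
    obtain ⟨i, a, b, hab, a1, ⟨p, hp, a2⟩, q, hq, a3⟩ := (hS _ (hmem x (hU hxU)).2.1).1
      (U.image fun y => y ∘ Sum.inr) (fun y hy => by
        obtain ⟨z, hz, rfl⟩ := mem_image.1 hy
        have : x ∘ Sum.inl = z ∘ Sum.inl := funext fun i => hx x hxU z hz i
        rw [this]
        exact (hmem z (hU hz)).2.2) (by rwa [card_image_of_injOn hinj])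
    obtain ⟨p', hp', rfl⟩ := mem_image.1 hp
    obtain ⟨q', hq', rfl⟩ := mem_image.1 hq
    exact ⟨Sum.inr i, a, b, hab, fun z hz => a1 _ (mem_image_of_mem _ hz), ⟨p', hp', a2⟩,
      q', hq', a3⟩
  · intro x hx
    obtain ⟨a1, a2, a3⟩ := hmem x hx
    obtain ⟨b1, b2, b3, b4, b5⟩ := (hS _ a2).2 _ a3
    obtain ⟨c1, c2⟩ := K.θb _ _ a1
    have c3 : K.θ (x ∘ Sum.inl) / Cb ≤ w0 := (div_le_self c1 hCb).trans c2
    have c4 : 0 ≤ K.θ (x ∘ Sum.inl) / Cb := by positivity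
    refine ⟨?_, ?_, by positivity, mul_le_mul c3 b4 b3 hw0.le, fun o ho => ?_⟩
    · have d0 := K.hL _ _ a1
      have d1 := congrArg (fun z => z.1.1) b1
      have d2 := congrArg (fun z => z.1.2) b1
      have d3 := congrArg (fun z => z.2) b1
      simp only [ap, Prod.fst_sum, Prod.snd_sum, Prod.fst_sub, Prod.snd_sub, Prod.smul_fst,
        Prod.smul_snd, Function.comp] at d0 d1 d2 d3
      simp only [ap, Fintype.sum_sum_type, Sum.elim_inl, Sum.elim_inr]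
      ext <;> simp [Prod.fst_sum, Prod.snd_sum, d0, d1, d2, d3]
    · rintro (i | i)
      · have := K.bd _ _ a1 i
        simp only [Function.comp] at this
        have h3 : |x (Sum.inl i)| ≤ Q := abs_le.2 ⟨this.1, this.2.le⟩
        refine ⟨h3.trans (by exact_mod_cast hB), le_trans ?_ hσ⟩
        simp only [Sum.elim_inl]
        rw [abs_mul, abs_of_pos hg.1]
        exact mul_le_mul_of_nonneg_left (by exact_mod_cast h3) hg.1.le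
      · exact b2 i
    · have d1 := K.gau _ _ a1 (o ∘ Sum.inl) fun i => ho (Sum.inl i)
      have d2 := b5 (o ∘ Sum.inr) fun i => ho (Sum.inr i)
      rw [← div_le_iff₀' (by linarith)] at d1
      refine (mul_le_mul d1 d2 b3 (c4.trans d1)).trans (le_of_eq ?_)
      simp only [Fintype.prod_sum_type, Sum.elim_inl, Sum.elim_inr, Fintype.card_prod,
        Function.comp]
      push_cast; ring
  · rw [sum_image fun _ _ _ _ h => he h, sum_sigma]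
    have e1 : ∑ p ∈ G, K.θ p / Cb * (c * Y.F (γ1 - (ap T p).1))
        ≤ ∑ p ∈ G, ∑ q ∈ S p, K.θ p / Cb * θ p q := by
      refine sum_le_sum fun p hp => ?_
      rw [← mul_sum]
      have := (K.θb _ _ (mem_filter.1 hp).1).1
      exact mul_le_mul_of_nonneg_left (hθ p (mem_filter.1 hp).2) (by positivity)
    refine le_trans ?_ e1
    have e2 := sum_filter_add_sum_filter_not (K.L γ0) (fun p => Y.Bad ((γ1, γ2) - ap T p))
      fun p => K.θ p * Y.F (γ1 - (ap T p).1)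
    have e3 : ∑ p ∈ (K.L γ0).filter fun p => Y.Bad ((γ1, γ2) - ap T p),
        K.θ p * Y.F (γ1 - (ap T p).1) ≤ η * ∑ p ∈ K.L γ0, K.θ p := by
      rcases K.Fb γ0 with h0 | h0
      · simp [h0]
      refine (sum_le_card_nsmul _ _ (w0 * M) fun p hp => ?_).trans ?_
      · exact mul_le_mul (K.θb _ _ (mem_filter.1 hp).1).2 (Y.Fb _).2 (Y.Fb _).1 hw0.le
      · have a1 : (((K.L γ0).filter fun p => Y.Bad ((γ1, γ2) - ap T p)).card : ℝ) ≤ 2 ^ k := by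
          exact_mod_cast (hT2 γ0 (γ1, γ2)).le
        rw [nsmul_eq_mul]
        have a2 := mul_le_mul_of_nonneg_right a1 (by positivity : 0 ≤ w0 * M)
        nlinarith
    have e4 : ∑ p ∈ G, K.θ p / Cb * (c * Y.F (γ1 - (ap T p).1))
        = c / Cb * ∑ p ∈ G, K.θ p * Y.F (γ1 - (ap T p).1) := by
      rw [mul_sum]; exact sum_congr rfl fun p _ => by ring
    rw [e4]
    have e5 : 0 ≤ c / Cb := by positivity
    calc _ = c / Cb * ((1 - 3 * η) * ∑ p ∈ K.L γ0, K.θ p) := by ring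
      _ ≤ _ := mul_le_mul_of_nonneg_left (by simp only [G]; linarith) e5

end

end Vale.Agent.P230
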