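import Vale.Agent.P230.Shell
import Vale.Agent.P230.Step

/-! Every convex body has a low-dimensional marginal dominating a Gaussian. -/

open MeasureTheory ProbabilityTheory Finset Real
open scoped RealInnerProductSpace ENNReal

namespace Vale.Agent.P230

noncomputable section

variable {n : ℕ} {ι : Type} [Fintype ι]

lemma net' (ι : Type) [Fintype ι] {ε R : ℝ} (hε : 0 < ε) (hR : 0 ≤ R) :
    ∃ N : Finset (EuclideanSpace ℝ ι), (N.card : ℝ) ≤ (2 * R / ε + 1) ^ Fintype.card ι ∧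
      (∀ x ∈ N, ‖x‖ ≤ R) ∧ ∀ x, ‖x‖ ≤ R → ∃ y ∈ N, ‖x - y‖ ≤ ε := by
  classical
  obtain ⟨F, h1, h2, h3⟩ := exists_net (Fintype.card ι) hε hR
  let e := LinearIsometryEquiv.piLpCongrLeft 2 ℝ ℝ (Fintype.equivFin ι)
  refine ⟨F.image e.symm, le_trans (by exact_mod_cast card_image_le)
    (card_le_of_sep hε hR 0 F h1 (by simpa using h2)), fun x hx => ?_, fun x hx => ?_⟩
  · obtain ⟨y, hy, rfl⟩ := mem_image.1 hx
    simpa using h2 y hy
  · obtain ⟨y, hy, h⟩ := h3 (e x) (by simpa using hx)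
    refine ⟨_, mem_image_of_mem _ hy, ?_⟩
    rwa [← e.norm_map, map_sub, e.apply_symm_apply]

lemma pow_le_exp {T : ℝ} (hT : 0 ≤ T) (k : ℕ) : T ^ k ≤ exp (k * T) := by
  rw [exp_nat_mul]; gcongr; linarith [add_one_le_exp T]

lemma G_ge {ν : Measure (E n)} [IsProbabilityMeasure ν] (h : Iso ν) {a β s r : ℝ} {d : ℕ}
    (ha : 0 < a) (hs : 0 < s) (hd : d * (s ^ 2 + β) ≤ 1 / 5)
    (hm : 1 / 5 ≤ ν.real {x | a ≤ ‖x‖ ^ 2 ∧ ‖x‖ ^ 2 ≤ a + a * β}) :
    9 / 50 * (s ^ d * exp (-(r / 2))) ≤ ∫ x, √(s ^ 2 * a / (s ^ 2 * a + ‖x‖ ^ 2)) ^ d *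
      exp (-(a * r / (2 * (s ^ 2 * a + ‖x‖ ^ 2)))) ∂ν ∨ r < 0 := by
  refine (le_or_gt 0 r).imp_left fun hr => ?_
  have m : MeasurableSet {x : E n | a ≤ ‖x‖ ^ 2 ∧ ‖x‖ ^ 2 ≤ a + a * β} := by measurability
  refine le_trans (?_ : _ ≤ ν.real {x | a ≤ ‖x‖ ^ 2 ∧ ‖x‖ ^ 2 ≤ a + a * β} *
    (9 / 10 * s ^ d * exp (-(r / 2)))) ?_
  · refine le_trans (le_of_eq (by ring)) (mul_le_mul_of_nonneg_right hm (by positivity))
  rw [← smul_eq_mul, ← integral_indicator_const _ m]
  refine integral_mono ((integrable_const _).indicator m)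
    (h.int (by fun_prop (disch := intro x; positivity))) fun x => ?_
  refine Set.indicator_apply_le' (fun hx => ?_) fun _ => by positivity
  obtain ⟨a1, a2⟩ := hx
  have p1 : 0 < s ^ 2 * a := by positivity
  refine mul_le_mul ?_ (exp_le_exp.2 (neg_le_neg ?_)) (exp_pos _).le (by positivity)
  · have b1 : exp (-((s ^ 2 + β) / 2)) * s ≤ √(s ^ 2 * a / (s ^ 2 * a + ‖x‖ ^ 2)) := by
      refine le_sqrt_of_sq_le ?_
      have e1 : exp (-((s ^ 2 + β) / 2)) ^ 2 * exp (s ^ 2 + β) = 1 := by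
        rw [sq, ← exp_add, ← exp_add, ← exp_zero]; congr 1; ring
      have e2 := mul_le_mul_of_nonneg_left (add_one_le_exp (s ^ 2 + β))
        (sq_nonneg (exp (-((s ^ 2 + β) / 2))))
      rw [le_div_iff₀ (by positivity), mul_pow]
      calc _ ≤ exp (-((s ^ 2 + β) / 2)) ^ 2 * s ^ 2 * (s ^ 2 * a + (a + a * β)) := by gcongr
        _ = s ^ 2 * a * (exp (-((s ^ 2 + β) / 2)) ^ 2 * (s ^ 2 + β + 1)) := by ring
        _ ≤ _ := mul_le_of_le_one_right p1.le (e2.trans e1.le)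
    refine le_trans ?_ (pow_le_pow_left₀ (by positivity) b1 d)
    rw [mul_pow, ← exp_nat_mul]
    gcongr
    linarith [add_one_le_exp (d * -((s ^ 2 + β) / 2))]
  · rw [div_le_div_iff₀ (by positivity) two_pos]
    nlinarith [mul_le_mul_of_nonneg_left a1 hr, mul_nonneg p1.le hr]

lemma num3 {T a : ℝ} {d : ℕ} (hT : 10 ^ 5 ≤ T) (hd : d ≤ T ^ 2) (ha : 1 / 100 ≤ a)
    (hn : exp (10 ^ 16 * T ^ 6) ≤ √n) :
    (2 * (T + 1) / (1 / (80 * T)) + 1) ^ d * (d / ((1 / T ^ 3 * √a) ^ 2 * √n))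
      ≤ (3 / 100 * ((1 / T ^ 3) ^ d * exp (-((T + 1) ^ 2 / 2)))) ^ 2 := by
  have T0 : 0 < T := by linarith
  have T2 : 10 ^ 5 * T ≤ T ^ 2 := by nlinarith
  have T3 : 10 ^ 5 * T ^ 2 ≤ T ^ 3 := by nlinarith
  have T6 : T ^ 3 ≤ T ^ 6 := pow_le_pow_right₀ (by linarith) (by norm_num)
  have h1 : (T ^ 3) ^ d ≤ exp (3 * T ^ 3) := by
    rw [← pow_mul]
    refine (pow_le_exp T0.le _).trans (exp_le_exp.2 ?_)
    push_cast; nlinarith
  calc _ ≤ (T ^ 3) ^ d * (T ^ 2 / ((1 / T ^ 3 * (1 / 10)) ^ 2 * exp (10 ^ 16 * T ^ 6))) := by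
        gcongr
        · rw [div_div_eq_mul_div, div_one]; nlinarith
        · exact le_sqrt_of_sq_le (by linarith)
    _ = (1 / T ^ 3) ^ d * (1 / T ^ 3) ^ d * ((T ^ 3) ^ d * (T ^ 3) ^ d * (T ^ 3) ^ d
          * (100 * T ^ 8) / exp (10 ^ 16 * T ^ 6)) := by
        simp only [one_div, inv_pow]; field_simp; norm_num
    _ ≤ (1 / T ^ 3) ^ d * (1 / T ^ 3) ^ d * (exp (3 * T ^ 3) * exp (3 * T ^ 3) * exp (3 * T ^ 3)
          * (exp 100 * exp (8 * T)) / exp (10 ^ 16 * T ^ 6)) := by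
        gcongr
        · linarith [add_one_le_exp 100]
        · exact_mod_cast pow_le_exp T0.le 8
    _ ≤ (1 / T ^ 3) ^ d * (1 / T ^ 3) ^ d * (exp (-2000) * (exp (-((T + 1) ^ 2 / 2))
          * exp (-((T + 1) ^ 2 / 2)))) := by
        simp only [← exp_add, ← exp_sub]
        gcongr; nlinarith
    _ ≤ (1 / T ^ 3) ^ d * (1 / T ^ 3) ^ d * (1 / 2000 * (exp (-((T + 1) ^ 2 / 2))
          * exp (-((T + 1) ^ 2 / 2)))) := by
        gcongr
        rw [exp_neg, ← one_div]; gcongr; linarith [add_one_le_exp 2000]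
    _ = 1 / 2000 * ((1 / T ^ 3) ^ d * exp (-((T + 1) ^ 2 / 2))) ^ 2 := by ring
    _ ≤ _ := by rw [mul_pow (3 / 100 : ℝ)]; gcongr; norm_num

lemma num4 {T : ℝ} {d : ℕ} (hT : 10 ^ 5 ≤ T) (hd : d ≤ T ^ 2) :
    exp (-((1 / (80 * T)) ^ 2 / (2 * (1 / T ^ 3) ^ 2)))
      ≤ 1 / 25 * ((1 / T ^ 3) ^ d * exp (-(T ^ 2 / 2))) := by
  have T0 : 0 < T := by linarith
  have T2 : 10 ^ 5 * T ≤ T ^ 2 := by nlinarith
  have T3 : 10 ^ 5 * T ^ 2 ≤ T ^ 3 := by nlinarith
  have T4 : 10 ^ 5 * T ^ 3 ≤ T ^ 4 := by nlinarith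
  have h1 : (T ^ 3) ^ d ≤ exp (3 * T ^ 3) := by
    rw [← pow_mul]
    refine (pow_le_exp T0.le _).trans (exp_le_exp.2 ?_)
    push_cast; nlinarith
  calc _ ≤ exp (-24) * (exp (-(3 * T ^ 3)) * exp (-(T ^ 2 / 2))) := by
        rw [← exp_add, ← exp_add, show (1 / (80 * T)) ^ 2 / (2 * (1 / T ^ 3) ^ 2) = T ^ 4 / 12800 by
          field_simp; norm_num]
        gcongr; linarith
    _ ≤ _ := by
        gcongr
        · rw [exp_neg, ← one_div]; gcongr; linarith [add_one_le_exp 24]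
        · rw [exp_neg, one_div, inv_pow]; gcongr

theorem marg {ν : Measure (E n)} [IsProbabilityMeasure ν] (h : Iso ν) (hp : PLW ν) {T : ℝ}
    (hT : 10 ^ 5 ≤ T) (hd : Fintype.card ι ≤ T ^ 2) (hn : exp (10 ^ 16 * T ^ 6) ≤ √n) :
    ∃ A : E n →L[ℝ] EuclideanSpace ℝ ι, ∀ t u, ‖t‖ ≤ T → ‖u‖ = 1 → ∃ t', 1 / 10 *
      ((1 / T ^ 3) ^ Fintype.card ι * exp (-(‖t‖ ^ 2 / 2))) ≤ ∫ x in {x | 0 < ⟪u, A x - t⟫},
        exp (-(‖A x - t'‖ ^ 2 / (2 * (1 / T ^ 3) ^ 2))) ∂ν := by
  classical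
  have T0 : 0 < T := by linarith
  have T2 : 10 ^ 5 * T ≤ T ^ 2 := by nlinarith
  have n0 : 0 < n := by simpa using (exp_pos _).trans_le hn
  obtain ⟨a, ha, hm⟩ := shell h hp (y := 64000 * T ^ 2) (by linarith)
    (le_trans (exp_le_exp.2 (by nlinarith [pow_pos T0 6])) hn)
  have a0 : 0 < a := by linarith
  have sa := sqrt_pos.2 a0
  obtain ⟨N, n1, n2, n3⟩ := net' ι (ε := 1 / (80 * T)) (R := T + 1) (by positivity) (by positivity)
  have n4 := num3 hT hd ha hn
  have n5 := num4 hT hd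
  set s := 1 / T ^ 3 with hs
  have s0 : 0 < s := by positivity
  set d := Fintype.card ι
  set r := 1 / (80 * T) with hr
  have r0 : 0 < r := by positivity
  have r1 : r * T = 1 / 80 := by rw [hr]; field_simp
  have r2 : r ≤ 1 / 100 := by nlinarith
  obtain ⟨A, hA⟩ := conc h n0 (mul_pos s0 sa) (N.image (√a • ·))
  refine ⟨(√a)⁻¹ • A, fun t u ht hu => ?_⟩
  obtain ⟨t', t1, t2⟩ := n3 (t + (2 * r) • u) ((norm_add_le _ _).trans (by
    rw [norm_smul, hu, Real.norm_of_nonneg (by positivity)]; linarith))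
  refine ⟨t', ?_⟩
  set B := (√a)⁻¹ • A
  have e1 : ∀ x, ‖A x - √a • t'‖ ^ 2 / (2 * (s * √a) ^ 2) = ‖B x - t'‖ ^ 2 / (2 * s ^ 2) := by
    intro x
    have : A x - √a • t' = √a • (B x - t') := by simp [B, smul_sub, smul_smul, sa.ne']
    rw [this, norm_smul, Real.norm_of_nonneg sa.le]; field_simp
  have k1 := (hA _ (mem_image_of_mem _ t1)).trans (le_trans (mul_le_mul_of_nonneg_right
    (le_trans (by exact_mod_cast card_image_le) n1) (by positivity)) n4)
  have k2 := (G_ge h (d := d) (r := ‖t'‖ ^ 2) (β := 1 / (10 * T ^ 2)) a0 s0 (by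
    have b1 : s ^ 2 ≤ 1 / (10 * T ^ 2) := by
      have : 10 ≤ T ^ 4 := le_trans (by norm_num) (pow_le_pow_left₀ (by norm_num) hT 4)
      rw [hs, div_pow, one_pow]; gcongr; nlinarith [pow_pos T0 2]
    calc _ ≤ T ^ 2 * (1 / (10 * T ^ 2) + 1 / (10 * T ^ 2)) := by gcongr
      _ = _ := by field_simp; norm_num) (hm.trans (measureReal_mono fun x hx => ⟨hx.1, hx.2.trans (by
        have : 64 / (64000 * T ^ 2) = 1 / 100 * (1 / (10 * T ^ 2)) := by field_simp; norm_num
        rw [this]; gcongr)⟩))).resolve_right (not_lt.2 (sq_nonneg _))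
  simp only [e1] at k1
  simp only [mul_pow s, sq_sqrt a0.le, norm_smul, Real.norm_of_nonneg sa.le, mul_pow √a] at k1
  have k3 := (abs_le_of_sq_le_sq' k1 (by positivity)).1
  have m : MeasurableSet {x | 0 < ⟪u, B x - t⟫} := measurableSet_lt (by fun_prop) (by fun_prop)
  have k4 := integral_add_compl m (h.int (f := fun x => exp (-(‖B x - t'‖ ^ 2 / (2 * s ^ 2))))
    (by fun_prop))
  have k5 : ∫ x in {x | 0 < ⟪u, B x - t⟫}ᶜ, exp (-(‖B x - t'‖ ^ 2 / (2 * s ^ 2))) ∂ν
      ≤ exp (-(r ^ 2 / (2 * s ^ 2))) := by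
    refine (setIntegral_mono_on (h.int (by fun_prop)).integrableOn (integrable_const
      (exp (-(r ^ 2 / (2 * s ^ 2))))).integrableOn m.compl fun x hx => ?_).trans ?_
    · have b1 := real_inner_le_norm u (t' - B x)
      have b2 := real_inner_le_norm u (t + (2 * r) • u - t')
      have b3 : ⟪u, B x - t⟫ ≤ 0 := not_lt.1 hx
      simp only [hu, one_mul, inner_sub_right, inner_add_right, real_inner_smul_right,
        real_inner_self_eq_norm_sq] at b1 b2 b3
      rw [norm_sub_rev] at b1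
      gcongr; linarith
    · rw [setIntegral_const, smul_eq_mul]
      exact mul_le_of_le_one_left (exp_pos _).le measureReal_le_one
  have k6 : ‖t'‖ ≤ ‖t‖ + 3 * r := by
    have b1 := norm_sub_le (t + (2 * r) • u) (t + (2 * r) • u - t')
    have b2 := norm_add_le t ((2 * r) • u)
    rw [norm_smul, hu, Real.norm_of_nonneg (by positivity)] at b2
    rw [sub_sub_cancel] at b1
    linarith
  have k7 : 19 / 20 * exp (-(‖t‖ ^ 2 / 2)) ≤ exp (-(‖t'‖ ^ 2 / 2)) := by
    calc _ ≤ exp (-(1 / 20)) * exp (-(‖t‖ ^ 2 / 2)) := by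
          gcongr; linarith [add_one_le_exp (-(1 / 20))]
      _ ≤ _ := by
          rw [← exp_add, exp_le_exp]
          have := pow_le_pow_left₀ (norm_nonneg _) k6 2
          nlinarith [mul_le_mul_of_nonneg_left ht r0.le]
  have k8 : exp (-((T + 1) ^ 2 / 2)) ≤ exp (-(‖t‖ ^ 2 / 2)) := by gcongr; linarith
  have k9 : exp (-(T ^ 2 / 2)) ≤ exp (-(‖t‖ ^ 2 / 2)) := by gcongr
  have sd : 0 ≤ s ^ d := by positivity
  linarith [mul_le_mul_of_nonneg_left k7 sd, mul_le_mul_of_nonneg_left k8 sd,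
    mul_le_mul_of_nonneg_left k9 sd, mul_nonneg sd (exp_pos (-(‖t‖ ^ 2 / 2))).le]

lemma PLW.cond {α : Type*} [AddCommGroup α] [Module ℝ α] [MeasurableSpace α] {μ : Measure α}
    (hμ : PLW μ) {K : Set α} (hK : MeasurableSet K) (hc : Convex ℝ K) : PLW μ[|K] := by
  intro a b ha hb hab f g h hf hg hh H
  simp only [ProbabilityTheory.cond, lintegral_smul_measure, smul_eq_mul, ← lintegral_indicator hK]
  rw [ENNReal.mul_rpow_of_nonneg _ _ ha.le, ENNReal.mul_rpow_of_nonneg _ _ hb.le, mul_mul_mul_comm,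
    ← ENNReal.rpow_add_of_nonneg _ _ ha.le hb.le, hab, ENNReal.rpow_one]
  gcongr
  refine hμ a b ha hb hab _ _ _ (hf.indicator hK) (hg.indicator hK) (hh.indicator hK) fun x y => ?_
  by_cases hx : x ∈ K
  · by_cases hy : y ∈ K
    · simpa [hx, hy, hc hx hy ha.le hb.le hab] using H x y
    · simp [hy, hb]
  · simp [hx, ha]

lemma exists_iso {K : Set (E n)} (hK : IsConvexBody K) (hn : 0 < n) :
    ∃ A : E n →L[ℝ] E n, Iso (volume[|K].map A) := by
  have m := hK.1.measurableSet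
  have := cond_isProbabilityMeasure_of_finite (μ := volume)
    (Measure.measure_pos_of_nonempty_interior volume hK.2.2).ne' hK.1.measure_lt_top.ne
  have int : ∀ f : E n → ℝ, Continuous f → Integrable f volume[|K] := fun f hf => by
    obtain ⟨C, hC⟩ := hK.1.exists_bound_of_continuousOn hf.continuousOn
    exact Integrable.of_bound hf.aestronglyMeasurable C ((ae_cond_mem m).mono hC)
  let B : LinearMap.BilinForm ℝ (E n) := LinearMap.mk₂ ℝ (fun u v => ∫ x, ⟪u, x⟫ * ⟪v, x⟫ ∂volume[|K])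
    (fun u u' v => by
      rw [← integral_add (int _ (by fun_prop)) (int _ (by fun_prop))]
      simp only [inner_add_left, add_mul])
    (fun c u v => by simp only [real_inner_smul_left, mul_assoc, integral_const_mul, smul_eq_mul])
    (fun u v v' => by
      rw [← integral_add (int _ (by fun_prop)) (int _ (by fun_prop))]
      simp only [inner_add_left, mul_add])
    (fun c u v => by
      simp only [real_inner_smul_left, mul_left_comm _ c, integral_const_mul, smul_eq_mul])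
  obtain ⟨b, hb⟩ := LinearMap.BilinForm.exists_orthogonal_basis (B := B)
    ⟨fun u v => by simp [B, mul_comm]⟩
  have pos : ∀ v, v ≠ 0 → 0 < B v v := fun v hv => by
    refine (integral_pos_iff_support_of_nonneg (f := fun x => ⟪v, x⟫ * ⟪v, x⟫)
      (fun x => mul_self_nonneg _) (int _ (by fun_prop))).2 (pos_iff_ne_zero.2 fun h0 => ?_)
    have h1 : volume[|K] (LinearMap.ker (innerₛₗ ℝ v) : Set (E n)) = 0 :=
      cond_absolutelyContinuous (Measure.addHaar_submodule _ _ fun h => hv (by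
        have : v ∈ LinearMap.ker (innerₛₗ ℝ v) := h ▸ Submodule.mem_top
        simpa using this))
    have h2 := measure_union_null h0 h1
    rw [Set.eq_univ_of_forall (s := _ ∪ _) fun x => by
      by_cases hx : ⟪v, x⟫ = 0 <;> simp [hx]] at h2
    simp at h2
  let e : Fin n ≃ Fin (Module.finrank ℝ (E n)) := finCongr (by simp)
  let w : Fin n → E n := fun i => (√(n * B (b (e i)) (b (e i))))⁻¹ • b (e i)
  have hw : ∀ i j, B (w i) (w j) = if i = j then 1 / (n : ℝ) else 0 := fun i j => by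
    simp only [w, map_smul, LinearMap.smul_apply, smul_eq_mul]
    split_ifs with h
    · subst h
      have p := pos _ (b.ne_zero (e i))
      rw [← mul_assoc, ← mul_inv, mul_self_sqrt (by positivity)]
      field_simp
    · rw [LinearMap.isOrthoᵢ_def.1 hb _ _ (e.injective.ne h), mul_zero, mul_zero]
  refine ⟨rows w, ?_, fun u => ?_⟩
  · obtain ⟨C, hC⟩ := hK.1.exists_bound_of_continuousOn (rows w).continuous.continuousOn
    exact ⟨C, (ae_map_iff (by fun_prop) (measurableSet_le (by fun_prop) (by fun_prop))).2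
      ((ae_cond_mem m).mono hC)⟩
  · rw [integral_map (by fun_prop) (by fun_prop)]
    have : ∀ x, ⟪u, rows w x⟫ = ⟪∑ i, u i • w i, x⟫ := fun x => by
      rw [sum_inner, PiLp.inner_apply]
      exact sum_congr rfl fun i _ => by rw [real_inner_smul_left, mul_comm]; rfl
    simp only [this, sq]
    change B _ _ = _
    simp only [map_sum, map_smul, LinearMap.sum_apply, LinearMap.smul_apply, hw, smul_eq_mul]
    rw [← sq, EuclideanSpace.real_norm_sq_eq, sum_div]
    simp [sq, div_eq_mul_inv, mul_assoc]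

/-- the Gaussian density -/
def phi (t : EuclideanSpace ℝ ι) : ℝ := ∏ i, ph (t i)

lemma phi_eq (t : EuclideanSpace ℝ ι) :
    phi t = exp (-(‖t‖ ^ 2 / 2)) / √(2 * π) ^ Fintype.card ι := by
  simp only [phi, ph, prod_div_distrib, ← exp_sum, prod_const, card_univ,
    EuclideanSpace.real_norm_sq_eq, sum_div, sum_neg_distrib]

/-- every half-space carries a test function seeing a tenth of the Gaussian density -/
def HS (K : Set (E n)) (A : E n →L[ℝ] EuclideanSpace ℝ ι) (T : ℝ) : Prop :=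
  ∀ t u, ‖t‖ ≤ T → ‖u‖ = 1 → ∃ ψ : EuclideanSpace ℝ ι → ℝ≥0∞, Measurable ψ ∧ ∫⁻ y, ψ y ≤ 1 ∧
    (∀ y, ψ y ≠ 0 → 0 < ⟪u, y - t⟫) ∧ ENNReal.ofReal (phi t / 10) * volume K ≤ ∫⁻ x in K, ψ (A x)

theorem exists_HS {K : Set (E n)} (hK : IsConvexBody K) {T : ℝ}
    (hT : 10 ^ 5 ≤ T) (hd : Fintype.card ι ≤ T ^ 2) (hn : exp (10 ^ 16 * T ^ 6) ≤ √n) :
    ∃ A : E n →L[ℝ] EuclideanSpace ℝ ι, HS K A T := by
  have n0 : 0 < n := by simpa using (exp_pos _).trans_le hn
  have v0 := (Measure.measure_pos_of_nonempty_interior volume hK.2.2).ne'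
  have v1 := (hK.1.measure_lt_top (μ := volume)).ne
  have := cond_isProbabilityMeasure_of_finite v0 v1
  obtain ⟨A, hA⟩ := exists_iso hK n0
  have := Measure.isProbabilityMeasure_map (μ := volume[|K]) A.measurable.aemeasurable
  obtain ⟨B, hB⟩ := marg hA (((plw_euclidean n).cond hK.1.measurableSet hK.2.1).map
    ⟨A.measurable, rfl⟩ fun a b x y => by simp) hT hd hn
  refine ⟨B.comp A, fun t u ht hu => ?_⟩
  obtain ⟨t', h⟩ := hB t u ht hu
  set s := 1 / T ^ 3
  have s0 : 0 < s := by have : 0 < T := by linarith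
                        positivity
  set c := (√(2 * π) * s) ^ Fintype.card ι with hc
  have c0 : 0 < c := by positivity
  let f : EuclideanSpace ℝ ι → ℝ := fun y => exp (-(‖y - t'‖ ^ 2 / (2 * s ^ 2))) / c
  have m : MeasurableSet {y | 0 < ⟪u, y - t⟫} := measurableSet_lt (by fun_prop) (by fun_prop)
  have fm : Measurable fun y => ENNReal.ofReal (f y) := by fun_prop
  have f1 : ∫ y, f y = 1 := by
    rw [integral_div, integral_sub_right_eq_self (fun y => exp (-(‖y‖ ^ 2 / (2 * s ^ 2)))) t',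
      div_eq_one_iff_eq c0.ne']
    have := GaussianFourier.integral_rexp_neg_mul_sq_norm (V := EuclideanSpace ℝ ι)
      (b := 1 / (2 * s ^ 2)) (by positivity)
    simp only [finrank_euclideanSpace] at this
    convert this using 1
    · congr! 3; ring
    · rw [show (Fintype.card ι / 2 : ℝ) = 1 / 2 * Fintype.card ι by ring, rpow_mul (by positivity),
        rpow_natCast, hc, ← sqrt_eq_rpow, show π / (1 / (2 * s ^ 2)) = 2 * π * s ^ 2 by field_simp,
        sqrt_mul (by positivity) (s ^ 2), sqrt_sq s0.le]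
  refine ⟨{y | 0 < ⟪u, y - t⟫}.indicator fun y => ENNReal.ofReal (f y), fm.indicator m, ?_,
    fun y hy => (Set.mem_of_indicator_ne_zero hy :), ?_⟩
  · refine (lintegral_mono fun y => Set.indicator_le_self _ _ y).trans ?_
    rw [← ofReal_integral_eq_lintegral_ofReal (.of_integral_ne_zero (f1 ▸ one_ne_zero))
      (ae_of_all _ fun y => by positivity), f1, ENNReal.ofReal_one]
  · have m' : MeasurableSet {x | 0 < ⟪u, B x - t⟫} := measurableSet_lt (by fun_prop) (by fun_prop)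
    have h2 : ENNReal.ofReal (phi t / 10) ≤ ∫⁻ x, {y | 0 < ⟪u, y - t⟫}.indicator
        (fun y => ENNReal.ofReal (f y)) (B x) ∂volume[|K].map A := by
      change _ ≤ ∫⁻ x, {x | 0 < ⟪u, B x - t⟫}.indicator (fun x => ENNReal.ofReal (f (B x))) x ∂_
      rw [lintegral_indicator m', ← ofReal_integral_eq_lintegral_ofReal
        (hA.int (by fun_prop)).integrableOn (ae_of_all _ fun y => by positivity), integral_div]
      refine ENNReal.ofReal_le_ofReal ((le_div_iff₀ c0).2 (le_trans (le_of_eq ?_) h))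
      rw [phi_eq, hc, mul_pow]; field_simp
    rw [lintegral_map (f := fun x => {y | 0 < ⟪u, y - t⟫}.indicator
      (fun y => ENNReal.ofReal (f y)) (B x)) ((fm.indicator m).comp B.measurable) A.measurable,
      ProbabilityTheory.cond,
      lintegral_smul_measure, smul_eq_mul, ← ENNReal.div_eq_inv_mul,
      ENNReal.le_div_iff_mul_le (Or.inl v0) (Or.inl v1)] at h2
    exact h2

variable {K : Set (E n)} {A : E n →L[ℝ] EuclideanSpace ℝ ι} {T : ℝ}

lemma phi_pos (t : EuclideanSpace ℝ ι) : 0 < phi t := prod_pos fun _ _ => ph_pos _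

lemma HS.surj (h : HS K A T) (hK : volume K ≠ 0) (hT : 0 ≤ T) : Function.Surjective A := by
  by_contra hc
  have h1 : (LinearMap.range A.toLinearMap)ᗮ ≠ ⊥ := fun h =>
    hc (LinearMap.range_eq_top.1 (Submodule.orthogonal_eq_bot_iff.1 h))
  obtain ⟨v, hv, v0⟩ := (Submodule.ne_bot_iff _).1 h1
  obtain ⟨ψ, -, -, h2, h3⟩ := h 0 (‖v‖⁻¹ • v) (by simpa using hT) (norm_smul_inv_norm v0)
  have h4 : ∀ x, ψ (A x) = 0 := fun x => by
    by_contra h5
    have := h2 _ h5
    rw [sub_zero, real_inner_smul_left, show ⟪v, A x⟫ = 0 from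
      Submodule.inner_left_of_mem_orthogonal (LinearMap.mem_range_self A.toLinearMap x) hv] at this
    simp at this
  simp only [h4, lintegral_zero, nonpos_iff_eq_zero, mul_eq_zero, hK, or_false,
    ENNReal.ofReal_eq_zero] at h3
  linarith [phi_pos (0 : EuclideanSpace ℝ ι)]

lemma exists_haar {m : ℕ} (Ψ : ((Fin m → ℝ) × EuclideanSpace ℝ ι) ≃L[ℝ] E n) :
    ∃ J : ℝ≥0∞, J ≠ 0 ∧ J ≠ ∞ ∧ volume = J • (volume.prod volume).map Ψ :=
  have := Measure.prod.instIsAddHaarMeasure (volume : Measure (Fin m → ℝ))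
    (volume : Measure (EuclideanSpace ℝ ι))
  have := Ψ.isAddHaarMeasure_map (volume.prod volume)
  ⟨Measure.addHaarScalarFactor volume ((volume.prod volume).map Ψ),
    by exact_mod_cast (Measure.addHaarScalarFactor_pos_of_isAddHaarMeasure _ _).ne',
    ENNReal.coe_ne_top, Measure.isAddLeftInvariant_eq_smul _ _⟩

theorem HS.slice [Nonempty ι] (h : HS K A T) (hK : IsConvexBody K) {m : ℕ}
    (Ψ : ((Fin m → ℝ) × EuclideanSpace ℝ ι) ≃L[ℝ] E n) (hΨ : ∀ p, A (Ψ p) = p.2) {t}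
    (ht : ‖t‖ ≤ T) : ENNReal.ofReal (phi t / 10) * (volume.prod volume) (Ψ ⁻¹' K)
      ≤ volume {x | Ψ (x, t) ∈ K} := by
  have mK := hK.1.measurableSet
  have mK' : MeasurableSet (Ψ ⁻¹' K) := Ψ.continuous.measurable mK
  let f : EuclideanSpace ℝ ι → ℝ≥0∞ := fun y => volume {x | Ψ (x, y) ∈ K}
  have ms : ∀ y, MeasurableSet {x | Ψ (x, y) ∈ K} := fun y => measurable_prodMk_right mK'
  by_contra hc
  obtain ⟨l, l1, l2⟩ := exists_between (not_le.1 hc)
  have cv : Convex ℝ {y | l ≤ f y} := convex_iff_forall_pos.2 fun y hy z hz a b ha hb hab => by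
    refine le_trans ?_ ((plw_pi m).set ha hb hab (ms y) (ms z) (ms _) fun x hx x' hx' => ?_)
    · calc l = l ^ a * l ^ b := by rw [← ENNReal.rpow_add_of_nonneg _ _ ha.le hb.le, hab]; simp
        _ ≤ _ := by gcongr; exacts [hy, hz]
    · have := hK.2.1 hx hx' ha.le hb.le hab
      rwa [← map_smul, ← map_smul, ← map_add] at this
  obtain ⟨u, hu, hu'⟩ : ∃ u, ‖u‖ = 1 ∧ ∀ᵐ y, 0 < ⟪u, y - t⟫ → f y ≤ l := by
    by_cases hi : (interior {y | l ≤ f y}).Nonempty
    · obtain ⟨g, g0, hg⟩ := geometric_hahn_banach_of_nonempty_interior_point cv (x := t)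
        (fun h => l1.not_ge (interior_subset h :)) hi
      have v0 : (InnerProductSpace.toDual ℝ _).symm g ≠ 0 := by simpa using g0
      refine ⟨_, norm_smul_inv_norm (𝕜 := ℝ) v0, ae_of_all _ fun y hy => ?_⟩
      by_contra h1
      have := hg y (not_le.1 h1).le
      rw [real_inner_smul_left, InnerProductSpace.toDual_symm_apply, map_sub] at hy
      exact hy.not_ge (mul_nonpos_of_nonneg_of_nonpos (by positivity) (by linarith))
    · obtain ⟨u, hu⟩ := exists_norm_eq (EuclideanSpace ℝ ι) zero_le_one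
      rw [cv.interior_nonempty_iff_affineSpan_eq_top] at hi
      have h0 := measure_mono_null (subset_affineSpan ℝ _)
        (Measure.addHaar_affineSubspace volume _ hi)
      exact ⟨u, hu, (measure_eq_zero_iff_ae_notMem.1 h0).mono fun y hy _ => (not_le.1 hy).le⟩
  obtain ⟨ψ, p1, p2, p3, p4⟩ := h t u ht hu
  obtain ⟨J, J0, J1, hJ⟩ := exists_haar Ψ
  rw [hJ, Measure.smul_apply, Measure.restrict_smul, lintegral_smul_measure, smul_eq_mul,
    smul_eq_mul, mul_left_comm, ENNReal.mul_le_mul_iff_right J0 J1,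
    Measure.map_apply Ψ.continuous.measurable mK,
    setLIntegral_map (f := fun x => ψ (A x)) mK (p1.comp A.measurable) Ψ.continuous.measurable] at p4
  refine (l2.trans_le (p4.trans ?_)).false
  simp only [hΨ]
  rw [← lintegral_indicator mK', lintegral_prod_symm ((Ψ ⁻¹' K).indicator fun p => ψ p.2)
    ((p1.comp measurable_snd).indicator mK').aemeasurable]
  calc _ ≤ ∫⁻ y, ψ y * l := by
        refine lintegral_mono_ae (hu'.mono fun y hy => ?_)
        change ∫⁻ x, {x | Ψ (x, y) ∈ K}.indicator (fun _ => ψ y) x ≤ _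
        rw [lintegral_indicator_const (ms y)]
        by_cases h0 : ψ y = 0
        · simp [h0]
        · gcongr; exact hy (p3 y h0)
    _ ≤ _ := by rw [lintegral_mul_const _ p1]; exact mul_le_of_le_one_left zero_le p2

end

end Vale.Agent.P230
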