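import Vale.Agent.P230.Gauss

/-! A thin shell carries a constant part of an isotropic log-concave measure. -/

open MeasureTheory Finset Real
open scoped RealInnerProductSpace ENNReal

namespace Vale.Agent.P230

noncomputable section

lemma PLW.real {α : Type*} [AddCommGroup α] [Module ℝ α] [MeasurableSpace α] {μ : Measure α}
    (hμ : PLW μ) {f g h : α → ℝ} (hf : Measurable f) (hg : Measurable g) (hh : Measurable h)
    (f0 : ∀ x, 0 ≤ f x) (g0 : ∀ x, 0 ≤ g x) (h0 : ∀ x, 0 ≤ h x) (fi : Integrable f μ)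
    (gi : Integrable g μ) (hi : Integrable h μ)
    (H : ∀ x y, f x * g y ≤ h ((2⁻¹ : ℝ) • x + (2⁻¹ : ℝ) • y) ^ 2) :
    (∫ x, f x ∂μ) * ∫ x, g x ∂μ ≤ (∫ x, h x ∂μ) ^ 2 := by
  have key : ∀ a b c : ℝ, 0 ≤ a → 0 ≤ c → (ENNReal.ofReal a ^ (2⁻¹ : ℝ) * ENNReal.ofReal b ^ (2⁻¹ : ℝ)
      ≤ ENNReal.ofReal c ↔ a * b ≤ c ^ 2) := fun a b c ha hc => by
    rw [← ENNReal.mul_rpow_of_nonneg _ _ (by norm_num), ENNReal.rpow_inv_le_iff two_pos,
      ← ENNReal.ofReal_mul ha, ENNReal.rpow_two, ← ENNReal.ofReal_pow hc,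
      ENNReal.ofReal_le_ofReal_iff (sq_nonneg _)]
  have := hμ 2⁻¹ 2⁻¹ (by norm_num) (by norm_num) (by norm_num) _ _ _ hf.ennreal_ofReal
    hg.ennreal_ofReal hh.ennreal_ofReal fun x y => (key _ _ _ (f0 x) (h0 _)).2 (H x y)
  rw [← ofReal_integral_eq_lintegral_ofReal fi (ae_of_all _ f0),
    ← ofReal_integral_eq_lintegral_ofReal gi (ae_of_all _ g0),
    ← ofReal_integral_eq_lintegral_ofReal hi (ae_of_all _ h0)] at this
  exact (key _ _ _ (integral_nonneg f0) (integral_nonneg h0)).1 this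

variable {n : ℕ} {ν : Measure (E n)} [IsProbabilityMeasure ν]

lemma borell (hp : PLW ν) {c : ℝ} (h : 2 / 3 ≤ ν.real {x | ‖x‖ ≤ c}) (j : ℕ) :
    ν.real {x | (2 * j + 1) * c < ‖x‖} ≤ 1 / 3 * (1 / 2) ^ j := by
  have m1 : MeasurableSet {x : E n | ‖x‖ ≤ c} := measurableSet_le (by fun_prop) (by fun_prop)
  have m2 : ∀ r : ℝ, MeasurableSet {x : E n | r < ‖x‖} := fun r =>
    measurableSet_lt (by fun_prop) (by fun_prop)
  have h1 : ν.real {x | c < ‖x‖} ≤ 1 / 3 := by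
    have := probReal_compl_eq_one_sub (μ := ν) m1
    simp only [Set.compl_ofPred, not_le] at this
    linarith
  rcases j.eq_zero_or_pos with rfl | hj
  · simpa using h1
  have hj' : (0 : ℝ) < j := by exact_mod_cast hj
  have h2 := hp.set (a := 1 / (j + 1)) (b := j / (j + 1)) (by positivity) (by positivity)
    (by field_simp; ring) (m2 ((2 * j + 1) * c)) m1 (m2 c) fun x hx y hy => by
      simp only [Set.mem_ofPred_eq] at hx hy ⊢
      have a1 := norm_sub_le ((1 / (j + 1 : ℝ)) • x + (j / (j + 1 : ℝ)) • y) ((j / (j + 1 : ℝ)) • y)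
      rw [add_sub_cancel_right, norm_smul, norm_smul, Real.norm_of_nonneg (by positivity),
        Real.norm_of_nonneg (by positivity), div_mul_eq_mul_div, div_mul_eq_mul_div,
        ← sub_le_iff_le_add, ← sub_div] at a1
      refine lt_of_lt_of_le ?_ a1
      rw [lt_div_iff₀ (by positivity)]
      nlinarith
  have h3 := ENNReal.toReal_mono (measure_ne_top _ _) h2
  rw [ENNReal.toReal_mul, ← ENNReal.toReal_rpow, ← ENNReal.toReal_rpow] at h3
  simp only [← measureReal_def] at h3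
  have h4 := pow_le_pow_left₀ (by positivity) (h3.trans h1) (j + 1)
  rw [mul_pow, ← rpow_natCast, ← rpow_natCast, ← rpow_mul measureReal_nonneg,
    ← rpow_mul measureReal_nonneg] at h4
  push_cast at h4
  rw [div_mul_cancel₀ _ (by positivity), div_mul_cancel₀ _ (by positivity), rpow_one,
    rpow_natCast] at h4
  have h5 := (mul_le_mul_of_nonneg_left (pow_le_pow_left₀ (by norm_num) h j)
    measureReal_nonneg).trans h4
  rw [← le_div_iff₀ (by positivity)] at h5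
  refine h5.trans (le_of_eq ?_)
  rw [pow_succ', mul_div_assoc, ← div_pow]; norm_num

lemma small_ball (h : Iso ν) (hp : PLW ν) (hn : 0 < n) : ν.real {x | ‖x‖ ≤ 1 / 10} ≤ 2 / 3 := by
  by_contra hc
  have hb := borell hp (not_le.1 hc).le
  let S : ℕ → Set (E n) := fun j => {x | (2 * j + 1) * (1 / 10) < ‖x‖}
  have mS : ∀ j, MeasurableSet (S j) := fun j => measurableSet_lt (by fun_prop) (by fun_prop)
  have pt : ∀ (x : E n) (N : ℕ), min ‖x‖ ((2 * N + 1) * (1 / 10)) ^ 2 ≤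
      1 / 100 + ∑ j ∈ range N, (8 * (j + 1) / 100 : ℝ) * (S j).indicator 1 x := fun x N => by
    induction N with
    | zero =>
      have := pow_le_pow_left₀ (le_min (norm_nonneg x) (by norm_num)) (min_le_right ‖x‖ (1 / 10)) 2
      norm_num at this ⊢; exact this
    | succ N ih =>
      rw [sum_range_succ]
      by_cases hx : x ∈ S N
      · rw [min_eq_right (le_of_lt hx)] at ih
        have := pow_le_pow_left₀ (le_min (norm_nonneg x) (by positivity))
          (min_le_right ‖x‖ ((2 * (N + 1 : ℕ) + 1) * (1 / 10))) 2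
        rw [Set.indicator_of_mem hx]
        push_cast at this ⊢
        simp only [Pi.one_apply]
        nlinarith
      · have h1 : ‖x‖ ≤ (2 * N + 1) * (1 / 10) := not_lt.1 hx
        rw [min_eq_left h1] at ih
        rw [Set.indicator_of_notMem hx, min_eq_left (by push_cast; linarith)]
        linarith
  have sm : ∀ N : ℕ, ∑ j ∈ range N, ((j : ℝ) + 1) * (1 / 2) ^ j = 4 - (2 * N + 4) * (1 / 2) ^ N :=
    fun N => by
      induction N with
      | zero => simp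
      | succ N ih => rw [sum_range_succ, ih]; push_cast; ring
  obtain ⟨R, hR⟩ := h.bd
  obtain ⟨N, hN⟩ := exists_nat_ge (5 * R)
  have i1 : ∀ j : ℕ, Integrable (fun x => (8 * (j + 1) / 100 : ℝ) * (S j).indicator 1 x) ν :=
    fun j => ((integrable_const 1).indicator (mS j)).const_mul _
  have := integral_mono_ae (h.int (f := fun x => ‖x‖ ^ 2) (by fun_prop))
    ((integrable_const (1 / 100 : ℝ)).add (integrable_finsetSum (range N) fun j _ => i1 j))
    (hR.mono fun x hx => by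
      have := pt x N
      rwa [min_eq_left (by linarith)] at this)
  simp only [Pi.add_apply] at this
  rw [h.sq hn, integral_add (integrable_const _) (integrable_finsetSum _ fun j _ => i1 j),
    integral_finsetSum _ fun j _ => i1 j] at this
  simp only [integral_const_mul, integral_indicator_one (mS _), integral_const, probReal_univ,
    smul_eq_mul] at this
  have a1 : ∑ j ∈ range N, (8 * (j + 1) / 100 : ℝ) * ν.real (S j)
      ≤ 8 / 300 * ∑ j ∈ range N, ((j : ℝ) + 1) * (1 / 2) ^ j := by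
    rw [mul_sum]
    refine sum_le_sum fun j _ => (mul_le_mul_of_nonneg_left (hb j) (by positivity)).trans
      (le_of_eq (by ring))
  have a2 : (0 : ℝ) ≤ (2 * N + 4) * (1 / 2) ^ N := by positivity
  rw [sm] at a1
  linarith

/-- the Gaussian mixture -/
def GG (ν : Measure (E n)) (k : ℕ) (r : ℝ) : ℝ :=
  ∫ x, √(1 / (1 + ‖x‖ ^ 2)) ^ k * exp (-(r ^ 2 / (2 * (1 + ‖x‖ ^ 2)))) ∂ν

lemma three_pt (h : Iso ν) (hp : PLW ν) (hn : 0 < n) {k : ℕ} (hk : 0 < k) (r0 r2 : ℝ) {τ : ℝ}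
    (hτ : 0 ≤ τ) (hτ2 : 3 * (k / √n) ≤ τ ^ 2) (h0 : τ ≤ GG ν k r0) (h2 : τ ≤ GG ν k r2) :
    (GG ν k r0 - τ) * (GG ν k r2 - τ) ≤ (GG ν k ((r0 + r2) / 2) + τ) ^ 2 := by
  classical
  let e : EuclideanSpace ℝ (Fin k) := EuclideanSpace.single ⟨0, hk⟩ 1
  obtain ⟨A, hπ⟩ := conc h hn one_pos {r0 • e, r2 • e, ((r0 + r2) / 2) • e}
  let F : ℝ → ℝ := fun r => ∫ x, exp (-(‖A x - r • e‖ ^ 2 / 2)) ∂ν
  have key : ∀ r, r • e ∈ ({r0 • e, r2 • e, ((r0 + r2) / 2) • e} : Finset _) →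
      |F r - GG ν k r| ≤ τ := fun r hr => by
    have a1 := hπ _ hr
    have a2 : ‖r • e‖ ^ 2 = r ^ 2 := by simp [e, norm_smul]
    have a3 : (({r0 • e, r2 • e, ((r0 + r2) / 2) • e} : Finset _).card : ℝ) ≤ 3 := by
      exact_mod_cast card_le_three
    simp only [one_pow, mul_one, one_mul, a2, Fintype.card_fin] at a1
    exact abs_le_of_sq_le_sq' (a1.trans ((mul_le_mul_of_nonneg_right a3 (by positivity)).trans
      hτ2)) hτ |> abs_le.2
  have k0 := abs_le.1 (key r0 (by simp))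
  have k2 := abs_le.1 (key r2 (by simp))
  have k1 := abs_le.1 (key ((r0 + r2) / 2) (by simp))
  have pl : F r0 * F r2 ≤ F ((r0 + r2) / 2) ^ 2 := by
    refine hp.real (by fun_prop) (by fun_prop) (by fun_prop) (fun _ => (exp_pos _).le)
      (fun _ => (exp_pos _).le) (fun _ => (exp_pos _).le) (h.int (by fun_prop))
      (h.int (by fun_prop)) (h.int (by fun_prop)) fun x y => ?_
    rw [← exp_add, sq (exp _), ← exp_add, exp_le_exp]
    have : A ((2⁻¹ : ℝ) • x + (2⁻¹ : ℝ) • y) - ((r0 + r2) / 2) • e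
        = (2⁻¹ : ℝ) • ((A x - r0 • e) + (A y - r2 • e)) := by
      simp only [map_add, map_smul]; module
    rw [this, norm_smul]
    have a1 := pow_le_pow_left₀ (norm_nonneg _) (norm_add_le (A x - r0 • e) (A y - r2 • e)) 2
    norm_num
    nlinarith [sq_nonneg (‖A x - r0 • e‖ - ‖A y - r2 • e‖)]
  have f0 : 0 ≤ F ((r0 + r2) / 2) := integral_nonneg fun _ => (exp_pos _).le
  calc _ ≤ F r0 * F r2 := mul_le_mul (by linarith) (by linarith) (by linarith) (by linarith)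
    _ ≤ _ := pl.trans (pow_le_pow_left₀ f0 (by linarith) 2)

lemma ker_eq (k : ℕ) {ρ u : ℝ} (hρ : 0 < ρ) (hu : 0 ≤ u) :
    √(1 / ρ) ^ k * exp (-(√(k * u) ^ 2 / (2 * ρ))) = exp (-(k / 2 * (log ρ + u / ρ))) := by
  have : √(1 / ρ) = exp (-(log ρ / 2)) := by
    rw [sqrt_eq_iff_mul_self_eq (by positivity) (exp_pos _).le, ← exp_add, one_div,
      show -(log ρ / 2) + -(log ρ / 2) = -log ρ by ring, exp_neg, exp_log hρ]
  rw [this, ← exp_nat_mul, ← exp_add, sq_sqrt (by positivity)]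
  congr 1; field_simp; ring

lemma GG_le (k : ℕ) {u : ℝ} (hu : 0 < u) :
    GG ν k √(k * u) ≤ exp (-(k / 2 * (log u + 1))) := by
  refine le_trans (integral_mono_of_nonneg (ae_of_all _ fun x => by positivity)
    (integrable_const (exp (-(k / 2 * (log u + 1))))) (ae_of_all _ fun x => ?_)) (by simp)
  have hρ : 0 < 1 + ‖x‖ ^ 2 := by positivity
  simp only
  rw [ker_eq k hρ hu.le, exp_le_exp, neg_le_neg_iff]
  refine mul_le_mul_of_nonneg_left ?_ (by positivity)
  have := log_le_sub_one_of_pos (div_pos hu hρ)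
  rw [log_div hu.ne' hρ.ne'] at this
  linarith

lemma GG_ge (h : Iso ν) (k : ℕ) {u δ : ℝ} (hu : 1 ≤ u) :
    ν.real {x | u ≤ 1 + ‖x‖ ^ 2 ∧ 1 + ‖x‖ ^ 2 ≤ u + δ} * exp (-(k / 2 * (log u + 1 + δ ^ 2)))
      ≤ GG ν k √(k * u) := by
  have m : MeasurableSet {x : E n | u ≤ 1 + ‖x‖ ^ 2 ∧ 1 + ‖x‖ ^ 2 ≤ u + δ} :=
    by measurability
  rw [← smul_eq_mul, ← integral_indicator_const _ m]
  refine integral_mono ((integrable_const _).indicator m)
    (h.int (by fun_prop (disch := intro x; positivity))) fun x => ?_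
  refine Set.indicator_apply_le' (fun hx => ?_) fun _ => by positivity
  obtain ⟨a1, a2⟩ := hx
  set ρ := 1 + ‖x‖ ^ 2
  have hρ : 0 < ρ := by linarith
  rw [ker_eq k hρ (by linarith), exp_le_exp, neg_le_neg_iff]
  refine mul_le_mul_of_nonneg_left ?_ (by positivity)
  have a3 := log_le_sub_one_of_pos (div_pos hρ (by linarith : 0 < u))
  rw [log_div hρ.ne' (by linarith)] at a3
  have a4 : ρ / u + u / ρ - 2 = (ρ - u) ^ 2 / (u * ρ) := by field_simp; ring
  have a5 : (ρ - u) ^ 2 / (u * ρ) ≤ δ ^ 2 := (div_le_self (sq_nonneg _) (by nlinarith)).trans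
    (pow_le_pow_left₀ (by linarith) (by linarith) 2)
  linarith

lemma num1 {y : ℝ} (hy : 10 ^ 5 ≤ y) : 24 * 10 ^ 6 * y ^ 5 ≤ exp (6 * y ^ 3) := by
  have y0 : 0 < y := by linarith
  refine le_trans ?_ (Real.pow_div_factorial_le_exp (6 * y ^ 3) (by positivity) 3)
  have : 10 ^ 6 ≤ y ^ 4 := le_trans (by norm_num) (pow_le_pow_left₀ (by norm_num) hy 4)
  have := mul_le_mul_of_nonneg_right this (by positivity : 0 ≤ y ^ 5)
  norm_num [Nat.factorial]
  nlinarith [pow_pos y0 5]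

lemma num2 {y : ℝ} (hy : 10 ^ 5 ≤ y) :
    4 * exp (-y) ≤ 1 / (1000 * y) / 2 * (1 / (1000 * y) / 2) := by
  have y0 : 0 < y := by linarith
  have a1 := Real.pow_div_factorial_le_exp y y0.le 4
  have : 10 ^ 10 ≤ y ^ 2 := le_trans (by norm_num) (pow_le_pow_left₀ (by norm_num) hy 2)
  have := mul_le_mul_of_nonneg_right this (by positivity : 0 ≤ y ^ 2)
  norm_num [Nat.factorial] at a1
  calc 4 * exp (-y) = 4 / exp y := by rw [exp_neg]; rfl
    _ ≤ 4 / (16 * 10 ^ 6 * y ^ 2) := by gcongr; linarith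
    _ = _ := by field_simp; norm_num

lemma sep_alg {a b d : ℝ} (a0 : 0 < a) (b0 : 0 < b) (ab : (a + b) ^ 2 ≤ 44) (hd : 0 ≤ d)
    (l4 : log (((a + b) / 2) ^ 2) - log a - log b ≤ 2 * d ^ 2) : b ^ 2 - a ^ 2 ≤ 63 * d := by
  have l3 := log_le_sub_one_of_pos (div_pos (mul_pos a0 b0) (by positivity : 0 < ((a + b) / 2) ^ 2))
  rw [log_div (by positivity) (by positivity), log_mul a0.ne' b0.ne'] at l3
  have l5 : a * b / ((a + b) / 2) ^ 2 - 1 = -((b - a) ^ 2 / (a + b) ^ 2) := by field_simp; ring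
  have l6 : (b - a) ^ 2 ≤ 2 * d ^ 2 * (a + b) ^ 2 := by
    rw [← div_le_iff₀ (by positivity)]; linarith
  refine (abs_le_of_sq_le_sq' ?_ (by positivity)).2
  calc (b ^ 2 - a ^ 2) ^ 2 = (b - a) ^ 2 * (a + b) ^ 2 := by ring
    _ ≤ 2 * d ^ 2 * 44 * 44 := by
      refine mul_le_mul (l6.trans ?_) ab (by positivity) (by positivity)
      gcongr
    _ ≤ _ := by nlinarith [sq_nonneg d]

lemma sep_win (h : Iso ν) (hp : PLW ν) {y : ℝ} (hy : 10 ^ 5 ≤ y) (hn : exp (30 * y ^ 3) ≤ √n)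
    {u v : ℝ} (hu : 1 ≤ u ∧ u ≤ 11) (hv : 1 ≤ v ∧ v ≤ 11)
    (pu : 1 / (1000 * y) ≤ ν.real {x | u ≤ 1 + ‖x‖ ^ 2 ∧ 1 + ‖x‖ ^ 2 ≤ u + 1 / y})
    (pv : 1 / (1000 * y) ≤ ν.real {x | v ≤ 1 + ‖x‖ ^ 2 ∧ 1 + ‖x‖ ^ 2 ≤ v + 1 / y}) :
    v - u ≤ 63 / y := by
  have y0 : 0 < y := by linarith
  have n0 : 0 < √(n : ℝ) := (exp_pos _).trans_le hn
  have y3 : 1 ≤ y ^ 3 := one_le_pow₀ (by linarith)
  set k := ⌈y ^ 3⌉₊
  have k1 : y ^ 3 ≤ k := Nat.le_ceil _
  have k2 : k ≤ 2 * y ^ 3 := by linarith [Nat.ceil_lt_add_one (by positivity : 0 ≤ y ^ 3)]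
  have k0 : (0 : ℝ) < k := by linarith
  have d1 : (1 / y) ^ 2 ≤ 1 := pow_le_one₀ (by positivity) ((div_le_one y0).2 (by linarith))
  set p := 1 / (1000 * y) with hpd
  have p0 : 0 < p := by positivity
  have p1 : p ≤ 1 := (div_le_one (by positivity)).2 (by linarith)
  set τ := p / 2 * exp (-(6 * k)) with hτ
  have lo : ∀ w, 1 ≤ w ∧ w ≤ 11 →
      p ≤ ν.real {x | w ≤ 1 + ‖x‖ ^ 2 ∧ 1 + ‖x‖ ^ 2 ≤ w + 1 / y} →
      τ ≤ p / 2 * exp (-(k / 2 * (log w + 1 + (1 / y) ^ 2))) ∧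
      p * exp (-(k / 2 * (log w + 1 + (1 / y) ^ 2))) ≤ GG ν k √(k * w) := fun w hw pw => by
    refine ⟨?_, le_trans (by gcongr) (GG_ge h k hw.1)⟩
    refine mul_le_mul_of_nonneg_left (exp_le_exp.2 ?_) (by positivity)
    have := log_le_sub_one_of_pos (by linarith : 0 < w)
    have := mul_le_mul_of_nonneg_left (by linarith : log w + 1 + (1 / y) ^ 2 ≤ 12) k0.le
    linarith
  obtain ⟨u1, u2⟩ := lo u hu pu
  obtain ⟨v1, v2⟩ := lo v hv pv
  have τ0 : 0 < τ := by positivity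
  have t := three_pt h hp (by simpa using n0) (by exact_mod_cast k0) √(k * u) √(k * v) τ0.le (by
    have a2 := num1 hy
    calc 3 * (k / √n) ≤ 3 * (2 * y ^ 3 / exp (30 * y ^ 3)) := by gcongr
      _ = (p / 2) ^ 2 * (24 * 10 ^ 6 * y ^ 5 / exp (30 * y ^ 3)) := by rw [hpd]; field_simp; ring
      _ ≤ (p / 2) ^ 2 * (exp (6 * y ^ 3) / exp (30 * y ^ 3)) := by gcongr
      _ ≤ _ := by
        rw [hτ, mul_pow, sq (exp _), ← exp_add, ← exp_sub]; gcongr; linarith)
    (by linarith) (by linarith)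
  set a := √u with ha
  set b := √v with hb
  have a2 : a ^ 2 = u := sq_sqrt (by linarith)
  have b2 : b ^ 2 = v := sq_sqrt (by linarith)
  have a0 : 0 < a := sqrt_pos.2 (by linarith)
  have b0 : 0 < b := sqrt_pos.2 (by linarith)
  have ab : (a + b) ^ 2 ≤ 44 := by nlinarith [sq_nonneg (a - b)]
  set w := ((a + b) / 2) ^ 2 with hw
  have w0 : 0 < w := by positivity
  have w3 : w ≤ 11 := by rw [hw, div_pow]; linarith
  have e : (√(k * u) + √(k * v)) / 2 = √(k * w) := by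
    rw [sqrt_mul k0.le, sqrt_mul k0.le, sqrt_mul k0.le, hw, sqrt_sq (by positivity)]; ring
  have w1 := GG_le (ν := ν) k w0
  have w2 : τ ≤ exp (-(k / 2 * (log w + 1))) := by
    calc τ ≤ 1 * exp (-(6 * k)) := by rw [hτ]; gcongr; linarith
      _ ≤ _ := by
        rw [one_mul, exp_le_exp]
        have := log_le_sub_one_of_pos w0
        have := mul_le_mul_of_nonneg_left (by linarith : log w + 1 ≤ 12) k0.le
        linarith
  rw [e] at t
  have t2 : p / 2 * exp (-(k / 2 * (log u + 1 + (1 / y) ^ 2))) *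
      (p / 2 * exp (-(k / 2 * (log v + 1 + (1 / y) ^ 2))))
      ≤ (2 * exp (-(k / 2 * (log w + 1)))) ^ 2 :=
    (mul_le_mul (by linarith) (by linarith) (by positivity) (by linarith)).trans
      (t.trans (pow_le_pow_left₀ (add_nonneg (integral_nonneg fun x => by positivity) τ0.le)
        (by linarith) 2))
  have t3 : 4 * exp (-y) ≤ p / 2 * (p / 2) := num2 hy
  rw [mul_mul_mul_comm, mul_pow, sq (exp _), ← exp_add, ← exp_add] at t2
  have t4 := (mul_le_mul_of_nonneg_right t3 (exp_pos _).le).trans t2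
  rw [mul_assoc, ← exp_add, show (2 : ℝ) ^ 2 = 4 by norm_num, mul_le_mul_iff_right₀ four_pos,
    exp_le_exp] at t4
  have t5 : y ≤ k * (1 / y) ^ 2 := by
    rw [div_pow, one_pow, mul_one_div, le_div_iff₀ (by positivity)]; linarith
  have l1 : log u = 2 * log a := by rw [← a2, log_pow]; norm_num
  have l2 : log v = 2 * log b := by rw [← b2, log_pow]; norm_num
  have := sep_alg a0 b0 ab (d := 1 / y) (by positivity)
    (le_of_mul_le_mul_left (by rw [l1, l2] at t4; linarith) k0)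
  rwa [a2, b2, mul_one_div] at this

theorem shell (h : Iso ν) (hp : PLW ν) {y : ℝ} (hy : 10 ^ 5 ≤ y) (hn : exp (30 * y ^ 3) ≤ √n) :
    ∃ a, 1 / 100 ≤ a ∧ 1 / 5 ≤ ν.real {x | a ≤ ‖x‖ ^ 2 ∧ ‖x‖ ^ 2 ≤ a + 64 / y} := by
  classical
  have y0 : 0 < y := by linarith
  have n0 : 0 < n := by simpa using (exp_pos _).trans_le hn
  let u : ℕ → ℝ := fun j => 101 / 100 + j / y
  let W : ℕ → Set (E n) := fun j => {x | u j ≤ 1 + ‖x‖ ^ 2 ∧ 1 + ‖x‖ ^ 2 ≤ u j + 1 / y}
  let N := ⌈9 * y⌉₊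
  have N1 : N ≤ 9 * y + 1 := (Nat.ceil_lt_add_one (by positivity)).le
  let H := (range N).filter fun j => 1 / (1000 * y) ≤ ν.real (W j)
  have hu : ∀ j ∈ range N, 1 ≤ u j ∧ u j ≤ 11 := fun j hj => by
    have a1 : (j : ℝ) + 1 ≤ N := by exact_mod_cast mem_range.1 hj
    have a2 : (j : ℝ) / y ≤ 9 := by rw [div_le_iff₀ y0]; linarith
    have a3 : 0 ≤ (j : ℝ) / y := by positivity
    simp only [u]; constructor <;> linarith
  have cov : ∀ S : Set (E n), (∀ j ∈ H, W j ⊆ S) → 1 / 5 ≤ ν.real S := fun S hS => by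
    have a1 : Set.univ ⊆ (({x : E n | ‖x‖ ≤ 1 / 10} ∪ {x | 9 ≤ ‖x‖ ^ 2}) ∪ S) ∪
        ⋃ j ∈ (range N).filter (· ∉ H), W j := fun x _ => by
      by_cases h1 : ‖x‖ ≤ 1 / 10
      · exact Or.inl (Or.inl (Or.inl h1))
      by_cases h2 : 9 ≤ ‖x‖ ^ 2
      · exact Or.inl (Or.inl (Or.inr h2))
      have h3 : 0 ≤ (‖x‖ ^ 2 - 1 / 100) * y := mul_nonneg (by nlinarith) y0.le
      have h4 : x ∈ W ⌊(‖x‖ ^ 2 - 1 / 100) * y⌋₊ := by
        have b1 := (div_le_iff₀ y0).2 (Nat.floor_le h3)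
        have b2 := (lt_div_iff₀ y0).2 (Nat.lt_floor_add_one ((‖x‖ ^ 2 - 1 / 100) * y))
        rw [add_div] at b2
        simp only [W, u, Set.mem_ofPred_eq]
        constructor <;> linarith
      have h5 : ⌊(‖x‖ ^ 2 - 1 / 100) * y⌋₊ ∈ range N :=
        mem_range.2 (Nat.lt_ceil.2 ((Nat.floor_le h3).trans_lt (by nlinarith)))
      by_cases h6 : ⌊(‖x‖ ^ 2 - 1 / 100) * y⌋₊ ∈ H
      · exact Or.inl (Or.inr (hS _ h6 h4))
      · exact Or.inr (Set.mem_biUnion (mem_filter.2 ⟨h5, h6⟩) h4)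
    have a2 := (measureReal_mono (μ := ν) a1).trans ((measureReal_union_le _ _).trans
      (add_le_add ((measureReal_union_le _ _).trans (add_le_add (measureReal_union_le _ _) le_rfl))
        (measureReal_biUnion_finset_le _ _)))
    have a3 := small_ball h hp n0
    have a4 := mul_meas_ge_le_integral_of_nonneg (μ := ν) (f := fun x => ‖x‖ ^ 2)
      (ae_of_all _ fun x => sq_nonneg _) (h.int (by fun_prop)) 9
    have a5 : ∑ j ∈ (range N).filter (· ∉ H), ν.real (W j) ≤ 1 / 100 := by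
      refine (sum_le_card_nsmul _ _ (1 / (1000 * y)) fun j hj => ?_).trans ?_
      · obtain ⟨b1, b2⟩ := mem_filter.1 hj
        exact (not_le.1 fun h => b2 (mem_filter.2 ⟨b1, h⟩)).le
      · have : (((range N).filter (· ∉ H)).card : ℝ) ≤ N := by
          exact_mod_cast (card_filter_le _ _).trans (card_range N).le
        rw [nsmul_eq_mul, mul_one_div, div_le_iff₀ (by positivity)]; linarith
    rw [h.sq n0] at a4
    rw [probReal_univ] at a2
    linarith
  rcases H.eq_empty_or_nonempty with h0 | h0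
  · have := cov ∅ (by simp [h0])
    norm_num at this
  obtain ⟨j, hj, hm⟩ := H.exists_min_image u h0
  refine ⟨u j - 1, by have : 0 ≤ (j : ℝ) / y := by positivity
                      simp only [u]; linarith, cov _ fun i hi x hx => ?_⟩
  have a1 := sep_win h hp hy hn (hu j (mem_filter.1 hj).1) (hu i (mem_filter.1 hi).1)
    (mem_filter.1 hj).2 (mem_filter.1 hi).2
  have a2 := hm i hi
  obtain ⟨a3, a4⟩ := hx
  have : 64 / y = 63 / y + 1 / y := by ring
  constructor <;> linarith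

end

end Vale.Agent.P230
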