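import Vale.Agent.P230.Vert
import Vale.Agent.P230.Proj
import Vale.Agent.P230.Upper

/-! Horizontal slabs, the choice of the random homomorphisms, and the lattice. -/

open Finset Real MeasureTheory Metric
open scoped BigOperators Pointwise

namespace Vale.Agent.P230

noncomputable section

lemma exists_pts {m : ℕ} {B : Set (Fin m → ℝ)} (hB : IsCompact B) :
    ∃ A : Finset (Fin m → ℤ), ∀ x, x ∈ A ↔ ic x ∈ B := by
  obtain ⟨R, hR⟩ := hB.isBounded.exists_norm_le
  have : {x : Fin m → ℤ | ic x ∈ B}.Finite :=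
    (Set.finite_Icc (fun _ => -⌈R⌉) fun _ => ⌈R⌉).subset fun x hx => by
      have h : ∀ i, |x i| ≤ ⌈R⌉ := fun i => by
        have := ((norm_le_pi_norm _ i).trans (hR _ hx)).trans (Int.le_ceil R)
        simp only [ic, Real.norm_eq_abs] at this
        exact_mod_cast this
      exact ⟨fun i => (abs_le.1 (h i)).1, fun i => (abs_le.1 (h i)).2⟩
  exact ⟨this.toFinset, fun x => this.mem_toFinset⟩

lemma err_ok {m P D : ℕ} {V W : ℝ} (hm : 10 ^ 5 ≤ m) (hP : P ≤ 2 * m ^ 16) (hV : 1 ≤ V)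
    (hV' : V * log m ≤ m / 10 ^ 6) (hW0 : 0 ≤ W) (hW : W ≤ 3 * V) (hD : D ≤ 20 * V) :
    2 * (D * (P * (W + 1)) ^ D * (2 ^ 41 * (994 / 1000) ^ m)) ≤ exp (-V) := by
  have m1 : (10 : ℝ) ^ 5 ≤ m := by exact_mod_cast hm
  have m0 : (0 : ℝ) < m := by linarith
  have l1 : 1 ≤ log m := (le_log_iff_exp_le m0).2 (by linarith [exp_one_lt_three])
  have v1 : V ≤ V * log m := le_mul_of_one_le_right (by linarith) l1
  have v2 : log m ≤ V * log m := le_mul_of_one_le_left (by linarith) hV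
  have a1 : P * (W + 1) ≤ exp (18 * log m) := by
    have : (P : ℝ) ≤ 2 * m ^ 16 := by exact_mod_cast hP
    calc P * (W + 1) ≤ 2 * m ^ 16 * (m / 2) := by gcongr; linarith
      _ ≤ m ^ 17 * m := by nlinarith [pow_pos m0 17]
      _ = _ := by
        rw [show (18 : ℝ) = (18 : ℕ) by norm_num, exp_nat_mul, exp_log m0]; ring
  calc _ ≤ exp 1 * (exp (log m) * exp (18 * log m) ^ D * (exp 1 ^ 41 * exp (-(6 / 1000)) ^ m)) := by
        gcongr
        · linarith [add_one_le_exp 1]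
        · rw [exp_log m0]; linarith
        · linarith [add_one_le_exp 1]
        · linarith [add_one_le_exp (-(6 / 1000))]
    _ ≤ _ := by
        simp only [← exp_nat_mul, ← exp_add, exp_le_exp]
        have := mul_le_mul_of_nonneg_right hD (by linarith : 0 ≤ log m)
        push_cast; nlinarith

theorem slab {m P : ℕ} [Fact P.Prime] {G : Type} [AddCommGroup G] [Module (ZMod P) G] [Fintype G]
    (hm : 10 ^ 5 ≤ m) (hP : m ^ 16 < P) (hP' : P ≤ 2 * m ^ 16)
    (hG : ((m : ℝ) ^ 4 / 2) ^ m ≤ Fintype.card G) (hG' : Fintype.card G ≤ (2 * (m : ℝ) ^ 4) ^ m)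
    {B : Set (Fin m → ℝ)} (cpt : IsCompact B) (cvx : Convex ℝ B) {c : Fin m → ℝ} {ρ V : ℝ}
    (hρ : 0 < ρ) (h1 : closedBall c ρ ⊆ B) (h2 : B ⊆ closedBall c (200 * m ^ 2 * ρ))
    (hV : V * Fintype.card G ≤ volume.real B) (hV' : V * log m ≤ m / 10 ^ 6) :
    ∃ A : Finset (Fin m → ℤ), (∀ a ∈ A, ic a ∈ B ∧ 1 ≤ ρ) ∧
      𝔼 H : Fin m → G, 𝔼 τ : G, ind (∀ x ∈ A, ap H x ≠ τ) ≤ 3 * exp (-(V / 2)) := by
  rcases lt_or_ge V 1 with h | h
  · refine ⟨∅, by simp, ?_⟩
    simp only [notMem_empty, false_implies, implies_true, ind_true, Fintype.expect_const]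
    linarith [add_one_le_exp (-(V / 2))]
  have m1 : (10 : ℝ) ^ 5 ≤ m := by exact_mod_cast hm
  have m0 : (0 : ℝ) < m := by linarith
  have mn : m ≠ 0 := by omega
  have l1 : 1 ≤ log m := (le_log_iff_exp_le m0).2 (by linarith [exp_one_lt_three])
  have v1 : V ≤ V * log m := le_mul_of_one_le_right (by linarith) l1
  have g0 : (0 : ℝ) < Fintype.card G := by exact_mod_cast Fintype.card_pos
  have p0 : 0 < V * Fintype.card G := by positivity
  have b0 : 0 < volume.real B := p0.trans_le hV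
  set κ := (V * Fintype.card G / volume.real B) ^ (m : ℝ)⁻¹ with hκ
  have k0 : 0 < κ := by positivity
  have k1 : κ ≤ 1 := rpow_le_one (by positivity) ((div_le_one b0).2 hV) (by positivity)
  have k2 : volume.real (dil B c κ) = V * Fintype.card G := by
    rw [measureReal_def, dil_vol _ _ k0.le, ENNReal.toReal_mul, ENNReal.toReal_ofReal (by positivity),
      hκ, rpow_inv_natCast_pow (by positivity) mn, ← measureReal_def, div_mul_cancel₀ _ b0.ne']
  have hb : ∀ r, AffineMap.homothety c κ '' closedBall c r = closedBall c (κ * r) := fun r => by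
    have : AffineMap.homothety c κ '' closedBall c r = c +ᵥ κ • (-c +ᵥ closedBall c r) := by
      simp only [← Set.image_vadd, ← Set.image_smul, Set.image_image]
      refine Set.image_congr fun x _ => ?_
      simp [AffineMap.homothety_apply, sub_eq_neg_add, add_comm]
    rw [this, vadd_closedBall, smul_closedBall' k0.ne', vadd_closedBall]
    simp [abs_of_pos k0]
  have s1 : closedBall c (κ * ρ) ⊆ dil B c κ := hb ρ ▸ Set.image_mono h1
  have s2 : dil B c κ ⊆ closedBall c (κ * (200 * m ^ 2 * ρ)) := hb _ ▸ Set.image_mono h2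
  have s3 : dil B c κ ⊆ B := by
    rintro _ ⟨x, hx, rfl⟩
    exact cvx.lineMap_mem (h1 (mem_closedBall_self hρ.le)) hx ⟨k0.le, k1⟩
  have vb : ∀ r, 0 ≤ r → volume.real (closedBall c r) = (2 * r) ^ m := fun r hr => by
    rw [measureReal_def, Real.volume_pi_closedBall _ hr, ENNReal.toReal_ofReal (by positivity),
      Fintype.card_fin]
  have r1 : κ * ρ ≤ 2 * m ^ 4 := by
    have a1 := measureReal_mono (μ := volume) s1 (dil_cpt cpt _ _).measure_lt_top.ne
    have a2 : V ≤ 2 ^ m := by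
      have : (m : ℝ) ≤ 2 ^ m := by exact_mod_cast Nat.lt_two_pow_self.le
      linarith
    rw [vb _ (by positivity), k2] at a1
    have a3 := a1.trans (mul_le_mul a2 hG' g0.le (by positivity))
    rw [← mul_pow] at a3
    linarith [(pow_le_pow_iff_left₀ (by positivity) (by positivity) mn).1 a3]
  have r2 : 2 * m ≤ κ * ρ := by
    have a1 := measureReal_mono (μ := volume) s2 measure_closedBall_lt_top.ne
    rw [vb _ (by positivity), k2] at a1
    have a3 := (pow_le_pow_iff_left₀ (by positivity) (by positivity) mn).1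
      (hG.trans ((le_mul_of_one_le_left g0.le h).trans a1))
    have a4 : m ^ 2 * m ^ 2 ≤ m ^ 2 * (800 * (κ * ρ)) := by linarith
    nlinarith [le_of_mul_le_mul_left a4 (by positivity)]
  obtain ⟨A, hA⟩ := exists_pts (dil_cpt cpt c κ)
  have F : Fat (dil B c κ) c (κ * ρ) A :=
    ⟨dil_cpt cpt _ _, dil_cvx cvx _ _, s1, r2, by linarith, hA⟩
  have c1 := F.vol_le
  have c2 := F.card_le
  rw [k2] at c1 c2
  set W := (A.card : ℝ) / Fintype.card G with hW
  have w1 : V / 2 ≤ W := by rw [hW, le_div_iff₀ g0]; linarith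
  have w2 : W ≤ 3 * V := by rw [hW, div_le_iff₀ g0]; linarith
  have j1 : 3 * W ≤ ⌈3 * W⌉₊ := Nat.le_ceil _
  have j2 : ((2 * ⌈3 * W⌉₊ : ℕ) : ℝ) ≤ 20 * V := by
    push_cast; linarith [Nat.ceil_lt_add_one (by linarith : 0 ≤ 3 * W)]
  have m4 : 10 ^ 20 ≤ m ^ 4 := le_trans (by norm_num) (Nat.pow_le_pow_left hm 4)
  refine ⟨A, fun a ha => ⟨s3 ((hA a).1 ha), by nlinarith⟩, (F.hole (P := P) (R := 800 * m ^ 6)
    (fun x hx y hy k => ?_) (lt_of_le_of_lt ?_ hP) ?_ (even_two_mul ⌈3 * W⌉₊) ?_ hW).trans ?_⟩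
  · have a1 := (norm_le_pi_norm _ k).trans ((dist_eq_norm _ _).ge.trans ((dist_triangle_right _ _ c).trans
      (add_le_add (s2 ((hA x).1 hx)) (s2 ((hA y).1 hy)))))
    have a2 := mul_le_mul_of_nonneg_left r1 (sq_nonneg (m : ℝ))
    have a3 : |(x k : ℝ) - y k| ≤ 800 * m ^ 6 := le_trans a1 (by linarith)
    exact_mod_cast a3
  · calc 4 * (800 * m ^ 6) ^ 2 = 2560000 * m ^ 12 := by ring
      _ ≤ m ^ 4 * m ^ 12 := by gcongr; omega
      _ = _ := by ring
  · have a1 : (2 : ℝ) ^ m ≤ (994 / 1000) ^ m * (m ^ 4 / 2) ^ m := by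
      have : (10 : ℝ) ^ 20 ≤ m ^ 4 := by exact_mod_cast m4
      rw [← mul_pow]; gcongr; linarith
    have a2 : (2 : ℝ) ≤ 2 ^ m := le_self_pow₀ one_le_two mn
    have a3 := mul_le_mul_of_nonneg_left (hG.trans ((le_mul_of_one_le_left g0.le h).trans c1))
      (by positivity : (0 : ℝ) ≤ (994 / 1000) ^ m)
    linarith
  · have a1 : ((2 * (2 * ⌈3 * W⌉₊) : ℕ) : ℝ) ≤ m := by push_cast at j2 ⊢; linarith
    exact (le_trans (by exact_mod_cast a1) (Nat.le_self_pow (by norm_num) m)).trans_lt hP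
  · have a1 := err_ok hm hP' h hV' (by linarith) w2 j2
    have a2 : (1 / 2 : ℝ) ^ (2 * ⌈3 * W⌉₊) * exp (2 * W) ≤ exp (-W) := by
      calc _ ≤ exp (-1) ^ ⌈3 * W⌉₊ * exp (2 * W) := by
            rw [pow_mul]; gcongr
            rw [exp_neg, le_inv_comm₀ (by norm_num) (exp_pos _)]; linarith [exp_one_lt_three]
        _ ≤ _ := by rw [← exp_nat_mul, ← exp_add, exp_le_exp]; linarith
    have a3 : exp (-W) ≤ exp (-(V / 2)) := by gcongr
    have a4 : exp (-V) ≤ exp (-(V / 2)) := by gcongr; linarith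
    linarith

theorem cover {ι I G : Type} [Fintype ι] [Fintype I] [AddCommGroup G] [Fintype G] {m : ℕ}
    (S : I → Finset (ι → ℤ)) (hS : ∀ i, Split (S i)) (hU : ∀ i, Uni G (S i)) {k : ℕ}
    (hk : ∀ i, (S i).card ≤ k) (A : I → (ι → ℤ) → Finset (Fin m → ℤ)) (V : I → (ι → ℤ) → ℝ)
    (hA : ∀ i, ∀ p ∈ S i, 𝔼 H : Fin m → G, 𝔼 τ : G, ind (∀ x ∈ A i p, ap H x ≠ τ)
      ≤ 3 * exp (-(V i p / 2))) {N v : ℝ} (hN : 1 ≤ N) (hN' : Fintype.card I * k ≤ N)
    (hv : ∀ i, v ≤ ∑ p ∈ S i, V i p) (h : Fintype.card G * ((6 * N ^ 2) ^ k * exp (-(v / 2))) < 1) :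
    ∃ (H : Fin m → G) (Φ : ι → G), ∀ i τ, ∃ p ∈ S i, ∃ a ∈ A i p, ap H a = τ - ap Φ p := by
  classical
  have hk' : ∀ i, ((S i).card : ℝ) ≤ k := fun i => by exact_mod_cast hk i
  obtain ⟨H, -, hH⟩ : ∃ H ∈ (univ : Finset (Fin m → G)), ∑ i, ∑ p ∈ S i,
      (𝔼 τ : G, ind (∀ x ∈ A i p, ap H x ≠ τ)) / (3 * exp (-(V i p / 2))) ≤ N := by
    refine exists_le_of_expect_le univ_nonempty (le_trans ?_ hN')
    rw [expect_sum_comm, ← card_univ, ← nsmul_eq_mul]
    refine sum_le_card_nsmul _ _ _ fun i _ => le_trans ?_ (hk' i)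
    rw [expect_sum_comm, ← mul_one ((S i).card : ℝ), ← nsmul_eq_mul]
    refine sum_le_card_nsmul _ _ _ fun p hp => ?_
    rw [← expect_div, div_le_one (by positivity)]
    exact hA i p hp
  have e0 : ∀ i p, 0 ≤ (𝔼 τ : G, ind (∀ x ∈ A i p, ap H x ≠ τ)) / (3 * exp (-(V i p / 2))) :=
    fun i p => div_nonneg (expect_nonneg fun _ _ => ind_nonneg _) (by positivity)
  have t := fun i => tree_markov (fun p τ => ind (∀ x ∈ A i p, ap H x ≠ τ)) (fun _ _ => ind_nonneg _)
    (fun p => N * (3 * exp (-(V i p / 2)))) (C := 2 * N) (by positivity) (S i) (hS i) (hU i)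
    fun p hp => ⟨by positivity, (div_le_iff₀ (by positivity)).1 ((single_le_sum
      (fun p _ => e0 i p) hp).trans ((single_le_sum (f := fun i => ∑ p ∈ S i, _)
        (fun i _ => sum_nonneg fun p _ => e0 i p) (mem_univ i)).trans hH))⟩
  obtain ⟨Φ, -, hΦ⟩ : ∃ Φ ∈ (univ : Finset (ι → G)), ∑ i, ind ((2 * N) ^ ((S i).card - 1) *
      ∏ p ∈ S i, N * (3 * exp (-(V i p / 2))) <
      𝔼 τ, ∏ p ∈ S i, ind (∀ x ∈ A i p, ap H x ≠ τ - ap Φ p)) < 1 := by
    refine exists_lt_of_expect_lt univ_nonempty ?_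
    rw [expect_sum_comm]
    refine (sum_le_card_nsmul _ _ (k / (2 * N)) fun i _ => (t i).trans ?_).trans_lt ?_
    · gcongr; exact (Nat.sub_le _ _).trans (hk i)
    · rw [nsmul_eq_mul, card_univ, ← mul_div_assoc, div_lt_one (by positivity)]; linarith
  refine ⟨H, Φ, fun i τ => ?_⟩
  by_contra hc
  push Not at hc
  have g0 : (0 : ℝ) < Fintype.card G := by exact_mod_cast Fintype.card_pos
  refine (((single_le_sum (fun i _ => ind_nonneg _) (mem_univ i)).trans_lt hΦ).ne (ind_pos ?_))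
  calc _ ≤ (2 * N) ^ (S i).card * ∏ p ∈ S i, N * (3 * exp (-(V i p / 2))) := by
        gcongr
        · linarith
        · exact Nat.sub_le _ _
    _ = (6 * N ^ 2) ^ (S i).card * exp (-((∑ p ∈ S i, V i p) / 2)) := by
        rw [prod_mul_distrib, prod_mul_distrib, ← exp_sum, prod_const, prod_const, sum_neg_distrib,
          ← sum_div, ← mul_assoc, ← mul_assoc, ← mul_pow, ← mul_pow]
        congr 2; ring
    _ ≤ (6 * N ^ 2) ^ k * exp (-(v / 2)) := by
        gcongr
        · nlinarith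
        · exact hk i
        · exact hv i
    _ < 1 / Fintype.card G := by rwa [lt_div_iff₀' g0]
    _ ≤ _ := by
        rw [Fintype.expect_eq_sum_div_card]
        gcongr
        refine le_trans (le_of_eq ?_) (single_le_sum
          (fun τ _ => prod_nonneg fun p _ => ind_nonneg _) (mem_univ τ))
        exact (prod_eq_one fun p hp => ind_pos (hc p hp)).symm

theorem exists_lattice {n : ℕ} {κ G : Type} [Fintype κ] [AddCommGroup G] [Fintype G]
    (b : Module.Basis κ ℝ (E n)) (χ : (κ → ℤ) →+ G) (hχ : Function.Surjective χ) :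
    ∃ (Λ : Submodule ℤ (E n)) (_ : DiscreteTopology Λ) (_ : IsZLattice ℝ Λ),
      ZLattice.covolume Λ = Fintype.card G * volume.real (ZSpan.fundamentalDomain b) ∧
      ∀ z, χ z = 0 → b.equivFun.symm (ic z) ∈ Λ := by
  classical
  let L := Submodule.span ℤ (Set.range b)
  let e := (b.restrictScalars ℤ).equivFun
  let φ : L →+ G := χ.comp e.toAddMonoidHom
  let Λ : Submodule ℤ (E n) := (AddSubgroup.toIntSubmodule φ.ker).map L.subtype
  have hΛ : Λ ≤ L := Submodule.map_subtype_le _ _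
  have hz : ∀ z, χ z = 0 → b.equivFun.symm (ic z) ∈ Λ := fun z hz =>
    ⟨e.symm z, by simpa [φ] using hz, by simp [e, ic, Int.cast_smul_eq_zsmul]⟩
  have i1 : DiscreteTopology Λ := DiscreteTopology.of_subset (s := (L : Set (E n)))
    (inferInstanceAs (DiscreteTopology L)) hΛ
  have i2 : IsZLattice ℝ Λ := ⟨by
    rw [eq_top_iff, ← b.span_eq, Submodule.span_le]
    rintro _ ⟨k, rfl⟩
    have h1 := hz (Fintype.card G • Pi.single k 1) (by rw [map_nsmul, card_nsmul_eq_zero])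
    have h2 : b k = (Fintype.card G : ℝ)⁻¹ • b.equivFun.symm (ic (Fintype.card G • Pi.single k 1)) := by
      simp [ic, Pi.single_apply, smul_smul]
    rw [h2]
    exact Submodule.smul_mem _ _ (Submodule.subset_span h1)⟩
  refine ⟨Λ, i1, i2, ?_, hz⟩
  have h1 := ZLattice.covolume_div_covolume_eq_relIndex' Λ L hΛ
  have h2 : Λ.toAddSubgroup.addSubgroupOf L.toAddSubgroup = φ.ker := by
    ext x
    simp only [AddSubgroup.mem_addSubgroupOf, Submodule.mem_toAddSubgroup, Λ, Submodule.mem_map]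
    exact ⟨fun ⟨y, hy, h⟩ => (Subtype.ext h : y = x) ▸ hy, fun h => ⟨x, h, rfl⟩⟩
  rw [div_eq_iff (ZLattice.covolume_pos L volume).ne', AddSubgroup.relIndex, h2] at h1
  rw [h1, ZLattice.covolume_eq_measure_fundamentalDomain L volume
    (ZSpan.isAddFundamentalDomain b volume)]
  congr 2
  refine (AddSubgroup.index_ker φ).trans ?_
  rw [AddMonoidHom.range_eq_top.2 (show Function.Surjective φ from hχ.comp e.surjective),
    AddSubgroup.card_top, Nat.card_eq_fintype_card]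

end

end Vale.Agent.P230
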