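import Vale.Agent.P230.Hole

/-! Random homomorphisms and binary-branching point sets. -/

open Finset
open scoped BigOperators

namespace Vale.Agent.P230

noncomputable section

variable {ι Γ : Type*} [Fintype ι] [DecidableEq ι] [AddCommGroup Γ] [Fintype Γ]

/-- the homomorphism `ℤ^ι → Γ` with columns `T` -/
def ap (T : ι → Γ) (p : ι → ℤ) : Γ := ∑ i, p i • T i

omit [Fintype Γ] in
lemma ap_single (T : ι → Γ) (i : ι) (x : Γ) (p : ι → ℤ) :
    ap (T + Pi.single i x) p = ap T p + p i • x := by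
  simp [ap, sum_add_distrib, Pi.single_apply]

lemma expect_sub_right (f : Γ → ℝ) (a : Γ) : 𝔼 x, f (x - a) = 𝔼 x, f x :=
  Fintype.expect_equiv (Equiv.subRight a) _ _ fun _ => rfl

lemma indep_pair (i : ι) (a b : ℤ) (hab : Function.Bijective fun x : Γ => (a - b) • x)
    (F0 F1 : Γ → (ι → Γ) → ℝ) (h0 : ∀ γ T x, F0 γ (T + Pi.single i x) = F0 (γ - a • x) T)
    (h1 : ∀ γ T x, F1 γ (T + Pi.single i x) = F1 (γ - b • x) T) :
    𝔼 T, 𝔼 γ, F0 γ T * F1 γ T = 𝔼 T, (𝔼 γ, F0 γ T) * 𝔼 γ, F1 γ T := by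
  calc _ = 𝔼 x : Γ, 𝔼 T : ι → Γ, 𝔼 γ, F0 γ (T + Pi.single i x) * F1 γ (T + Pi.single i x) := by
        simp_rw [expect_add_right (fun T => 𝔼 γ, F0 γ T * F1 γ T)]
        rw [Fintype.expect_const]
    _ = 𝔼 T : ι → Γ, 𝔼 x : Γ, 𝔼 γ, F0 γ T * F1 (γ + (a - b) • x) T := by
        rw [expect_comm]
        refine expect_congr rfl fun T _ => expect_congr rfl fun x _ => ?_
        rw [← expect_sub_right (fun γ => F0 γ T * F1 (γ + (a - b) • x) T) (a • x)]
        refine expect_congr rfl fun γ _ => ?_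
        rw [h0, h1]; congr 2; rw [sub_smul]; abel
    _ = _ := by
        refine expect_congr rfl fun T _ => ?_
        rw [expect_comm, expect_mul]
        refine expect_congr rfl fun γ _ => ?_
        rw [← mul_expect]
        congr 1
        rw [← expect_add_right (fun x => F1 x T) γ]
        exact Fintype.expect_bijective _ hab _ _ fun x => by rw [add_comm]

/-- every subset with two points splits into two classes along some coordinate -/
def Split (S : Finset (ι → ℤ)) : Prop :=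
  ∀ T ⊆ S, 1 < T.card → ∃ i a b, a ≠ b ∧ (∀ p ∈ T, p i = a ∨ p i = b) ∧
    (∃ p ∈ T, p i = a) ∧ ∃ p ∈ T, p i = b

/-- coordinate differences act invertibly -/
def Uni (Γ : Type*) [AddCommGroup Γ] (S : Finset (ι → ℤ)) : Prop :=
  ∀ p ∈ S, ∀ q ∈ S, ∀ i, p i ≠ q i → Function.Bijective fun x : Γ => (p i - q i) • x

omit [Fintype Γ] [DecidableEq ι] in
lemma split_step {S : Finset (ι → ℤ)} (hS : Split S) (hU : Uni Γ S) (h : 1 < S.card) :
    ∃ (S0 S1 : Finset (ι → ℤ)) (i : ι) (a b : ℤ), S = S0 ∪ S1 ∧ Disjoint S0 S1 ∧ S0.Nonempty ∧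
      S1.Nonempty ∧ (∀ p ∈ S0, p i = a) ∧ (∀ p ∈ S1, p i = b) ∧
      (Function.Bijective fun x : Γ => (a - b) • x) ∧
      (Function.Bijective fun x : Γ => (b - a) • x) ∧ Split S0 ∧ Split S1 ∧ Uni Γ S0 ∧
      Uni Γ S1 ∧ S.card = S0.card + S1.card := by
  obtain ⟨i, a, b, hab, h1, ⟨p, hp, hpa⟩, q, hq, hqb⟩ := hS S le_rfl h
  refine ⟨S.filter fun p => p i = a, S.filter fun p => ¬ p i = a, i, a, b,
    (filter_union_filter_not_eq _ _).symm, disjoint_filter_filter_not _ _ _,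
    ⟨p, mem_filter.2 ⟨hp, hpa⟩⟩, ⟨q, mem_filter.2 ⟨hq, by rw [hqb]; exact hab.symm⟩⟩,
    fun p hp => (mem_filter.1 hp).2,
    fun p hp => (h1 p (mem_filter.1 hp).1).resolve_left (mem_filter.1 hp).2, ?_, ?_,
    fun T hT => hS T (hT.trans (filter_subset _ _)),
    fun T hT => hS T (hT.trans (filter_subset _ _)),
    fun p hp q hq => hU p (mem_filter.1 hp).1 q (mem_filter.1 hq).1,
    fun p hp q hq => hU p (mem_filter.1 hp).1 q (mem_filter.1 hq).1,
    (card_filter_add_card_filter_not _).symm⟩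
  · simpa [hpa, hqb] using hU p hp q hq i (by rwa [hpa, hqb])
  · simpa [hpa, hqb] using hU q hq p hp i (by rw [hpa, hqb]; exact hab.symm)

theorem tree_markov (f : (ι → ℤ) → Γ → ℝ) (hf : ∀ p γ, 0 ≤ f p γ) (c : (ι → ℤ) → ℝ)
    {C : ℝ} (hC : 0 < C) (S : Finset (ι → ℤ)) (hS : Split S) (hU : Uni Γ S)
    (hc : ∀ p ∈ S, 0 < c p ∧ 𝔼 γ, f p γ ≤ c p) :
    𝔼 T : ι → Γ, ind (C ^ (S.card - 1) * ∏ p ∈ S, c p < 𝔼 γ, ∏ p ∈ S, f p (γ - ap T p))
      ≤ (S.card - 1 : ℕ) / C := by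
  induction hn : S.card using Nat.strong_induction_on generalizing S with
  | _ n ih =>
  subst hn
  rcases le_or_gt S.card 1 with h | h
  · refine le_trans (le_of_eq (expect_eq_zero fun T _ => ind_neg (not_lt.2 ?_))) (by positivity)
    rw [Nat.sub_eq_zero_of_le h, pow_zero, one_mul]
    rcases card_le_one_iff_subset_singleton.1 h with ⟨p, hp⟩
    rcases subset_singleton_iff.1 hp with rfl | rfl
    · simp
    · simp only [prod_singleton]
      rw [expect_sub_right (f p)]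
      exact (hc p (mem_singleton_self p)).2
  obtain ⟨S0, S1, i, a, b, rfl, hd, n0, n1, ha, hb, hab, -, s0, s1, u0, u1, hcard⟩ :=
    split_step hS hU h
  have p0 := n0.card_pos
  have p1 := n1.card_pos
  have i0 := ih _ (by omega) S0 s0 u0 (fun p hp => hc p (mem_union_left _ hp)) rfl
  have i1 := ih _ (by omega) S1 s1 u1 (fun p hp => hc p (mem_union_right _ hp)) rfl
  set B0 := C ^ (S0.card - 1) * ∏ p ∈ S0, c p with hB0
  set B1 := C ^ (S1.card - 1) * ∏ p ∈ S1, c p with hB1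
  have b0 : 0 < B0 := mul_pos (pow_pos hC _) (prod_pos fun p hp => (hc p (mem_union_left _ hp)).1)
  have b1 : 0 < B1 := mul_pos (pow_pos hC _) (prod_pos fun p hp => (hc p (mem_union_right _ hp)).1)
  let F : Finset (ι → ℤ) → Γ → (ι → Γ) → ℝ := fun S γ T => ∏ p ∈ S, f p (γ - ap T p)
  have hF : ∀ (S : Finset (ι → ℤ)) (a : ℤ), (∀ p ∈ S, p i = a) → ∀ γ T x,
      F S γ (T + Pi.single i x) = F S (γ - a • x) T := fun S a ha γ T x =>
    prod_congr rfl fun p hp => by rw [ap_single, ha p hp]; congr 1; abel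
  have hF' : ∀ (S : Finset (ι → ℤ)) (a : ℤ), (∀ p ∈ S, p i = a) → ∀ T x,
      𝔼 γ, F S γ (T + Pi.single i x) = 𝔼 γ, F S γ T := fun S a ha T x => by
    simp_rw [hF S a ha]
    exact expect_sub_right (fun γ => F S γ T) _
  have F0 : ∀ S T, 0 ≤ 𝔼 γ, F S γ T := fun S T =>
    expect_nonneg fun γ _ => prod_nonneg fun p _ => hf _ _
  let g : (ι → Γ) → ℝ := fun T => ind (𝔼 γ, F S0 γ T ≤ B0 ∧ 𝔼 γ, F S1 γ T ≤ B1)
  have key := indep_pair i a b hab (fun γ T => g T * F S0 γ T) (F S1)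
    (fun γ T x => by simp only [g]; rw [hF' S0 a ha, hF' S1 b hb, hF S0 a ha]) (hF S1 b hb)
  have k2 : 𝔼 T, 𝔼 γ, g T * F S0 γ T * F S1 γ T ≤ B0 * B1 := by
    rw [key]
    refine expect_le univ_nonempty fun T _ => ?_
    rw [← mul_expect]
    by_cases hg : 𝔼 γ, F S0 γ T ≤ B0 ∧ 𝔼 γ, F S1 γ T ≤ B1
    · simp only [g]
      rw [ind_pos hg, one_mul]
      exact mul_le_mul hg.1 hg.2 (F0 _ _) b0.le
    · simp only [g]
      rw [ind_neg hg, zero_mul, zero_mul]; positivity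
  have e1 : C ^ ((S0 ∪ S1).card - 1) * ∏ p ∈ S0 ∪ S1, c p = C * (B0 * B1) := by
    rw [prod_union hd, hcard, show S0.card + S1.card - 1 = (S0.card - 1) + (S1.card - 1) + 1 by
      omega, pow_succ, pow_add, hB0, hB1]
    ring
  have e2 : ((((S0 ∪ S1).card - 1 : ℕ) : ℝ)) / C
      = (S0.card - 1 : ℕ) / C + (S1.card - 1 : ℕ) / C + B0 * B1 / (C * (B0 * B1)) := by
    rw [hcard, show S0.card + S1.card - 1 = (S0.card - 1) + (S1.card - 1) + 1 by omega]
    push_cast; field_simp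
  rw [e1, e2]
  refine le_trans ?_ (add_le_add (add_le_add i0 i1)
    (div_le_div_of_nonneg_right k2 (by positivity)))
  rw [expect_div, ← expect_add_distrib, ← expect_add_distrib]
  refine expect_le_expect fun T _ => ?_
  have m0 := ind_nonneg (B0 < 𝔼 γ, F S0 γ T)
  have m1 := ind_nonneg (B1 < 𝔼 γ, F S1 γ T)
  have m2 : 0 ≤ (𝔼 γ, g T * F S0 γ T * F S1 γ T) / (C * (B0 * B1)) :=
    div_nonneg (expect_nonneg fun γ _ => mul_nonneg (mul_nonneg (ind_nonneg _)
      (prod_nonneg fun p _ => hf _ _)) (prod_nonneg fun p _ => hf _ _)) (by positivity)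
  have m3 := ind_le_one (C * (B0 * B1) < 𝔼 γ, ∏ p ∈ S0 ∪ S1, f p (γ - ap T p))
  change _ ≤ ind (B0 < 𝔼 γ, F S0 γ T) + ind (B1 < 𝔼 γ, F S1 γ T) + _
  by_cases a0 : B0 < 𝔼 γ, F S0 γ T
  · rw [ind_pos a0] at *; linarith
  by_cases a1 : B1 < 𝔼 γ, F S1 γ T
  · rw [ind_pos a1] at *; linarith
  by_cases a2 : C * (B0 * B1) < 𝔼 γ, ∏ p ∈ S0 ∪ S1, f p (γ - ap T p)
  · rw [ind_pos a2]
    have : 1 ≤ (𝔼 γ, g T * F S0 γ T * F S1 γ T) / (C * (B0 * B1)) := by
      rw [le_div_iff₀ (by positivity), one_mul]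
      simp only [g]
      rw [ind_pos ⟨not_lt.1 a0, not_lt.1 a1⟩]
      simp only [one_mul, F, ← prod_union hd]
      exact a2.le
    linarith
  · rw [ind_neg a2]; linarith

open Classical in
theorem tree_count (Bad : Γ → Prop) {δ : ℝ} (hδ : 𝔼 γ, ind (Bad γ) ≤ δ) (S : Finset (ι → ℤ))
    (hS : Split S) (hU : Uni Γ S) (k : ℕ) :
    𝔼 T : ι → Γ, 𝔼 γ, ind (2 ^ k ≤ (S.filter fun p => Bad (γ - ap T p)).card)
      ≤ (S.card * δ) ^ (k + 1) := by
  have hδ0 : 0 ≤ δ := (expect_nonneg fun _ _ => ind_nonneg _).trans hδ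
  have one : ∀ (S : Finset (ι → ℤ)) (T : ι → Γ),
      𝔼 γ, ind (1 ≤ (S.filter fun p => Bad (γ - ap T p)).card) ≤ S.card * δ := by
    intro S T
    calc _ ≤ 𝔼 γ, ∑ p ∈ S, ind (Bad (γ - ap T p)) := by
          refine expect_le_expect fun γ _ => (ind_mono fun h => ?_).trans (ind_exists_le _ _)
          obtain ⟨p, hp⟩ := card_pos.1 h
          exact ⟨p, mem_filter.1 hp⟩
      _ ≤ _ := by
          rw [expect_sum_comm, ← nsmul_eq_mul]
          exact sum_le_card_nsmul _ _ _ fun p _ => by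
            rw [expect_sub_right fun γ => ind (Bad γ)]; exact hδ
  induction hn : S.card using Nat.strong_induction_on generalizing S k with
  | _ n ih =>
  subst hn
  rcases k with _ | k
  · simpa using expect_le univ_nonempty fun T _ => one S T
  rcases le_or_gt S.card 1 with h | h
  · refine le_trans (le_of_eq (expect_eq_zero fun T _ => expect_eq_zero fun γ _ =>
      ind_neg (not_le.2 ?_))) (by positivity)
    exact ((card_filter_le _ _).trans h).trans_lt (Nat.one_lt_two_pow (by omega))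
  obtain ⟨S0, S1, i, a, b, rfl, hd, n0, n1, ha, hb, hab, hba, s0, s1, u0, u1, hcard⟩ :=
    split_step hS hU h
  have p0 := n0.card_pos
  have p1 := n1.card_pos
  let F : Finset (ι → ℤ) → ℕ → Γ → (ι → Γ) → ℝ := fun S r γ T =>
    ind (r ≤ (S.filter fun p => Bad (γ - ap T p)).card)
  have hF : ∀ (S : Finset (ι → ℤ)) (r : ℕ) (a : ℤ), (∀ p ∈ S, p i = a) → ∀ γ T x,
      F S r γ (T + Pi.single i x) = F S r (γ - a • x) T := fun S r a ha γ T x => by
    simp only [F]
    congr 3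
    exact filter_congr fun p hp => by rw [ap_single, ha p hp, sub_sub, add_comm]
  have mix : ∀ (S S' : Finset (ι → ℤ)) (a b : ℤ), (∀ p ∈ S, p i = a) → (∀ p ∈ S', p i = b) →
      (Function.Bijective fun x : Γ => (a - b) • x) →
      𝔼 T, 𝔼 γ, F S (2 ^ k) γ T ≤ (S.card * δ) ^ (k + 1) →
      𝔼 T, 𝔼 γ, F S (2 ^ k) γ T * F S' 1 γ T ≤ (S.card * δ) ^ (k + 1) * (S'.card * δ) := by
    intro S S' a b ha hb hab h
    rw [indep_pair i a b hab _ _ (hF S _ a ha) (hF S' _ b hb)]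
    refine le_trans ?_ (mul_le_mul_of_nonneg_right h (by positivity))
    rw [expect_mul]
    exact expect_le_expect fun T _ => mul_le_mul_of_nonneg_left (one S' T)
      (expect_nonneg fun _ _ => ind_nonneg _)
  have i0 := ih _ (by omega) S0 s0 u0 (k + 1) rfl
  have i1 := ih _ (by omega) S1 s1 u1 (k + 1) rfl
  have j0 := mix S0 S1 a b ha hb hab (ih _ (by omega) S0 s0 u0 k rfl)
  have j1 := mix S1 S0 b a hb ha hba (ih _ (by omega) S1 s1 u1 k rfl)
  refine le_trans ?_ ((add_le_add (add_le_add i0 i1) (add_le_add j0 j1)).trans ?_)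
  · simp only [← expect_add_distrib]
    refine expect_le_expect fun T _ => expect_le_expect fun γ _ => ?_
    simp only [F, ← ind_and]
    refine le_trans (ind_mono fun h => ?_) ((ind_or_le _ _).trans
      (add_le_add (ind_or_le _ _) (ind_or_le _ _)))
    rw [filter_union, card_union_of_disjoint (disjoint_filter_filter hd), pow_succ] at h
    rw [pow_succ]
    omega
  · have := pow_add_pow_le (x := (S0.card : ℝ) * δ) (y := S1.card * δ) (n := k + 1)
      (by positivity) (by positivity) (by omega)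
    have h2 := mul_le_mul_of_nonneg_right this
      (by positivity : 0 ≤ (S0.card : ℝ) * δ + S1.card * δ)
    rw [hcard]
    push_cast
    rw [add_mul, pow_succ _ (k + 1), pow_succ _ (k + 1), pow_succ _ (k + 1)]
    linarith

theorem tree_var (S : Finset (ι → ℤ)) (hU : Uni Γ S) (θ : (ι → ℤ) → ℝ) {w M : ℝ}
    (hθ : ∀ p ∈ S, 0 ≤ θ p ∧ θ p ≤ w) (F : Γ → ℝ) (hF : ∀ γ, 0 ≤ F γ ∧ F γ ≤ M)
    (hF1 : 𝔼 γ, F γ ≤ 1) :
    𝔼 T : ι → Γ, 𝔼 γ, (∑ p ∈ S, θ p * (F (γ - ap T p) - 𝔼 x, F x)) ^ 2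
      ≤ w * M * ∑ p ∈ S, θ p := by
  set μ := 𝔼 x, F x with hμ
  have hM : 0 ≤ M := (hF 0).1.trans (hF 0).2
  have h0 : ∀ a, 𝔼 γ, (F (γ - a) - μ) = 0 := fun a => by
    rw [expect_sub_distrib, expect_sub_right F, Fintype.expect_const, sub_self]
  have h1 : ∀ a, 𝔼 γ, (F (γ - a) - μ) * (F (γ - a) - μ) ≤ M := fun a => by
    rw [expect_sub_right fun γ => (F γ - μ) * (F γ - μ)]
    have e : ∀ γ, (F γ - μ) * (F γ - μ) ≤ M * F γ - 2 * μ * F γ + μ ^ 2 := fun γ => by
      nlinarith [hF γ]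
    refine (expect_le_expect fun γ _ => e γ).trans ?_
    rw [expect_add_distrib, expect_sub_distrib, ← mul_expect, ← mul_expect, Fintype.expect_const,
      ← hμ]
    nlinarith [sq_nonneg μ]
  simp_rw [sq, sum_mul_sum, expect_sum_comm, mul_sum]
  refine sum_le_sum fun p hp => ?_
  rw [sum_eq_single_of_mem p hp]
  · refine expect_le univ_nonempty fun T _ => ?_
    simp_rw [mul_mul_mul_comm (θ p)]
    rw [← mul_expect]
    obtain ⟨a1, a2⟩ := hθ p hp
    calc _ ≤ θ p * θ p * M := mul_le_mul_of_nonneg_left (h1 _) (by positivity)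
      _ ≤ w * θ p * M := by gcongr
      _ = _ := by ring
  · intro q hq hqp
    obtain ⟨i, hi⟩ := Function.ne_iff.1 hqp.symm
    rw [indep_pair i (p i) (q i) (hU p hp q hq i hi)
      (fun γ T => θ p * (F (γ - ap T p) - μ)) (fun γ T => θ q * (F (γ - ap T q) - μ))
      (fun γ T x => by rw [ap_single, sub_sub, add_comm])
      (fun γ T x => by rw [ap_single, sub_sub, add_comm])]
    simp_rw [← mul_expect, h0]
    simp

end

end Vale.Agent.P230
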