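import Vale.Agent.P230.Janson

/-! Random tuples and the overlap estimates that feed Janson's inequality. -/

namespace Vale.Agent.P230

open Finset Function

noncomputable section

variable {ι Ω : Type*} [Fintype ι] [DecidableEq ι] [Fintype Ω] [DecidableEq Ω]

/-- expectation over a random tuple with independent coordinates -/
def TEx (a : ι → Ω → ℝ) (F : (ι → Ω) → ℝ) : ℝ := ∑ f : ι → Ω, (∏ i, a i (f i)) * F f

/-- each coordinate law is a probability vector -/
def PV (a : ι → Ω → ℝ) : Prop := (∀ i ω, 0 ≤ a i ω) ∧ ∀ i, ∑ ω, a i ω = 1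

omit [DecidableEq Ω] in
lemma TEx_mono {a : ι → Ω → ℝ} (ha : PV a) {F G : (ι → Ω) → ℝ} (h : ∀ f, F f ≤ G f) :
    TEx a F ≤ TEx a G :=
  sum_le_sum fun f _ => mul_le_mul_of_nonneg_left (h f) (prod_nonneg fun i _ => ha.1 i _)

omit [DecidableEq Ω] in
lemma TEx_const {a : ι → Ω → ℝ} (ha : PV a) (c : ℝ) : TEx a (fun _ => c) = c := by
  unfold TEx
  rw [← sum_mul, ← Fintype.piFinset_univ, ← prod_univ_sum]
  simp [ha.2]

omit [DecidableEq Ω] in
lemma TEx_add (a : ι → Ω → ℝ) (F G : (ι → Ω) → ℝ) :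
    TEx a (fun f => F f + G f) = TEx a F + TEx a G := by
  simp [TEx, mul_add, sum_add_distrib]

omit [DecidableEq Ω] in
lemma TEx_sum {κ : Type*} (s : Finset κ) (a : ι → Ω → ℝ) (F : κ → (ι → Ω) → ℝ) :
    TEx a (fun f => ∑ k ∈ s, F k f) = ∑ k ∈ s, TEx a (F k) := by
  simp only [TEx, mul_sum]; exact sum_comm

omit [DecidableEq Ω] in
lemma TEx_const_mul (a : ι → Ω → ℝ) (c : ℝ) (F : (ι → Ω) → ℝ) :
    TEx a (fun f => c * F f) = c * TEx a F := by
  simp [TEx, mul_sum, mul_left_comm]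

omit [DecidableEq Ω] in
lemma TEx_factor {a : ι → Ω → ℝ} (ha : PV a) (i : ι) (φ : Ω → ℝ) (H : (ι → Ω) → ℝ)
    (hH : ∀ f ω, H (update f i ω) = H f) :
    TEx a (fun f => φ (f i) * H f) = (∑ ω, a i ω * φ ω) * TEx a H := by
  let σ : (ι → Ω) × Ω ≃ (ι → Ω) × Ω := Function.Involutive.toPerm
    (fun x => (update x.1 i x.2, x.1 i)) (by rintro ⟨f, ω⟩; simp)
  have h1 : TEx a (fun f => φ (f i) * H f)
      = ∑ x : (ι → Ω) × Ω, (∏ j, a j (x.1 j)) * a i x.2 * (φ (x.1 i) * H x.1) := by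
    rw [Fintype.sum_prod_type]
    refine sum_congr rfl fun f _ => ?_
    simp only
    rw [← sum_mul, ← mul_sum, ha.2, mul_one]
  have h2 : (∑ ω, a i ω * φ ω) * TEx a H
      = ∑ x : (ι → Ω) × Ω, (∏ j, a j (x.1 j)) * a i x.2 * (φ x.2 * H x.1) := by
    rw [Fintype.sum_prod_type, TEx, mul_sum]
    refine sum_congr rfl fun f _ => ?_
    rw [sum_mul]
    refine sum_congr rfl fun ω _ => ?_
    ring
  rw [h1, h2, ← Equiv.sum_comp σ]
  refine sum_congr rfl fun x _ => ?_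
  obtain ⟨f, ω⟩ := x
  have hσ : σ (f, ω) = (update f i ω, f i) := rfl
  simp only [hσ, update_self, hH]
  congr 1
  rw [← mul_prod_erase univ _ (mem_univ i), ← mul_prod_erase univ (fun j => a j (f j)) (mem_univ i),
    update_self]
  have : ∏ x ∈ univ.erase i, a x (update f i ω x) = ∏ x ∈ univ.erase i, a x (f x) :=
    prod_congr rfl fun j hj => by rw [update_of_ne (ne_of_mem_erase hj)]
  rw [this]; ring

/-- the likelihood ratio of two tuples -/
def Psi (p : Ω → ℝ) (I I' : Finset ι) (f f' : ι → Ω) : ℝ :=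
  ∏ ω ∈ I.image f ∩ I'.image f', (p ω)⁻¹

def MM (p : Ω → ℝ) (a a' : ι → Ω → ℝ) (I I' : Finset ι) : ℝ :=
  TEx a fun f => TEx a' fun f' => Psi p I I' f f'

def Ov (p : Ω → ℝ) (a a' : ι → Ω → ℝ) (I I' : Finset ι) : ℝ :=
  TEx a fun f => TEx a' fun f' => ind (¬ Disjoint (I.image f) (I'.image f')) * Psi p I I' f f'

def rho (p : Ω → ℝ) (a a' : ι → Ω → ℝ) (i k : ι) : ℝ := ∑ ω, a i ω * (a' k ω * (p ω)⁻¹)

omit [Fintype ι] [Fintype Ω] in
lemma image_update_notMem {I : Finset ι} {i : ι} (hi : i ∉ I) (f : ι → Ω) (ω : Ω) :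
    I.image (update f i ω) = I.image f :=
  image_congr fun j hj => update_of_ne (by rintro rfl; exact hi hj) _ _

lemma cross_term {p : Ω → ℝ} {a a' : ι → Ω → ℝ} (ha : PV a) (ha' : PV a') {I I' : Finset ι}
    {i k : ι} (hi : i ∉ I) (hk : k ∉ I') :
    TEx a (fun f => TEx a' fun f' => ind (f i = f' k) * (p (f i))⁻¹ * Psi p I I' f f')
      = rho p a a' i k * MM p a a' I I' := by
  have h1 : ∀ f : ι → Ω, TEx a' (fun f' => ind (f i = f' k) * (p (f i))⁻¹ * Psi p I I' f f')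
      = (a' k (f i) * (p (f i))⁻¹) * TEx a' fun f' => Psi p I I' f f' := by
    intro f
    rw [TEx_factor ha' k (fun ω => ind (f i = ω) * (p (f i))⁻¹) (fun f' => Psi p I I' f f')
      (fun f' ω => by simp only [Psi, image_update_notMem hk])]
    congr 1
    rw [sum_eq_single (f i)]
    · simp
    · intro b _ hb; rw [ind_neg (Ne.symm hb)]; simp
    · simp
  simp only [h1]
  exact TEx_factor ha i (fun ω => a' k ω * (p ω)⁻¹) (fun f => TEx a' fun f' => Psi p I I' f f')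
    (fun f ω => by simp only [Psi, image_update_notMem hi])

omit [Fintype ι] [Fintype Ω] [DecidableEq ι] in
lemma Psi_nonneg {p : Ω → ℝ} (hp : ∀ ω, 0 < p ω) (I I' : Finset ι) (f f' : ι → Ω) :
    0 ≤ Psi p I I' f f' := prod_nonneg fun ω _ => inv_nonneg.2 (hp ω).le

omit [Fintype ι] [Fintype Ω] in
lemma step_cases {p : Ω → ℝ} (hp : ∀ ω, 0 < p ω) (I I' : Finset ι) (i : ι) (f f' : ι → Ω) :
    (insert i I).image f ∩ I'.image f' = I.image f ∩ I'.image f' ∨
      Psi p (insert i I) I' f f' ≤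
        ∑ k ∈ I', ind (f i = f' k) * (p (f i))⁻¹ * Psi p I (I'.erase k) f f' := by
  by_cases h1 : f i ∈ I.image f
  · left; rw [image_insert, insert_eq_of_mem h1]
  by_cases h2 : f i ∈ I'.image f'
  swap
  · left; rw [image_insert, insert_inter_of_notMem h2]
  right
  obtain ⟨k, hk, hk'⟩ := mem_image.1 h2
  refine le_trans (le_of_eq ?_) (single_le_sum (f := fun k => ind (f i = f' k) * (p (f i))⁻¹
    * Psi p I (I'.erase k) f f') (fun k _ => mul_nonneg (mul_nonneg (ind_nonneg _)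
      (inv_nonneg.2 (hp _).le)) (Psi_nonneg hp _ _ _ _)) hk)
  rw [ind_pos hk'.symm, one_mul, Psi, Psi, image_insert, insert_inter_of_mem h2,
    prod_insert (fun h => h1 (mem_inter.1 h).1)]
  congr 2
  ext ω
  simp only [mem_inter, mem_image, mem_erase]
  constructor
  · rintro ⟨⟨j, hj, rfl⟩, k', hk1, hk2⟩
    refine ⟨⟨j, hj, rfl⟩, k', ⟨?_, hk1⟩, hk2⟩
    rintro rfl
    exact h1 (mem_image.2 ⟨j, hj, by rw [← hk2, hk']⟩)
  · rintro ⟨h, k', ⟨_, hk1⟩, hk2⟩
    exact ⟨h, k', hk1, hk2⟩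

lemma MM_step {p : Ω → ℝ} (hp : ∀ ω, 0 < p ω) {a a' : ι → Ω → ℝ} (ha : PV a) (ha' : PV a')
    {I : Finset ι} (I' : Finset ι) {i : ι} (hi : i ∉ I) :
    MM p a a' (insert i I) I' ≤
      MM p a a' I I' + ∑ k ∈ I', rho p a a' i k * MM p a a' I (I'.erase k) := by
  have h : ∀ k ∈ I', rho p a a' i k * MM p a a' I (I'.erase k) = TEx a (fun f => TEx a' fun f' =>
      ind (f i = f' k) * (p (f i))⁻¹ * Psi p I (I'.erase k) f f') := fun k _ =>
    (cross_term ha ha' hi (notMem_erase k I')).symm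
  rw [sum_congr rfl h, MM, MM, ← TEx_sum, ← TEx_add]
  refine TEx_mono ha fun f => ?_
  rw [← TEx_sum, ← TEx_add]
  refine TEx_mono ha' fun f' => ?_
  have h0 : 0 ≤ ∑ k ∈ I', ind (f i = f' k) * (p (f i))⁻¹ * Psi p I (I'.erase k) f f' :=
    sum_nonneg fun k _ => mul_nonneg (mul_nonneg (ind_nonneg _)
      (inv_nonneg.2 (hp _).le)) (Psi_nonneg hp _ _ _ _)
  rcases step_cases hp I I' i f f' with h | h
  · have : Psi p (insert i I) I' f f' = Psi p I I' f f' := by rw [Psi, h, Psi]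
    linarith
  · linarith [Psi_nonneg hp I I' f f']

lemma Ov_step {p : Ω → ℝ} (hp : ∀ ω, 0 < p ω) {a a' : ι → Ω → ℝ} (ha : PV a) (ha' : PV a')
    {I : Finset ι} (I' : Finset ι) {i : ι} (hi : i ∉ I) :
    Ov p a a' (insert i I) I' ≤
      Ov p a a' I I' + ∑ k ∈ I', rho p a a' i k * MM p a a' I (I'.erase k) := by
  have h : ∀ k ∈ I', rho p a a' i k * MM p a a' I (I'.erase k) = TEx a (fun f => TEx a' fun f' =>
      ind (f i = f' k) * (p (f i))⁻¹ * Psi p I (I'.erase k) f f') := fun k _ =>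
    (cross_term ha ha' hi (notMem_erase k I')).symm
  rw [sum_congr rfl h, Ov, Ov, ← TEx_sum, ← TEx_add]
  refine TEx_mono ha fun f => ?_
  rw [← TEx_sum, ← TEx_add]
  refine TEx_mono ha' fun f' => ?_
  have h0 : 0 ≤ ∑ k ∈ I', ind (f i = f' k) * (p (f i))⁻¹ * Psi p I (I'.erase k) f f' :=
    sum_nonneg fun k _ => mul_nonneg (mul_nonneg (ind_nonneg _)
      (inv_nonneg.2 (hp _).le)) (Psi_nonneg hp _ _ _ _)
  rcases step_cases hp I I' i f f' with h | h
  · have h1 : Psi p (insert i I) I' f f' = Psi p I I' f f' := by rw [Psi, h, Psi]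
    have h2 : ind (¬ Disjoint ((insert i I).image f) (I'.image f'))
        = ind (¬ Disjoint (I.image f) (I'.image f')) :=
      ind_congr (by rw [disjoint_iff_inter_eq_empty, disjoint_iff_inter_eq_empty, h])
    rw [h1, h2]
    linarith
  · have h1 := mul_le_of_le_one_left (Psi_nonneg hp (insert i I) I' f f')
      (ind_le_one (¬ Disjoint ((insert i I).image f) (I'.image f')))
    have h2 := mul_nonneg (ind_nonneg (¬ Disjoint (I.image f) (I'.image f')))
      (Psi_nonneg hp I I' f f')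
    linarith

lemma MM_empty {p : Ω → ℝ} {a a' : ι → Ω → ℝ} (ha : PV a) (ha' : PV a') (I' : Finset ι) :
    MM p a a' ∅ I' = 1 := by
  simp [MM, Psi, TEx_const ha, TEx_const ha']

lemma Ov_empty {p : Ω → ℝ} {a a' : ι → Ω → ℝ} (ha : PV a) (ha' : PV a') (I' : Finset ι) :
    Ov p a a' ∅ I' = 0 := by
  simp [Ov, ind_neg, TEx_const ha, TEx_const ha']

lemma Ov_le_MM {p : Ω → ℝ} (hp : ∀ ω, 0 < p ω) {a a' : ι → Ω → ℝ} (ha : PV a) (ha' : PV a')
    (I I' : Finset ι) : Ov p a a' I I' ≤ MM p a a' I I' :=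
  TEx_mono ha fun f => TEx_mono ha' fun f' =>
    mul_le_of_le_one_left (Psi_nonneg hp I I' f f') (ind_le_one _)

omit [Fintype ι] [DecidableEq ι] [DecidableEq Ω] in
lemma rho_nonneg {p : Ω → ℝ} (hp : ∀ ω, 0 < p ω) {a a' : ι → Ω → ℝ} (ha : PV a) (ha' : PV a')
    (i k : ι) : 0 ≤ rho p a a' i k :=
  sum_nonneg fun _ _ => mul_nonneg (ha.1 _ _) (mul_nonneg (ha'.1 _ _) (inv_nonneg.2 (hp _).le))

/-- the bound valid for all pairs -/
lemma MM_near {p : Ω → ℝ} (hp : ∀ ω, 0 < p ω) {a a' : ι → Ω → ℝ} (ha : PV a) (ha' : PV a')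
    (I0 I0' : Finset ι) (K : ι → ι → ℝ) (L L' : ι → ℝ) (C : ℝ) (hC0 : 0 ≤ C)
    (hK0 : ∀ i k, 0 ≤ K i k)
    (hL : ∀ i ∈ I0, 1 ≤ L i) (hL' : ∀ k ∈ I0', 1 ≤ L' k)
    (hρ : ∀ i ∈ I0, ∀ k ∈ I0', rho p a a' i k ≤ K i k * L i * L' k)
    (hC : ∀ i ∈ I0, ∑ k ∈ I0', K i k ≤ C) (I : Finset ι) (hI : I ⊆ I0) :
    ∀ I' ⊆ I0', MM p a a' I I' ≤ (1 + C) ^ I.card * (∏ i ∈ I, L i) * ∏ k ∈ I', L' k := by
  induction I using Finset.induction_on with
  | empty =>
    intro I' hI'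
    rw [MM_empty ha ha']
    simpa using Finset.one_le_prod fun k hk => hL' k (hI' hk)
  | insert i I hi ih =>
    intro I' hI'
    have hiI : i ∈ I0 := hI (mem_insert_self _ _)
    have hII : I ⊆ I0 := (subset_insert _ _).trans hI
    have ih' := ih hII
    have hB : 0 ≤ (1 + C) ^ I.card * ∏ i ∈ I, L i :=
      mul_nonneg (by positivity) (prod_nonneg fun j hj => by linarith [hL j (hII hj)])
    have hP' : 0 ≤ ∏ k ∈ I', L' k := prod_nonneg fun j hj => by linarith [hL' j (hI' hj)]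
    have hLi := hL i hiI
    refine (MM_step hp ha ha' I' hi).trans ?_
    have h1 : ∑ k ∈ I', rho p a a' i k * MM p a a' I (I'.erase k)
        ≤ ∑ k ∈ I', K i k * (L i * ((1 + C) ^ I.card * (∏ i ∈ I, L i) * ∏ k ∈ I', L' k)) := by
      refine sum_le_sum fun k hk => ?_
      have h2 := ih' (I'.erase k) ((erase_subset _ _).trans hI')
      have h3 := hρ i hiI k (hI' hk)
      have hLk := hL' k (hI' hk)
      have h4 : 0 ≤ MM p a a' I (I'.erase k) := by
        have := TEx_mono ha (F := fun _ => 0) (G := fun f => TEx a' fun f' =>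
          Psi p I (I'.erase k) f f') fun f => by
            have := TEx_mono ha' (F := fun _ => 0) (G := fun f' => Psi p I (I'.erase k) f f')
              fun f' => Psi_nonneg hp _ _ _ _
            rwa [TEx_const ha'] at this
        rwa [TEx_const ha] at this
      refine (mul_le_mul h3 h2 h4 (by have := hK0 i k; positivity)).trans (le_of_eq ?_)
      rw [← mul_prod_erase I' L' hk]; ring
    rw [← sum_mul] at h1
    have h5 : ∑ k ∈ I', K i k ≤ C :=
      (sum_le_sum_of_subset_of_nonneg hI' fun k _ _ => hK0 i k).trans (hC i hiI)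
    have h6 := ih' I' hI'
    rw [card_insert_of_notMem hi, prod_insert hi, pow_succ]
    set Q := (1 + C) ^ I.card * (∏ i ∈ I, L i) * ∏ k ∈ I', L' k with hQ
    have hQ0 : 0 ≤ Q := mul_nonneg hB hP'
    have h7 : (∑ k ∈ I', K i k) * (L i * Q) ≤ C * (L i * Q) :=
      mul_le_mul_of_nonneg_right h5 (by positivity)
    have h8 : Q ≤ L i * Q := le_mul_of_one_le_left hQ0 hLi
    calc _ ≤ L i * Q + C * (L i * Q) := by linarith
      _ = _ := by rw [hQ]; ring

lemma MM_far {p : Ω → ℝ} (hp : ∀ ω, 0 < p ω) {a a' : ι → Ω → ℝ} (ha : PV a) (ha' : PV a')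
    (I0' : Finset ι) (I : Finset ι) :
    ∀ I' ⊆ I0', MM p a a' I I' ≤ Real.exp (∑ i ∈ I, ∑ k ∈ I0', rho p a a' i k) := by
  induction I using Finset.induction_on with
  | empty => intro I' _; rw [MM_empty ha ha']; simp
  | insert i I hi ih =>
    intro I' hI'
    refine (MM_step hp ha ha' I' hi).trans ?_
    set Q := Real.exp (∑ i ∈ I, ∑ k ∈ I0', rho p a a' i k) with hQ
    have h1 : ∑ k ∈ I', rho p a a' i k * MM p a a' I (I'.erase k) ≤ ∑ k ∈ I', rho p a a' i k * Q :=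
      sum_le_sum fun k _ => mul_le_mul_of_nonneg_left (ih _ ((erase_subset _ _).trans hI'))
        (rho_nonneg hp ha ha' i k)
    rw [← sum_mul] at h1
    have h2 : ∑ k ∈ I', rho p a a' i k ≤ ∑ k ∈ I0', rho p a a' i k :=
      sum_le_sum_of_subset_of_nonneg hI' fun k _ _ => rho_nonneg hp ha ha' i k
    have hQ0 : 0 ≤ Q := (Real.exp_pos _).le
    have h3 := mul_le_mul_of_nonneg_right h2 hQ0
    have h4 := mul_le_mul_of_nonneg_right (Real.add_one_le_exp (∑ k ∈ I0', rho p a a' i k)) hQ0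
    rw [sum_insert hi, Real.exp_add, ← hQ]
    linarith [ih I' hI']

/-- the bound for far pairs -/
lemma Ov_far {p : Ω → ℝ} (hp : ∀ ω, 0 < p ω) {a a' : ι → Ω → ℝ} (ha : PV a) (ha' : PV a')
    (I0 I' : Finset ι) (I : Finset ι) (hI : I ⊆ I0) :
    Ov p a a' I I' ≤ (∑ i ∈ I, ∑ k ∈ I', rho p a a' i k) *
      Real.exp (∑ i ∈ I0, ∑ k ∈ I', rho p a a' i k) := by
  induction I using Finset.induction_on with
  | empty => rw [Ov_empty ha ha']; simp
  | insert i I hi ih =>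
    have hII : I ⊆ I0 := (subset_insert _ _).trans hI
    refine (Ov_step hp ha ha' I' hi).trans ?_
    set Q := Real.exp (∑ i ∈ I0, ∑ k ∈ I', rho p a a' i k) with hQ
    have h1 : ∑ k ∈ I', rho p a a' i k * MM p a a' I (I'.erase k) ≤ ∑ k ∈ I', rho p a a' i k * Q := by
      refine sum_le_sum fun k _ => mul_le_mul_of_nonneg_left ?_ (rho_nonneg hp ha ha' i k)
      refine (MM_far hp ha ha' I' I _ (erase_subset _ _)).trans (Real.exp_le_exp.2 ?_)
      exact sum_le_sum_of_subset_of_nonneg hII fun j _ _ =>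
        sum_nonneg fun k _ => rho_nonneg hp ha ha' j k
    rw [← sum_mul] at h1
    rw [sum_insert hi, add_mul]
    linarith [ih hII]

end

end Vale.Agent.P230
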