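import Vale.Agent.P230.Block

/-! The vertical lattice: a tower of blocks with rapidly growing dimensions. -/

open Finset Real
open scoped BigOperators

namespace Vale.Agent.P230

noncomputable section

lemma ee2 {t : ℝ} (ht : 10 ^ 7 ≤ t) (a b : ℝ) (h : a + 1 / 100 ≤ b) :
    10 ^ 4 * (t ^ 2 * exp (a * t)) ≤ exp (b * t) := by
  have h1 := Real.pow_div_factorial_le_exp (t / 100) (by linarith) 4
  have h2 : 10 ^ 4 * t ^ 2 ≤ exp (t / 100) := by
    refine le_trans ?_ h1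
    have : 10 ^ 14 ≤ t ^ 2 := by nlinarith
    norm_num [Nat.factorial]
    nlinarith
  calc _ = 10 ^ 4 * t ^ 2 * exp (a * t) := by ring
    _ ≤ exp (t / 100) * exp (a * t) := by gcongr
    _ ≤ _ := by rw [← exp_add]; gcongr; nlinarith

lemma ee1 {t : ℝ} (ht : 10 ^ 7 ≤ t) (a b : ℝ) (h : a + 1 / 100 ≤ b) :
    10 ^ 4 * (t * exp (a * t)) ≤ exp (b * t) :=
  le_trans (by gcongr; nlinarith) (ee2 ht a b h)

lemma ee0 {t : ℝ} (ht : 10 ^ 7 ≤ t) (a b : ℝ) (h : a + 1 / 100 ≤ b) :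
    10 ^ 4 * exp (a * t) ≤ exp (b * t) :=
  le_trans (by have := exp_pos (a * t); nlinarith) (ee1 ht a b h)

lemma eet {t : ℝ} (ht : 10 ^ 7 ≤ t) (b : ℝ) (h : 0 + 1 / 100 ≤ b) :
    10 ^ 4 * t ≤ exp (b * t) := by simpa using ee1 ht 0 b h

lemma emul (a b c t : ℝ) (h : a + b = c) :
    exp (a * t) * exp (b * t) = exp (c * t) := by rw [← exp_add, ← add_mul, h]

/-- small integers act invertibly -/
def Tf (Γ : Type) [AddCommGroup Γ] (r : ℝ) : Prop :=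
  ∀ q : ℕ, 0 < q → q < r → Function.Bijective fun x : Γ => (q : ℤ) • x

lemma lev_block {t : ℝ} (ht : 10 ^ 7 ≤ t) : ∃ (Q D : ℕ) (g : ℝ) (Γ : Type) (_ : AddCommGroup Γ)
    (_ : Fintype Γ), 0 < Q ∧ Q ≤ 4 * exp (12 * t) ∧ D ≤ 2 * exp (10 * t) ∧ (0 < g ∧ g ≤ 1) ∧
    g * Q = √(24 * t) ∧ Fintype.card Γ ≤ exp (exp (10.1 * t)) ∧ Tf Γ (exp (12 * t)) ∧
    Nonempty (Block Q D Γ g (exp (exp (7.2 * t))) (exp (-exp (6.8 * t))) (exp (exp (6.1 * t)))
      (exp (-1.5 * t)) (exp (exp (-1 * t)))) := by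
  have e12 := eet ht 12 (by norm_num)
  have e10 := eet ht 10 (by norm_num)
  obtain ⟨Q, hQ, q1, q2⟩ := Nat.exists_prime_lt_and_le_two_mul ⌈exp (12 * t)⌉₊
    (Nat.ceil_pos.2 (exp_pos _)).ne'
  have := Fact.mk hQ
  have q3 : exp (12 * t) ≤ Q := (Nat.le_ceil _).trans (by exact_mod_cast q1.le)
  have q4 : Q ≤ 4 * exp (12 * t) := by
    have a1 : (Q : ℝ) ≤ 2 * ⌈exp (12 * t)⌉₊ := by exact_mod_cast q2
    linarith [Nat.ceil_lt_add_one (exp_pos (12 * t)).le]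
  have q0 : (0 : ℝ) < Q := by linarith
  have q5 : Q ≤ exp (13 * t) := by linarith [ee0 ht 12 13 (by norm_num), exp_pos (12 * t)]
  have q6 : log Q ≤ 13 * t := (log_le_iff_le_exp q0).2 q5
  set D := ⌈exp (10 * t)⌉₊
  have d1 : exp (10 * t) ≤ D := Nat.le_ceil _
  have d2 : D ≤ 2 * exp (10 * t) := by linarith [Nat.ceil_lt_add_one (exp_pos (10 * t)).le]
  have d3 : log (D + 1) ≤ 11 * t := (log_le_iff_le_exp (by positivity)).2 (by
    linarith [ee0 ht 10 11 (by norm_num)])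
  set σ := √(24 * t) with hσ
  have s1 : σ ^ 2 = 24 * t := sq_sqrt (by linarith)
  have s2 : 4 ≤ σ := le_sqrt_of_sq_le (by linarith)
  have s3 : σ ≤ t / 100 := sqrt_le_iff.2 ⟨by linarith, by nlinarith⟩
  have hg : σ / Q * Q = σ := div_mul_cancel₀ _ q0.ne'
  have g0 : 0 < σ / Q := by positivity
  have g1 : σ / Q ≤ 1 / 2 := by rw [div_le_iff₀ q0]; linarith
  have g2 : 1 / (Q : ℝ) ≤ exp (-12 * t) := by
    rw [neg_mul, exp_neg, ← one_div]; gcongr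
  obtain ⟨e, h1, ⟨K⟩⟩ := reg_block (D := D) (Δ := exp (6 * t))
    (hQ.odd_of_ne_two (by rintro rfl; norm_num at q3; linarith)) g0 g1 (by rwa [hg])
    (Nat.ceil_pos.2 (exp_pos _)) (exp_pos _)
  have u1 := qq_le g0 g1 (by rwa [hg])
  have u2 := qq_ge g0 g1 (by rwa [hg])
  set q := qq Q (σ / Q)
  rw [hg] at h1 K u1 u2
  have u3 : q ≤ exp (-2.99 * t) := by
    rw [s1, show -(24 * t / 8) = -3 * t by ring] at u1
    have := mul_le_mul_of_nonneg_right s3 (exp_pos (-3 * t)).le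
    have := mul_pos (by linarith : 0 < t) (exp_pos (-3 * t))
    linarith [ee1 ht (-3) (-2.99) (by norm_num)]
  have u4 : exp (-3.03 * t) ≤ q := by
    refine le_trans ?_ u2
    rw [le_div_iff₀ (by positivity)]
    have a1 : exp (-3.02 * t) ≤ exp (-((σ / 2 + 2) ^ 2 / 2)) := exp_le_exp.2 (by nlinarith)
    have := mul_le_mul_of_nonneg_right s3 (exp_pos (-3.03 * t)).le
    have := mul_pos (by linarith : 0 < t) (exp_pos (-3.03 * t))
    linarith [ee1 ht (-3.03) (-3.02) (by norm_num)]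
  have u5 : exp (6.97 * t) ≤ q * D := by
    rw [← emul (-3.03) 10 6.97 _ (by norm_num)]; gcongr; exact (exp_pos _).le.trans u4
  have u6 : q * D ≤ 2 * exp (7.01 * t) := by
    rw [← emul (-2.99) 10 7.01 _ (by norm_num), mul_left_comm]; gcongr
  have p6 := exp_pos (6 * t)
  have hQe : ∀ x y, 13 * t + x ≤ y → Q * exp x ≤ exp y := fun x y h =>
    (mul_le_mul_of_nonneg_right q5 (exp_pos _).le).trans (by rw [← exp_add]; gcongr)
  refine ⟨Q, D, σ / Q, Fin e → ZMod Q, inferInstance, inferInstance, hQ.pos, q4, d2,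
    ⟨g0, by linarith⟩, hg, h1.trans (hQe _ _ ?_), fun r r0 r1 => smul_bij (Q := Q) ?_,
    ⟨K.mono g0.le (exp_le_exp.2 ?_) (hQe _ _ ?_) (hQe _ _ ?_) ?_ (exp_le_exp.2 ?_)⟩⟩
  · have : D * (log Q + σ ^ 2) ≤ 2 * exp (10 * t) * (37 * t) := by
      have := log_natCast_nonneg Q
      gcongr; linarith
    linarith [ee1 ht 10 10.1 (by norm_num), ee0 ht 6 10.1 (by norm_num), eet ht 10.1 (by norm_num)]
  · rw [Int.cast_natCast, Ne, ZMod.natCast_eq_zero_iff]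
    exact Nat.not_dvd_of_pos_of_lt r0 (by exact_mod_cast r1.trans_le q3)
  · have : q * D * log (D + 1) ≤ 2 * exp (7.01 * t) * (11 * t) := by
      gcongr
      exact log_nonneg (by linarith)
    have := mul_pos (by linarith : 0 < t) (exp_pos (7.01 * t))
    linarith [ee1 ht 7.01 7.2 (by norm_num)]
  · linarith [ee0 ht 6.8 6.97 (by norm_num), ee0 ht 6 6.97 (by norm_num), eet ht 6.97 (by norm_num)]
  · linarith [ee0 ht 6 6.1 (by norm_num), eet ht 6.1 (by norm_num)]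
  · have a1 : D * σ ^ 4 / exp (6 * t) ^ 2 ≤ 1152 * (t ^ 2 * exp (-2 * t)) := by
      rw [div_le_iff₀ (by positivity), sq (exp _), emul 6 6 12 _ (by norm_num), mul_assoc, mul_assoc,
        emul (-2) 12 10 _ (by norm_num), show σ ^ 4 = (σ ^ 2) ^ 2 by ring, s1]
      nlinarith [mul_le_mul_of_nonneg_right d2 (sq_nonneg t)]
    have a2 : 4 / (q * D) ≤ 4 * exp (-6.97 * t) := by
      rw [neg_mul, exp_neg, ← div_eq_mul_inv]; gcongr
    have a3 : exp (-exp (6 * t)) ≤ exp (-6 * t) := exp_le_exp.2 (by linarith [eet ht 6 (by norm_num)])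
    linarith [ee2 ht (-2) (-1.5) (by norm_num), ee0 ht (-6.97) (-1.5) (by norm_num), ee0 ht (-6) (-1.5) (by norm_num), exp_pos (-1.5 * t)]
  · have p12 := exp_pos (-12 * t)
    have a1 : σ / Q ≤ t * exp (-12 * t) := by
      rw [div_eq_mul_one_div]; gcongr; linarith
    have a2 : 2 * σ * (σ / Q) ≤ 48 * (t * exp (-12 * t)) := by
      calc _ = 48 * (t * (1 / Q)) := by rw [mul_div_assoc', mul_assoc, ← sq, s1]; ring
        _ ≤ _ := by gcongr
    have a3 : exp (-12 * t) ≤ t * exp (-12 * t) := le_mul_of_one_le_left p12.le (by linarith)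
    rw [s1, show -(24 * t / 2) = -12 * t by ring]
    calc _ ≤ 2 * exp (10 * t) * (52 * (t * exp (-12 * t))) := by gcongr; linarith
      _ = 104 * (t * exp (-2 * t)) := by rw [← emul 10 (-12) (-2) _ (by norm_num)]; ring
      _ ≤ _ := by linarith [ee1 ht (-2) (-1) (by norm_num), exp_pos (-1 * t)]

section

variable {ι Γ1 Γ2 Γ3 : Type} [Fintype ι] [AddCommGroup Γ1] [Fintype Γ1] [AddCommGroup Γ2]
  [Fintype Γ2] [AddCommGroup Γ3] [Fintype Γ3] {B : ℕ} {σ M ε δ c w : ℝ}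

def Sys.mono (Y : Sys ι Γ1 Γ2 Γ3 B σ M ε δ c w) {δ' c' w' : ℝ} (h1 : δ ≤ δ') (h2 : c' ≤ c)
    (h3 : w ≤ w') : Sys ι Γ1 Γ2 Γ3 B σ M ε δ' c' w' where
  g := Y.g
  h := Y.h
  F := Y.F
  Bad := Y.Bad
  g0 := Y.g0
  Fb := Y.Fb
  avg := Y.avg
  bad := Y.bad.trans h1
  main γ hγ := by
    obtain ⟨S, θ, ⟨a1, a2⟩, a3⟩ := Y.main γ hγ
    refine ⟨S, θ, ⟨a1, fun p hp => ?_⟩, (mul_le_mul_of_nonneg_right h2 (Y.Fb _).1).trans a3⟩
    obtain ⟨b1, b2, b3, b4, b5⟩ := a2 p hp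
    exact ⟨b1, b2, b3, b4.trans h3, b5⟩

lemma two_pow_ceil {x : ℝ} (hx : 1 ≤ x) : (2 : ℝ) ^ ⌈x⌉₊ ≤ exp (2 * x) := by
  calc (2 : ℝ) ^ ⌈x⌉₊ ≤ exp 1 ^ ⌈x⌉₊ := by gcongr; linarith [add_one_le_exp 1]
    _ ≤ _ := by
      rw [← exp_nat_mul, exp_le_exp]; linarith [Nat.ceil_lt_add_one (by linarith : 0 ≤ x)]

lemma h1_ok {a b c x y : ℝ} (ha : a ≤ exp x) (hb : 0 ≤ b) (hb' : b ≤ exp (-y)) (hy : 0 ≤ y)
    (h : x + 2 ≤ c * y) : a * b ^ (⌈c⌉₊ + 1) ≤ 1 / 4 := by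
  calc _ ≤ exp x * exp (-y) ^ (⌈c⌉₊ + 1) := by gcongr
    _ ≤ exp (-1) * exp (-1) := by
      rw [← exp_nat_mul, ← exp_add, ← exp_add]
      have := mul_le_mul_of_nonneg_right (Nat.le_ceil c) hy
      rw [exp_le_exp]; push_cast; linarith
    _ ≤ 1 / 2 * (1 / 2) := by
      have : exp (-1) ≤ 1 / 2 := by
        rw [exp_neg, ← one_div]; gcongr; linarith [add_one_le_exp 1]
      gcongr
    _ = _ := by norm_num

lemma triv_step (Y : Sys ι Γ1 Γ2 Γ3 B σ M ε δ c w) {t : ℝ} (ht : 10 ^ 7 ≤ t) {a : ℝ}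
    (ha : 6.3 ≤ a) (hM : 0 < M) (hM' : M ≤ exp (exp ((a - 0.1) * t))) (hε : ε ≤ 1 / 10)
    (hδ : δ ≤ exp (-exp ((a + 0.15) * t))) (hc : 0 ≤ c) (hw : 0 ≤ w) (hB : 1 ≤ B) (hσ : 1 ≤ σ)
    (hΓ : Fintype.card (Γ1 × Γ2) ≤ exp (exp (12 * t))) :
    ∃ Y' : Sys (Fin ⌈exp (a * t)⌉₊ ⊕ ι) Unit Γ1 (Γ2 × Γ3) B σ 1 0 (exp (-exp ((a - 0.05) * t)))
      (c * (7 / 10) / 3 ^ ⌈exp (a * t)⌉₊) w,
      (∀ γ, Y'.F γ = 1) ∧ ((∀ γ, Y.F γ = 1) → ∀ γ, ¬ Y'.Bad γ) := by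
  obtain ⟨K, hK⟩ := triv_block ⌈exp (a * t)⌉₊
  have hδ0 : 0 ≤ δ := (expect_nonneg fun _ _ => ind_nonneg _).trans Y.bad
  have e0 := eet ht a (by linarith)
  have e1 := eet ht (a - 0.1) (by linarith)
  have e2 := ee0 ht (a - 0.1) a (by linarith)
  have e3 := ee0 ht (a - 0.05) a (by linarith)
  have w1 : (1 / 2 : ℝ) ^ ⌈exp (a * t)⌉₊ ≤ exp (-(exp (a * t) / 2)) := by
    calc (1 / 2 : ℝ) ^ ⌈exp (a * t)⌉₊ ≤ exp (-(1 / 2)) ^ ⌈exp (a * t)⌉₊ := by
          gcongr; linarith [add_one_le_exp (-(1 / 2))]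
      _ ≤ _ := by rw [← exp_nat_mul]; gcongr; linarith [Nat.le_ceil (exp (a * t))]
  obtain ⟨Y', y1, y2⟩ := step K Y (by simp) (η := 1 / 10)
    (by norm_num) hε (by positivity) hM ⌈exp ((a - 0.1) * t)⌉₊ (by
      rw [Fintype.card_unit, Nat.cast_one, one_mul]
      refine h1_ok hΓ (by positivity) (y := exp ((a + 0.1) * t)) ?_ (exp_pos _).le ?_
      · refine (mul_le_mul (two_pow_ceil (by linarith)) hδ hδ0 (exp_pos _).le).trans ?_
        rw [← exp_add]; gcongr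
        linarith [ee0 ht a (a + 0.15) (by linarith), ee0 ht (a + 0.1) (a + 0.15) (by linarith)]
      · rw [emul _ _ (2 * a) t (by ring)]
        linarith [ee0 ht 12 (2 * a) (by linarith), eet ht 12 (by norm_num)]) (by
      calc _ ≤ exp (2 * exp ((a - 0.1) * t)) * exp (-(exp (a * t) / 2))
            * exp (exp ((a - 0.1) * t)) := by gcongr; exact two_pow_ceil (by linarith)
        _ ≤ exp (-9) := by rw [← exp_add, ← exp_add]; gcongr; linarith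
        _ ≤ _ := by rw [exp_neg, ← one_div]; gcongr; linarith [add_one_le_exp 9])
    (one_le_pow₀ (by norm_num)) hc (by norm_num) hB (by simpa using hσ)
  refine ⟨Y'.mono ?_ (le_of_eq (by ring)) (mul_le_of_le_one_left hw
    (pow_le_one₀ (by norm_num) (by norm_num))), fun γ => (y1 γ).trans (hK γ), y2⟩
  calc _ = 200 * ((1 / 2) ^ ⌈exp (a * t)⌉₊ * M) := by ring
    _ ≤ exp 200 * (exp (-(exp (a * t) / 2)) * exp (exp ((a - 0.1) * t))) := by
        gcongr; linarith [add_one_le_exp 200]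
    _ ≤ _ := by rw [← exp_add, ← exp_add]; gcongr; linarith

end

def Inv (B : ℕ) (σ t W d : ℝ) : Prop :=
  ∃ (ι Γ1 Γ2 Γ3 : Type) (_ : Fintype ι) (_ : AddCommGroup Γ1) (_ : Fintype Γ1)
    (_ : AddCommGroup Γ2) (_ : Fintype Γ2) (_ : AddCommGroup Γ3) (_ : Fintype Γ3),
    Fintype.card ι ≤ d ∧ Fintype.card Γ1 ≤ exp (exp (10.1 * t)) ∧
    Fintype.card Γ2 ≤ exp (exp (11.11 * t)) ∧ Tf Γ1 (exp (12 * t)) ∧ Tf Γ2 (exp (12 * t)) ∧
    Nonempty (Sys ι Γ1 Γ2 Γ3 B σ (exp (exp (6.1 * t))) (exp (-1.5 * t)) (exp (-exp (6.75 * t)))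
      (exp (-exp (-0.5 * t))) W)

lemma inv_base (B : ℕ) (σ t : ℝ) : Inv B σ t 1 0 := by
  have tf : ∀ r, Tf Unit r := fun r q _ _ => ⟨fun _ _ _ => rfl, fun x => ⟨x, rfl⟩⟩
  refine ⟨Empty, Unit, Unit, Unit, inferInstance, inferInstance, inferInstance, inferInstance,
    inferInstance, inferInstance, inferInstance, by simp, by simpa using (exp_pos _).le,
    by simpa using (exp_pos _).le, tf _, tf _, ⟨⟨fun i => i.elim, fun i => i.elim, fun _ => 1,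
    fun _ => False, fun i => i.elim, fun _ => ⟨zero_le_one, one_le_exp (exp_pos _).le⟩,
    by simpa using (exp_pos _).le, by simpa using (exp_pos _).le, fun γ _ => ⟨{0}, fun _ => 1,
    ⟨fun T hT h => absurd (card_le_card hT) (by simp; omega), fun p _ => ⟨rfl, fun i => i.elim,
    zero_le_one, le_rfl, fun o _ => by simp⟩⟩, by simpa using (exp_pos _).le⟩⟩⟩⟩

lemma inv_step {B : ℕ} {σ t W d : ℝ} (ht : 10 ^ 7 ≤ t) (hB : 4 * exp (12 * t) ≤ B)
    (hσ : √(24 * t) ≤ σ) (h : Inv B σ (1.1 * t) W d) :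
    Inv B σ t (exp (-exp (6.8 * t)) * W) (d + 2 * exp (10 * t)) := by
  obtain ⟨ι, Γ1, Γ2, Γ3, _, _, _, _, _, _, _, a1, a2, a3, a4, a5, ⟨Y⟩⟩ := h
  obtain ⟨Q, D, g, Γ0, _, _, b1, b2, b3, b4, b5, b6, b7, ⟨K⟩⟩ := lev_block ht
  simp only [← mul_assoc] at a2 a3 a4 a5 Y
  have e0 := ee0 ht 12 (12 * 1.1) (by norm_num)
  have p0 := exp_pos (12 * t)
  have e1 := eet ht 6.7 (by norm_num)
  have e2 := ee0 ht 6.7 6.8 (by norm_num)
  have e3 := ee0 ht (6.1 * 1.1) 6.8 (by norm_num)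
  have e4 := ee0 ht 6.75 6.8 (by norm_num)
  have e5 := eet ht 6.8 (by norm_num)
  obtain ⟨Y', -⟩ := step K Y
    ((a4 Q b1 (by linarith)).prodMap (a5 Q b1 (by linarith))) (η := exp (-1 * t)) (exp_pos _)
    (exp_le_exp.2 (by linarith)) (exp_pos _) (exp_pos _) ⌈exp (6.7 * t)⌉₊ (by
      rw [← mul_assoc]
      refine h1_ok (x := exp (10.1 * t) + (exp (10.1 * 1.1 * t) + exp (11.11 * 1.1 * t))) ?_
        (by positivity) (y := exp (7.4 * t)) ?_ (exp_pos _).le ?_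
      · rw [exp_add, exp_add, Fintype.card_prod, Nat.cast_mul]; gcongr
      · rw [← exp_add]; gcongr
        linarith [ee0 ht 7.2 (6.75 * 1.1) (by norm_num), ee0 ht 7.4 (6.75 * 1.1) (by norm_num), exp_pos (7.2 * t)]
      · rw [emul _ _ 14.1 _ (by norm_num)]
        linarith [ee0 ht 10.1 14.1 (by norm_num), ee0 ht (10.1 * 1.1) 14.1 (by norm_num), ee0 ht (11.11 * 1.1) 14.1 (by norm_num),
          eet ht 14.1 (by norm_num)]) (by
      refine (mul_le_mul_of_nonneg_right (mul_le_mul_of_nonneg_right (two_pow_ceil (by linarith))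
        (exp_pos _).le) (exp_pos _).le).trans ?_
      rw [← exp_add, ← exp_add]; gcongr; linarith)
    (one_le_exp (exp_pos _).le) (exp_pos _).le b4 (by exact_mod_cast b2.trans hB) (b5.le.trans hσ)
  refine ⟨_, Γ0, Γ1, _, _, _, _, _, _, _, _, ?_, b6, by convert a2 using 4; norm_num, b7,
    fun q q0 q1 => a4 q q0 (by linarith), ⟨Y'.mono ?_ ?_ le_rfl⟩⟩
  · simp only [Fintype.card_sum, Fintype.card_fin, Nat.cast_add]; linarith
  · calc _ ≤ exp 1 * (exp (-exp (6.8 * t)) * exp (exp (6.1 * 1.1 * t)) / exp (-1 * t) ^ 2) := by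
          gcongr; linarith [add_one_le_exp 1]
      _ ≤ _ := by
          rw [← exp_add, sq, ← exp_add, ← exp_sub, ← exp_add]; gcongr; linarith
  · have x0 := exp_pos (-1 * t)
    have x1 : exp (-1 * t) ≤ 1 / 6 := by
      have := ee0 ht (-1) 0 (by norm_num)
      rw [zero_mul, exp_zero] at this; linarith
    have x2 : exp (-(6 * exp (-1 * t))) ≤ 1 - 3 * exp (-1 * t) := by
      rw [exp_neg, inv_le_iff_one_le_mul₀ (exp_pos _)]
      have := mul_le_mul_of_nonneg_left (add_one_le_exp (6 * exp (-1 * t)))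
        (by linarith : 0 ≤ 1 - 3 * exp (-1 * t))
      nlinarith
    calc _ ≤ exp (-exp (-0.5 * 1.1 * t)) * exp (-(6 * exp (-1 * t))) / exp (exp (-1 * t)) := by
          rw [← exp_add, ← exp_sub]; gcongr
          linarith [ee0 ht (-0.5 * 1.1) (-0.5) (by norm_num), ee0 ht (-1) (-0.5) (by norm_num)]
      _ ≤ _ := by gcongr

lemma Inv.mono {B : ℕ} {σ t W d W' d' : ℝ} (h : Inv B σ t W d) (h1 : W ≤ W') (h2 : d ≤ d') :
    Inv B σ t W' d' := by
  obtain ⟨ι, Γ1, Γ2, Γ3, _, _, _, _, _, _, _, a1, a2, a3, a4, a5, ⟨Y⟩⟩ := h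
  exact ⟨ι, Γ1, Γ2, Γ3, _, _, _, _, _, _, _, a1.trans h2, a2, a3, a4, a5, ⟨Y.mono le_rfl le_rfl h1⟩⟩

lemma inv_iter {T : ℝ} (m : ℕ) : ∀ t, 10 ^ 7 ≤ t → t * 1.1 ^ m = T →
    Inv ⌈4 * exp (12 * T)⌉₊ √(24 * T) t (exp (-exp (6.8 * T)))
      (3 * exp (10 * T) - exp (10 * t)) := by
  induction m with
  | zero =>
    intro t ht h
    obtain rfl : t = T := by simpa using h
    exact (inv_step ht (Nat.le_ceil _) le_rfl (inv_base _ _ _)).mono (by simp) (by linarith)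
  | succ m ih =>
    intro t ht h
    have h1 : t ≤ T := h ▸ le_mul_of_one_le_right (by linarith) (one_le_pow₀ (by norm_num))
    refine (inv_step ht (le_trans (by gcongr) (Nat.le_ceil _)) (by gcongr)
      (ih (1.1 * t) (by linarith) (by rw [← h]; ring))).mono (mul_le_of_le_one_left (exp_pos _).le
      (exp_le_one_iff.2 (by linarith [exp_pos (6.8 * t)]))) ?_
    rw [← mul_assoc]
    linarith [ee0 ht 10 (10 * 1.1) (by norm_num), exp_pos (10 * t)]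

theorem vert : ∃ c0 : ℝ, 0 < c0 ∧ c0 ≤ 1 ∧ ∀ T : ℝ, 10 ^ 7 ≤ T → ∃ (ι Γ : Type) (_ : Fintype ι)
    (_ : AddCommGroup Γ) (_ : Fintype Γ) (g : ι → ℝ) (h : ι → Γ),
    Nonempty ι ∧ Fintype.card ι ≤ 3 * exp (10 * T) ∧ (∀ i, 0 < g i ∧ g i ≤ 1) ∧ ∀ γ, ∃ S θ,
      Good g h ⌈4 * exp (12 * T)⌉₊ √(24 * T) (exp (-exp (6.8 * T))) γ S θ ∧
        c0 ≤ ∑ p ∈ S, θ p := by
  set N := ⌈exp (6.5 * (10 ^ 7 * 1.1))⌉₊ with hN
  refine ⟨exp (-1) * (7 / 10) / 3 ^ N * (7 / 10) / 3 ^ N, by positivity, ?_, fun T hT => ?_⟩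
  · have a1 : exp (-1) ≤ 1 := exp_le_one_iff.2 (by norm_num)
    have a2 : (1 : ℝ) ≤ 3 ^ N := one_le_pow₀ (by norm_num)
    refine (div_le_self (by positivity) a2).trans ?_
    have := div_le_self (by positivity : 0 ≤ exp (-1) * (7 / 10)) a2
    linarith
  obtain ⟨m, m1, m2⟩ := exists_nat_pow_near (x := T / 10 ^ 7) (y := 1.1)
    (by rw [le_div_iff₀ (by norm_num)]; linarith) (by norm_num)
  have hp : (0 : ℝ) < 1.1 ^ m := by positivity
  set t := T / 1.1 ^ m with htd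
  have ht : 10 ^ 7 ≤ t := by
    rw [le_div_iff₀ (by norm_num)] at m1
    rw [le_div_iff₀ hp]; linarith
  have ht' : t ≤ 10 ^ 7 * 1.1 := by
    rw [div_lt_iff₀ (by norm_num), pow_succ] at m2
    rw [div_le_iff₀ hp]; linarith
  obtain ⟨ι, Γ1, Γ2, Γ3, _, _, _, _, _, _, _, a1, a2, a3, -, -, ⟨Y⟩⟩ :=
    inv_iter m t ht (div_mul_cancel₀ _ hp.ne')
  have hB : 1 ≤ ⌈4 * exp (12 * T)⌉₊ := Nat.ceil_pos.2 (by positivity)
  have hσ : 1 ≤ √(24 * T) := le_sqrt_of_sq_le (by linarith)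
  have e1 := ee0 ht 10.1 12 (by norm_num)
  obtain ⟨Y1, y1, -⟩ := triv_step Y ht (a := 6.5) (by norm_num) (exp_pos _)
    (by gcongr; norm_num) (by
      have := ee0 ht (-1.5) 0 (by norm_num)
      rw [zero_mul, exp_zero] at this; linarith) (by gcongr; norm_num)
    (exp_pos _).le (exp_pos _).le hB hσ (by
      rw [Fintype.card_prod, Nat.cast_mul]
      refine (mul_le_mul a2 a3 (by positivity) (by positivity)).trans ?_
      rw [← exp_add]; gcongr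
      linarith [ee0 ht 11.11 12 (by norm_num), exp_pos (12 * t)])
  obtain ⟨Y2, y2, y3⟩ := triv_step Y1 ht (a := 6.3) le_rfl one_pos (one_le_exp (exp_pos _).le)
    (by norm_num) (by norm_num) (by positivity) (exp_pos _).le hB hσ (by
      simp only [Fintype.card_prod, Fintype.card_unit, one_mul]
      refine a2.trans ?_
      gcongr
      linarith [exp_pos (12 * t)])
  refine ⟨_, _, inferInstance, inferInstance, inferInstance, Y2.g, Y2.h,
    ⟨Sum.inl ⟨0, Nat.ceil_pos.2 (exp_pos _)⟩⟩, ?_, Y2.g0, fun γ => ?_⟩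
  · simp only [Fintype.card_sum, Fintype.card_fin, Nat.cast_add]
    linarith [Nat.ceil_lt_add_one (exp_pos (6.3 * t)).le, ee0 ht 6.3 10 (by norm_num), ee0 ht 6.5 10 (by norm_num),
      Nat.ceil_lt_add_one (exp_pos (6.5 * t)).le, eet ht 10 (by norm_num)]
  obtain ⟨S, θ, s1, s2⟩ := Y2.main γ (y3 y1 _)
  refine ⟨S, θ, s1, le_trans ?_ s2⟩
  rw [y2, mul_one]
  have : exp (-0.5 * t) ≤ 1 := exp_le_one_iff.2 (by linarith)
  gcongr
  · norm_num
  · exact Nat.ceil_mono (exp_le_exp.2 (by linarith))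
  · norm_num
  · exact Nat.ceil_mono (exp_le_exp.2 (by linarith))

end

end Vale.Agent.P230
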